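import Crest.Agent.Ryser.AssemblyB

/-!
# The cover analysis: pencil at a base of a chosen gadget.
-/

set_option autoImplicit false
set_option linter.unusedSectionVars false
set_option linter.unusedVariables false

namespace Crest.Agent.Ryser

open Finset

variable {K : Type} [Field K] [Fintype K] [DecidableEq K]

/-- The counting core of `base_case`, abstracted from the gadget: the holes at `c` are `hl o`,
`o : Option (Fin 10)`, with designated points `ds o`. -/
theorem base_count (c : Pt K) (S : Finset (Ln K)) (hS : S.card = Fintype.card K)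
    (hl : Option (Fin 10) → Ln K) (hinj : Function.Injective hl) (hon : ∀ o, On c (hl o))
    (hch : ∀ m, On c m → m ∉ S → ∃ o, m = hl o)
    (ds : Option (Fin 10) → Finset (Pt K))
    (hds : ∀ o, ∀ p ∈ ds o, On p (hl o) ∧ p ≠ c)
    (hcov : ∀ o, ∀ p ∈ ds o, ∃ l ∈ S, On p l)
    (hdisj : ∀ o o', o ≠ o' → ∀ p ∈ ds o, ¬ On p (hl o'))
    (hcard0 : (ds none).card = 10) (hcard1 : ∀ j, (ds (some j)).card = 9)
    (E : Fin 10 → Ln K) (hE : Function.Injective E)
    (hEdir : ∀ l, (E l).1 = (hl (some l)).1) (hEne : ∀ l o, E l ≠ hl o)
    (hgen : ∀ L : Ln K, ¬ On c L → (∀ l, L ≠ E l) →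
      ((univ.biUnion ds) ∩ linePts L).card ≤ 2) :
    (∀ o, hl o ∉ S) ∧ S.filter (fun L => ¬ On c L) = univ.image E := by
  classical
  set Mi : Finset (Option (Fin 10)) := univ.filter (fun o => hl o ∉ S) with hMi
  set T : Finset (Ln K) := S.filter (fun L => ¬ On c L) with hT
  set D : Finset (Pt K) := Mi.biUnion ds with hD
  have hmemMi : ∀ o, o ∈ Mi ↔ hl o ∉ S := by
    intro o; simp [hMi]
  -- budget
  have hn : T.card + 1 = Mi.card := by
    have h1 : (S.filter (fun L => On c L)).card + T.card = S.card :=
      Finset.card_filter_add_card_filter_not _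
    have h2 : (S.filter (fun L => On c L)).card + Mi.card = Fintype.card K + 1 := by
      rw [← card_lines_through c]
      have hun : univ.filter (fun l : Ln K => On c l) = S.filter (fun L => On c L) ∪ Mi.image hl := by
        ext m
        simp only [mem_filter, mem_univ, true_and, mem_union, mem_image]
        constructor
        · intro hm
          by_cases hmS : m ∈ S
          · exact Or.inl ⟨hmS, hm⟩
          · obtain ⟨o, ho⟩ := hch m hm hmS
            exact Or.inr ⟨o, (hmemMi o).2 (ho ▸ hmS), ho.symm⟩
        · rintro (⟨_, h⟩ | ⟨o, _, rfl⟩)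
          · exact h
          · exact hon o
      have hdj : Disjoint (S.filter (fun L => On c L)) (Mi.image hl) := by
        rw [Finset.disjoint_left]
        intro m hm hm'
        obtain ⟨o, ho, rfl⟩ := mem_image.mp hm'
        exact (hmemMi o).1 ho (mem_filter.mp hm).1
      rw [hun, card_union_of_disjoint hdj, card_image_of_injective _ hinj]
    omega
  -- the total count
  have hdisjds : ∀ o o', o ≠ o' → Disjoint (ds o) (ds o') := by
    intro o o' hne
    rw [Finset.disjoint_left]
    intro p hp hp'
    exact hdisj o o' hne p hp (hds o' p hp').1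
  have hDcard : D.card = ∑ o ∈ Mi, (ds o).card := by
    apply card_biUnion
    intro o _ o' _ hne
    exact hdisjds o o' hne
  have hdscard : ∀ o, (ds o).card = 9 + (if o = none then 1 else 0) := by
    intro o
    cases o with
    | none => simp [hcard0]
    | some j => simp [hcard1]
  have hDcard' : D.card = 9 * Mi.card + (if none ∈ Mi then 1 else 0) := by
    rw [hDcard, Finset.sum_congr rfl (fun o _ => hdscard o), Finset.sum_add_distrib]
    simp only [sum_const, smul_eq_mul]
    rw [Finset.sum_ite_eq']
    rw [mul_comm]
  -- covering by the budget lines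
  have hcovT : ∀ p ∈ D, ∃ L ∈ T, On p L := by
    intro p hp
    obtain ⟨o, ho, hpo⟩ := mem_biUnion.mp hp
    obtain ⟨l, hlS, hpl⟩ := hcov o p hpo
    refine ⟨l, mem_filter.mpr ⟨hlS, ?_⟩, hpl⟩
    intro hcl
    have hpo' := hds o p hpo
    have := line_unique hpo'.2 hpl hcl hpo'.1 (hon o)
    exact (hmemMi o).1 ho (this ▸ hlS)
  have hsum : D.card ≤ ∑ L ∈ T, (D ∩ linePts L).card := by
    have hsub : D ⊆ T.biUnion (fun L => D ∩ linePts L) := by
      intro p hp
      obtain ⟨L, hL, hpL⟩ := hcovT p hp
      exact mem_biUnion.mpr ⟨L, hL, mem_inter.mpr ⟨hp, by simpa using hpL⟩⟩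
    exact (card_le_card hsub).trans card_biUnion_le
  -- line bound
  have hnonE : ∀ L ∈ T, (∀ l, L ≠ E l) → (D ∩ linePts L).card ≤ 2 := by
    intro L hL hne
    refine le_trans (card_le_card ?_) (hgen L (mem_filter.mp hL).2 hne)
    apply inter_subset_inter_right
    exact biUnion_subset_biUnion_of_subset_left _ (subset_univ _)
  have hEbound : ∀ l, (D ∩ linePts (E l)).card ≤ (Mi.erase (some l)).card := by
    intro l
    have hsub : D ∩ linePts (E l) ⊆
        (Mi.erase (some l)).biUnion (fun o => linePts (hl o) ∩ linePts (E l)) := by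
      intro p hp
      rw [mem_inter, mem_biUnion] at hp
      obtain ⟨⟨o, ho, hpo⟩, hpE⟩ := hp
      have hpon := (hds o p hpo).1
      have hne : o ≠ some l := by
        rintro rfl
        have hpE' : On p (E l) := by simpa using hpE
        exact hEne l _ (eq_of_on_of_dir_eq hpE' hpon (hEdir l))
      exact mem_biUnion.mpr ⟨o, mem_erase.mpr ⟨hne, ho⟩,
        mem_inter.mpr ⟨by simpa using hpon, hpE⟩⟩
    have hle : ((Mi.erase (some l)).biUnion
        (fun o => linePts (hl o) ∩ linePts (E l))).card ≤ (Mi.erase (some l)).card * 1 := by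
      apply card_biUnion_le_card_mul
      intro o _
      exact card_inter_linePts_le_one (fun h => hEne l o h.symm)
    have := card_le_card hsub
    omega
  -- a uniform bound
  have hunif : ∀ (M : ℕ), 2 ≤ M → (∀ l, (Mi.erase (some l)).card ≤ M) →
      ∑ L ∈ T, (D ∩ linePts L).card ≤ T.card * M := by
    intro M hM hMl
    have : ∀ L ∈ T, (D ∩ linePts L).card ≤ M := by
      intro L hL
      by_cases hLE : ∀ l, L ≠ E l
      · exact (hnonE L hL hLE).trans hM
      · push Not at hLE
        obtain ⟨l, rfl⟩ := hLE
        exact (hEbound l).trans (hMl l)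
    simpa using Finset.sum_le_card_nsmul T _ M this
  by_cases hall : ∀ j, some j ∈ Mi
  · by_cases hnone : none ∈ Mi
    · -- the main case
      have hMiuniv : Mi = univ := by
        ext o
        cases o with
        | none => simp [hnone]
        | some j => simp [hall j]
      have hMicard : Mi.card = 11 := by
        rw [hMiuniv]; simp
      have hTcard : T.card = 10 := by omega
      have hDc : D.card = 100 := by
        rw [hDcard', hMicard, if_pos hnone]
      have hEr : ∀ l, (Mi.erase (some l)).card = 10 := by
        intro l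
        rw [card_erase_of_mem (hall l), hMicard]
      have hoS : ∀ o, hl o ∉ S := by
        intro o
        apply (hmemMi o).1
        rw [hMiuniv]; exact mem_univ _
      refine ⟨hoS, ?_⟩
      have hsubT : T ⊆ univ.image E := by
        intro L₀ hL₀
        by_contra hcon
        have hne : ∀ l, L₀ ≠ E l := by
          intro l hl'
          apply hcon
          rw [hl']
          exact mem_image_of_mem _ (mem_univ _)
        have h2 := hnonE L₀ hL₀ hne
        have hrest : ∑ L ∈ T.erase L₀, (D ∩ linePts L).card ≤ (T.erase L₀).card * 10 := by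
          have : ∀ L ∈ T.erase L₀, (D ∩ linePts L).card ≤ 10 := by
            intro L hL
            have hL' := mem_of_mem_erase hL
            by_cases hLE : ∀ l, L ≠ E l
            · exact (hnonE L hL' hLE).trans (by norm_num)
            · push Not at hLE
              obtain ⟨l, rfl⟩ := hLE
              exact (hEbound l).trans (hEr l).le
          simpa using Finset.sum_le_card_nsmul _ _ 10 this
        have hsplit := Finset.add_sum_erase T (fun L => (D ∩ linePts L).card) hL₀
        have hc : (T.erase L₀).card = 9 := by
          rw [card_erase_of_mem hL₀, hTcard]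
        rw [hc] at hrest
        omega
      apply eq_of_subset_of_card_le hsubT
      rw [card_image_of_injective _ hE, hTcard]
      simp
    · exfalso
      have hMiEq : Mi = univ.erase none := by
        ext o
        cases o with
        | none => simp [hnone]
        | some j => simp [hall j]
      have hMicard : Mi.card = 10 := by
        rw [hMiEq, card_erase_of_mem (mem_univ _)]; simp
      have hTcard : T.card = 9 := by omega
      have hDc : D.card = 90 := by
        rw [hDcard', hMicard, if_neg hnone]
      have hb := hunif 9 (by norm_num) (fun l => by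
        rw [card_erase_of_mem (hall l), hMicard])
      rw [hTcard] at hb
      omega
  · exfalso
    push Not at hall
    obtain ⟨l₀, hl₀⟩ := hall
    have hle10 : Mi.card ≤ 10 := by
      have : Mi ⊆ univ.erase (some l₀) := by
        intro o ho
        refine mem_erase.mpr ⟨?_, mem_univ _⟩
        rintro rfl
        exact hl₀ ho
      have h := card_le_card this
      rw [card_erase_of_mem (mem_univ _)] at h
      simpa using h
    have hb := hunif (max 2 Mi.card) (le_max_left _ _) (fun l =>
      (card_le_card (erase_subset _ _)).trans (le_max_right _ _))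
    have hsumb := hsum.trans hb
    rw [hDcard'] at hsumb
    have hn10 : Mi.card = 10 → none ∈ Mi := by
      intro h10
      by_contra hnone
      have : Mi ⊆ (univ.erase (some l₀)).erase none := by
        intro o ho
        refine mem_erase.mpr ⟨?_, mem_erase.mpr ⟨?_, mem_univ _⟩⟩
        · rintro rfl; exact hnone ho
        · rintro rfl; exact hl₀ ho
      have h := card_le_card this
      rw [card_erase_of_mem (by simp), card_erase_of_mem (mem_univ _)] at h
      simp at h
      omega
    have hTn : T.card = Mi.card - 1 := by omega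
    rw [hTn] at hsumb
    have hn1 : 1 ≤ Mi.card := by omega
    by_cases hn9 : Mi.card ≤ 9
    · have hkey : ∀ n : ℕ, 1 ≤ n → n ≤ 9 → (n - 1) * max 2 n < 9 * n := by decide
      have := hkey _ hn1 hn9
      omega
    · have h10 : Mi.card = 10 := by omega
      rw [if_pos (hn10 h10), h10] at hsumb
      simp at hsumb

section gadget
variable {C : UData K} {B : BData C} {A : AData B}

theorem bd_adir_cls (x : Dir K) (i e : Fin 2) (l : Fin 10) : cls (A.adir x i e l) = (e, l) := by
  have := A.adir_mem x i e l
  simp only [BData.dom, mem_filter, mem_univ, true_and] at this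
  exact this.1

theorem bd_adir_ne (x : Dir K) (i e : Fin 2) (l : Fin 10) : A.adir x i e l ≠ x := by
  have := A.adir_mem x i e l
  simp only [BData.dom, mem_filter, mem_univ, true_and] at this
  exact this.2.1

theorem bd_adir_inj {x y : Dir K} {i i' e e' : Fin 2} {l l' : Fin 10}
    (h : A.adir x i e l = A.adir y i' e' l') : e = e' ∧ l = l' := by
  have h1 := bd_adir_cls (A := A) x i e l
  have h2 := bd_adir_cls (A := A) y i' e' l'
  rw [h, h2] at h1
  simpa [eq_comm] using h1

theorem bd_base_on_U (x : Dir K) (i e : Fin 2) : On (B.base x i e) (C.line x i) := by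
  have := B.base_mem x i e
  simp only [Surv0, mem_filter, mem_linePts] at this
  exact this.1

theorem bd_base_on_A (x : Dir K) (i e : Fin 2) (j : Fin 10) :
    On (B.base x i e) (A.line x i e j) := on_lineThru _ _

@[simp] theorem bd_line_fst (C : UData K) (x : Dir K) (i : Fin 2) : (C.line x i).1 = x := rfl

@[simp] theorem bd_aline_fst (x : Dir K) (i e : Fin 2) (j : Fin 10) :
    (A.line x i e j).1 = A.adir x i e j := by simp [AData.line]

theorem bd_U_mem_holes (x : Dir K) (i : Fin 2) : C.line x i ∈ A.holes := by
  unfold AData.holes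
  exact mem_union_left _ (mem_image.mpr ⟨(x, i), mem_univ _, rfl⟩)

theorem bd_A_mem_holes (x : Dir K) (i e : Fin 2) (j : Fin 10) : A.line x i e j ∈ A.holes := by
  unfold AData.holes
  exact mem_union_right _ (mem_image.mpr ⟨(x, i, e, j), mem_univ _, rfl⟩)

theorem bd_A_ne_U (x : Dir K) (i e : Fin 2) (j : Fin 10) : A.line x i e j ≠ C.line x i := by
  intro h
  have := congrArg Prod.fst h
  simp only [bd_aline_fst, bd_line_fst] at this
  exact bd_adir_ne x i e j this

variable (Kd : KData A)

theorem bd_E_fst (x : Dir K) (i e : Fin 2) (l : Fin 10) : (Kd.E x i e l).1 = A.adir x i e l := by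
  simp [KData.E, eLine]

theorem bd_keep_on_U (x : Dir K) (i : Fin 2) (l : Fin 10) : On (Kd.keep x i l) (C.line x i) :=
  on_param _ _

theorem bd_keep_on_E (x : Dir K) (i e : Fin 2) (l : Fin 10) : On (Kd.keep x i l) (Kd.E x i e l) :=
  on_lineThru _ _

theorem bd_goodS_spec (x : Dir K) (i : Fin 2) (l : Fin 10) :
    (∀ h ∈ A.holes, h ≠ C.line x i → ¬ On (Kd.keep x i l) h) ∧
    ∀ e j, j ≠ l → ∀ h ∈ A.holes, h ≠ A.line x i e j → ¬ On (Kd.M x i e j l) h := by
  have h := Kd.s_mem x i l
  simp only [goodS, Finset.mem_filter, mem_univ, true_and] at h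
  exact h

theorem bd_keep_not_hole (x : Dir K) (i : Fin 2) (l : Fin 10) {h : Ln K} (hh : h ∈ A.holes)
    (hne : h ≠ C.line x i) : ¬ On (Kd.keep x i l) h := (bd_goodS_spec Kd x i l).1 h hh hne

theorem bd_M_not_hole (x : Dir K) (i e : Fin 2) {j l : Fin 10} (hjl : j ≠ l) {h : Ln K}
    (hh : h ∈ A.holes) (hne : h ≠ A.line x i e j) : ¬ On (Kd.M x i e j l) h :=
  (bd_goodS_spec Kd x i l).2 e j hjl h hh hne

theorem bd_dir_A_ne_E (x : Dir K) (i e : Fin 2) {j l : Fin 10} (hjl : j ≠ l) :
    (A.line x i e j).1 ≠ (Kd.E x i e l).1 := by
  rw [bd_aline_fst, bd_E_fst]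
  intro h
  exact hjl (bd_adir_inj h).2

theorem bd_M_on_A (x : Dir K) (i e : Fin 2) {j l : Fin 10} (hjl : j ≠ l) :
    On (Kd.M x i e j l) (A.line x i e j) :=
  on_cross_left (bd_dir_A_ne_E Kd x i e hjl)

theorem bd_M_on_E (x : Dir K) (i e : Fin 2) {j l : Fin 10} (hjl : j ≠ l) :
    On (Kd.M x i e j l) (Kd.E x i e l) :=
  on_cross_right (bd_dir_A_ne_E Kd x i e hjl)

theorem bd_keep_ne_base (x : Dir K) (i e : Fin 2) (l : Fin 10) : Kd.keep x i l ≠ B.base x i e := by
  intro h
  exact bd_keep_not_hole Kd x i l (bd_A_mem_holes x i e 0) (bd_A_ne_U x i e 0) (h ▸ bd_base_on_A x i e 0)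

theorem bd_M_ne_base (x : Dir K) (i e : Fin 2) {j l : Fin 10} (hjl : j ≠ l) :
    Kd.M x i e j l ≠ B.base x i e := by
  intro h
  exact bd_M_not_hole Kd x i e hjl (bd_U_mem_holes x i) (bd_A_ne_U x i e j).symm (h ▸ bd_base_on_U x i e)

theorem bd_E_ne_U (x : Dir K) (i e : Fin 2) (l : Fin 10) : Kd.E x i e l ≠ C.line x i := by
  intro h
  have := congrArg Prod.fst h
  rw [bd_E_fst, bd_line_fst] at this
  exact bd_adir_ne x i e l this

theorem bd_E_ne_A (x : Dir K) (i e : Fin 2) (l j : Fin 10) : Kd.E x i e l ≠ A.line x i e j := by
  intro h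
  by_cases hjl : j = l
  · subst hjl
    exact bd_keep_not_hole Kd x i j (bd_A_mem_holes x i e j) (bd_A_ne_U x i e j)
      (h ▸ bd_keep_on_E Kd x i e j)
  · exact bd_dir_A_ne_E Kd x i e hjl (by rw [h])

theorem bd_E_inj (x : Dir K) (i e : Fin 2) : Function.Injective (Kd.E x i e) := by
  intro l l' h
  have := congrArg Prod.fst h
  rw [bd_E_fst, bd_E_fst] at this
  exact (bd_adir_inj this).2

theorem bd_base_not_on_E (x : Dir K) (i e e' : Fin 2) (l : Fin 10) :
    ¬ On (B.base x i e') (Kd.E x i e l) := by
  intro h
  -- `E` meets `U` only in the keep point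
  have hne := bd_E_ne_U Kd x i e l
  have := point_unique hne h (bd_base_on_U x i e') (bd_keep_on_E Kd x i e l) (bd_keep_on_U Kd x i l)
  exact bd_keep_ne_base Kd x i e' l this.symm

end gadget

variable {C : UData K} {B : BData C} {A : AData B} (Kd : KData A) (b : Dir K → Fin 2)

/-- Pencil at a base of a chosen gadget: `S` is `T minus the star`.  Here `hch` says the lines through `c` missing from `S` are holes of `c`; the
arithmetic: designated total `10 u + 9 |Q|`, budget `u + |Q| - 1` lines, `E l` contains `u + |Q \ {l}|` points, other lines at most 2 (`gint`). -/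
theorem base_case (h3 : P3 Kd) (S : Finset (Ln K)) (hS : S.card = Fintype.card K)
    (hcov : Covers S (purePts Kd b)) (x : Dir K) (e : Fin 2)
    (hch : ∀ m, On (B.base x (b x) e) m → m ∉ S →
      m = C.line x (b x) ∨ ∃ j, m = A.line x (b x) e j) :
    ∀ l : Ln K, l ∈ S ↔ (On (B.base x (b x) e) l ∧ l ≠ C.line x (b x) ∧ (∀ j, l ≠ A.line x (b x) e j))
      ∨ ∃ j, l = Kd.E x (b x) e j := by
  set i := b x with hi
  set c := B.base x i e with hc
  let hl : Option (Fin 10) → Ln K := fun o =>
    match o with
    | none => C.line x i
    | some j => A.line x i e j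
  let ds : Option (Fin 10) → Finset (Pt K) := fun o =>
    match o with
    | none => Kd.des (x, i, none)
    | some j => Kd.des (x, i, some (e, j))
  have hdsmem : ∀ o, ∀ p ∈ ds o, p ∈ purePts Kd b := by
    intro o p hp
    unfold purePts
    refine mem_union_right _ (mem_biUnion.mpr ?_)
    cases o with
    | none => exact ⟨(x, none), mem_univ _, hp⟩
    | some j => exact ⟨(x, some (e, j)), mem_univ _, hp⟩
  have hcount := base_count c S hS hl
    (by
      intro o o' h
      cases o with
      | none =>
        cases o' with
        | none => rfl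
        | some j => exact absurd h.symm (bd_A_ne_U x i e j)
      | some j =>
        cases o' with
        | none => exact absurd h (bd_A_ne_U x i e j)
        | some j' =>
          have h2 : A.adir x i e j = A.adir x i e j' := by
            have h' : A.line x i e j = A.line x i e j' := h
            have := congrArg Prod.fst h'
            simpa using this
          rw [(bd_adir_inj h2).2])
    (by
      intro o
      cases o with
      | none => exact bd_base_on_U x i e
      | some j => exact bd_base_on_A x i e j)
    (by
      intro m hm hmS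
      rcases hch m hm hmS with h | ⟨j, h⟩
      · exact ⟨none, h⟩
      · exact ⟨some j, h⟩)
    ds
    (by
      intro o p hp
      cases o with
      | none =>
        obtain ⟨l, _, rfl⟩ := mem_image.mp hp
        exact ⟨bd_keep_on_U Kd x i l, bd_keep_ne_base Kd x i e l⟩
      | some j =>
        obtain ⟨l, hl', rfl⟩ := mem_image.mp hp
        have hlj : l ≠ j := (mem_filter.mp hl').2
        exact ⟨bd_M_on_A Kd x i e hlj.symm, bd_M_ne_base Kd x i e hlj.symm⟩)
    (by
      intro o p hp
      exact hcov p (hdsmem o p hp))
    (by
      intro o o' hne p hp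
      cases o with
      | none =>
        obtain ⟨l, _, rfl⟩ := mem_image.mp hp
        cases o' with
        | none => exact absurd rfl hne
        | some j => exact bd_keep_not_hole Kd x i l (bd_A_mem_holes x i e j) (bd_A_ne_U x i e j)
      | some j =>
        obtain ⟨l, hl', rfl⟩ := mem_image.mp hp
        have hlj : l ≠ j := (mem_filter.mp hl').2
        cases o' with
        | none => exact bd_M_not_hole Kd x i e hlj.symm (bd_U_mem_holes x i) (bd_A_ne_U x i e j).symm
        | some j' =>
          refine bd_M_not_hole Kd x i e hlj.symm (bd_A_mem_holes x i e j') ?_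
          intro h
          have h2 : A.adir x i e j' = A.adir x i e j := by
            have h' : A.line x i e j' = A.line x i e j := h
            have := congrArg Prod.fst h'
            simpa using this
          exact hne (by rw [(bd_adir_inj h2).2]))
    (by
      show (univ.image (fun l => Kd.keep x i l)).card = 10
      rw [card_image_of_injective]
      · simp
      · intro l l' h
        have h3' := h3.s_inj x i
        apply h3'
        exact param_injective _ h)
    (by
      intro j
      show ((univ.filter (fun l => l ≠ j)).image (fun l => Kd.M x i e j l)).card = 9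
      rw [card_image_of_injOn]
      · have : (univ.filter (fun l : Fin 10 => l ≠ j)) = univ.erase j := by
          ext l; simp
        rw [this, card_erase_of_mem (mem_univ _)]
        simp
      · intro l hl' l' hl'' h
        have h1 : l ≠ j := (mem_filter.mp hl').2
        have h2 : l' ≠ j := (mem_filter.mp hl'').2
        exact h3.m_inj x i e j l l' h1 h2 h)
    (Kd.E x i e) (bd_E_inj Kd x i e)
    (by
      intro l
      rw [bd_E_fst]
      simp [hl])
    (by
      intro l o
      cases o with
      | none => exact bd_E_ne_U Kd x i e l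
      | some j => exact bd_E_ne_A Kd x i e l j)
    (by
      intro L hL hLE
      refine le_trans (card_le_card ?_) (h3.gint x i e L hL hLE)
      apply inter_subset_inter_right
      intro p hp
      obtain ⟨o, _, hpo⟩ := mem_biUnion.mp hp
      unfold KData.desBase
      cases o with
      | none => exact mem_union_left _ hpo
      | some j => exact mem_union_right _ (mem_biUnion.mpr ⟨j, mem_univ _, hpo⟩))
  obtain ⟨hno, hT⟩ := hcount
  intro l
  constructor
  · intro hlS
    by_cases hcl : On c l
    · left
      refine ⟨hcl, ?_, ?_⟩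
      · rintro rfl
        exact hno none hlS
      · rintro j rfl
        exact hno (some j) hlS
    · right
      have : l ∈ S.filter (fun L => ¬ On c L) := mem_filter.mpr ⟨hlS, hcl⟩
      rw [hT] at this
      obtain ⟨j, _, hj⟩ := mem_image.mp this
      exact ⟨j, hj.symm⟩
  · rintro (⟨hcl, hU, hAj⟩ | ⟨j, rfl⟩)
    · by_contra hlS
      rcases hch l hcl hlS with h | ⟨j, h⟩
      · exact hU h
      · exact hAj j h
    · have : Kd.E x i e j ∈ S.filter (fun L => ¬ On c L) := by
        rw [hT]
        exact mem_image_of_mem _ (mem_univ _)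
      exact (mem_filter.mp this).1

/-- The partner edge misses `T minus the star`. -/
theorem partner_missed (x : Dir K) (e : Fin 2) (d : Dir K) (hd : tEdge Kd b x (1 - e) d ≠ none)
    (hl : ∀ o, tEdge Kd b x (1 - e) d = some o →
      (On (B.base x (b x) e) (d, o) ∧ (d, o) ≠ C.line x (b x) ∧ (∀ j, (d, o) ≠ A.line x (b x) e j))
      ∨ ∃ j, (d, o) = Kd.E x (b x) e j) : False := by
  have hee : (1 - e) ≠ e := by
    clear hd hl
    revert e
    decide
  have hbne : B.base x (b x) (1 - e) ≠ B.base x (b x) e := by
    intro h
    have h0 := B.base_ne x (b x)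
    fin_cases e
    · exact h0 (by simpa using h.symm)
    · exact h0 (by simpa using h)
  unfold tEdge at hd hl
  by_cases hdx : d = x
  · simp [hdx] at hd
  simp only [if_neg hdx] at hd hl
  by_cases hcase : (cls d).1 = 1 - e ∧ A.adir x (b x) (1 - e) (cls d).2 = d
  · simp only [if_pos hcase] at hl
    have hE : (d, (Kd.E x (b x) (1 - e) (cls d).2).2) = Kd.E x (b x) (1 - e) (cls d).2 := by
      apply Prod.ext
      · simp only [bd_E_fst]; exact hcase.2.symm
      · rfl
    rcases hl _ rfl with ⟨h1, _, _⟩ | ⟨j, hj⟩
    · rw [hE] at h1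
      exact bd_base_not_on_E Kd x (b x) (1 - e) e _ h1
    · have h2 := congrArg Prod.fst hj
      simp only [bd_E_fst] at h2
      have h3 := bd_adir_cls (A := A) x (b x) e j
      rw [← h2] at h3
      exact hee (by rw [← hcase.1, h3])
  · simp only [if_neg hcase] at hl
    have hlin : (d, (lineThru (B.base x (b x) (1 - e)) d).2) = lineThru (B.base x (b x) (1 - e)) d := by
      apply Prod.ext
      · simp
      · rfl
    rcases hl _ rfl with ⟨h1, _, _⟩ | ⟨j, hj⟩
    · rw [hlin] at h1
      have h2 : lineThru (B.base x (b x) (1 - e)) d = C.line x (b x) :=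
        line_unique hbne (on_lineThru _ _) h1 (bd_base_on_U x _ _) (bd_base_on_U x _ _)
      have := congrArg Prod.fst h2
      simp only [lineThru_fst, bd_line_fst] at this
      exact hdx this
    · rw [hlin] at hj
      have h2 : On (B.base x (b x) (1 - e)) (Kd.E x (b x) e j) := by
        rw [← hj]; exact on_lineThru _ _
      exact bd_base_not_on_E Kd x (b x) e (1 - e) j h2

end Crest.Agent.Ryser
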