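import Crest.Agent.Ryser.AssemblyC
import Crest.Agent.Ryser.AssemblyD

/-!
# From a good design to the hypergraph: see BLUEPRINT.md, "Final cover analysis".
Take `V`, `Λ` its lines, extend by arbitrary other lines to `S`, apply LemmaR; `Near` gives `z` or `d`;
`chosen_of_missing_*` with `surv ≥ γ q > 2 φ`; then `nonbase_case`, `base_case`, `class_case`; `Ext` is empty; conclude with `partner_missed` or the star.
-/

set_option autoImplicit false
set_option linter.unusedSectionVars false
set_option linter.unusedVariables false

namespace Crest.Agent.Ryser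

open Finset

variable {K : Type} [Field K] [Fintype K] [DecidableEq K]

section aux
variable {C : UData K} {B : BData C} {A : AData B}

theorem base_mem_all' (B : BData C) (x : Dir K) (i e : Fin 2) : B.base x i e ∈ B.all := by
  unfold BData.all
  exact mem_image.mpr ⟨(x, i, e), mem_univ _, rfl⟩

theorem line_ne_of_ne (C : UData K) (x : Dir K) {i i' : Fin 2} (h : i ≠ i') :
    C.line x i ≠ C.line x i' := by
  intro heq
  have h2 : C.off x i = C.off x i' := congrArg Prod.snd heq
  have h3 := C.off_ne x
  fin_cases i <;> fin_cases i' <;> simp_all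

theorem on_U_of_base (B : BData C) {x y : Dir K} {i i' e : Fin 2}
    (h : On (B.base x i e) (C.line y i')) : y = x ∧ i' = i := by
  have hm := B.base_mem x i e
  unfold Surv0 at hm
  obtain ⟨hon, hoff⟩ := mem_filter.mp hm
  have hon' : On (B.base x i e) (C.line x i) := mem_linePts.mp hon
  have hyx : y = x := by
    by_contra hne
    exact hoff y (by simpa [UData.line] using hne) i' h
  subst hyx
  refine ⟨rfl, ?_⟩
  by_contra hne
  exact not_on_of_parallel (l := C.line y i) (l' := C.line y i') rfl
    (line_ne_of_ne C y (Ne.symm hne)) hon' h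

theorem base_inj (B : BData C) {x y : Dir K} {i i' e e' : Fin 2}
    (h : B.base y i' e' = B.base x i e) : y = x ∧ i' = i ∧ e' = e := by
  have hm := B.base_mem y i' e'
  unfold Surv0 at hm
  obtain ⟨hon, _⟩ := mem_filter.mp hm
  have hon' : On (B.base y i' e') (C.line y i') := mem_linePts.mp hon
  rw [h] at hon'
  obtain ⟨rfl, rfl⟩ := on_U_of_base B hon'
  refine ⟨rfl, rfl, ?_⟩
  by_contra hne
  have h2 := B.base_ne y i'
  fin_cases e <;> fin_cases e' <;> simp_all

theorem on_A_of_base (A : AData B) {x y : Dir K} {i i' e e' : Fin 2} {j : Fin 10}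
    (h : On (B.base y i' e') (A.line x i e j)) : y = x ∧ i' = i ∧ e' = e := by
  have hm := A.adir_mem x i e j
  unfold BData.dom at hm
  obtain ⟨_, _, _, hfree⟩ : _ ∧ _ ∧ _ ∧ _ := by
    have := (mem_filter.mp hm).2
    exact ⟨trivial, this.1, this.2.1, this.2.2⟩
  by_contra hne
  have hne' : B.base y i' e' ≠ B.base x i e := by
    intro heq
    exact hne (base_inj B heq)
  exact hfree _ (base_mem_all' B y i' e') hne' h

theorem chosen_through_base {b : Dir K → Fin 2} {m : Ln K} (hc : IsChosen b A m) {x : Dir K}
    {i e : Fin 2} (hon : On (B.base x i e) m) :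
    i = b x ∧ (m = C.line x i ∨ ∃ j, m = A.line x i e j) := by
  obtain ⟨⟨y, i', o⟩, hi, rfl⟩ := hc
  simp only at hi
  cases o with
  | none =>
    have := on_U_of_base B (x := x) (y := y) (i := i) (i' := i') (e := e) hon
    obtain ⟨rfl, rfl⟩ := this
    exact ⟨hi, Or.inl rfl⟩
  | some t =>
    rcases t with ⟨e', j⟩
    have := on_A_of_base A (x := y) (y := x) (i := i') (i' := i) (e := e') (e' := e) (j := j) hon
    obtain ⟨rfl, rfl, rfl⟩ := this
    exact ⟨hi, Or.inr ⟨j, rfl⟩⟩

theorem A_line_on_base (A : AData B) (x : Dir K) (i e : Fin 2) (l : Fin 10) :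
    On (B.base x i e) (A.line x i e l) := on_lineThru _ _

theorem A_line_mem_holes (A : AData B) (x : Dir K) (i e : Fin 2) (l : Fin 10) :
    A.line x i e l ∈ A.holes := by
  unfold AData.holes
  exact mem_union_right _ (mem_image.mpr ⟨(x, i, e, l), mem_univ _, rfl⟩)

theorem U_line_mem_holes (A : AData B) (x : Dir K) (i : Fin 2) : C.line x i ∈ A.holes := by
  unfold AData.holes
  exact mem_union_left _ (mem_image.mpr ⟨(x, i), mem_univ _, rfl⟩)

theorem A_line_ne_U (A : AData B) (x : Dir K) (i e : Fin 2) (l : Fin 10) :
    A.line x i e l ≠ C.line x i := by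
  intro h
  have := congrArg Prod.fst h
  simp only [AData.line, UData.line, lineThru_fst] at this
  exact adir_ne A x i e l this

variable (Kd : KData A)

theorem keep_on_U (x : Dir K) (i : Fin 2) (l : Fin 10) : On (Kd.keep x i l) (C.line x i) :=
  on_param _ _

theorem E_ne_U (x : Dir K) (i e : Fin 2) (l : Fin 10) : Kd.E x i e l ≠ C.line x i := by
  intro h
  have := congrArg Prod.fst h
  rw [E_fst] at this
  exact adir_ne A x i e l this

theorem keep_off_holes (x : Dir K) (i : Fin 2) (l : Fin 10) {h : Ln K} (hh : h ∈ A.holes)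
    (hne : h ≠ C.line x i) : ¬ On (Kd.keep x i l) h := by
  have := Kd.s_mem x i l
  simp only [goodS, mem_filter] at this
  exact this.2.1 h hh hne

/-- Designated points lie on their hole. -/
theorem des_on_hole (h : HIdx K) {p : Pt K} (hp : p ∈ Kd.des h) : On p (holeOf A h) := by
  rcases h with ⟨x, i, o⟩
  cases o with
  | none =>
    simp only [KData.des, mem_image, mem_univ, true_and] at hp
    obtain ⟨l, rfl⟩ := hp
    exact keep_on_U Kd x i l
  | some t =>
    rcases t with ⟨e, j⟩
    simp only [KData.des, mem_image, mem_filter, mem_univ, true_and] at hp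
    obtain ⟨l, hl, rfl⟩ := hp
    have hcl : cls (A.adir x i e j) ≠ cls (A.adir x i e l) := by
      have h1 := A.adir_mem x i e j
      have h2 := A.adir_mem x i e l
      simp only [BData.dom, mem_filter, mem_univ, true_and] at h1 h2
      rw [h1.1, h2.1]
      intro h
      apply hl
      exact (congrArg Prod.snd h).symm
    have hdir : (A.line x i e j).1 ≠ (eLine A x i e l (Kd.s x i l)).1 := by
      intro h
      apply hcl
      simp only [AData.line, eLine, lineThru_fst] at h
      rw [h]
    exact on_cross_left hdir

theorem des_nonempty (h : HIdx K) : (Kd.des h).Nonempty := by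
  rcases h with ⟨x, i, o⟩
  cases o with
  | none =>
    exact ⟨Kd.keep x i 0, by simp [KData.des]⟩
  | some t =>
    rcases t with ⟨e, j⟩
    by_cases hj : j = 0
    · refine ⟨Kd.M x i e j 1, ?_⟩
      simp only [KData.des, mem_image, mem_filter, mem_univ, true_and]
      exact ⟨1, by rw [hj]; decide, rfl⟩
    · refine ⟨Kd.M x i e j 0, ?_⟩
      simp only [KData.des, mem_image, mem_filter, mem_univ, true_and]
      exact ⟨0, fun h => hj h.symm, rfl⟩

theorem des_subset_pure (b : Dir K → Fin 2) (x : Dir K) (o : Option (Fin 2 × Fin 10)) :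
    Kd.des (x, b x, o) ⊆ purePts Kd b := by
  intro p hp
  unfold purePts
  exact mem_union_right _ (mem_biUnion.mpr ⟨(x, o), mem_univ _, hp⟩)

theorem W_subset_pure (b : Dir K → Fin 2) : A.W b ⊆ purePts Kd b := by
  intro p hp
  unfold purePts
  exact mem_union_left _ hp

theorem asm_surv_subset_W (b : Dir K → Fin 2) {m : Ln K} (hm : ¬ IsChosen b A m) {p : Pt K}
    (hp : p ∈ A.surv m) : p ∈ A.W b := by
  simp only [AData.surv, mem_filter] at hp
  simp only [AData.W, mem_filter, mem_univ, true_and]
  intro x
  constructor
  · intro hon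
    refine hp.2 _ (U_line_mem_holes A x (b x)) ?_ hon
    rintro rfl
    exact hm ⟨(x, b x, none), rfl, rfl⟩
  · intro e l hon
    refine hp.2 _ (A_line_mem_holes A x (b x) e l) ?_ hon
    rintro rfl
    exact hm ⟨(x, b x, some (e, l)), rfl, rfl⟩

end aux

/-- The cover bound. -/
theorem cover_bound {C : UData K} {B : BData C} {A : AData B} (Kd : KData A) (b : Dir K → Fin 2)
    (h3 : P3 Kd)
    (h11 : ∀ ℓ, 11 ≤ (A.surv ℓ).card)
    (hLR : ∀ S : Finset (Ln K), S.card = Fintype.card K → Covers S (A.W b) →
      (∀ m, 2 * phiS S < ((A.surv m).card : ℝ)) ∧ Near S)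
    (V : Finset (Dir K × Option K)) (hV : ∀ e ∈ allEdges Kd b, ∃ d, (d, e d) ∈ V) :
    Fintype.card K + 1 ≤ V.card := by
  classical
  by_contra hcard
  have hcard' : V.card ≤ Fintype.card K := by omega
  -- the lines of V
  set Lam : Finset (Ln K) := univ.filter (fun l => (l.1, some l.2) ∈ V) with hLam
  have hLamV : ∀ l, l ∈ Lam ↔ (l.1, some l.2) ∈ V := by
    intro l; simp [hLam]
  have hLamcard : Lam.card + (V.filter (fun v => v.2 = none)).card ≤ V.card := by
    have himg : (Lam.image (fun l : Ln K => ((l.1, some l.2) : Dir K × Option K))) ⊆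
        V.filter (fun v => v.2 ≠ none) := by
      intro v hv
      obtain ⟨l, hl, rfl⟩ := mem_image.mp hv
      exact mem_filter.mpr ⟨(hLamV l).mp hl, by simp⟩
    have hinj : Function.Injective (fun l : Ln K => ((l.1, some l.2) : Dir K × Option K)) := by
      rintro ⟨a, b⟩ ⟨a', b'⟩ h
      simp only [Prod.mk.injEq, Option.some.injEq] at h
      simp [h.1, h.2]
    have h1 := card_le_card himg
    rw [card_image_of_injective _ hinj] at h1
    have h2 := card_filter_add_card_filter_not (s := V) (fun v => v.2 = none)
    simp only [ne_eq] at h1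
    omega
  -- Lam covers the pure points
  have hLamcov : Covers Lam (purePts Kd b) := by
    intro p hp
    have hmem : pureEdge p ∈ allEdges Kd b := by
      unfold allEdges
      exact mem_union_left _ (mem_image.mpr ⟨p, hp, rfl⟩)
    obtain ⟨d, hd⟩ := hV _ hmem
    refine ⟨lineThru p d, ?_, on_lineThru p d⟩
    rw [hLamV]
    simpa [pureEdge] using hd
  -- extension
  have hLamle : Lam.card ≤ Fintype.card K := by omega
  obtain ⟨Ext, hExtsub, hExtcard⟩ : ∃ Ext ⊆ (univ : Finset (Ln K)) \ Lam,
      Ext.card = Fintype.card K - Lam.card := by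
    apply exists_subset_card_eq
    rw [card_sdiff_of_subset (subset_univ _), card_univ, card_Ln]
    have : Fintype.card K ≤ (Fintype.card K + 1) * Fintype.card K := by nlinarith
    omega
  have hExtdisj : ∀ l ∈ Ext, l ∉ Lam := fun l hl => (mem_sdiff.mp (hExtsub hl)).2
  set S := Lam ∪ Ext with hSdef
  have hScard : S.card = Fintype.card K := by
    rw [card_union_of_disjoint (disjoint_left.mpr (fun l h1 h2 => hExtdisj l h2 h1)), hExtcard]
    omega
  have hScov : Covers S (purePts Kd b) := by
    intro p hp
    obtain ⟨l, hl, hon⟩ := hLamcov p hp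
    exact ⟨l, mem_union_left _ hl, hon⟩
  have hScovW : Covers S (A.W b) := fun p hp => hScov p (W_subset_pure Kd b hp)
  obtain ⟨hbig, hnear⟩ := hLR S hScard hScovW
  have hφ0 : 0 ≤ phiS S := by unfold phiS; positivity
  -- the conclusion when Lam = S: no stars
  have hnostar : Ext = ∅ → ∀ x, (x, (none : Option K)) ∉ V := by
    intro hE x hx
    have h1 : Lam.card = Fintype.card K := by
      rw [hE] at hExtcard
      simp at hExtcard
      omega
    have h2 : 0 < (V.filter (fun v => v.2 = none)).card :=
      card_pos.mpr ⟨(x, none), mem_filter.mpr ⟨hx, rfl⟩⟩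
    omega
  rcases hnear with ⟨z, hz⟩ | ⟨d, hd⟩
  · -- pencil case
    have hch : ∀ m, On z m → m ∉ S → IsChosen b A m := by
      intro m hzm hm
      apply chosen_of_missing_pencil b S hScard hScovW z m hzm hm
      have h1 := hbig m
      have h2 : ((Fintype.card K + 1 - cnt S z : ℕ) : ℝ) ≤ 2 * phiS S := by
        by_cases hle : cnt S z ≤ Fintype.card K + 1
        · rw [Nat.cast_sub hle]
          push_cast
          linarith
        · rw [Nat.sub_eq_zero_of_le (by omega)]
          simpa using (by positivity : (0 : ℝ) ≤ 2 * phiS S)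
      have h3 : ((Fintype.card K + 1 - cnt S z : ℕ) : ℝ) < ((A.surv m).card : ℝ) := by linarith
      exact_mod_cast h3
    by_cases hzB : z ∈ B.all
    · -- z is a base
      obtain ⟨⟨x, i, e⟩, _, rfl⟩ := mem_image.mp hzB
      simp only at hch hz
      -- there is a missing line through z
      have hmiss : ∃ m, On (B.base x i e) m ∧ m ∉ S := by
        by_contra hall
        push Not at hall
        have hsub : (univ.filter (fun l : Ln K => On (B.base x i e) l)) ⊆
            S.filter (fun l => On (B.base x i e) l) := by
          intro l hl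
          have hl' := (mem_filter.mp hl).2
          exact mem_filter.mpr ⟨hall l hl', hl'⟩
        have h1 := card_le_card hsub
        rw [card_lines_through] at h1
        have h2 : (S.filter (fun l => On (B.base x i e) l)).card ≤ S.card := card_filter_le _ _
        omega
      obtain ⟨m₀, hm₀, hm₀S⟩ := hmiss
      have hib : i = b x := (chosen_through_base (hch m₀ hm₀ hm₀S) hm₀).1
      subst hib
      have hchar := base_case Kd b h3 S hScard hScov x e (by
        intro m hm hmS
        exact (chosen_through_base (hch m hm hmS) hm).2)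
      -- Ext is empty
      have hEmpty : Ext = ∅ := by
        by_contra hne
        obtain ⟨l₀, hl₀⟩ := nonempty_iff_ne_empty.mpr hne
        have hl₀S : l₀ ∈ S := mem_union_right _ hl₀
        have hl₀L := hExtdisj l₀ hl₀
        by_cases hEj : ∃ j, l₀ = Kd.E x (b x) e j
        · -- a missing `E`
          obtain ⟨j, rfl⟩ := hEj
          have hk : Kd.keep x (b x) j ∈ purePts Kd b :=
            des_subset_pure Kd b x none (by simp [KData.des])
          obtain ⟨l, hl, honl⟩ := hLamcov _ hk
          have hlS : l ∈ S := mem_union_left _ hl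
          have hne : l ≠ Kd.E x (b x) e j := fun h => hl₀L (h ▸ hl)
          rcases (hchar l).mp hlS with ⟨hbase, hU, _⟩ | ⟨j', rfl⟩
          · -- l passes through the base and the keep point: it is U
            have hkne : Kd.keep x (b x) j ≠ B.base x (b x) e := by
              intro h
              refine keep_off_holes Kd x (b x) j (A_line_mem_holes A x (b x) e 0)
                (A_line_ne_U A x (b x) e 0) ?_
              rw [h]
              exact A_line_on_base A x (b x) e 0
            have hbU : On (B.base x (b x) e) (C.line x (b x)) :=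
              mem_linePts.mp (mem_filter.mp (B.base_mem x (b x) e)).1
            exact hU (line_unique hkne honl hbase (keep_on_U Kd x (b x) j) hbU)
          · -- l = E j', meets U at keep j'
            have hjj : j' ≠ j := by
              rintro rfl
              exact hne rfl
            have h1 : Kd.keep x (b x) j = Kd.keep x (b x) j' :=
              point_unique (E_ne_U Kd x (b x) e j').symm (keep_on_U Kd x (b x) j) honl
                (keep_on_U Kd x (b x) j') (keep_on_E Kd x (b x) e j')
            have h2 : Kd.s x (b x) j = Kd.s x (b x) j' := param_injective _ h1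
            exact hjj (h3.s_inj x (b x) h2).symm
        · -- a missing pencil line
          have hl₀char := (hchar l₀).mp hl₀S
          rcases hl₀char with ⟨hbase, hU, hAj⟩ | hE
          · have hnotch : ¬ IsChosen b A l₀ := by
              intro hc
              rcases (chosen_through_base hc hbase).2 with h | ⟨j, h⟩
              · exact hU h
              · exact hAj j h
            -- each point of surv l₀ is on an E
            have hsub : A.surv l₀ ⊆ univ.biUnion (fun j : Fin 10 => linePts l₀ ∩ linePts (Kd.E x (b x) e j)) := by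
              intro p hp
              have hpW := asm_surv_subset_W b hnotch hp
              have hpon : On p l₀ := by
                simp only [AData.surv, mem_filter] at hp
                exact mem_linePts.mp hp.1
              obtain ⟨l, hl, honl⟩ := hLamcov p (W_subset_pure Kd b hpW)
              have hlS : l ∈ S := mem_union_left _ hl
              have hne : l ≠ l₀ := fun h => hl₀L (h ▸ hl)
              rcases (hchar l).mp hlS with ⟨hb2, _, _⟩ | ⟨j, rfl⟩
              · -- then p is the base: but it is on holes
                have hpb : p = B.base x (b x) e := point_unique hne honl hpon hb2 hbase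
                exfalso
                simp only [AData.surv, mem_filter] at hp
                refine hp.2 _ (U_line_mem_holes A x (b x)) (Ne.symm hU) ?_
                rw [hpb]
                exact mem_linePts.mp (mem_filter.mp (B.base_mem x (b x) e)).1
              · exact mem_biUnion.mpr ⟨j, mem_univ _, mem_inter.mpr ⟨mem_linePts.mpr hpon, mem_linePts.mpr honl⟩⟩
            have hle : (A.surv l₀).card ≤ 10 := by
              refine (card_le_card hsub).trans ?_
              refine card_biUnion_le.trans ?_
              have : ∀ j ∈ (univ : Finset (Fin 10)), (linePts l₀ ∩ linePts (Kd.E x (b x) e j)).card ≤ 1 := by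
                intro j _
                apply card_inter_linePts_le_one
                rintro rfl
                exact hEj ⟨j, rfl⟩
              calc _ ≤ ∑ _j : Fin 10, 1 := sum_le_sum this
                _ = 10 := by simp
            have := h11 l₀
            omega
          · exact hEj hE
      -- conclude: the partner is missed
      have hmem : tEdge Kd b x (1 - e) ∈ allEdges Kd b := by
        unfold allEdges
        exact mem_union_right _ (mem_image.mpr ⟨(x, 1 - e), mem_univ _, rfl⟩)
      obtain ⟨d, hd⟩ := hV _ hmem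
      have hns := hnostar hEmpty
      by_cases hnone : tEdge Kd b x (1 - e) d = none
      · rw [hnone] at hd
        exact hns d hd
      · apply partner_missed Kd b x e d hnone
        intro o ho
        rw [ho] at hd
        have hl : (d, o) ∈ Lam := (hLamV (d, o)).mpr hd
        exact (hchar (d, o)).mp (mem_union_left _ hl)
    · exact nonbase_case Kd b h3 S hScard hScov z hzB hch
  · -- class case
    have hch : ∀ m : Ln K, m.1 = d → m ∉ S → IsChosen b A m := by
      intro m hmd hm
      apply chosen_of_missing_class b S hScard hScovW m hm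
      have h1 := hbig m
      have h2 : ((Fintype.card K - dirCnt S m.1 : ℕ) : ℝ) ≤ 2 * phiS S := by
        rw [hmd]
        by_cases hle : dirCnt S d ≤ Fintype.card K
        · rw [Nat.cast_sub hle]
          linarith
        · rw [Nat.sub_eq_zero_of_le (by omega)]
          simpa using (by positivity : (0 : ℝ) ≤ 2 * phiS S)
      have h3 : ((Fintype.card K - dirCnt S m.1 : ℕ) : ℝ) < ((A.surv m).card : ℝ) := by linarith
      exact_mod_cast h3
    have hclass := class_case Kd b h3 S hScard hScov d hch
    -- S is exactly the class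
    have hSclass : ∀ l ∈ S, l.1 = d := by
      have hsub : (univ.filter (fun l : Ln K => l.1 = d)) ⊆ S := by
        intro l hl
        exact hclass l (mem_filter.mp hl).2
      have heq : (univ.filter (fun l : Ln K => l.1 = d)) = S := by
        apply eq_of_subset_of_card_le hsub
        rw [card_lines_of_dir, hScard]
      intro l hl
      rw [← heq] at hl
      exact (mem_filter.mp hl).2
    have hEmpty : Ext = ∅ := by
      by_contra hne
      obtain ⟨l₀, hl₀⟩ := nonempty_iff_ne_empty.mpr hne
      have hl₀S : l₀ ∈ S := mem_union_right _ hl₀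
      have hl₀L := hExtdisj l₀ hl₀
      have hd₀ := hSclass l₀ hl₀S
      -- a point of purePts on l₀
      obtain ⟨p, hp, hpon⟩ : ∃ p ∈ purePts Kd b, On p l₀ := by
        by_cases hc : IsChosen b A l₀
        · obtain ⟨⟨x, i, o⟩, hi, hh⟩ := hc
          simp only at hi
          subst hi
          obtain ⟨p, hp⟩ := des_nonempty Kd (x, b x, o)
          exact ⟨p, des_subset_pure Kd b x o hp, hh ▸ des_on_hole Kd _ hp⟩
        · have hcard11 := h11 l₀
          obtain ⟨p, hp⟩ : (A.surv l₀).Nonempty := card_pos.mp (by omega)
          refine ⟨p, W_subset_pure Kd b (asm_surv_subset_W b hc hp), ?_⟩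
          simp only [AData.surv, mem_filter] at hp
          exact mem_linePts.mp hp.1
      obtain ⟨l, hl, honl⟩ := hLamcov p hp
      have hlS : l ∈ S := mem_union_left _ hl
      have : l = l₀ := eq_of_on_of_dir_eq honl hpon ((hSclass l hlS).trans hd₀.symm)
      exact hl₀L (this ▸ hl)
    have hns := hnostar hEmpty
    have hmem : tEdge Kd b d 0 ∈ allEdges Kd b := by
      unfold allEdges
      exact mem_union_right _ (mem_image.mpr ⟨(d, 0), mem_univ _, rfl⟩)
    obtain ⟨d', hd'⟩ := hV _ hmem
    by_cases hnone : tEdge Kd b d 0 d' = none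
    · rw [hnone] at hd'
      exact hns d' hd'
    · obtain ⟨o, ho⟩ := Option.ne_none_iff_exists'.mp hnone
      rw [ho] at hd'
      have hl : (d', o) ∈ Lam := (hLamV (d', o)).mpr hd'
      have hdd : d' = d := hSclass _ (mem_union_left _ hl)
      subst hdd
      simp [tEdge] at ho

/-- The main deterministic theorem. -/
theorem assembly (γ : ℝ) (hγ : 0 < γ) :
    ∃ q₀ : ℕ, ∀ (K : Type) [Field K] [Fintype K] [DecidableEq K], q₀ ≤ Fintype.card K →
      ∀ (C : UData K) (B : BData C) (A : AData B) (Kd : KData A) (b : Dir K → Fin 2),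
        P3 Kd →
        (∀ ℓ, γ * Fintype.card K ≤ ((A.surv ℓ).card : ℝ)) →
        (∀ S : Finset (Ln K), S.card = Fintype.card K → Covers S (A.W b) →
          ((unc S).card : ℝ) < (Fintype.card K : ℝ) ^ ((39 : ℝ) / 20) ∧ Near S) →
        HasHypergraph K := by
  refine ⟨Nat.ceil ((3 / γ) ^ (20 : ℕ)) + Nat.ceil (11 / γ) + 1, ?_⟩
  intro K _ _ _ hq C B A Kd b h3 hsurv hLR
  have hq1 : 0 < Fintype.card K := by omega
  have hqR : (0 : ℝ) < Fintype.card K := by exact_mod_cast hq1
  have hq11 : 11 / γ ≤ (Fintype.card K : ℝ) := by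
    have h1 : Nat.ceil (11 / γ) ≤ Fintype.card K := by omega
    exact (Nat.le_ceil _).trans (by exact_mod_cast h1)
  have hq3 : (3 / γ) ^ (20 : ℕ) ≤ (Fintype.card K : ℝ) := by
    have h1 : Nat.ceil ((3 / γ) ^ (20 : ℕ)) ≤ Fintype.card K := by omega
    exact (Nat.le_ceil _).trans (by exact_mod_cast h1)
  have h11 : ∀ ℓ, 11 ≤ (A.surv ℓ).card := by
    intro ℓ
    have h1 := hsurv ℓ
    have h2 : (11 : ℝ) ≤ γ * Fintype.card K := by
      rw [div_le_iff₀ hγ] at hq11
      linarith
    have h3 : (11 : ℝ) ≤ ((A.surv ℓ).card : ℝ) := by linarith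
    exact_mod_cast h3
  -- `2 q^(19/20) < γ q`
  have hpow : 2 * (Fintype.card K : ℝ) ^ ((19 : ℝ) / 20) < γ * Fintype.card K := by
    have h1 : (3 / γ) ≤ (Fintype.card K : ℝ) ^ ((1 : ℝ) / 20) := by
      have h3γ : 0 ≤ 3 / γ := by positivity
      calc 3 / γ = ((3 / γ) ^ (20 : ℕ)) ^ ((1 : ℝ) / 20) := by
            rw [← Real.rpow_natCast, ← Real.rpow_mul h3γ]
            norm_num
        _ ≤ _ := Real.rpow_le_rpow (by positivity) hq3 (by norm_num)
    have h2 : (Fintype.card K : ℝ) = (Fintype.card K : ℝ) ^ ((19 : ℝ) / 20) * (Fintype.card K : ℝ) ^ ((1 : ℝ) / 20) := by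
      rw [← Real.rpow_add hqR]
      norm_num
    have h3 : 0 < (Fintype.card K : ℝ) ^ ((19 : ℝ) / 20) := by positivity
    rw [div_le_iff₀ hγ] at h1
    have h4 : γ * Fintype.card K = (Fintype.card K : ℝ) ^ ((19 : ℝ) / 20) *
        ((Fintype.card K : ℝ) ^ ((1 : ℝ) / 20) * γ) := by
      rw [← mul_assoc, ← h2]
      ring
    rw [h4]
    nlinarith
  have hLR' : ∀ S : Finset (Ln K), S.card = Fintype.card K → Covers S (A.W b) →
      (∀ m, 2 * phiS S < ((A.surv m).card : ℝ)) ∧ Near S := by
    intro S hS hcov
    obtain ⟨h1, h2⟩ := hLR S hS hcov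
    refine ⟨fun m => ?_, h2⟩
    have h5 : phiS S < (Fintype.card K : ℝ) ^ ((19 : ℝ) / 20) := by
      unfold phiS
      rw [div_lt_iff₀ hqR]
      have : (Fintype.card K : ℝ) ^ ((19 : ℝ) / 20) * Fintype.card K = (Fintype.card K : ℝ) ^ ((39 : ℝ) / 20) := by
        nth_rewrite 2 [← Real.rpow_one (Fintype.card K : ℝ)]
        rw [← Real.rpow_add hqR]
        norm_num
      rw [this]
      exact h1
    have := hsurv m
    linarith
  classical
  refine ⟨allEdges Kd b, ?_, ?_, ?_, ?_⟩
  · exact ⟨tEdge Kd b none 0, by
      unfold allEdges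
      exact mem_union_right _ (mem_image.mpr ⟨(none, 0), mem_univ _, rfl⟩)⟩
  · intro e he f hf
    unfold allEdges at he hf
    rcases mem_union.mp he with he | he <;> rcases mem_union.mp hf with hf | hf
    · obtain ⟨p, _, rfl⟩ := mem_image.mp he
      obtain ⟨p', _, rfl⟩ := mem_image.mp hf
      exact pure_pure_inter p p'
    · obtain ⟨p, hp, rfl⟩ := mem_image.mp he
      obtain ⟨t, _, rfl⟩ := mem_image.mp hf
      exact pure_t_inter Kd b p hp t.1 t.2
    · obtain ⟨t, _, rfl⟩ := mem_image.mp he
      obtain ⟨p, hp, rfl⟩ := mem_image.mp hf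
      obtain ⟨d, hd⟩ := pure_t_inter Kd b p hp t.1 t.2
      exact ⟨d, hd.symm⟩
    · obtain ⟨t, _, rfl⟩ := mem_image.mp he
      obtain ⟨t', _, rfl⟩ := mem_image.mp hf
      exact t_t_inter Kd b t.1 t'.1 t.2 t'.2
  · intro d v
    refine all_used Kd b (fun ℓ => card_pos.mp (by have := h11 ℓ; omega)) d v
  · intro V hV
    exact cover_bound Kd b h3 h11 hLR' V hV

end Crest.Agent.Ryser
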