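import Crest.Agent.Ryser.Bits

/-!
# From a good design to the hypergraph.

Vertices: `Dir K × Option K` (`(d, some b)` is the line `(d, b)`, `(d, none)` the star of `d`), part = first coordinate.
Edges are functions `Dir K → Option K`:
* pure edge of `p`: `d ↦ some (offset of lineThru p d)`;
* `T x e`, for the chosen candidate of `x`: `star` at `x`, the line `E l` at direction `adir l`, else the line through the base.
Pure edges: points of `W b` and designated points of the chosen gadgets.
-/

set_option autoImplicit false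
set_option linter.unusedSectionVars false
set_option linter.unusedVariables false

namespace Crest.Agent.Ryser

open Finset

variable {K : Type} [Field K] [Fintype K] [DecidableEq K]

local notation "q" => Fintype.card K

/-- The hypergraph statement, over `K`, in terms of functions. -/
def HasHypergraph (K : Type) [Field K] [Fintype K] [DecidableEq K] : Prop :=
  ∃ EE : Finset (Dir K → Option K), EE.Nonempty ∧
    (∀ e ∈ EE, ∀ f ∈ EE, ∃ d, e d = f d) ∧
    (∀ (d : Dir K) (v : Option K), ∃ e ∈ EE, e d = v) ∧
    (∀ V : Finset (Dir K × Option K), (∀ e ∈ EE, ∃ d, (d, e d) ∈ V) → Fintype.card K + 1 ≤ V.card)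

/-- The graph of a function as a finset of vertices, transported to `Fin N`. -/
noncomputable def graphFin {N : ℕ} (ι : Dir K × Option K ≃ Fin N) (e : Dir K → Option K) : Finset (Fin N) :=
  (Finset.univ : Finset (Dir K)).image (fun d => ι (d, e d))

theorem mem_graphFin {N : ℕ} (ι : Dir K × Option K ≃ Fin N) (e : Dir K → Option K) (v : Fin N) :
    v ∈ graphFin ι e ↔ ∃ d, ι (d, e d) = v := by
  simp [graphFin]

theorem graphFin_injective {N : ℕ} (ι : Dir K × Option K ≃ Fin N) :
    Function.Injective (graphFin (K := K) ι) := by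
  intro e f h
  funext d
  have : ι (d, e d) ∈ graphFin ι f := by
    rw [← h, mem_graphFin]; exact ⟨d, rfl⟩
  rw [mem_graphFin] at this
  obtain ⟨d', hd'⟩ := this
  have := ι.injective hd'
  simp only [Prod.mk.injEq] at this
  rcases this with ⟨rfl, h2⟩
  exact h2.symm

/-- The translation to the statements S0045, S0046. -/
theorem hypergraph_transfer (hK : HasHypergraph K) :
    ∃ (N : ℕ) (part : Fin N → Fin (Fintype.card K + 1)) (E : Finset (Finset (Fin N))),
      E.Nonempty ∧
      (∀ e ∈ E, ∀ i : Fin (Fintype.card K + 1), (e.filter (fun v => part v = i)).card = 1) ∧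
      (∀ e ∈ E, ∀ f ∈ E, (e ∩ f).Nonempty) ∧
      (∀ i : Fin (Fintype.card K + 1), (Finset.univ.filter (fun v => part v = i)).card = Fintype.card K + 1) ∧
      (∀ v : Fin N, ∃ e ∈ E, v ∈ e) ∧
      (∀ S : Finset (Fin N), (∀ e ∈ E, (e ∩ S).Nonempty) → Fintype.card K + 1 ≤ S.card) := by
  classical
  obtain ⟨EE, hne, hint, hall, hcov⟩ := hK
  let ι : Dir K × Option K ≃ Fin (Fintype.card (Dir K × Option K)) := Fintype.equivFin _
  have hcardD : Fintype.card (Dir K) = Fintype.card K + 1 := by simp
  let δ : Dir K ≃ Fin (Fintype.card K + 1) := Fintype.equivFinOfCardEq hcardD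
  let part : Fin (Fintype.card (Dir K × Option K)) → Fin (Fintype.card K + 1) := fun v => δ (ι.symm v).1
  have hpart : ∀ (d : Dir K) (w : Option K), part (ι (d, w)) = δ d := by
    intro d w; simp [part]
  refine ⟨_, part, EE.image (graphFin ι), hne.image _, ?_, ?_, ?_, ?_, ?_⟩
  · intro e he i
    obtain ⟨e', -, rfl⟩ := Finset.mem_image.1 he
    rw [Finset.card_eq_one]
    refine ⟨ι (δ.symm i, e' (δ.symm i)), ?_⟩
    ext v
    simp only [Finset.mem_filter, Finset.mem_singleton, mem_graphFin]
    constructor
    · rintro ⟨⟨d, rfl⟩, hp⟩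
      rw [hpart] at hp
      have : d = δ.symm i := by rw [← hp]; simp
      rw [this]
    · rintro rfl
      exact ⟨⟨_, rfl⟩, by rw [hpart]; simp⟩
  · intro e he f hf
    obtain ⟨e', he', rfl⟩ := Finset.mem_image.1 he
    obtain ⟨f', hf', rfl⟩ := Finset.mem_image.1 hf
    obtain ⟨d, hd⟩ := hint e' he' f' hf'
    refine ⟨ι (d, e' d), Finset.mem_inter.2 ⟨(mem_graphFin _ _ _).2 ⟨d, rfl⟩, (mem_graphFin _ _ _).2 ⟨d, ?_⟩⟩⟩
    rw [hd]
  · intro i
    have : (Finset.univ.filter (fun v => part v = i)) =
        (Finset.univ : Finset (Option K)).image (fun w => ι (δ.symm i, w)) := by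
      ext v
      simp only [Finset.mem_filter, Finset.mem_univ, true_and, Finset.mem_image]
      constructor
      · intro hv
        refine ⟨(ι.symm v).2, ?_⟩
        have h1 : (ι.symm v).1 = δ.symm i := by
          rw [← hv]; simp [part]
        have : ((δ.symm i, (ι.symm v).2) : Dir K × Option K) = ι.symm v := by
          rw [← h1]
        rw [this]; simp
      · rintro ⟨w, rfl⟩
        rw [hpart]; simp
    rw [this, Finset.card_image_of_injective]
    · simp
    · intro a b hab
      have := ι.injective hab
      simpa using this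
  · intro v
    obtain ⟨e, he, hev⟩ := hall (ι.symm v).1 (ι.symm v).2
    refine ⟨graphFin ι e, Finset.mem_image_of_mem _ he, (mem_graphFin _ _ _).2 ⟨(ι.symm v).1, ?_⟩⟩
    rw [hev]; simp
  · intro S hS
    have h := hcov (S.map ι.symm.toEmbedding) ?_
    · simpa using h
    · intro e he
      obtain ⟨v, hv⟩ := hS _ (Finset.mem_image_of_mem (graphFin ι) he)
      obtain ⟨hv1, hv2⟩ := Finset.mem_inter.1 hv
      obtain ⟨d, rfl⟩ := (mem_graphFin _ _ _).1 hv1
      refine ⟨d, ?_⟩
      rw [Finset.mem_map]
      exact ⟨_, hv2, by simp⟩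

end Crest.Agent.Ryser
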