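import Crest.Agent.Ryser.AssemblyA

/-!
# The edges of the hypergraph; intersections; all vertices are used.
-/

set_option autoImplicit false
set_option linter.unusedSectionVars false
set_option linter.unusedVariables false

namespace Crest.Agent.Ryser

open Finset

variable {K : Type} [Field K] [Fintype K] [DecidableEq K]

theorem fin2_cases (i i' : Fin 2) (h : ¬ i = i') : (i = 0 ∧ i' = 1) ∨ (i = 1 ∧ i' = 0) := by
  revert i i'; decide

section basics
variable {C : UData K} {B : BData C} (A : AData B)

theorem cls_adir (x : Dir K) (i e : Fin 2) (l : Fin 10) : cls (A.adir x i e l) = (e, l) := by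
  have := A.adir_mem x i e l
  simp only [BData.dom, mem_filter, mem_univ, true_and] at this
  exact this.1

theorem adir_ne (x : Dir K) (i e : Fin 2) (l : Fin 10) : A.adir x i e l ≠ x := by
  have := A.adir_mem x i e l
  simp only [BData.dom, mem_filter, mem_univ, true_and] at this
  exact this.2.1

theorem free_adir (x : Dir K) (i e : Fin 2) (l : Fin 10) :
    B.Free (B.base x i e) (A.adir x i e l) := by
  have := A.adir_mem x i e l
  simp only [BData.dom, mem_filter, mem_univ, true_and] at this
  exact this.2.2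

theorem asm_base_mem_all (x : Dir K) (i e : Fin 2) : B.base x i e ∈ B.all := by
  simp only [BData.all, mem_image, mem_univ, true_and]
  exact ⟨(x, i, e), rfl⟩

theorem asm_base_on_U (x : Dir K) (i e : Fin 2) : On (B.base x i e) (C.line x i) := by
  have := B.base_mem x i e
  simp only [Surv0, mem_filter, mem_linePts] at this
  exact this.1

theorem asm_base_off_U (x y : Dir K) (i i' e : Fin 2) (hy : y ≠ x) :
    ¬ On (B.base x i e) (C.line y i') := by
  have := B.base_mem x i e
  simp only [Surv0, mem_filter, mem_linePts] at this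
  exact this.2 y hy i'

theorem asm_base_on_A (x : Dir K) (i e : Fin 2) (j : Fin 10) :
    On (B.base x i e) (A.line x i e j) := on_lineThru _ _

theorem A_line_fst (x : Dir K) (i e : Fin 2) (j : Fin 10) :
    (A.line x i e j).1 = A.adir x i e j := lineThru_fst _ _

theorem C_line_fst (C : UData K) (x : Dir K) (i : Fin 2) : (C.line x i).1 = x := rfl

theorem A_ne_U (x y : Dir K) (i i' e : Fin 2) (j : Fin 10) :
    A.line x i e j ≠ C.line y i' := by
  intro h
  have h1 : A.adir x i e j = y := by
    have := congrArg Prod.fst h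
    rwa [A_line_fst, C_line_fst] at this
  have hy : y ≠ x := h1 ▸ adir_ne A x i e j
  exact asm_base_off_U x y i i' e hy (h ▸ asm_base_on_A A x i e j)

theorem U_inj {x y : Dir K} {i i' : Fin 2} (h : C.line x i = C.line y i') : x = y ∧ i = i' := by
  have hxy : x = y := congrArg Prod.fst h
  subst hxy
  refine ⟨rfl, ?_⟩
  have h2 : C.off x i = C.off x i' := congrArg Prod.snd h
  by_contra hne
  have : (i = 0 ∧ i' = 1) ∨ (i = 1 ∧ i' = 0) := fin2_cases i i' hne
  rcases this with ⟨rfl, rfl⟩ | ⟨rfl, rfl⟩
  · exact C.off_ne x h2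
  · exact C.off_ne x h2.symm

theorem base_eq_index {x y : Dir K} {i i' e e' : Fin 2}
    (h : B.base x i e = B.base y i' e') : x = y ∧ i = i' ∧ e = e' := by
  have hxy : x = y := by
    by_contra hne
    have h1 := asm_base_on_U (B := B) y i' e'
    rw [← h] at h1
    exact asm_base_off_U x y i i' e (Ne.symm hne) h1
  subst hxy
  have hi : i = i' := by
    by_contra hne
    have h1 := asm_base_on_U (B := B) x i' e'
    rw [← h] at h1
    have h2 := asm_base_on_U (B := B) x i e
    have : C.line x i ≠ C.line x i' := fun hh => hne (U_inj hh).2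
    exact not_on_of_parallel (l := C.line x i) (l' := C.line x i') rfl this h2 h1
  subst hi
  refine ⟨rfl, rfl, ?_⟩
  by_contra hne
  have : (e = 0 ∧ e' = 1) ∨ (e = 1 ∧ e' = 0) := fin2_cases e e' hne
  rcases this with ⟨rfl, rfl⟩ | ⟨rfl, rfl⟩
  · exact B.base_ne x i h
  · exact B.base_ne x i h.symm

theorem A_line_inj {x y : Dir K} {i i' e e' : Fin 2} {j j' : Fin 10}
    (h : A.line x i e j = A.line y i' e' j') : x = y ∧ i = i' ∧ e = e' ∧ j = j' := by
  have hon := asm_base_on_A A y i' e' j'
  rw [← h] at hon
  have hb : B.base y i' e' = B.base x i e := by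
    by_contra hne
    exact free_adir A x i e j _ (asm_base_mem_all y i' e') hne hon
  obtain ⟨h1, h2, h3⟩ := base_eq_index hb
  subst h1; subst h2; subst h3
  refine ⟨rfl, rfl, rfl, ?_⟩
  have hd : A.adir y i' e' j = A.adir y i' e' j' := by
    have := congrArg Prod.fst h
    rwa [A_line_fst, A_line_fst] at this
  have := congrArg cls hd
  rw [cls_adir, cls_adir] at this
  exact (Prod.mk.inj this).2

theorem U_mem_holes (x : Dir K) (i : Fin 2) : C.line x i ∈ A.holes := by
  simp only [AData.holes, mem_union, mem_image, mem_univ, true_and]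
  exact Or.inl ⟨(x, i), rfl⟩

theorem A_mem_holes (x : Dir K) (i e : Fin 2) (j : Fin 10) : A.line x i e j ∈ A.holes := by
  simp only [AData.holes, mem_union, mem_image, mem_univ, true_and]
  exact Or.inr ⟨(x, i, e, j), rfl⟩

end basics

section keepfacts
variable {C : UData K} {B : BData C} {A : AData B} (Kd : KData A)

theorem keep_on (x : Dir K) (i : Fin 2) (l : Fin 10) : On (Kd.keep x i l) (C.line x i) :=
  on_param _ _

theorem keep_only (x : Dir K) (i : Fin 2) (l : Fin 10) (h : Ln K) (hh : h ∈ A.holes)
    (hne : h ≠ C.line x i) : ¬ On (Kd.keep x i l) h := by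
  have := Kd.s_mem x i l
  simp only [goodS, mem_filter, mem_univ, true_and] at this
  exact this.1 h hh hne

theorem adir_ne_adir (x : Dir K) (i e : Fin 2) {j l : Fin 10} (hl : l ≠ j) :
    (A.line x i e j).1 ≠ (eLine A x i e l (Kd.s x i l)).1 := by
  rw [A_line_fst]
  simp only [eLine, lineThru_fst]
  intro h
  have := congrArg cls h
  rw [cls_adir, cls_adir] at this
  exact hl (Prod.mk.inj this).2.symm

theorem M_on_A (x : Dir K) (i e : Fin 2) {j l : Fin 10} (hl : l ≠ j) :
    On (Kd.M x i e j l) (A.line x i e j) :=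
  on_cross_left (adir_ne_adir Kd x i e hl)

theorem M_on_E (x : Dir K) (i e : Fin 2) {j l : Fin 10} (hl : l ≠ j) :
    On (Kd.M x i e j l) (Kd.E x i e l) :=
  on_cross_right (adir_ne_adir Kd x i e hl)

theorem M_only (x : Dir K) (i e : Fin 2) {j l : Fin 10} (hl : l ≠ j) (h : Ln K) (hh : h ∈ A.holes)
    (hne : h ≠ A.line x i e j) : ¬ On (Kd.M x i e j l) h := by
  have := Kd.s_mem x i l
  simp only [goodS, mem_filter, mem_univ, true_and] at this
  exact this.2 e j hl.symm h hh hne

theorem keep_on_E (x : Dir K) (i e : Fin 2) (l : Fin 10) : On (Kd.keep x i l) (Kd.E x i e l) :=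
  on_lineThru _ _

theorem E_fst (x : Dir K) (i e : Fin 2) (l : Fin 10) : (Kd.E x i e l).1 = A.adir x i e l := by
  simp only [KData.E, eLine, lineThru_fst]

end keepfacts

variable {C : UData K} {B : BData C} {A : AData B} (Kd : KData A) (b : Dir K → Fin 2)

/-- The pure edge of a point. -/
def pureEdge (p : Pt K) : Dir K → Option K := fun d => some (lineThru p d).2

/-- The edge `T` of base `e` of the chosen candidate of `x`. -/
noncomputable def tEdge (x : Dir K) (e : Fin 2) : Dir K → Option K := fun d =>
  if d = x then none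
  else if (cls d).1 = e ∧ A.adir x (b x) e (cls d).2 = d then some (Kd.E x (b x) e (cls d).2).2
  else some (lineThru (B.base x (b x) e) d).2

/-- The points with a pure edge: `W b` and the designated points of the chosen gadgets. -/
noncomputable def purePts : Finset (Pt K) :=
  A.W b ∪ (univ : Finset (Dir K × Option (Fin 2 × Fin 10))).biUnion
    (fun t => Kd.des (t.1, b t.1, t.2))

open Classical in
/-- All the edges. -/
noncomputable def allEdges : Finset (Dir K → Option K) :=
  (purePts Kd b).image pureEdge ∪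
    (univ : Finset (Dir K × Fin 2)).image (fun t => tEdge Kd b t.1 t.2)

theorem pureEdge_eq_of_on {p : Pt K} {l : Ln K} (h : On p l) : pureEdge p l.1 = some l.2 := by
  simp only [pureEdge]
  rw [lineThru_of_on h]

theorem pure_pure_inter (p p' : Pt K) : ∃ d, pureEdge p d = pureEdge p' d := by
  by_cases hne : p = p'
  · subst hne; exact ⟨none, rfl⟩
  · refine ⟨(line2 p p').1, ?_⟩
    rw [pureEdge_eq_of_on (on_line2_left p p'), pureEdge_eq_of_on (on_line2_right hne)]

/-- The value of `T` at the direction of the `l`-th hole. -/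
theorem tEdge_adir (x : Dir K) (e : Fin 2) (l : Fin 10) :
    tEdge Kd b x e (A.adir x (b x) e l) = some (Kd.E x (b x) e l).2 := by
  unfold tEdge
  rw [if_neg (adir_ne A x (b x) e l), cls_adir]
  simp

/-- The value of `T` at a direction that is not a hole direction. -/
theorem tEdge_other (x : Dir K) (e : Fin 2) (d : Dir K) (hd : d ≠ x)
    (hd2 : ∀ l, A.adir x (b x) e l ≠ d) :
    tEdge Kd b x e d = some (lineThru (B.base x (b x) e) d).2 := by
  unfold tEdge
  rw [if_neg hd, if_neg]
  rintro ⟨_, h⟩
  exact hd2 _ h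

theorem tEdge_self (x : Dir K) (e : Fin 2) : tEdge Kd b x e x = none := by
  unfold tEdge
  rw [if_pos rfl]

/-- A point of `purePts` on a chosen hole: it is a designated point of this hole. -/
theorem des_of_purePts {p : Pt K} (hp : p ∈ purePts Kd b) (y : Dir K)
    (hy : ¬ On p (C.line y (b y)) → ∃ e l, On p (A.line y (b y) e l)) :
    (∃ (z : Dir K) (t : Option (Fin 2 × Fin 10)), p ∈ Kd.des (z, b z, t)) := by
  simp only [purePts, mem_union, mem_biUnion, mem_univ, true_and] at hp
  rcases hp with hp | ⟨⟨z, t⟩, hp⟩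
  · exfalso
    simp only [AData.W, mem_filter, mem_univ, true_and] at hp
    by_cases h : On p (C.line y (b y))
    · exact (hp y).1 h
    · obtain ⟨e, l, hl⟩ := hy h
      exact (hp y).2 e l hl
  · exact ⟨z, t, hp⟩

/-- Designated points of chosen gadgets on the `U` line of `x`. -/
theorem keep_of_purePts_on_U {p : Pt K} (hp : p ∈ purePts Kd b) (x : Dir K)
    (hon : On p (C.line x (b x))) : ∃ l, p = Kd.keep x (b x) l := by
  obtain ⟨z, t, hz⟩ := des_of_purePts Kd b hp x (fun h => absurd hon h)
  rcases t with _ | ⟨e, j⟩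
  · simp only [KData.des, mem_image, mem_univ, true_and] at hz
    obtain ⟨l, rfl⟩ := hz
    by_cases hlines : C.line x (b x) = C.line z (b z)
    · obtain ⟨h1, _⟩ := U_inj hlines
      subst h1
      exact ⟨l, rfl⟩
    · exact absurd hon (keep_only Kd z (b z) l _ (U_mem_holes A _ _) hlines)
  · simp only [KData.des, mem_image, mem_filter, mem_univ, true_and] at hz
    obtain ⟨l, hl, rfl⟩ := hz
    exact absurd hon (M_only Kd z (b z) e hl _ (U_mem_holes A _ _) (A_ne_U A _ _ _ _ _ _).symm)

/-- Designated points of chosen gadgets on the `A` line `j` of `x`. -/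
theorem M_of_purePts_on_A {p : Pt K} (hp : p ∈ purePts Kd b) (x : Dir K) (e : Fin 2) (j : Fin 10)
    (hon : On p (A.line x (b x) e j)) : ∃ l, l ≠ j ∧ p = Kd.M x (b x) e j l := by
  obtain ⟨z, t, hz⟩ := des_of_purePts Kd b hp x (fun h => ⟨e, j, hon⟩)
  rcases t with _ | ⟨e', j'⟩
  · simp only [KData.des, mem_image, mem_univ, true_and] at hz
    obtain ⟨l, rfl⟩ := hz
    exact absurd hon (keep_only Kd z (b z) l _ (A_mem_holes A _ _ _ _) (A_ne_U A _ _ _ _ _ _))
  · simp only [KData.des, mem_image, mem_filter, mem_univ, true_and] at hz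
    obtain ⟨l, hl, rfl⟩ := hz
    by_cases hlines : A.line x (b x) e j = A.line z (b z) e' j'
    · obtain ⟨h1, _, h3, h4⟩ := A_line_inj A hlines
      subst h1; subst h3; subst h4
      exact ⟨l, hl, rfl⟩
    · exact absurd hon (M_only Kd z (b z) e' hl _ (A_mem_holes A _ _ _ _) hlines)

/-- `T` and a pure edge: the line joining the base and the point, or, if this is an own hole, the point is a designated point of this hole, and lies on an `E`. -/
theorem pure_t_inter (p : Pt K) (hp : p ∈ purePts Kd b) (x : Dir K) (e : Fin 2) :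
    ∃ d, pureEdge p d = tEdge Kd b x e d := by
  -- a point on the line `E l` sees `T` at the direction of `E l`
  have onE : ∀ l, On p (Kd.E x (b x) e l) → ∃ d, pureEdge p d = tEdge Kd b x e d := by
    intro l hl
    refine ⟨A.adir x (b x) e l, ?_⟩
    rw [tEdge_adir]
    have := pureEdge_eq_of_on hl
    rwa [E_fst] at this
  by_cases hpc : p = B.base x (b x) e
  · -- the base is no point of `purePts`
    exfalso
    obtain ⟨l, hl⟩ := keep_of_purePts_on_U Kd b hp x (hpc ▸ asm_base_on_U x (b x) e)
    have h1 := asm_base_on_A A x (b x) e 0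
    rw [← hpc, hl] at h1
    exact keep_only Kd x (b x) l _ (A_mem_holes A _ _ _ _) (A_ne_U A _ _ _ _ _ _) h1
  · set c := B.base x (b x) e with hc
    have hcne : c ≠ p := Ne.symm hpc
    set L := line2 c p with hL
    have hLc : On c L := on_line2_left _ _
    have hLp : On p L := on_line2_right hcne
    by_cases hdx : L.1 = x
    · -- `L` is the line `U`
      have hLU : L = C.line x (b x) := eq_of_on_of_dir_eq hLc (asm_base_on_U x (b x) e) hdx
      obtain ⟨l, rfl⟩ := keep_of_purePts_on_U Kd b hp x (hLU ▸ hLp)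
      exact onE l (keep_on_E Kd x (b x) e l)
    · by_cases hda : ∃ j, A.adir x (b x) e j = L.1
      · obtain ⟨j, hj⟩ := hda
        have hLA : L = A.line x (b x) e j :=
          eq_of_on_of_dir_eq hLc (asm_base_on_A A x (b x) e j) (by rw [A_line_fst, hj])
        obtain ⟨l, hl, rfl⟩ := M_of_purePts_on_A Kd b hp x e j (hLA ▸ hLp)
        exact onE l (M_on_E Kd x (b x) e hl)
      · push Not at hda
        refine ⟨L.1, ?_⟩
        rw [tEdge_other Kd b x e L.1 hdx hda, pureEdge_eq_of_on hLp]
        rw [lineThru_of_on hLc]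

/-- Same direction: the star.  Different directions: the line joining the bases. -/
theorem t_t_inter (x y : Dir K) (e e' : Fin 2) :
    ∃ d, tEdge Kd b x e d = tEdge Kd b y e' d := by
  by_cases hxy : x = y
  · subst hxy
    exact ⟨x, by rw [tEdge_self, tEdge_self]⟩
  · have key : ∀ (x y : Dir K) (e e' : Fin 2), x ≠ y →
        ∀ L : Ln K, On (B.base x (b x) e) L → On (B.base y (b y) e') L →
          tEdge Kd b x e L.1 = some L.2 := by
      intro x y e e' hxy L h1 h2
      have hne : B.base y (b y) e' ≠ B.base x (b x) e := by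
        intro h
        exact hxy (base_eq_index h).1.symm
      have hdx : L.1 ≠ x := by
        intro hd
        have hLU : L = C.line x (b x) := eq_of_on_of_dir_eq h1 (asm_base_on_U x (b x) e) hd
        exact asm_base_off_U y x (b y) (b x) e' hxy (hLU ▸ h2)
      have hda : ∀ l, A.adir x (b x) e l ≠ L.1 := by
        intro l hl
        have hLA : L = A.line x (b x) e l :=
          eq_of_on_of_dir_eq h1 (asm_base_on_A A x (b x) e l) (by rw [A_line_fst, hl])
        have h3 := h2
        rw [hLA] at h3
        exact free_adir A x (b x) e l _ (asm_base_mem_all y (b y) e') hne h3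
      rw [tEdge_other Kd b x e L.1 hdx hda, lineThru_of_on h1]
    have hne : B.base x (b x) e ≠ B.base y (b y) e' := by
      intro h
      exact hxy (base_eq_index h).1
    refine ⟨(line2 (B.base x (b x) e) (B.base y (b y) e')).1, ?_⟩
    rw [key x y e e' hxy _ (on_line2_left _ _) (on_line2_right hne),
      key y x e' e (Ne.symm hxy) _ (on_line2_right hne) (on_line2_left _ _)]

theorem pureEdge_mem_allEdges {p : Pt K} (hp : p ∈ purePts Kd b) :
    pureEdge p ∈ allEdges Kd b := by
  classical
  simp only [allEdges, mem_union, mem_image]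
  exact Or.inl ⟨p, hp, rfl⟩

theorem tEdge_mem_allEdges (x : Dir K) (e : Fin 2) :
    tEdge Kd b x e ∈ allEdges Kd b := by
  classical
  simp only [allEdges, mem_union, mem_image]
  exact Or.inr ⟨(x, e), mem_univ _, rfl⟩

theorem keep_mem_purePts (x : Dir K) (l : Fin 10) : Kd.keep x (b x) l ∈ purePts Kd b := by
  simp only [purePts, mem_union, mem_biUnion, mem_univ, true_and]
  refine Or.inr ⟨(x, none), ?_⟩
  simp only [KData.des, mem_image, mem_univ, true_and]
  exact ⟨l, rfl⟩

theorem M_mem_purePts (x : Dir K) (e : Fin 2) {j l : Fin 10} (hl : l ≠ j) :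
    Kd.M x (b x) e j l ∈ purePts Kd b := by
  simp only [purePts, mem_union, mem_biUnion, mem_univ, true_and]
  refine Or.inr ⟨(x, some (e, j)), ?_⟩
  simp only [KData.des, mem_image, mem_filter, mem_univ, true_and]
  exact ⟨l, hl, rfl⟩

/-- All vertices are used: given `|surv ℓ| > 0`. -/
theorem all_used (hsurv : ∀ ℓ, (A.surv ℓ).Nonempty) (d : Dir K) (v : Option K) :
    ∃ f ∈ allEdges Kd b, f d = v := by
  rcases v with _ | o
  · exact ⟨_, tEdge_mem_allEdges Kd b d 0, tEdge_self Kd b d 0⟩
  · -- a point `p` of `purePts` on the line `(d, o)` gives the edge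
    have use : ∀ p ∈ purePts Kd b, On p (d, o) → ∃ f ∈ allEdges Kd b, f d = some o := by
      intro p hp hon
      exact ⟨_, pureEdge_mem_allEdges Kd b hp, pureEdge_eq_of_on hon⟩
    by_cases h1 : ∃ x, (d, o) = C.line x (b x)
    · obtain ⟨x, hx⟩ := h1
      exact use _ (keep_mem_purePts Kd b x 0) (hx ▸ keep_on Kd x (b x) 0)
    by_cases h2 : ∃ x e j, (d, o) = A.line x (b x) e j
    · obtain ⟨x, e, j, hx⟩ := h2
      obtain ⟨l, hl⟩ : ∃ l : Fin 10, l ≠ j := by
        by_cases hj : j = 0
        · exact ⟨1, by rw [hj]; decide⟩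
        · exact ⟨0, fun h => hj h.symm⟩
      exact use _ (M_mem_purePts Kd b x e hl) (hx ▸ M_on_A Kd x (b x) e hl)
    push Not at h1 h2
    obtain ⟨p, hp⟩ := hsurv (d, o)
    simp only [AData.surv, mem_filter, mem_linePts] at hp
    refine use p ?_ hp.1
    simp only [purePts, mem_union]
    left
    simp only [AData.W, mem_filter, mem_univ, true_and]
    intro x
    refine ⟨hp.2 _ (U_mem_holes A _ _) (Ne.symm (h1 x)), fun e l => ?_⟩
    exact hp.2 _ (A_mem_holes A _ _ _ _) (Ne.symm (h2 x e l))

end Crest.Agent.Ryser
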