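import Crest.Agent.Ryser.AssemblyB

/-!
# The cover analysis: pencils at non-bases and parallel classes.
Let `S` be `q` lines covering `purePts` (see BLUEPRINT.md).
-/

set_option autoImplicit false
set_option linter.unusedSectionVars false
set_option linter.unusedVariables false

namespace Crest.Agent.Ryser

open Finset

variable {K : Type} [Field K] [Fintype K] [DecidableEq K]

variable {C : UData K} {B : BData C} {A : AData B} (Kd : KData A) (b : Dir K → Fin 2)

/-- Is one of the chosen holes. -/
def IsChosen (b : Dir K → Fin 2) (A : AData B) (m : Ln K) : Prop :=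
  ∃ h : HIdx K, h.2.1 = b h.1 ∧ holeOf A h = m

/-- A point on no chosen hole other than `m`, where `m` is not chosen, is in `W b`. -/
theorem surv_subset_W {b : Dir K → Fin 2} {m : Ln K} (hm : ¬ IsChosen b A m) {p : Pt K}
    (hp : p ∈ A.surv m) : p ∈ A.W b := by
  have hp' := (mem_filter.mp hp).2
  refine mem_filter.mpr ⟨mem_univ _, fun x => ⟨?_, fun e l => ?_⟩⟩
  · refine hp' _ (mem_union_left _ (mem_image_of_mem _ (mem_univ (x, b x)))) ?_
    intro h
    exact hm ⟨(x, b x, none), rfl, h⟩
  · refine hp' _ (mem_union_right _ (mem_image_of_mem (fun v : VIdx K => A.line v.1 v.2.1 v.2.2.1 v.2.2.2)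
      (mem_univ (x, b x, e, l)))) ?_
    intro h
    exact hm ⟨(x, b x, some (e, l)), rfl, h⟩

/-- Counting: lines meeting `m` in one point each; the points of `P ⊆ m` are covered by lines
of `Bud` different from `m`, so `|P| ≤ |Bud|`. -/
theorem card_le_of_covered (m : Ln K) (P : Finset (Pt K)) (hP : ∀ p ∈ P, On p m) (Bud : Finset (Ln K))
    (hne : ∀ L ∈ Bud, L ≠ m) (hcov : ∀ p ∈ P, ∃ L ∈ Bud, On p L) : P.card ≤ Bud.card := by
  choose! f hf hf' using hcov
  refine card_le_card_of_injOn f hf ?_
  intro p hp p' hp' h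
  have hp1 : p ∈ P := hp
  have hp2 : p' ∈ P := hp'
  refine point_unique (l := f p) (l' := m) (hne _ (hf p hp1)) (hf' p hp1) (hP p hp1) ?_ (hP p' hp2)
  show On p' (f p)
  rw [show f p = f p' from h]
  exact hf' p' hp2

/-- A line through `z` missing from `S`, where few lines are missing at `z`, is a chosen hole. -/
theorem chosen_of_missing_pencil (S : Finset (Ln K)) (hS : S.card = Fintype.card K) (hcov : Covers S (A.W b))
    (z : Pt K) (m : Ln K) (hz : On z m) (hm : m ∉ S)
    (hk : (A.surv m).card > Fintype.card K + 1 - cnt S z) : IsChosen b A m := by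
  by_contra hch
  have hsplit : (S.filter (fun l => ¬ On z l)).card + cnt S z = S.card := by
    rw [add_comm]
    exact card_filter_add_card_filter_not (fun l => On z l)
  have h1 : ((A.surv m).erase z).card ≤ (S.filter (fun l => ¬ On z l)).card := by
    refine card_le_of_covered m _ (fun p hp => ?_) _ (fun L hL => ?_) (fun p hp => ?_)
    · exact mem_linePts.mp (mem_filter.mp (mem_of_mem_erase hp)).1
    · rintro rfl
      exact (mem_filter.mp hL).2 hz
    · have hp' := mem_of_mem_erase hp
      have hpz : p ≠ z := ne_of_mem_erase hp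
      obtain ⟨L, hL, hpL⟩ := hcov p (surv_subset_W hch hp')
      refine ⟨L, mem_filter.mpr ⟨hL, fun hzL => hm ?_⟩, hpL⟩
      have hpm : On p m := mem_linePts.mp (mem_filter.mp hp').1
      have := line_unique hpz hpL hzL hpm hz
      exact this ▸ hL
  have h2 : (A.surv m).card ≤ ((A.surv m).erase z).card + 1 := by
    have := pred_card_le_card_erase (s := A.surv m) (a := z)
    omega
  omega

/-- A line of direction `d` missing from `S`, where few lines are missing in `d`, is a chosen hole. -/
theorem chosen_of_missing_class (S : Finset (Ln K)) (hS : S.card = Fintype.card K) (hcov : Covers S (A.W b))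
    (m : Ln K) (hm : m ∉ S) (hk : (A.surv m).card > Fintype.card K - dirCnt S m.1) : IsChosen b A m := by
  by_contra hch
  have hsplit : (S.filter (fun l => ¬ l.1 = m.1)).card + dirCnt S m.1 = S.card := by
    rw [add_comm]
    exact card_filter_add_card_filter_not (fun l : Ln K => l.1 = m.1)
  have h1 : (A.surv m).card ≤ (S.filter (fun l => ¬ l.1 = m.1)).card := by
    refine card_le_of_covered m _ (fun p hp => ?_) _ (fun L hL => ?_) (fun p hp => ?_)
    · exact mem_linePts.mp (mem_filter.mp hp).1
    · rintro rfl
      exact (mem_filter.mp hL).2 rfl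
    · obtain ⟨L, hL, hpL⟩ := hcov p (surv_subset_W hch hp)
      refine ⟨L, mem_filter.mpr ⟨hL, fun hdir => hm ?_⟩, hpL⟩
      have hpm : On p m := mem_linePts.mp (mem_filter.mp hp).1
      have := eq_of_on_of_dir_eq hpL hpm hdir
      exact this ▸ hL
  omega

/-- Hole directions of a gadget with different labels differ. -/
theorem ac_adir_ne {x : Dir K} {i e : Fin 2} {j l : Fin 10} (h : j ≠ l) :
    A.adir x i e j ≠ A.adir x i e l := by
  intro heq
  have h1 := (mem_filter.mp (A.adir_mem x i e j)).2.1
  have h2 := (mem_filter.mp (A.adir_mem x i e l)).2.1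
  rw [heq, h2] at h1
  exact h (Prod.ext_iff.mp h1).2.symm

/-- Designated points lie on their hole. -/
theorem des_on (h : HIdx K) {p : Pt K} (hp : p ∈ Kd.des h) : On p (holeOf A h) := by
  rcases h with ⟨x, i, _ | ⟨e, j⟩⟩
  · simp only [KData.des, mem_image, mem_univ, true_and] at hp
    obtain ⟨l, rfl⟩ := hp
    exact on_param _ _
  · simp only [KData.des, mem_image, mem_filter, mem_univ, true_and] at hp
    obtain ⟨l, hl, rfl⟩ := hp
    refine on_cross_left ?_
    simp only [AData.line, eLine, lineThru_fst]
    exact ac_adir_ne hl.symm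

/-- A hole has at least 9 designated points. -/
theorem card_des_ge (h3 : P3 Kd) (h : HIdx K) : 9 ≤ (Kd.des h).card := by
  rcases h with ⟨x, i, _ | ⟨e, j⟩⟩
  · simp only [KData.des]
    rw [card_image_of_injective]
    · simp
    · intro l l' hll
      exact h3.s_inj x i (param_injective _ hll)
  · simp only [KData.des]
    rw [card_image_of_injOn]
    · have : (univ.filter (fun l : Fin 10 => l ≠ j)) = univ.erase j := by
        ext l; simp
      rw [this, card_erase_of_mem (mem_univ _)]
      simp
    · intro l hl l' hl' hll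
      exact h3.m_inj x i e j l l' (mem_filter.mp hl).2 (mem_filter.mp hl').2 hll

/-- Chosen designated points are pure points. -/
theorem des_mem_purePts {h : HIdx K} (hh : h.2.1 = b h.1) {p : Pt K} (hp : p ∈ Kd.des h) :
    p ∈ purePts Kd b := by
  refine mem_union_right _ (mem_biUnion.mpr ⟨(h.1, h.2.2), mem_univ _, ?_⟩)
  rcases h with ⟨x, i, t⟩
  simp only at hh
  subst hh
  exact hp

/-- The double count shared by both cases. -/
theorem double_count (M Bud : Finset (Ln K)) (D : Ln K → Finset (Pt K))
    (hcov : ∀ m ∈ M, ∀ p ∈ D m, ∃ L ∈ Bud, On p L)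
    (hon : ∀ m ∈ M, ∀ p ∈ D m, On p m)
    (hne : ∀ m ∈ M, ∀ L ∈ Bud, L ≠ m)
    (hbd : ∀ L ∈ Bud, (M.filter (fun m => ∃ p ∈ D m, On p L)).card ≤ 8) :
    ∑ m ∈ M, (D m).card ≤ 8 * Bud.card := by
  classical
  have h1 : ∀ m ∈ M, (D m).card ≤ ∑ L ∈ Bud, ((D m).filter (fun p => On p L)).card := by
    intro m hm
    have hsub : D m ⊆ Bud.biUnion (fun L => (D m).filter (fun p => On p L)) := by
      intro p hp
      obtain ⟨L, hL, hpL⟩ := hcov m hm p hp
      exact mem_biUnion.mpr ⟨L, hL, mem_filter.mpr ⟨hp, hpL⟩⟩
    exact (card_le_card hsub).trans card_biUnion_le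
  have h2 : ∀ L ∈ Bud, ∑ m ∈ M, ((D m).filter (fun p => On p L)).card ≤ 8 := by
    intro L hL
    have h3 : ∀ m ∈ M, ((D m).filter (fun p => On p L)).card ≤
        if ∃ p ∈ D m, On p L then 1 else 0 := by
      intro m hm
      split_ifs with hex
      · rw [card_le_one]
        intro p hp p' hp'
        obtain ⟨hp1, hp2⟩ := mem_filter.mp hp
        obtain ⟨hp1', hp2'⟩ := mem_filter.mp hp'
        exact point_unique (hne m hm L hL) hp2 (hon m hm p hp1) hp2' (hon m hm p' hp1')
      · push Not at hex
        rw [Nat.le_zero, card_eq_zero, filter_eq_empty_iff]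
        exact fun p hp => hex p hp
    calc _ ≤ ∑ m ∈ M, (if ∃ p ∈ D m, On p L then 1 else 0) := sum_le_sum h3
      _ = (M.filter (fun m => ∃ p ∈ D m, On p L)).card := by
        rw [card_filter]
      _ ≤ 8 := hbd L hL
  calc ∑ m ∈ M, (D m).card ≤ ∑ m ∈ M, ∑ L ∈ Bud, ((D m).filter (fun p => On p L)).card :=
        sum_le_sum h1
    _ = ∑ L ∈ Bud, ∑ m ∈ M, ((D m).filter (fun p => On p L)).card := sum_comm
    _ ≤ ∑ L ∈ Bud, 8 := sum_le_sum h2
    _ = 8 * Bud.card := by rw [sum_const, smul_eq_mul, mul_comm]

/-- Pencil at a non-base: impossible, by counting designated points (`8 k ≤ 8 (k - 1)`). -/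
theorem nonbase_case (h3 : P3 Kd) (S : Finset (Ln K)) (hS : S.card = Fintype.card K)
    (hcov : Covers S (purePts Kd b)) (z : Pt K) (hz : z ∉ B.all)
    (hch : ∀ m, On z m → m ∉ S → IsChosen b A m) : False := by
  classical
  let M : Finset (Ln K) := univ.filter (fun m => On z m ∧ m ∉ S)
  let Bud : Finset (Ln K) := S.filter (fun l => ¬ On z l)
  have hex : ∀ m ∈ M, ∃ h : HIdx K, h.2.1 = b h.1 ∧ holeOf A h = m := by
    intro m hm
    have hm' := (mem_filter.mp hm).2
    exact hch m hm'.1 hm'.2
  choose! h hh hh' using hex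
  let D : Ln K → Finset (Pt K) := fun m => (Kd.des (h m)).erase z
  -- cardinalities
  have hcardS : (S.filter (fun l => On z l)).card + Bud.card = S.card :=
    card_filter_add_card_filter_not _
  have hcardL : (univ.filter (fun l : Ln K => On z l)).card = Fintype.card K + 1 :=
    card_lines_through z
  have hcardM : (S.filter (fun l => On z l)).card + M.card = Fintype.card K + 1 := by
    rw [← hcardL, ← card_union_of_disjoint]
    · congr 1
      ext l
      simp only [mem_union, mem_filter, M, mem_univ, true_and]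
      tauto
    · rw [Finset.disjoint_left]
      intro l hl hl'
      exact (mem_filter.mp hl').2.2 (mem_filter.mp hl).1
  have hM : M.card = Bud.card + 1 := by omega
  -- the count
  have hD : ∀ m ∈ M, 8 ≤ (D m).card := by
    intro m _
    have h1 := card_des_ge Kd h3 (h m)
    have h2 := pred_card_le_card_erase (s := Kd.des (h m)) (a := z)
    show 8 ≤ ((Kd.des (h m)).erase z).card
    omega
  have hcount := double_count M Bud D
    (by
      intro m hm p hp
      have hp1 : p ∈ Kd.des (h m) := mem_of_mem_erase hp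
      have hpz : p ≠ z := ne_of_mem_erase hp
      obtain ⟨L, hL, hpL⟩ := hcov p (des_mem_purePts Kd b (hh m hm) hp1)
      refine ⟨L, mem_filter.mpr ⟨hL, fun hzL => ?_⟩, hpL⟩
      have hpm : On p m := by
        have := des_on Kd (h m) hp1
        rwa [hh' m hm] at this
      have := line_unique hpz hpL hzL hpm (mem_filter.mp hm).2.1
      exact (mem_filter.mp hm).2.2 (this ▸ hL))
    (by
      intro m hm p hp
      have := des_on Kd (h m) (mem_of_mem_erase hp)
      rwa [hh' m hm] at this)
    (by
      rintro m hm L hL rfl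
      exact (mem_filter.mp hL).2 (mem_filter.mp hm).2.1)
    (by
      intro L hL
      have hzL : ¬ On z L := (mem_filter.mp hL).2
      refine le_trans ?_ (h3.g1pt z hz L hzL)
      refine card_le_card_of_injOn h ?_ ?_
      · intro m hm
        have hm' := mem_filter.mp (show m ∈ M.filter (fun m => ∃ p ∈ D m, On p L) from hm)
        refine mem_filter.mpr ⟨mem_univ _, ?_, ?_⟩
        · rw [hh' m hm'.1]
          exact (mem_filter.mp hm'.1).2.1
        · obtain ⟨p, hp, hpL⟩ := hm'.2
          exact ⟨p, mem_of_mem_erase hp, hpL⟩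
      · intro m hm m' hm' hmm
        have h1 := (mem_filter.mp (show m ∈ M.filter (fun m => ∃ p ∈ D m, On p L) from hm)).1
        have h2 := (mem_filter.mp (show m' ∈ M.filter (fun m => ∃ p ∈ D m, On p L) from hm')).1
        rw [← hh' m h1, ← hh' m' h2, hmm])
  have hsum : 8 * M.card ≤ ∑ m ∈ M, (D m).card := by
    have := card_nsmul_le_sum M (fun m => (D m).card) 8 hD
    simpa [mul_comm] using this
  omega

/-- Parallel class: `S` is the whole class (`9 k ≤ 8 k`). -/
theorem class_case (h3 : P3 Kd) (S : Finset (Ln K)) (hS : S.card = Fintype.card K)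
    (hcov : Covers S (purePts Kd b)) (d : Dir K)
    (hch : ∀ m : Ln K, m.1 = d → m ∉ S → IsChosen b A m) : ∀ m : Ln K, m.1 = d → m ∈ S := by
  classical
  let M : Finset (Ln K) := univ.filter (fun m => m.1 = d ∧ m ∉ S)
  let Bud : Finset (Ln K) := S.filter (fun l => l.1 ≠ d)
  have hex : ∀ m ∈ M, ∃ h : HIdx K, h.2.1 = b h.1 ∧ holeOf A h = m := by
    intro m hm
    have hm' := (mem_filter.mp hm).2
    exact hch m hm'.1 hm'.2
  choose! h hh hh' using hex
  let D : Ln K → Finset (Pt K) := fun m => Kd.des (h m)
  have hcardS : (S.filter (fun l => l.1 = d)).card + Bud.card = S.card :=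
    card_filter_add_card_filter_not _
  have hcardL : (univ.filter (fun l : Ln K => l.1 = d)).card = Fintype.card K :=
    card_lines_of_dir d
  have hcardM : (S.filter (fun l => l.1 = d)).card + M.card = Fintype.card K := by
    rw [← hcardL, ← card_union_of_disjoint]
    · congr 1
      ext l
      simp only [mem_union, mem_filter, M, mem_univ, true_and]
      tauto
    · rw [Finset.disjoint_left]
      intro l hl hl'
      exact (mem_filter.mp hl').2.2 (mem_filter.mp hl).1
  have hM : M.card = Bud.card := by omega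
  have hD : ∀ m ∈ M, 9 ≤ (D m).card := fun m _ => card_des_ge Kd h3 (h m)
  have hcount := double_count M Bud D
    (by
      intro m hm p hp
      obtain ⟨L, hL, hpL⟩ := hcov p (des_mem_purePts Kd b (hh m hm) hp)
      refine ⟨L, mem_filter.mpr ⟨hL, fun hdir => ?_⟩, hpL⟩
      have hpm : On p m := by
        have := des_on Kd (h m) hp
        rwa [hh' m hm] at this
      have := eq_of_on_of_dir_eq hpL hpm (hdir.trans (mem_filter.mp hm).2.1.symm)
      exact (mem_filter.mp hm).2.2 (this ▸ hL))
    (by
      intro m hm p hp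
      have := des_on Kd (h m) hp
      rwa [hh' m hm] at this)
    (by
      rintro m hm L hL rfl
      exact (mem_filter.mp hL).2 (mem_filter.mp hm).2.1)
    (by
      intro L hL
      have hdL : L.1 ≠ d := (mem_filter.mp hL).2
      refine le_trans ?_ (h3.g1par d L hdL)
      refine card_le_card_of_injOn h ?_ ?_
      · intro m hm
        have hm' := mem_filter.mp (show m ∈ M.filter (fun m => ∃ p ∈ D m, On p L) from hm)
        refine mem_filter.mpr ⟨mem_univ _, ?_, ?_⟩
        · rw [hh' m hm'.1]
          exact (mem_filter.mp hm'.1).2.1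
        · exact hm'.2
      · intro m hm m' hm' hmm
        have h1 := (mem_filter.mp (show m ∈ M.filter (fun m => ∃ p ∈ D m, On p L) from hm)).1
        have h2 := (mem_filter.mp (show m' ∈ M.filter (fun m => ∃ p ∈ D m, On p L) from hm')).1
        rw [← hh' m h1, ← hh' m' h2, hmm])
  have hsum : 9 * M.card ≤ ∑ m ∈ M, (D m).card := by
    have := card_nsmul_le_sum M (fun m => (D m).card) 9 hD
    simpa [mul_comm] using this
  have hM0 : M.card = 0 := by omega
  intro m hmd
  by_contra hmS
  have : m ∈ M := mem_filter.mpr ⟨mem_univ _, hmd, hmS⟩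
  rw [card_eq_zero] at hM0
  rw [hM0] at this
  simp at this

end Crest.Agent.Ryser
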