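import Mathlib

/-!
# Birthday second moment, abstract form (helper file of `Birthday.lean`).

`ω, ω' : Fin a → α` i.i.d. uniform.  For a symmetric `0/1` kernel `ρ` with `ρ`-degrees at most
`1/a` of `|α|`, the count `Z = ∑ i j, ρ (ω i) (ω' j)` has `E Z = μ` and `E Z² ≤ 3 μ + μ²`.
-/

set_option autoImplicit false
set_option linter.unusedSectionVars false
set_option linter.unusedVariables false

namespace Crest.Agent.Ryser.BirthdayAux

open Finset

section E
variable {β γ : Type} [Fintype β] [Fintype γ]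

/-- Average. -/
noncomputable def E (f : β → ℝ) : ℝ := (∑ a, f a) / Fintype.card β

theorem E_add (f g : β → ℝ) : E (fun a => f a + g a) = E f + E g := by
  simp [E, Finset.sum_add_distrib, add_div]

theorem E_mul_left (c : ℝ) (f : β → ℝ) : E (fun a => c * f a) = c * E f := by
  simp [E, ← Finset.mul_sum, mul_div_assoc]

theorem E_mul_right (c : ℝ) (f : β → ℝ) : E (fun a => f a * c) = E f * c := by
  simp [E, ← Finset.sum_mul, div_mul_eq_mul_div]

theorem E_const [Nonempty β] (c : ℝ) : E (fun _ : β => c) = c := by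
  have : (Fintype.card β : ℝ) ≠ 0 := by exact_mod_cast Fintype.card_ne_zero
  simp [E, Finset.card_univ, this]

theorem E_sum {ι : Type} (s : Finset ι) (f : ι → β → ℝ) :
    E (fun a => ∑ i ∈ s, f i a) = ∑ i ∈ s, E (f i) := by
  simp only [E]
  rw [Finset.sum_comm, Finset.sum_div]

theorem E_comm (f : β → γ → ℝ) :
    E (fun b => E (fun c => f b c)) = E (fun c => E (fun b => f b c)) := by
  simp only [E]
  rw [← Finset.sum_div, ← Finset.sum_div, Finset.sum_comm]
  ring

theorem E_prod (f : β × γ → ℝ) : E f = E (fun b => E (fun c => f (b, c))) := by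
  simp only [E]
  rw [← Finset.sum_div, Fintype.sum_prod_type, Fintype.card_prod]
  push_cast
  rw [div_div, mul_comm]

theorem E_mono {f g : β → ℝ} (h : ∀ a, f a ≤ g a) : E f ≤ E g := by
  simp only [E]
  exact div_le_div_of_nonneg_right (Finset.sum_le_sum fun a _ => h a) (by positivity)

theorem E_nonneg {f : β → ℝ} (h : ∀ a, 0 ≤ f a) : 0 ≤ E f := by
  simp only [E]
  exact div_nonneg (Finset.sum_nonneg fun a _ => h a) (by positivity)

theorem E_cs (f g : β → ℝ) : (E (fun a => f a * g a)) ^ 2 ≤ E (fun a => f a ^ 2) * E (fun a => g a ^ 2) := by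
  simp only [E]
  rw [div_pow, div_mul_div_comm, ← pow_two]
  have := Finset.sum_mul_sq_le_sq_mul_sq (univ : Finset β) f g
  exact div_le_div_of_nonneg_right this (by positivity)

end E

section moments
variable {α : Type} [Fintype α] [Nonempty α]

theorem E_cons {a : ℕ} (F : (Fin (a + 1) → α) → ℝ) :
    E F = E (fun u : α => E (fun ω : Fin a → α => F (Fin.cons u ω))) := by
  have h1 : E F = E (fun x : α × (Fin a → α) => F (Fin.cons x.1 x.2)) := by
    simp only [E]
    have hc : Fintype.card (Fin (a + 1) → α) = Fintype.card (α × (Fin a → α)) :=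
      (Fintype.card_congr (Fin.consEquiv (fun _ : Fin (a + 1) => α))).symm
    rw [hc]
    congr 1
    exact ((Fin.consEquiv (fun _ : Fin (a + 1) => α)).sum_comp F).symm
  rw [h1, E_prod]

theorem E_coord (g : α → ℝ) {a : ℕ} (i : Fin a) : E (fun ω : Fin a → α => g (ω i)) = E g := by
  induction a with
  | zero => exact i.elim0
  | succ a ih =>
    rw [E_cons]
    induction i using Fin.cases with
    | zero =>
      simp only [Fin.cons_zero]
      congr 1
      ext u
      exact E_const _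
    | succ j =>
      simp only [Fin.cons_succ]
      rw [E_const]
      exact ih j

/-- First moment of an i.i.d. sum. -/
theorem E_sum_iid (g : α → ℝ) (a : ℕ) :
    E (fun ω : Fin a → α => ∑ i, g (ω i)) = a * E g := by
  rw [E_sum]
  simp [E_coord]

/-- Second moment of an i.i.d. sum. -/
theorem E_sq_sum_iid (g : α → ℝ) (a : ℕ) :
    E (fun ω : Fin a → α => (∑ i, g (ω i)) ^ 2)
      = a * E (fun u => g u ^ 2) + a * (a - 1) * (E g) ^ 2 := by
  induction a with
  | zero =>
    simp [E_const]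
  | succ a ih =>
    rw [E_cons]
    have h1 : ∀ u : α, E (fun ω : Fin a → α =>
        (∑ i : Fin (a + 1), g ((Fin.cons u ω : Fin (a + 1) → α) i)) ^ 2)
        = g u ^ 2 + 2 * g u * (a * E g) + (a * E (fun u => g u ^ 2) + a * (a - 1) * (E g) ^ 2) := by
      intro u
      have h2 : ∀ ω : Fin a → α,
          (∑ i : Fin (a + 1), g ((Fin.cons u ω : Fin (a + 1) → α) i)) ^ 2
          = (g u ^ 2 + 2 * g u * (∑ i, g (ω i))) + (∑ i, g (ω i)) ^ 2 := by
        intro ω
        rw [Fin.sum_univ_succ]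
        simp only [Fin.cons_zero, Fin.cons_succ]
        ring
      simp only [h2]
      rw [E_add, E_add, E_const, E_mul_left, E_sum_iid, ih]
    simp only [h1]
    have h3 : ∀ u : α, g u ^ 2 + 2 * g u * (a * E g)
        + (a * E (fun u => g u ^ 2) + a * (a - 1) * (E g) ^ 2)
        = g u ^ 2 + (2 * a * E g) * g u
        + (a * E (fun u => g u ^ 2) + a * (a - 1) * (E g) ^ 2) := fun u => by ring
    simp only [h3]
    rw [E_add, E_add, E_const, E_mul_left]
    push_cast
    ring

/-- The bipartite count and its moments. -/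
theorem second_moment (ρ : α → α → ℝ) (hρ2 : ∀ u v, ρ u v ^ 2 = ρ u v) (hρ0 : ∀ u v, 0 ≤ ρ u v)
    (δ : ℝ) (hd : ∀ u, E (fun v => ρ u v) ≤ δ) (he : ∀ v, E (fun u => ρ u v) ≤ δ) (a : ℕ)
    (haδ : a * δ ≤ 1) :
    E (fun x : (Fin a → α) × (Fin a → α) => ∑ i, ∑ j, ρ (x.1 i) (x.2 j))
        = a ^ 2 * E (fun u => E (fun v => ρ u v)) ∧
    E (fun x : (Fin a → α) × (Fin a → α) => (∑ i, ∑ j, ρ (x.1 i) (x.2 j)) ^ 2)
        ≤ 3 * (a ^ 2 * E (fun u => E (fun v => ρ u v)))
          + (a ^ 2 * E (fun u => E (fun v => ρ u v))) ^ 2 := by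
  set p := E (fun u => E (fun v => ρ u v)) with hp
  set d : α → ℝ := fun u => E (fun v => ρ u v) with hdd
  set e : α → ℝ := fun v => E (fun u => ρ u v) with hee
  have hpe : E e = p := by rw [hee, hp]; exact (E_comm _).symm
  have hpd : E d = p := rfl
  have hd0 : ∀ u, 0 ≤ d u := fun u => E_nonneg (hρ0 u)
  have he0 : ∀ v, 0 ≤ e v := fun v => E_nonneg (fun u => hρ0 u v)
  have hp0 : 0 ≤ p := E_nonneg hd0
  have hswap : ∀ x : (Fin a → α) × (Fin a → α),
      ∑ i, ∑ j, ρ (x.1 i) (x.2 j) = ∑ j, ∑ i, ρ (x.1 i) (x.2 j) := fun x => Finset.sum_comm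
  constructor
  · rw [E_prod]
    have h1 : ∀ ω : Fin a → α, E (fun ω' : Fin a → α => ∑ i, ∑ j, ρ (ω i) (ω' j))
        = a * ∑ i, d (ω i) := by
      intro ω
      have : ∀ ω' : Fin a → α, ∑ i, ∑ j, ρ (ω i) (ω' j) = ∑ j, ∑ i, ρ (ω i) (ω' j) :=
        fun ω' => Finset.sum_comm
      simp only [this]
      rw [E_sum_iid (fun v => ∑ i, ρ (ω i) v) a, E_sum]
    simp only [h1]
    rw [E_mul_left, E_sum_iid, hpd]
    ring
  · rw [E_prod]
    have h1 : ∀ ω : Fin a → α, E (fun ω' : Fin a → α => (∑ i, ∑ j, ρ (ω i) (ω' j)) ^ 2)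
        = a * E (fun v => (∑ i, ρ (ω i) v) ^ 2) + a * (a - 1) * (∑ i, d (ω i)) ^ 2 := by
      intro ω
      have : ∀ ω' : Fin a → α, ∑ i, ∑ j, ρ (ω i) (ω' j) = ∑ j, ∑ i, ρ (ω i) (ω' j) :=
        fun ω' => Finset.sum_comm
      simp only [this]
      rw [E_sq_sum_iid (fun v => ∑ i, ρ (ω i) v) a, E_sum]
    simp only [h1]
    rw [E_add, E_mul_left, E_mul_left]
    have h2 : E (fun ω : Fin a → α => E (fun v => (∑ i, ρ (ω i) v) ^ 2))
        = a * p + a * (a - 1) * E (fun v => e v ^ 2) := by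
      rw [E_comm]
      have h3 : ∀ v : α, E (fun ω : Fin a → α => (∑ i, ρ (ω i) v) ^ 2)
          = a * e v + a * (a - 1) * e v ^ 2 := by
        intro v
        rw [E_sq_sum_iid (fun u => ρ u v) a]
        simp only [hρ2]
        rfl
      simp only [h3]
      rw [E_add, E_mul_left, E_mul_left, hpe]
    have h4 : E (fun ω : Fin a → α => (∑ i, d (ω i)) ^ 2)
        = a * E (fun u => d u ^ 2) + a * (a - 1) * p ^ 2 := by
      rw [E_sq_sum_iid d a, hpd]
    rw [h2, h4]
    have h5 : E (fun v => e v ^ 2) ≤ δ * p := by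
      rw [← hpe, ← E_mul_left]
      apply E_mono
      intro v
      have := mul_le_mul_of_nonneg_right (he v) (he0 v)
      nlinarith [this]
    have h6 : E (fun u => d u ^ 2) ≤ δ * p := by
      rw [← hpd, ← E_mul_left]
      apply E_mono
      intro u
      have := mul_le_mul_of_nonneg_right (hd u) (hd0 u)
      nlinarith [this]
    have ha0 : (0 : ℝ) ≤ a := by positivity
    rcases Nat.eq_zero_or_pos a with h0 | hapos
    · subst h0
      simp
    have ha1 : (1 : ℝ) ≤ a := by exact_mod_cast hapos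
    have h7 : (a : ℝ) * (a - 1) * E (fun v => e v ^ 2) ≤ a * (a - 1) * (δ * p) :=
      mul_le_mul_of_nonneg_left h5 (by nlinarith)
    have h8 : (a : ℝ) * (a - 1) * E (fun u => d u ^ 2) ≤ a * (a - 1) * (δ * p) :=
      mul_le_mul_of_nonneg_left h6 (by nlinarith)
    have h9 : (a : ℝ) * (a - 1) * (δ * p) ≤ a * p := by
      have : (a : ℝ) * δ * p ≤ 1 * p := mul_le_mul_of_nonneg_right haδ hp0
      have h10 : (a : ℝ) * (a - 1) * (δ * p) = (a - 1) * (a * δ * p) := by ring
      rw [h10]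
      have h11 : ((a : ℝ) - 1) * (a * δ * p) ≤ (a - 1) * (1 * p) :=
        mul_le_mul_of_nonneg_left this (by linarith)
      nlinarith
    have h12 : (a : ℝ) * (a * p + a * (a - 1) * E (fun v => e v ^ 2))
        + a * (a - 1) * (a * E (fun u => d u ^ 2) + a * (a - 1) * p ^ 2)
        = a ^ 2 * p + a * (a * (a - 1) * E (fun v => e v ^ 2))
          + a * (a * (a - 1) * E (fun u => d u ^ 2)) + (a * (a - 1)) ^ 2 * p ^ 2 := by ring
    rw [h12]
    have h13 : (a : ℝ) * (a * (a - 1) * E (fun v => e v ^ 2)) ≤ a * (a * p) :=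
      mul_le_mul_of_nonneg_left (h7.trans h9) ha0
    have h14 : (a : ℝ) * (a * (a - 1) * E (fun u => d u ^ 2)) ≤ a * (a * p) :=
      mul_le_mul_of_nonneg_left (h8.trans h9) ha0
    have h15 : ((a : ℝ) * (a - 1)) ^ 2 * p ^ 2 ≤ (a ^ 2 * p) ^ 2 := by
      have : (0 : ℝ) ≤ (a : ℝ) * (a - 1) := by nlinarith
      have h16 : (a : ℝ) * (a - 1) ≤ a ^ 2 := by nlinarith
      have h17 : ((a : ℝ) * (a - 1)) ^ 2 ≤ (a ^ 2) ^ 2 := pow_le_pow_left₀ this h16 2
      calc ((a : ℝ) * (a - 1)) ^ 2 * p ^ 2 ≤ (a ^ 2) ^ 2 * p ^ 2 :=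
            mul_le_mul_of_nonneg_right h17 (by positivity)
        _ = (a ^ 2 * p) ^ 2 := by ring
    nlinarith

/-- Probability that the count is positive, for a relation. -/
noncomputable def prEx (a : ℕ) (r : α → α → Prop) : ℝ := by
  classical exact
    ((univ.filter (fun x : (Fin a → α) × (Fin a → α) => ∃ i j, r (x.1 i) (x.2 j))).card : ℝ)
      / Fintype.card ((Fin a → α) × (Fin a → α))

/-- From the moments: a relation with `t`-bounded degrees (`a t ≤ n`) and `μ = a² N / n² ≥ 3/19` gives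
`pr ≥ 1/20`. -/
theorem prEx_ge (r : α → α → Prop) [∀ u v, Decidable (r u v)] (hsym : ∀ u v, r u v → r v u) (a t : ℕ)
    (ht : ∀ u, (univ.filter (fun v => r u v)).card ≤ t)
    (hat : a * t ≤ Fintype.card α)
    (hμ : 3 / 19 * (Fintype.card α : ℝ) ^ 2 ≤
      a ^ 2 * ((univ.filter (fun x : α × α => r x.1 x.2)).card : ℝ)) :
    1 / 20 ≤ prEx a r := by
  classical
  set n : ℝ := ((Fintype.card α : ℕ) : ℝ) with hn
  have hn0 : 0 < n := by rw [hn]; exact_mod_cast Fintype.card_pos
  set ρ : α → α → ℝ := fun u v => if r u v then 1 else 0 with hρ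
  have hρ2 : ∀ u v, ρ u v ^ 2 = ρ u v := by
    intro u v
    by_cases h : r u v <;> simp [hρ, h]
  have hρ0 : ∀ u v, 0 ≤ ρ u v := by
    intro u v
    by_cases h : r u v <;> simp [hρ, h]
  have hEρ : ∀ u, E (fun v => ρ u v) = ((univ.filter (fun v => r u v)).card : ℝ) / n := by
    intro u
    simp only [E, hρ]
    rw [Finset.sum_boole]
  have hEρ' : ∀ v, E (fun u => ρ u v) = ((univ.filter (fun u => r u v)).card : ℝ) / n := by
    intro v
    simp only [E, hρ]
    rw [Finset.sum_boole]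
  have hδ : ∀ u, E (fun v => ρ u v) ≤ (t : ℝ) / n := by
    intro u
    rw [hEρ]
    exact div_le_div_of_nonneg_right (by exact_mod_cast ht u) hn0.le
  have hδ' : ∀ v, E (fun u => ρ u v) ≤ (t : ℝ) / n := by
    intro v
    rw [hEρ']
    apply div_le_div_of_nonneg_right _ hn0.le
    have : (univ.filter (fun u => r u v)) ⊆ (univ.filter (fun u => r v u)) := by
      intro u hu
      simp only [mem_filter, mem_univ, true_and] at hu ⊢
      exact hsym _ _ hu
    exact_mod_cast (card_le_card this).trans (ht v)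
  have haδ : (a : ℝ) * ((t : ℝ) / n) ≤ 1 := by
    rw [← mul_div_assoc, div_le_one hn0]
    rw [hn]
    exact_mod_cast hat
  obtain ⟨hE1, hE2⟩ := second_moment ρ hρ2 hρ0 _ hδ hδ' a haδ
  set p := E (fun u => E (fun v => ρ u v)) with hp
  have hpN : p = ((univ.filter (fun x : α × α => r x.1 x.2)).card : ℝ) / n ^ 2 := by
    rw [hp]
    simp only [hEρ]
    simp only [E]
    rw [← Finset.sum_div, div_div, ← pow_two]
    congr 1
    rw [Finset.card_filter, Fintype.sum_prod_type]
    push_cast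
    apply Finset.sum_congr rfl
    intro u _
    rw [Finset.card_filter]
    push_cast
    rfl
  set μ : ℝ := a ^ 2 * p with hμdef
  have hμ' : 3 / 19 ≤ μ := by
    rw [hμdef, hpN, ← mul_div_assoc, le_div_iff₀ (by positivity)]
    exact hμ
  set Z : (Fin a → α) × (Fin a → α) → ℝ := fun x => ∑ i, ∑ j, ρ (x.1 i) (x.2 j) with hZ
  set I : (Fin a → α) × (Fin a → α) → ℝ :=
    fun x => if ∃ i j, r (x.1 i) (x.2 j) then 1 else 0 with hI
  have hZI : ∀ x, Z x * I x = Z x := by
    intro x
    by_cases h : ∃ i j, r (x.1 i) (x.2 j)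
    · simp [hI, h]
    · have h0 : Z x = 0 := by
        simp only [hZ]
        apply Finset.sum_eq_zero
        intro i _
        apply Finset.sum_eq_zero
        intro j _
        have : ¬ r (x.1 i) (x.2 j) := fun hr => h ⟨i, j, hr⟩
        simp [hρ, this]
      simp [h0]
  have hI2 : ∀ x, I x ^ 2 = I x := by
    intro x
    by_cases h : ∃ i j, r (x.1 i) (x.2 j) <;> simp [hI, h]
  have hEI : E I = prEx a r := by
    simp only [E, hI, prEx]
    rw [Finset.sum_boole]
    congr!
  have hcs := E_cs Z I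
  simp only [hZI, hI2] at hcs
  change (E Z) ^ 2 ≤ E (fun a => Z a ^ 2) * E I at hcs
  rw [hE1] at hcs
  rw [hEI] at hcs
  have hP0 : 0 ≤ prEx a r := by rw [← hEI]; exact E_nonneg (fun x => by by_cases h : ∃ i j, r (x.1 i) (x.2 j) <;> simp [hI, h])
  have h3 : μ ^ 2 ≤ (3 * μ + μ ^ 2) * prEx a r :=
    hcs.trans (mul_le_mul_of_nonneg_right hE2 hP0)
  have hμpos : 0 < μ := by linarith
  have h4 : μ ≤ (3 + μ) * prEx a r := by
    have : μ * μ ≤ μ * ((3 + μ) * prEx a r) := by nlinarith
    exact le_of_mul_le_mul_left this hμpos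
  nlinarith

open Classical in
theorem prEx_mono {r r' : α → α → Prop} (h : ∀ u v, r u v → r' u v) (a : ℕ) :
    prEx a r ≤ prEx a r' := by
  unfold prEx
  apply div_le_div_of_nonneg_right _ (by positivity)
  have : (univ.filter (fun x : (Fin a → α) × (Fin a → α) => ∃ i j, r (x.1 i) (x.2 j))) ⊆
      (univ.filter (fun x : (Fin a → α) × (Fin a → α) => ∃ i j, r' (x.1 i) (x.2 j))) := by
    intro x hx
    simp only [mem_filter, mem_univ, true_and] at hx ⊢
    obtain ⟨i, j, hr⟩ := hx
    exact ⟨i, j, h _ _ hr⟩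
  exact_mod_cast card_le_card this

open Classical in
/-- The heavy case: a set `B` of size `t = ⌊n / a⌋`. -/
theorem prEx_heavy (B : Finset α) (a : ℕ) (ha : 0 < a) (hB : B.card = Fintype.card α / a)
    (hn : 4 * a ≤ Fintype.card α) :
    1 / 20 ≤ prEx a (fun u v => u ≠ v ∧ u ∈ B ∧ v ∈ B) := by
  set n := Fintype.card α with hndef
  set t := n / a with htdef
  refine prEx_ge _ ?_ a t ?_ ?_ ?_
  · intro u v h
    exact ⟨h.1.symm, h.2.2, h.2.1⟩
  · intro u
    have : (univ.filter (fun v => u ≠ v ∧ u ∈ B ∧ v ∈ B)) ⊆ B := by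
      intro v hv
      simp only [mem_filter, mem_univ, true_and] at hv
      exact hv.2.2
    exact (card_le_card this).trans hB.le
  · exact Nat.mul_div_le _ _
  · have hfil : (univ.filter (fun x : α × α => x.1 ≠ x.2 ∧ x.1 ∈ B ∧ x.2 ∈ B)) = B.offDiag := by
      ext x
      simp only [mem_filter, mem_univ, true_and, mem_offDiag]
      tauto
    rw [hfil, offDiag_card, hB]
    have h1 : n < a * t + a := by
      have := Nat.lt_mul_div_succ n ha
      simpa [htdef, mul_add] using this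
    have ht1 : 1 ≤ t := by
      rw [htdef]
      apply (Nat.one_le_div_iff ha).mpr
      omega
    have hcast : ((t * t - t : ℕ) : ℝ) = (t : ℝ) * t - t := by
      rw [Nat.cast_sub (Nat.le_mul_self t)]
      push_cast
      ring
    rw [hcast]
    have h2 : (n : ℝ) < a * t + a := by exact_mod_cast h1
    have h3 : (4 : ℝ) * a ≤ n := by exact_mod_cast hn
    have ha' : (0 : ℝ) < a := by exact_mod_cast ha
    have h4 : (n : ℝ) * 3 / 4 ≤ a * t := by nlinarith
    have h5 : (n : ℝ) / 2 ≤ a * t - a := by nlinarith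
    have h6 : (0 : ℝ) ≤ n := by positivity
    have h7 : ((n : ℝ) * 3 / 4) * (n / 2) ≤ (a * t) * (a * t - a) :=
      mul_le_mul h4 h5 (by positivity) (by linarith)
    nlinarith

open Classical in
/-- The light case. -/
theorem prEx_light {X : Type} (A : Finset α) (f : α → X) (a D t : ℕ)
    (hat : a * t ≤ Fintype.card α)
    (hfib : ∀ x, (A.filter (fun u => f u = x)).card ≤ t)
    (hn : Fintype.card α ≤ 6 * A.card) (himg : (A.image f).card ≤ D)
    (hD : 200 * D ≤ Fintype.card α) (hD1 : 1 ≤ D) (ha : 6 * D ≤ a ^ 2) :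
    1 / 20 ≤ prEx a (fun u v => u ≠ v ∧ u ∈ A ∧ v ∈ A ∧ f u = f v) := by
  set n := Fintype.card α with hndef
  refine prEx_ge _ ?_ a t ?_ ?_ ?_
  · intro u v h
    exact ⟨h.1.symm, h.2.2.1, h.2.1, h.2.2.2.symm⟩
  · intro u
    by_cases hu : u ∈ A
    · have : (univ.filter (fun v => u ≠ v ∧ u ∈ A ∧ v ∈ A ∧ f u = f v)) ⊆
          A.filter (fun v => f v = f u) := by
        intro v hv
        simp only [mem_filter, mem_univ, true_and] at hv ⊢
        exact ⟨hv.2.2.1, hv.2.2.2.symm⟩
      exact (card_le_card this).trans (hfib _)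
    · have : (univ.filter (fun v => u ≠ v ∧ u ∈ A ∧ v ∈ A ∧ f u = f v)) = ∅ := by
        ext v
        simp [hu]
      simp [this]
  · exact hat
  · set P := (A ×ˢ A).filter (fun x => f x.1 = f x.2) with hP
    -- `|P| = ∑ |B_x|²`
    have h1 : P.card = ∑ x ∈ A.image f, (A.filter (fun u => f u = x)).card ^ 2 := by
      rw [Finset.card_eq_sum_card_fiberwise (f := fun p : α × α => f p.1) (t := A.image f)]
      · apply Finset.sum_congr rfl
        intro x hx
        have : P.filter (fun p => f p.1 = x) =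
            (A.filter (fun u => f u = x)) ×ˢ (A.filter (fun u => f u = x)) := by
          ext p
          simp only [hP, mem_filter, mem_product]
          constructor
          · rintro ⟨⟨⟨h1, h2⟩, h3⟩, h4⟩
            exact ⟨⟨h1, h4⟩, h2, h3 ▸ h4⟩
          · rintro ⟨⟨h1, h2⟩, h3, h4⟩
            exact ⟨⟨⟨h1, h3⟩, h2.trans h4.symm⟩, h2⟩
        rw [this, card_product, pow_two]
      · intro p hp
        simp only [hP, coe_filter, mem_product, Set.mem_ofPred_eq] at hp
        exact mem_coe.mpr (mem_image_of_mem f hp.1.1)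
    have h2 : A.card = ∑ x ∈ A.image f, (A.filter (fun u => f u = x)).card :=
      Finset.card_eq_sum_card_image f A
    have h3 : A.card ^ 2 ≤ (A.image f).card * P.card := by
      rw [h1, h2]
      exact sq_sum_le_card_mul_sum_sq
    have h4 : P.card ≤ (univ.filter (fun x : α × α =>
        x.1 ≠ x.2 ∧ x.1 ∈ A ∧ x.2 ∈ A ∧ f x.1 = f x.2)).card + A.card := by
      have : P ⊆ (univ.filter (fun x : α × α =>
        x.1 ≠ x.2 ∧ x.1 ∈ A ∧ x.2 ∈ A ∧ f x.1 = f x.2)) ∪ A.image (fun u => (u, u)) := by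
        intro p hp
        simp only [hP, mem_filter, mem_product] at hp
        by_cases h : p.1 = p.2
        · apply mem_union_right
          rw [mem_image]
          refine ⟨p.1, hp.1.1, ?_⟩
          ext
          · rfl
          · exact h
        · apply mem_union_left
          simp only [mem_filter, mem_univ, true_and]
          exact ⟨h, hp.1.1, hp.1.2, hp.2⟩
      calc P.card ≤ _ := card_le_card this
        _ ≤ _ := card_union_le _ _
        _ ≤ _ := by
          gcongr
          exact card_image_le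
    set N := (univ.filter (fun x : α × α =>
        x.1 ≠ x.2 ∧ x.1 ∈ A ∧ x.2 ∈ A ∧ f x.1 = f x.2)).card with hN
    have h5 : (A.card : ℝ) ^ 2 ≤ D * (N + A.card) := by
      have : A.card ^ 2 ≤ D * (N + A.card) :=
        h3.trans (Nat.mul_le_mul himg h4)
      exact_mod_cast this
    have h6 : (n : ℝ) ≤ 6 * A.card := by exact_mod_cast hn
    have h7 : (200 : ℝ) * D ≤ n := by exact_mod_cast hD
    have h8 : (6 : ℝ) * D ≤ a ^ 2 := by exact_mod_cast ha
    have hD' : (1 : ℝ) ≤ D := by exact_mod_cast hD1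
    have hA0 : (0 : ℝ) ≤ A.card := by positivity
    have hn0 : (0 : ℝ) ≤ n := by positivity
    have hN0 : (0 : ℝ) ≤ N := by positivity
    have h9 : (D : ℝ) * A.card ≤ 3 / 100 * (A.card : ℝ) ^ 2 := by nlinarith
    have h10 : (97 / 100 : ℝ) * (A.card : ℝ) ^ 2 ≤ D * N := by nlinarith
    have h11 : (n : ℝ) ^ 2 ≤ 36 * (A.card : ℝ) ^ 2 := by nlinarith
    have h12 : (6 : ℝ) * (D * N) ≤ a ^ 2 * N := by
      have := mul_le_mul_of_nonneg_right h8 hN0
      linarith
    nlinarith

end moments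

open Classical in
/-- The main abstract lemma: `k` draws, split in two halves, at most `D` bins covering a sixth. -/
theorem birthday_core {α X : Type} [Fintype α] [Nonempty α] (A : Finset α) (f : α → X) (k D : ℕ)
    (hk : 40 * Real.sqrt D ≤ k) (hD1 : 1 ≤ D) (hn : Fintype.card α ≤ 6 * A.card)
    (himg : (A.image f).card ≤ D) (hk2 : 32 * k ^ 2 ≤ Fintype.card α)
    (hD : 200 * D ≤ Fintype.card α) :
    1 / 20 ≤ prEx (k / 2) (fun u v => u ≠ v ∧ u ∈ A ∧ v ∈ A ∧ f u = f v) := by
  set a := k / 2 with hadef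
  set n := Fintype.card α with hndef
  have hsq : (1 : ℝ) ≤ Real.sqrt D := by
    rw [Real.one_le_sqrt]
    exact_mod_cast hD1
  have hk40 : (40 : ℝ) ≤ k := by nlinarith
  have hk40' : 40 ≤ k := by exact_mod_cast hk40
  have ha20 : 20 ≤ a := by omega
  have ha0 : 0 < a := by omega
  have ha2 : k ≤ 2 * a + 1 := by omega
  have ha3 : 2 * a ≤ k := by omega
  have h4a : 4 * a ≤ n := by nlinarith
  have ha6 : 6 * D ≤ a ^ 2 := by
    have h1 : (k : ℝ) ≤ 2 * a + 1 := by exact_mod_cast ha2
    have h2 : 39 * Real.sqrt D ≤ 2 * a := by nlinarith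
    have h3 : (39 * Real.sqrt D) ^ 2 ≤ (2 * (a : ℝ)) ^ 2 :=
      pow_le_pow_left₀ (by positivity) h2 2
    have h4 : Real.sqrt D ^ 2 = D := Real.sq_sqrt (by positivity)
    have h5 : (1521 : ℝ) * D ≤ 4 * (a : ℝ) ^ 2 := by nlinarith
    have h6 : (6 : ℝ) * D ≤ (a : ℝ) ^ 2 := by
      have hD0 : (0 : ℝ) ≤ D := by positivity
      nlinarith
    exact_mod_cast h6
  by_cases hheavy : ∃ x, n / a ≤ (A.filter (fun u => f u = x)).card
  · obtain ⟨x, hx⟩ := hheavy
    obtain ⟨B, hBsub, hBcard⟩ := Finset.exists_subset_card_eq hx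
    have h1 := prEx_heavy B a ha0 hBcard h4a
    refine h1.trans (prEx_mono ?_ a)
    rintro u v ⟨huv, hu, hv⟩
    have hu' := mem_filter.mp (hBsub hu)
    have hv' := mem_filter.mp (hBsub hv)
    exact ⟨huv, hu'.1, hv'.1, hu'.2.trans hv'.2.symm⟩
  · simp only [not_exists, not_le] at hheavy
    exact prEx_light A f a D (n / a) (Nat.mul_div_le _ _) (fun x => (hheavy x).le) hn himg hD hD1 ha6

/-- The good set of an event of probability at least `1/20`. -/
theorem exists_good_set {α : Type} [Fintype α] [Nonempty α] (a : ℕ) (r : α → α → Prop)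
    (h : 1 / 20 ≤ prEx a r) :
    ∃ G : Finset ((Fin a → α) × (Fin a → α)),
      1 / 20 * (Fintype.card ((Fin a → α) × (Fin a → α)) : ℝ) ≤ (G.card : ℝ) ∧
      ∀ x ∈ G, ∃ i j, r (x.1 i) (x.2 j) := by
  classical
  unfold prEx at h
  have hΩ0 : (0 : ℝ) < Fintype.card ((Fin a → α) × (Fin a → α)) := by
    exact_mod_cast Fintype.card_pos
  rw [le_div_iff₀ hΩ0] at h
  refine ⟨_, h, ?_⟩
  intro x hx
  exact (mem_filter.mp hx).2

/-- Double counting of pairs from the two good sets. -/
theorem double_count {Ω : Type} [Fintype Ω] (G1 G2 : Finset Ω) (Good : Ω × Ω → Prop)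
    [DecidablePred Good] (h : ∀ x ∈ G1, ∀ y ∈ G2, Good (x, y))
    (h1 : 1 / 20 * (Fintype.card Ω : ℝ) ≤ (G1.card : ℝ))
    (h2 : 1 / 20 * (Fintype.card Ω : ℝ) ≤ (G2.card : ℝ)) :
    (Fintype.card Ω : ℝ) ^ 2 ≤ 400 * (((univ : Finset (Ω × Ω)).filter Good).card : ℝ) := by
  have hsub : G1 ×ˢ G2 ⊆ (univ : Finset (Ω × Ω)).filter Good := by
    intro z hz
    rw [mem_product] at hz
    simp only [mem_filter, mem_univ, true_and]
    exact h _ hz.1 _ hz.2
  have hcard := card_le_card hsub
  rw [card_product] at hcard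
  have hcard' : ((G1.card : ℝ) * G2.card) ≤ (((univ : Finset (Ω × Ω)).filter Good).card : ℝ) := by
    exact_mod_cast hcard
  have hc0 : (0 : ℝ) ≤ Fintype.card Ω := by positivity
  have h3 : (1 / 20 * (Fintype.card Ω : ℝ)) * (1 / 20 * (Fintype.card Ω : ℝ)) ≤ (G1.card : ℝ) * G2.card :=
    mul_le_mul h1 h2 (by positivity) (by positivity)
  nlinarith

end Crest.Agent.Ryser.BirthdayAux
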