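import Crest.Agent.Ryser.Seeds
import Crest.Agent.Ryser.Birthday_aux

/-!
# Birthday seeds (Case H).

If each of the lines in `L` meets the `q` lines of `S` in at most `D` points, then two small
subsets `K₁, K₂ ⊆ S` (`k ≈ 40 √D`) determine a constant fraction of `L`:
`m ∈ span K₁ K₂`, i.e. `m` passes through a crossing point of `K₁` and a different crossing point
of `K₂`.
-/

set_option autoImplicit false
set_option linter.unusedSectionVars false
set_option linter.unusedVariables false

namespace Crest.Agent.Ryser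

open Finset

variable {K : Type} [Field K] [Fintype K] [DecidableEq K]

local notation "q" => Fintype.card K

/-- Points where two distinct lines of `A` cross. -/
def crossPts (A : Finset (Ln K)) : Finset (Pt K) :=
  univ.filter (fun p => ∃ l ∈ A, ∃ l' ∈ A, l ≠ l' ∧ On p l ∧ On p l')

/-- Lines through a crossing point of `A` and a different crossing point of `B`. -/
noncomputable def spanOf (A B : Finset (Ln K)) : Finset (Ln K) :=
  ((crossPts A ×ˢ crossPts B).filter (fun x => x.1 ≠ x.2)).image (fun x => line2 x.1 x.2)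

theorem mem_spanOf {A B : Finset (Ln K)} {m : Ln K} :
    m ∈ spanOf A B ↔ ∃ x ∈ crossPts A, ∃ y ∈ crossPts B, x ≠ y ∧ On x m ∧ On y m := by
  unfold spanOf
  simp only [mem_image, mem_filter, mem_product]
  constructor
  · rintro ⟨⟨x, y⟩, ⟨⟨hx, hy⟩, hne⟩, rfl⟩
    exact ⟨x, hx, y, hy, hne, on_line2_left _ _, on_line2_right hne⟩
  · rintro ⟨x, hx, y, hy, hne, h1, h2⟩
    exact ⟨(x, y), ⟨⟨hx, hy⟩, hne⟩, eq_line2 hne h1 h2⟩

theorem card_crossPts_le (A : Finset (Ln K)) : 2 * (crossPts A).card ≤ A.card ^ 2 := by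
  have h : (crossPts A).card ≤ (A.powersetCard 2).card := by
    apply Finset.card_le_card_of_forall_subsingleton (fun (p : Pt K) (T : Finset (Ln K)) => ∀ l ∈ T, On p l)
    · intro p hp
      simp only [crossPts, mem_filter, mem_univ, true_and] at hp
      obtain ⟨l, hl, l', hl', hne, h1, h2⟩ := hp
      refine ⟨{l, l'}, ?_, ?_⟩
      · rw [mem_powersetCard]
        refine ⟨?_, card_pair hne⟩
        intro x hx
        simp only [mem_insert, mem_singleton] at hx
        rcases hx with rfl | rfl <;> assumption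
      · intro x hx
        simp only [mem_insert, mem_singleton] at hx
        rcases hx with rfl | rfl <;> assumption
    · intro T hT p hp p' hp'
      rw [mem_powersetCard] at hT
      obtain ⟨l, l', hne, rfl⟩ := card_eq_two.mp hT.2
      have h1 := hp.2
      have h2 := hp'.2
      exact point_unique hne (h1 l (by simp)) (h1 l' (by simp)) (h2 l (by simp)) (h2 l' (by simp))
  rw [card_powersetCard, Nat.choose_two_right] at h
  have h2 : A.card * (A.card - 1) / 2 * 2 ≤ A.card * (A.card - 1) := Nat.div_mul_le_self _ _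
  have h3 : A.card * (A.card - 1) ≤ A.card ^ 2 := by
    rw [pow_two]
    exact Nat.mul_le_mul_left _ (Nat.sub_le _ _)
  omega

theorem card_spanOf_le (A B : Finset (Ln K)) : 4 * (spanOf A B).card ≤ A.card ^ 2 * B.card ^ 2 := by
  have h1 : (spanOf A B).card ≤ (crossPts A).card * (crossPts B).card := by
    unfold spanOf
    refine card_image_le.trans ((card_filter_le _ _).trans ?_)
    rw [card_product]
  have h2 := card_crossPts_le A
  have h3 := card_crossPts_le B
  calc 4 * (spanOf A B).card ≤ 4 * ((crossPts A).card * (crossPts B).card) := by omega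
    _ = (2 * (crossPts A).card) * (2 * (crossPts B).card) := by ring
    _ ≤ _ := Nat.mul_le_mul h2 h3

/-- A piece with `Q ≤ 6 w(P)` and `24 w(P) ≤ 5 Q`. -/
theorem exists_piece {β : Type} [DecidableEq β] (C : Finset β) (w : β → ℕ) (Q : ℕ)
    (hw : ∀ p ∈ C, 24 * w p ≤ Q) (hC : Q ≤ 6 * ∑ p ∈ C, w p) :
    ∃ P ⊆ C, Q ≤ 6 * ∑ p ∈ P, w p ∧ 24 * ∑ p ∈ P, w p ≤ 5 * Q := by
  induction C using Finset.induction_on with
  | empty =>
    refine ⟨∅, Subset.refl _, hC, ?_⟩
    simp
  | insert a C ha ih =>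
    by_cases h : Q ≤ 6 * ∑ p ∈ C, w p
    · obtain ⟨P, hP, h1, h2⟩ := ih (fun p hp => hw p (mem_insert_of_mem hp)) h
      exact ⟨P, hP.trans (subset_insert _ _), h1, h2⟩
    · refine ⟨insert a C, Subset.refl _, hC, ?_⟩
      rw [sum_insert ha]
      have := hw a (mem_insert_self _ _)
      omega

/-- Split: two pieces, each of weight at least `Q / 6`. -/
theorem exists_split {β : Type} [DecidableEq β] (C : Finset β) (w : β → ℕ) (Q : ℕ)
    (hw : ∀ p ∈ C, 24 * w p ≤ Q) (hC : Q ≤ 2 * ∑ p ∈ C, w p) :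
    ∃ P ⊆ C, Q ≤ 6 * ∑ p ∈ P, w p ∧ Q ≤ 6 * ∑ p ∈ C \ P, w p := by
  obtain ⟨P, hP, h1, h2⟩ := exists_piece C w Q hw (by omega)
  refine ⟨P, hP, h1, ?_⟩
  have h3 := Finset.sum_sdiff (f := w) hP
  omega

open BirthdayAux

section seeds

variable (S : Finset (Ln K))

/-- The lines of two half samples. -/
noncomputable def seedOf {a : ℕ} (x : (Fin a → S) × (Fin a → S)) : Finset (Ln K) :=
  (univ.image (fun i => ((x.1 i : S) : Ln K))) ∪ (univ.image (fun i => ((x.2 i : S) : Ln K)))

theorem seedOf_subset {a : ℕ} (x : (Fin a → S) × (Fin a → S)) : seedOf S x ⊆ S := by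
  intro l hl
  simp only [seedOf, mem_union, mem_image, mem_univ, true_and] at hl
  rcases hl with ⟨i, rfl⟩ | ⟨i, rfl⟩ <;> exact (Subtype.coe_prop _)

theorem seedOf_card {a : ℕ} (x : (Fin a → S) × (Fin a → S)) : (seedOf S x).card ≤ 2 * a := by
  refine (card_union_le _ _).trans ?_
  have h1 : (univ.image (fun i => ((x.1 i : S) : Ln K))).card ≤ a := by
    simpa using (card_image_le (s := (univ : Finset (Fin a))) (f := fun i => ((x.1 i : S) : Ln K)))
  have h2 : (univ.image (fun i => ((x.2 i : S) : Ln K))).card ≤ a := by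
    simpa using (card_image_le (s := (univ : Finset (Fin a))) (f := fun i => ((x.2 i : S) : Ln K)))
  omega

/-- The lines of `S` crossing `m` in a point of `Pset`. -/
noncomputable def crossSet (m : Ln K) (Pset : Finset (Pt K)) : Finset S :=
  univ.filter (fun u : S => (u : Ln K).1 ≠ m.1 ∧ cross (u : Ln K) m ∈ Pset)

theorem mem_crossSet {m : Ln K} {Pset : Finset (Pt K)} {u : S} :
    u ∈ crossSet S m Pset ↔ (u : Ln K).1 ≠ m.1 ∧ cross (u : Ln K) m ∈ Pset := by
  simp [crossSet]

/-- A crossing point of a seed, from a collision. -/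
theorem cross_mem_crossPts {a : ℕ} (m : Ln K) (Pset : Finset (Pt K)) (x : (Fin a → S) × (Fin a → S))
    (hx : ∃ i j, (x.1 i) ≠ (x.2 j) ∧ (x.1 i) ∈ crossSet S m Pset ∧ (x.2 j) ∈ crossSet S m Pset
      ∧ cross ((x.1 i : S) : Ln K) m = cross ((x.2 j : S) : Ln K) m) :
    ∃ p ∈ crossPts (seedOf S x), p ∈ Pset ∧ On p m := by
  obtain ⟨i, j, hne, hu, hv, hc⟩ := hx
  rw [mem_crossSet] at hu hv
  refine ⟨cross ((x.1 i : S) : Ln K) m, ?_, hu.2, on_cross_right hu.1⟩
  simp only [crossPts, mem_filter, mem_univ, true_and]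
  refine ⟨((x.1 i : S) : Ln K), ?_, ((x.2 j : S) : Ln K), ?_, ?_, on_cross_left hu.1, ?_⟩
  · simp only [seedOf, mem_union, mem_image, mem_univ, true_and]
    exact Or.inl ⟨i, rfl⟩
  · simp only [seedOf, mem_union, mem_image, mem_univ, true_and]
    exact Or.inr ⟨j, rfl⟩
  · exact fun h => hne (Subtype.ext h)
  · rw [hc]
    exact on_cross_left hv.1

end seeds

/-- One line `m`: a fraction `1/400` of the pairs of seeds have `m` in the span. -/
theorem single_line (S : Finset (Ln K)) [Nonempty S] (hS : S.card = q) (D k : ℕ)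
    (hk : 40 * Real.sqrt D ≤ k) (hk2 : 32 * k ^ 2 ≤ q) (hD : 200 * D ≤ q) (hq : 0 < q)
    (m : Ln K) (hm : m ∉ S)
    (hL2 : ((linePts m).filter (fun p => p ∉ unc S)).card ≤ D)
    (hmax : ∀ p, 24 * cnt S p ≤ q) (hpar : 2 * dirCnt S m.1 ≤ q) :
    ((Fintype.card ((Fin (k / 2) → S) × (Fin (k / 2) → S)) : ℝ) ^ 2) ≤
      400 * (((univ : Finset (((Fin (k / 2) → S) × (Fin (k / 2) → S)) × ((Fin (k / 2) → S) × (Fin (k / 2) → S)))).filter
        (fun z => m ∈ spanOf (seedOf S z.1) (seedOf S z.2))).card : ℝ) := by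
  set T := S.filter (fun l => l.1 ≠ m.1) with hT
  set Cov := (linePts m).filter (fun p => p ∉ unc S) with hCov
  set w : Pt K → ℕ := fun p => (T.filter (fun l => cross l m = p)).card with hw
  have hcross_mem : ∀ l ∈ T, cross l m ∈ Cov := by
    intro l hl
    have hl' := mem_filter.mp hl
    simp only [hCov, mem_filter, mem_linePts]
    refine ⟨on_cross_right hl'.2, ?_⟩
    simp only [unc, mem_filter, mem_univ, true_and]
    intro h0
    have : l ∈ S.filter (fun l' => On (cross l m) l') :=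
      mem_filter.mpr ⟨hl'.1, on_cross_left hl'.2⟩
    have h1 : 0 < cnt S (cross l m) := card_pos.mpr ⟨l, this⟩
    omega
  have hsum : ∑ p ∈ Cov, w p = T.card :=
    (Finset.card_eq_sum_card_fiberwise (f := fun l => cross l m) (t := Cov)
      (fun l hl => mem_coe.mpr (hcross_mem l (mem_coe.mp hl)))).symm
  have hT2 : q ≤ 2 * T.card := by
    have h1 : T.card + dirCnt S m.1 = S.card := by
      have := Finset.card_filter_add_card_filter_not (s := S) (fun l => l.1 = m.1)
      unfold dirCnt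
      rw [hT]
      simp only [ne_eq]
      omega
    omega
  have hwle : ∀ p ∈ Cov, 24 * w p ≤ q := by
    intro p _
    refine le_trans ?_ (hmax p)
    apply Nat.mul_le_mul_left
    apply card_le_card
    intro l hl
    have hl1 := mem_filter.mp hl
    have hl2 := mem_filter.mp hl1.1
    refine mem_filter.mpr ⟨hl2.1, ?_⟩
    rw [← hl1.2]
    exact on_cross_left hl2.2
  obtain ⟨P, hPC, hP1, hP2⟩ := exists_split Cov w q hwle (by rw [hsum]; exact hT2)
  have hD1 : 1 ≤ D := by
    have h0 : 0 < T.card := by omega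
    obtain ⟨l, hl⟩ := card_pos.mp h0
    have : 0 < Cov.card := card_pos.mpr ⟨_, hcross_mem l hl⟩
    omega
  have hcardS : Fintype.card S = q := by rw [Fintype.card_coe, hS]
  have key : ∀ Pset ⊆ Cov, q ≤ 6 * ∑ p ∈ Pset, w p →
      ∃ G : Finset ((Fin (k / 2) → S) × (Fin (k / 2) → S)),
        1 / 20 * (Fintype.card ((Fin (k / 2) → S) × (Fin (k / 2) → S)) : ℝ) ≤ (G.card : ℝ) ∧
        ∀ x ∈ G, ∃ p ∈ crossPts (seedOf S x), p ∈ Pset ∧ On p m := by
    intro Pset hsub hPset
    have hAcard : (crossSet S m Pset).card = ∑ p ∈ Pset, w p := by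
      have h1 : (crossSet S m Pset).image (fun u : S => (u : Ln K)) = T.filter (fun l => cross l m ∈ Pset) := by
        ext l
        simp only [crossSet, hT, mem_image, mem_filter, mem_univ, true_and]
        constructor
        · rintro ⟨u, ⟨h1, h2⟩, rfl⟩
          exact ⟨⟨u.2, h1⟩, h2⟩
        · rintro ⟨⟨h1, h2⟩, h3⟩
          exact ⟨⟨l, h1⟩, ⟨h2, h3⟩, rfl⟩
      rw [← card_image_of_injective (crossSet S m Pset) Subtype.val_injective, h1]
      rw [Finset.card_eq_sum_card_fiberwise (f := fun l => cross l m) (t := Pset)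
        (fun l hl => by
          have := (mem_filter.mp (mem_coe.mp hl)).2
          exact mem_coe.mpr this)]
      apply Finset.sum_congr rfl
      intro p hp
      simp only [hw]
      congr 1
      ext l
      simp only [mem_filter]
      constructor
      · rintro ⟨⟨h1, h2⟩, h3⟩
        exact ⟨h1, h3⟩
      · rintro ⟨h1, h3⟩
        exact ⟨⟨h1, h3 ▸ hp⟩, h3⟩
    have hb := birthday_core (crossSet S m Pset) (fun u : S => cross (u : Ln K) m) k D hk hD1
      (by rw [hcardS, hAcard]; exact hPset)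
      (by
        refine le_trans (card_le_card ?_) hL2
        intro p hp
        obtain ⟨u, hu, rfl⟩ := (@mem_image _ _ (fun a b => Classical.propDecidable (a = b)) _ _ _).mp hp
        exact hsub ((mem_crossSet S).mp hu).2)
      (by rw [hcardS]; exact hk2) (by rw [hcardS]; exact hD)
    obtain ⟨G, hG1, hG2⟩ := exists_good_set _ _ hb
    exact ⟨G, hG1, fun x hx => cross_mem_crossPts S m Pset x (hG2 x hx)⟩
  obtain ⟨G1, hG1, hG1'⟩ := key P hPC hP1
  obtain ⟨G2, hG2, hG2'⟩ := key (Cov \ P) sdiff_subset hP2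
  refine double_count G1 G2 (fun z => m ∈ spanOf (seedOf S z.1) (seedOf S z.2)) ?_ hG1 hG2
  intro x hx y hy
  obtain ⟨p, hp1, hp2, hp3⟩ := hG1' x hx
  obtain ⟨p', hp1', hp2', hp3'⟩ := hG2' y hy
  show m ∈ spanOf (seedOf S x) (seedOf S y)
  rw [mem_spanOf]
  refine ⟨p, hp1, p', hp1', ?_, hp3, hp3'⟩
  rintro rfl
  exact (mem_sdiff.mp hp2').2 hp2

/-- Case H seeds.  Draw `K₁, K₂` as `k` i.i.d. uniform lines of `S`.  For `m ∈ L` split the covered points
of `m` into two parts `M¹, M²` of mass `≥ 1/6` (mass of `x` = `cnt S x / q`; possible as parallels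
are at most half and each mass is at most `1/24`).  `K₁` has two distinct lines crossing at a point
of `M¹` with probability `≥ 1/20`: truncate to one bin of size `⌊q / a⌋` if there is a heavy bin,
and apply the second moment to `Z` = number of colliding pairs (`a = ⌊k/2⌋` draws against
`a` draws), `E Z² ≤ (E Z)² + 3 E Z`.  Likewise `K₂` and `M²`.  Average over `K₁, K₂`. -/
theorem caseH_seeds (S L : Finset (Ln K)) (hS : S.card = q) (D k : ℕ)
    (hk : 40 * Real.sqrt D ≤ k) (hk1 : 2 ≤ k) (hk2 : 32 * k ^ 2 ≤ q) (hD : 200 * D ≤ q)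
    (hL1 : ∀ m ∈ L, m ∉ S)
    (hL2 : ∀ m ∈ L, ((linePts m).filter (fun p => p ∉ unc S)).card ≤ D)
    (hmax : ∀ p, 24 * cnt S p ≤ q) (hpar : ∀ m ∈ L, 2 * dirCnt S m.1 ≤ q) :
    ∃ K₁ K₂ : Finset (Ln K), K₁ ⊆ S ∧ K₂ ⊆ S ∧ K₁.card ≤ k ∧ K₂.card ≤ k ∧
      L.card ≤ 400 * (L.filter (fun m => m ∈ spanOf K₁ K₂)).card := by
  classical
  have hq : 0 < q := by
    have : 0 < k ^ 2 := by positivity
    omega
  have hne : Nonempty S := by
    have : 0 < S.card := by omega
    obtain ⟨l, hl⟩ := card_pos.mp this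
    exact ⟨⟨l, hl⟩⟩
  set a := k / 2 with ha
  set Ω := (Fin a → S) × (Fin a → S) with hΩ
  have h2a : 2 * a ≤ k := by omega
  have hsum : ∀ m ∈ L, (Fintype.card Ω : ℝ) ^ 2 ≤
      400 * (((univ : Finset (Ω × Ω)).filter
        (fun z => m ∈ spanOf (seedOf S z.1) (seedOf S z.2))).card : ℝ) := by
    intro m hm
    exact single_line S hS D k hk hk2 hD hq m (hL1 m hm) (hL2 m hm) hmax (hpar m hm)
  have hdouble : ∑ z : Ω × Ω, ((L.filter (fun m => m ∈ spanOf (seedOf S z.1) (seedOf S z.2))).card : ℝ)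
      = ∑ m ∈ L, (((univ : Finset (Ω × Ω)).filter
        (fun z => m ∈ spanOf (seedOf S z.1) (seedOf S z.2))).card : ℝ) := by
    simp only [card_filter]
    push_cast
    exact Finset.sum_comm
  have hex : ∃ z ∈ (univ : Finset (Ω × Ω)), (L.card : ℝ) ≤
      400 * ((L.filter (fun m => m ∈ spanOf (seedOf S z.1) (seedOf S z.2))).card : ℝ) := by
    apply Finset.exists_le_of_sum_le univ_nonempty
    rw [← Finset.mul_sum, hdouble, Finset.mul_sum, sum_const, card_univ, Fintype.card_prod, nsmul_eq_mul]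
    calc ((Fintype.card Ω * Fintype.card Ω : ℕ) : ℝ) * L.card
        = ∑ m ∈ L, (Fintype.card Ω : ℝ) ^ 2 := by
          rw [sum_const, nsmul_eq_mul]
          push_cast
          ring
      _ ≤ _ := Finset.sum_le_sum hsum
  obtain ⟨z, -, hz⟩ := hex
  refine ⟨seedOf S z.1, seedOf S z.2, seedOf_subset S _, seedOf_subset S _,
    (seedOf_card S _).trans h2a, (seedOf_card S _).trans h2a, ?_⟩
  exact_mod_cast hz

end Crest.Agent.Ryser
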