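import Crest.Agent.Ryser.Container_aux

/-!
# The container list for regime R1 (many uncovered points).

`W` = points on no line of `𝓗`, weights `w ∈ [1, wm]` with `w(ℓ ∩ W) = ρ q ± 2 q^(2/3)` for all `ℓ ∉ 𝓗`.
All `q`-line sets `S` covering `W` lie in a list of size `≤ exp(q^(3/4))`.

Proof.  `S'` = lines of `S` not in `𝓗`.  A direction with at most 42 holes exists, so `w(W) = ρ q² (1 ± O(q^(-1/3)))`,
`|S'| ≥ q (1 - O(q^(-1/3)))`; the overlap `∑_{p∈W} (n'_p - 1) w(p)` is `≤ 6 ρ q^(5/3)`-ish, so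
`P_b` = points of `W` covered twice by `S'` has size `O(q^(5/3))`.  `Bad_ℓ = P_b ∩ ℓ`; most lines of `S'` are good
(`|Bad_ℓ| ≤ O(q^(2/3))`).  Weak lines: `|m ∩ P_b| ≥ ρ q / (4 wm)`; at most `O(q^(2/3))` by `card_rich_lines_le`.
A non-weak `m ∉ S ∪ 𝓗` has `≥ ρ q / (4 wm)` points of `W` covered exactly once, so a constant fraction of the
good lines kill it (`m ∩ ℓ ∈ W \ Bad`).  `greedy_seeds` gives `T`, `|T| = O(log q)`.
`Cand` = lines `m ∉ 𝓗` such that for all `v ∈ T`, `m = v` or `m ∥ v` or `cross m v ∉ W \ ⋃_{v∈T} Bad_v`.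
Then `S' ⊆ Cand ⊆ S' ∪ Weak`.  Code: `T`, `⋃ Bad_v`, `Cand \ S'`, `S \ S'`: `O(q^(2/3) log q)` symbols. -/

set_option autoImplicit false
set_option linter.unusedSectionVars false
set_option linter.unusedVariables false

namespace Crest.Agent.Ryser

open Finset

namespace ContainerProof

open Filter Asymptotics in
/-- All the "q large" conditions. -/
theorem eventually_params (ρ₀ wm : ℝ) (hρ₀ : 0 < ρ₀) (hwm : 1 ≤ wm) :
    ∀ᶠ Q : ℝ in atTop, Large ρ₀ wm Q (Q ^ ((2 : ℝ) / 3)) ∧ 1 ≤ Real.log Q ∧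
      3 * ((3 * Real.log Q / (ρ₀ / (4 * wm)) + 1)
        + (3 * Real.log Q / (ρ₀ / (4 * wm)) + 1) * (10 * Q ^ ((2 : ℝ) / 3) / (ρ₀ / (4 * wm)))
        + 20 * Q ^ ((2 : ℝ) / 3) / (ρ₀ / (4 * wm)) ^ 2 + 5 * Q ^ ((2 : ℝ) / 3) / ρ₀) * Real.log Q
        ≤ Q ^ ((3 : ℝ) / 4) := by
  set τ : ℝ := ρ₀ / (4 * wm) with hτ
  have hwm0 : 0 < wm := by linarith
  have hτ0 : 0 < τ := by positivity
  set C : ℝ := (3 / τ + 1) + (3 / τ + 1) * (10 / τ) + 20 / τ ^ 2 + 5 / ρ₀ with hC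
  have hC0 : 0 < C := by positivity
  have h1 : ∀ᶠ Q : ℝ in atTop, (42 : ℝ) ≤ Q ^ ((2 : ℝ) / 3) :=
    (tendsto_rpow_atTop (by norm_num : (0 : ℝ) < 2 / 3)).eventually_ge_atTop _
  have h2 : ∀ᶠ Q : ℝ in atTop, max (8 / ρ₀) (10 / τ) ≤ Q ^ ((1 : ℝ) / 3) :=
    (tendsto_rpow_atTop (by norm_num : (0 : ℝ) < 1 / 3)).eventually_ge_atTop _
  have h3 : ∀ᶠ Q : ℝ in atTop, (1 : ℝ) ≤ Real.log Q :=
    Real.tendsto_log_atTop.eventually_ge_atTop _
  have h4 : ∀ᶠ Q : ℝ in atTop, (2 : ℝ) ≤ Q := eventually_ge_atTop _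
  have hε : (0 : ℝ) < 1 / (3 * C + 1) := by positivity
  have h5 : ∀ᶠ Q : ℝ in atTop, ‖Real.log Q‖ ≤ (1 / (3 * C + 1)) * ‖Q ^ ((1 : ℝ) / 24)‖ :=
    (isLittleO_log_rpow_atTop (by norm_num : (0 : ℝ) < 1 / 24)).def hε
  filter_upwards [h1, h2, h3, h4, h5] with Q hQ1 hQ2 hQ3 hQ4 hQ5
  have hQ0 : 0 < Q := by linarith
  set a : ℝ := Q ^ ((2 : ℝ) / 3) with ha
  have ha0 : 0 < a := by linarith
  have hsplit : Q = a * Q ^ ((1 : ℝ) / 3) := by
    rw [ha, ← Real.rpow_add hQ0]; norm_num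
  have hb : (8 / ρ₀) ≤ Q ^ ((1 : ℝ) / 3) := (le_max_left _ _).trans hQ2
  have hc : (10 / τ) ≤ Q ^ ((1 : ℝ) / 3) := (le_max_right _ _).trans hQ2
  refine ⟨⟨hQ4, hQ1, ?_, ?_⟩, hQ3, ?_⟩
  · rw [div_le_iff₀ hρ₀] at hb
    calc 8 * a ≤ (Q ^ ((1 : ℝ) / 3) * ρ₀) * a := mul_le_mul_of_nonneg_right hb ha0.le
      _ = ρ₀ * (a * Q ^ ((1 : ℝ) / 3)) := by ring
      _ = ρ₀ * Q := by rw [← hsplit]
  · rw [div_le_iff₀ hτ0] at hc
    calc 10 * a ≤ (Q ^ ((1 : ℝ) / 3) * τ) * a := mul_le_mul_of_nonneg_right hc ha0.le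
      _ = τ * (a * Q ^ ((1 : ℝ) / 3)) := by ring
      _ = τ * Q := by rw [← hsplit]
  · set L : ℝ := Real.log Q with hL
    have hL0 : 0 < L := by linarith
    have ha1 : 1 ≤ a := by linarith
    have hE : (3 * L / τ + 1) + (3 * L / τ + 1) * (10 * a / τ) + 20 * a / τ ^ 2 + 5 * a / ρ₀
        ≤ C * L * a := by
      have e1 : 3 * L / τ + 1 ≤ (3 / τ + 1) * L := by
        have : 3 * L / τ = 3 / τ * L := by ring
        rw [this]; nlinarith
      have e2 : (3 * L / τ + 1) * (10 * a / τ) ≤ (3 / τ + 1) * L * (10 / τ * a) := by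
        have : 10 * a / τ = 10 / τ * a := by ring
        rw [this]
        exact mul_le_mul_of_nonneg_right e1 (by positivity)
      have hLa : a ≤ L * a := by nlinarith
      have hLa' : L ≤ L * a := by nlinarith
      have e3 : 20 * a / τ ^ 2 ≤ 20 / τ ^ 2 * (L * a) := by
        have : 20 * a / τ ^ 2 = 20 / τ ^ 2 * a := by ring
        rw [this]
        exact mul_le_mul_of_nonneg_left hLa (by positivity)
      have e4 : 5 * a / ρ₀ ≤ 5 / ρ₀ * (L * a) := by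
        have : 5 * a / ρ₀ = 5 / ρ₀ * a := by ring
        rw [this]
        exact mul_le_mul_of_nonneg_left hLa (by positivity)
      have e5 : (3 * L / τ + 1) ≤ (3 / τ + 1) * (L * a) :=
        e1.trans (mul_le_mul_of_nonneg_left hLa' (by positivity))
      calc _ ≤ (3 / τ + 1) * (L * a) + (3 / τ + 1) * L * (10 / τ * a) + 20 / τ ^ 2 * (L * a)
            + 5 / ρ₀ * (L * a) := by linarith
        _ = C * L * a := by rw [hC]; ring
    have hpow : Q ^ ((1 : ℝ) / 12) = (Q ^ ((1 : ℝ) / 24)) ^ 2 := by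
      rw [← Real.rpow_natCast, ← Real.rpow_mul hQ0.le]; norm_num
    have hL2 : 3 * C * L ^ 2 ≤ Q ^ ((1 : ℝ) / 12) := by
      have hP : 0 < Q ^ ((1 : ℝ) / 24) := Real.rpow_pos_of_pos hQ0 _
      rw [Real.norm_of_nonneg hL0.le, Real.norm_of_nonneg hP.le] at hQ5
      rw [hpow]
      have hs : 0 ≤ (1 / (3 * C + 1)) * Q ^ ((1 : ℝ) / 24) := by positivity
      have h6 : L ^ 2 ≤ ((1 / (3 * C + 1)) * Q ^ ((1 : ℝ) / 24)) ^ 2 :=
        pow_le_pow_left₀ hL0.le hQ5 2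
      have h7 : 3 * C * ((1 / (3 * C + 1)) * Q ^ ((1 : ℝ) / 24)) ^ 2 ≤ (Q ^ ((1 : ℝ) / 24)) ^ 2 := by
        have h8 : 3 * C * (1 / (3 * C + 1)) ^ 2 ≤ 1 := by
          have : 3 * C * (1 / (3 * C + 1)) ^ 2 = (3 * C) / (3 * C + 1) ^ 2 := by
            field_simp
          rw [this, div_le_one (by positivity)]
          nlinarith
        calc 3 * C * ((1 / (3 * C + 1)) * Q ^ ((1 : ℝ) / 24)) ^ 2
            = (3 * C * (1 / (3 * C + 1)) ^ 2) * (Q ^ ((1 : ℝ) / 24)) ^ 2 := by ring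
          _ ≤ 1 * (Q ^ ((1 : ℝ) / 24)) ^ 2 := mul_le_mul_of_nonneg_right h8 (by positivity)
          _ = _ := one_mul _
      have h9 : 3 * C * L ^ 2 ≤ 3 * C * ((1 / (3 * C + 1)) * Q ^ ((1 : ℝ) / 24)) ^ 2 :=
        mul_le_mul_of_nonneg_left h6 (by positivity)
      linarith
    have hfinal : Q ^ ((3 : ℝ) / 4) = a * Q ^ ((1 : ℝ) / 12) := by
      rw [ha, ← Real.rpow_add hQ0]; norm_num
    rw [hfinal]
    calc 3 * ((3 * L / τ + 1) + (3 * L / τ + 1) * (10 * a / τ) + 20 * a / τ ^ 2 + 5 * a / ρ₀) * L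
        ≤ 3 * (C * L * a) * L := by
          apply mul_le_mul_of_nonneg_right _ hL0.le
          linarith
      _ = a * (3 * C * L ^ 2) := by ring
      _ ≤ a * Q ^ ((1 : ℝ) / 12) := mul_le_mul_of_nonneg_left hL2 ha0.le

variable {K : Type} [Field K] [Fintype K] [DecidableEq K]

/-- The seed bound. -/
theorem seed_bound {τ : ℝ} (hτ0 : 0 < τ) (hτ1 : τ ≤ 1) (hq : (2 : ℝ) ≤ (Fintype.card K : ℝ))
    (t : ℕ) (ht : 3 * Real.log (Fintype.card K : ℝ) / τ ≤ t) :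
    (1 - τ) ^ t * (Fintype.card (Ln K) : ℝ) < 1 := by
  set Q : ℝ := (Fintype.card K : ℝ) with hQ
  have hQ0 : 0 < Q := by linarith
  have h1 : (1 - τ) ^ t ≤ Real.exp (-(τ * t)) := by
    have h0 : 0 ≤ 1 - τ := by linarith
    calc (1 - τ) ^ t ≤ (Real.exp (-τ)) ^ t :=
          pow_le_pow_left₀ h0 (Real.one_sub_le_exp_neg τ) t
      _ = Real.exp (-(τ * t)) := by
          rw [← Real.exp_nat_mul]; congr 1; ring
  have h2 : 3 * Real.log Q ≤ τ * t := by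
    rw [div_le_iff₀ hτ0] at ht
    linarith
  have h3 : Real.exp (-(τ * t)) ≤ Real.exp (-(3 * Real.log Q)) := by
    apply Real.exp_le_exp.mpr; linarith
  have h4 : Real.exp (-(3 * Real.log Q)) = (Q ^ 3)⁻¹ := by
    rw [Real.exp_neg]
    congr 1
    have : 3 * Real.log Q = ((3 : ℕ) : ℝ) * Real.log Q := by norm_num
    rw [this, Real.exp_nat_mul, Real.exp_log hQ0]
  have h5 : (Fintype.card (Ln K) : ℝ) = (Q + 1) * Q := by
    rw [card_Ln]; push_cast; rfl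
  rw [h5]
  have h6 : 0 < (Q + 1) * Q := by positivity
  calc (1 - τ) ^ t * ((Q + 1) * Q) ≤ (Q ^ 3)⁻¹ * ((Q + 1) * Q) := by
        apply mul_le_mul_of_nonneg_right _ h6.le
        rw [← h4]; exact h1.trans h3
    _ < 1 := by
        rw [inv_mul_lt_iff₀ (by positivity)]
        nlinarith

end ContainerProof

open ContainerProof in
theorem container (ρ₀ wm : ℝ) (hρ₀ : 0 < ρ₀) (hwm : 1 ≤ wm) :
    ∃ q₀ : ℕ, ∀ (K : Type) [Field K] [Fintype K] [DecidableEq K], q₀ ≤ Fintype.card K →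
      ∀ (H : Finset (Ln K)) (w : Pt K → ℝ) (ρ : ℝ), ρ₀ ≤ ρ → ρ ≤ 1 →
        (H.card : ℝ) ≤ 42 * (Fintype.card K + 1) →
        (∀ p, 1 ≤ w p ∧ w p ≤ wm) →
        (∀ ℓ, ℓ ∉ H → |∑ p ∈ linePts ℓ with (∀ h ∈ H, ¬ On p h), w p - ρ * Fintype.card K|
          ≤ 2 * (Fintype.card K : ℝ) ^ ((2 : ℝ) / 3)) →
        ∃ LL : Finset (Finset (Ln K)),
          (LL.card : ℝ) ≤ Real.exp ((Fintype.card K : ℝ) ^ ((3 : ℝ) / 4)) ∧
          ∀ S : Finset (Ln K), S.card = Fintype.card K →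
            Covers S (univ.filter (fun p => ∀ h ∈ H, ¬ On p h)) → S ∈ LL := by
  have hev := eventually_params ρ₀ wm hρ₀ hwm
  obtain ⟨q₀, hq₀⟩ := Filter.eventually_atTop.mp (tendsto_natCast_atTop_atTop.eventually hev)
  refine ⟨q₀, ?_⟩
  intro K _ _ _ hK H w ρ hρ1 hρ2 hH hw hline
  obtain ⟨hL, hlog, hexp⟩ := hq₀ _ hK
  set Q : ℝ := (Fintype.card K : ℝ) with hQdef
  set a : ℝ := Q ^ ((2 : ℝ) / 3) with ha
  set τ : ℝ := ρ₀ / (4 * wm) with hτdef
  have hQ2 := hL.hQ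
  have hwm0 : 0 < wm := by linarith
  have hτ0 : 0 < τ := by positivity
  have hτ1 : τ ≤ 1 := by
    rw [hτdef, div_le_one (by positivity)]
    linarith
  have hQ0 : 0 < Q := by linarith
  have ha0 : 0 < a := by have := hL.ha42; linarith
  set L : ℝ := Real.log Q with hLdef
  set t : ℕ := ⌈3 * L / τ⌉₊ with ht
  have ht1 : 3 * L / τ ≤ t := Nat.le_ceil _
  have hL0 : 0 < L := by linarith
  have ht2 : (t : ℝ) ≤ 3 * L / τ + 1 := (Nat.ceil_lt_add_one (by positivity)).le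
  set c₂ : ℕ := ⌊(t : ℝ) * (10 * a / τ)⌋₊ with hc₂
  set c₃ : ℕ := ⌊20 * a / τ ^ 2⌋₊ with hc₃
  set c₄ : ℕ := ⌊5 * a / ρ₀⌋₊ with hc₄
  classical
  let A₁ : Finset (Finset (Ln K)) := univ.filter (fun s => s.card ≤ t)
  let A₂ : Finset (Finset (Pt K)) := univ.filter (fun s => s.card ≤ c₂)
  let A₃ : Finset (Finset (Ln K)) := univ.filter (fun s => s.card ≤ c₃)
  let A₄ : Finset (Finset (Ln K)) := univ.filter (fun s => s.card ≤ c₄)
  let LL : Finset (Finset (Ln K)) := (A₁ ×ˢ A₂ ×ˢ A₃ ×ˢ A₄).image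
    (fun x => decode H x.1 x.2.1 x.2.2.1 x.2.2.2)
  refine ⟨LL, ?_, ?_⟩
  · -- the size of the list
    set n : ℕ := Fintype.card K with hn
    set R : ℕ := (n + 1) * n + 1 with hR
    have hc1 : A₁.card ≤ R ^ t := by
      have := card_small_subsets (Ln K) t
      rwa [card_Ln] at this
    have hc3 : A₃.card ≤ R ^ c₃ := by
      have := card_small_subsets (Ln K) c₃
      rwa [card_Ln] at this
    have hc4 : A₄.card ≤ R ^ c₄ := by
      have := card_small_subsets (Ln K) c₄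
      rwa [card_Ln] at this
    have hc2 : A₂.card ≤ R ^ c₂ := by
      have := card_small_subsets (Pt K) c₂
      rw [card_Pt] at this
      refine this.trans (Nat.pow_le_pow_left ?_ _)
      rw [hR]
      nlinarith
    have hLLcard : LL.card ≤ R ^ (t + (c₂ + (c₃ + c₄))) := by
      calc LL.card ≤ (A₁ ×ˢ A₂ ×ˢ A₃ ×ˢ A₄).card := card_image_le
        _ = A₁.card * (A₂.card * (A₃.card * A₄.card)) := by
            simp only [card_product]
        _ ≤ R ^ t * (R ^ c₂ * (R ^ c₃ * R ^ c₄)) := by gcongr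
        _ = R ^ (t + (c₂ + (c₃ + c₄))) := by ring
    have hRQ : (R : ℝ) ≤ Q ^ 3 := by
      rw [hR]
      push_cast
      have : (n : ℝ) = Q := rfl
      rw [this]
      have h0 : 0 ≤ (Q - 2) * (Q ^ 2 + Q + 1) := mul_nonneg (by linarith) (by positivity)
      nlinarith
    set E : ℕ := t + (c₂ + (c₃ + c₄)) with hE
    have hE1 : (E : ℝ) ≤ (3 * L / τ + 1) + (3 * L / τ + 1) * (10 * a / τ)
        + 20 * a / τ ^ 2 + 5 * a / ρ₀ := by
      rw [hE]
      push_cast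
      have h2 : (c₂ : ℝ) ≤ (t : ℝ) * (10 * a / τ) := Nat.floor_le (by positivity)
      have h3 : (c₃ : ℝ) ≤ 20 * a / τ ^ 2 := Nat.floor_le (by positivity)
      have h4 : (c₄ : ℝ) ≤ 5 * a / ρ₀ := Nat.floor_le (by positivity)
      have h5 : (t : ℝ) * (10 * a / τ) ≤ (3 * L / τ + 1) * (10 * a / τ) :=
        mul_le_mul_of_nonneg_right ht2 (by positivity)
      linarith
    have hfin : (LL.card : ℝ) ≤ Real.exp (Q ^ ((3 : ℝ) / 4)) := by
      calc (LL.card : ℝ) ≤ ((R ^ E : ℕ) : ℝ) := by exact_mod_cast hLLcard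
        _ = (R : ℝ) ^ E := by push_cast; rfl
        _ ≤ (Q ^ 3) ^ E := pow_le_pow_left₀ (by positivity) hRQ E
        _ = Real.exp ((E : ℝ) * (3 * L)) := by
            rw [Real.exp_nat_mul]
            congr 1
            have : 3 * L = ((3 : ℕ) : ℝ) * L := by norm_num
            rw [this, Real.exp_nat_mul, hLdef, Real.exp_log hQ0]
        _ ≤ Real.exp (Q ^ ((3 : ℝ) / 4)) := by
            apply Real.exp_le_exp.mpr
            refine le_trans ?_ hexp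
            have : (E : ℝ) * (3 * L) = 3 * (E : ℝ) * L := by ring
            rw [this]
            apply mul_le_mul_of_nonneg_right _ hL0.le
            linarith
    exact hfin
  · intro S hS hcov
    have hts : (1 - τ) ^ t * (Fintype.card (Ln K) : ℝ) < 1 :=
      seed_bound hτ0 hτ1 hQ2 t ht1
    obtain ⟨T, Bd, Z, X, hT, hBd, hZ, hX, hdec⟩ := code_exists (H := H) (S := S) (w := w)
      (ρ := ρ) (a := a) hρ₀ hwm hL hρ1 hρ2 hH hw (fun ℓ hℓ => hline ℓ hℓ) hS hcov t hts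
    refine mem_image.mpr ⟨(T, Bd, Z, X), ?_, hdec.symm⟩
    simp only [mem_product, A₁, A₂, A₃, A₄, mem_filter, mem_univ, true_and]
    refine ⟨hT, ?_, ?_, ?_⟩
    · exact Nat.le_floor hBd
    · exact Nat.le_floor hZ
    · exact Nat.le_floor hX

end Crest.Agent.Ryser
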