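import Crest.Agent.Ryser.Layer3
import Crest.Agent.Ryser.Container

/-!
# The bits: which candidate is chosen in each direction.
-/

set_option autoImplicit false
set_option linter.unusedSectionVars false
set_option linter.unusedVariables false

namespace Crest.Agent.Ryser

open Finset

variable {K : Type} [Field K] [Fintype K] [DecidableEq K]

local notation "q" => Fintype.card K

section
variable {C : UData K} {B : BData C}

/-- The points on no chosen hole. -/
def AData.W (A : AData B) (b : Dir K → Fin 2) : Finset (Pt K) :=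
  univ.filter (fun p => ∀ x, ¬ On p (C.line x (b x)) ∧ ∀ e l, ¬ On p (A.line x (b x) e l))

/-- `p` lies on a hole of the candidate `(x, i)`. -/
def onCand (A : AData B) (p : Pt K) (x : Dir K) (i : Fin 2) : Prop :=
  ∃ o : Option (Fin 2 × Fin 10), On p (holeOf A (x, i, o))

theorem mem_W_iff (A : AData B) (b : Dir K → Fin 2) (p : Pt K) :
    p ∈ A.W b ↔ ∀ x, ¬ onCand A p x (b x) := by
  simp only [AData.W, mem_filter, mem_univ, true_and]
  constructor
  · intro h x ⟨o, ho⟩
    rcases o with _ | ⟨e, l⟩
    · exact (h x).1 ho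
    · exact (h x).2 e l ho
  · intro h x
    refine ⟨fun h' => h x ⟨none, h'⟩, fun e l h' => h x ⟨some (e, l), h'⟩⟩

/-- Holes of the two candidates of one direction are distinct lines. -/
theorem holes_ne (A : AData B) (x : Dir K) (o o' : Option (Fin 2 × Fin 10)) :
    holeOf A (x, 0, o) ≠ holeOf A (x, 1, o') := by
  have hdom : ∀ i e l, A.adir x i e l ≠ x ∧ B.Free (B.base x i e) (A.adir x i e l) := by
    intro i e l
    have hm := A.adir_mem x i e l
    simp only [BData.dom, mem_filter, mem_univ, true_and] at hm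
    exact ⟨hm.2.1, hm.2.2⟩
  rcases o with _ | ⟨e, l⟩ <;> rcases o' with _ | ⟨e', l'⟩
  · intro h
    have h2 : C.off x 0 = C.off x 1 := by
      have := congrArg Prod.snd h
      simpa [holeOf, UData.line] using this
    exact C.off_ne x h2
  · intro h
    have h2 := congrArg Prod.fst h
    simp only [holeOf, UData.line, AData.line, lineThru_fst] at h2
    exact (hdom 1 e' l').1 h2.symm
  · intro h
    have h2 := congrArg Prod.fst h
    simp only [holeOf, UData.line, AData.line, lineThru_fst] at h2
    exact (hdom 0 e l).1 h2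
  · intro h
    have hb : B.base x 1 e' ∈ B.all := by
      simp only [BData.all, mem_image, mem_univ, true_and]
      exact ⟨(x, 1, e'), rfl⟩
    have hU : ∀ i e'', On (B.base x i e'') (C.line x i) := by
      intro i e''
      have := B.base_mem x i e''
      simp only [Surv0, mem_filter, mem_linePts] at this
      exact this.1
    have hne : B.base x 1 e' ≠ B.base x 0 e := by
      intro heq
      have h1 := hU 1 e'
      rw [heq] at h1
      refine not_on_of_parallel (l := C.line x 0) (l' := C.line x 1) rfl ?_ (hU 0 e) h1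
      intro h3
      have h2 : C.off x 0 = C.off x 1 := by
        have := congrArg Prod.snd h3
        simpa [UData.line] using this
      exact C.off_ne x h2
    refine (hdom 0 e l).2 _ hb hne ?_
    have h' : lineThru (B.base x 0 e) (A.adir x 0 e l) = lineThru (B.base x 1 e') (A.adir x 1 e' l') := h
    rw [h']
    exact on_lineThru _ _

open Classical in
/-- Points on holes of both candidates of some direction. -/
noncomputable def badPts (A : AData B) : Finset (Pt K) :=
  univ.filter (fun p => ∃ x, onCand A p x 0 ∧ onCand A p x 1)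

theorem card_badPts_le (A : AData B) : (badPts A).card ≤ 441 * (q + 1) := by
  classical
  let T := Dir K × Option (Fin 2 × Fin 10) × Option (Fin 2 × Fin 10)
  have hsub : badPts A ⊆ (univ : Finset T).biUnion (fun t =>
      linePts (holeOf A (t.1, 0, t.2.1)) ∩ linePts (holeOf A (t.1, 1, t.2.2))) := by
    intro p hp
    simp only [badPts, mem_filter, mem_univ, true_and] at hp
    obtain ⟨x, ⟨o, ho⟩, ⟨o', ho'⟩⟩ := hp
    simp only [mem_biUnion, mem_univ, true_and, mem_inter, mem_linePts]
    exact ⟨(x, o, o'), ho, ho'⟩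
  calc (badPts A).card ≤ _ := card_le_card hsub
    _ ≤ ∑ t : T, (linePts (holeOf A (t.1, 0, t.2.1)) ∩ linePts (holeOf A (t.1, 1, t.2.2))).card :=
        card_biUnion_le
    _ ≤ ∑ t : T, 1 := by
        apply Finset.sum_le_sum
        intro t _
        exact card_inter_linePts_le_one (holes_ne A _ _ _)
    _ = 441 * (q + 1) := by
        simp only [Finset.sum_const, Finset.card_univ, smul_eq_mul, mul_one]
        simp only [T, Fintype.card_prod, Fintype.card_option, Fintype.card_fin]
        ring

open Classical in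
/-- The number of points of `F` on no chosen hole. -/
noncomputable def XF (A : AData B) (F : Finset (Pt K)) (b : Dir K → Fin 2) : ℝ :=
  ((F.filter (fun p => p ∈ A.W b)).card : ℝ)

theorem XF_lip (A : AData B) (F : Finset (Pt K)) (b : Dir K → Fin 2) (x : Dir K) (a : Fin 2) :
    |XF A F (Function.update b x a) - XF A F b| ≤ 42 * (q : ℝ) := by
  classical
  set T : Finset (Pt K) := (univ : Finset (Fin 2 × Option (Fin 2 × Fin 10))).biUnion
    (fun t => linePts (holeOf A (x, t.1, t.2))) with hT
  have hTc : (T.card : ℝ) ≤ 42 * (q : ℝ) := by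
    have : T.card ≤ 42 * q := by
      calc T.card ≤ ∑ t : Fin 2 × Option (Fin 2 × Fin 10), (linePts (holeOf A (x, t.1, t.2))).card :=
            card_biUnion_le
        _ = ∑ t : Fin 2 × Option (Fin 2 × Fin 10), q := by
            apply Finset.sum_congr rfl
            intro t _
            exact card_linePts _
        _ = 42 * q := by
            simp only [Finset.sum_const, Finset.card_univ, smul_eq_mul]
            simp only [Fintype.card_prod, Fintype.card_option, Fintype.card_fin]
    exact_mod_cast this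
  have hsame : ∀ p, p ∉ T → (p ∈ A.W (Function.update b x a) ↔ p ∈ A.W b) := by
    intro p hp
    have hno : ∀ i, ¬ onCand A p x i := by
      intro i ⟨o, ho⟩
      apply hp
      simp only [hT, mem_biUnion, mem_univ, true_and, mem_linePts]
      exact ⟨(i, o), ho⟩
    simp only [mem_W_iff]
    constructor
    · intro h y
      by_cases hy : y = x
      · subst hy; exact hno _
      · have := h y
        rwa [Function.update_of_ne hy] at this
    · intro h y
      by_cases hy : y = x
      · subst hy; exact hno _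
      · rw [Function.update_of_ne hy]; exact h y
  have h1 : (F.filter (fun p => p ∈ A.W (Function.update b x a))).card
      ≤ (F.filter (fun p => p ∈ A.W b)).card + T.card := by
    refine le_trans (card_le_card ?_) (card_union_le _ _)
    intro p hp
    simp only [mem_filter] at hp
    simp only [mem_union, mem_filter]
    by_cases hpT : p ∈ T
    · exact Or.inr hpT
    · exact Or.inl ⟨hp.1, (hsame p hpT).1 hp.2⟩
  have h2 : (F.filter (fun p => p ∈ A.W b)).card
      ≤ (F.filter (fun p => p ∈ A.W (Function.update b x a))).card + T.card := by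
    refine le_trans (card_le_card ?_) (card_union_le _ _)
    intro p hp
    simp only [mem_filter] at hp
    simp only [mem_union, mem_filter]
    by_cases hpT : p ∈ T
    · exact Or.inr hpT
    · exact Or.inl ⟨hp.1, (hsame p hpT).2 hp.2⟩
  have h1' : ((F.filter (fun p => p ∈ A.W (Function.update b x a))).card : ℝ)
      ≤ (F.filter (fun p => p ∈ A.W b)).card + T.card := by exact_mod_cast h1
  have h2' : ((F.filter (fun p => p ∈ A.W b)).card : ℝ)
      ≤ (F.filter (fun p => p ∈ A.W (Function.update b x a))).card + T.card := by exact_mod_cast h2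
  unfold XF
  rw [abs_le]
  constructor <;> linarith

open Classical in
/-- The directions blocked by a candidate at `p`. -/
theorem card_blocked_le (A : AData B) (p : Pt K) :
    ((univ : Finset (Dir K)).filter (fun x => ∃ i, onCand A p x i)).card ≤ A.mP p := by
  classical
  -- map each blocked direction to a hole through `p`
  have key : ∀ x : Dir K, (∃ i, onCand A p x i) →
      (∃ i, On p (C.line x i)) ∨ ∃ i e l, On p (A.line x i e l) := by
    rintro x ⟨i, o, ho⟩
    rcases o with _ | ⟨e, l⟩
    · exact Or.inl ⟨i, ho⟩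
    · exact Or.inr ⟨i, e, l, ho⟩
  set S1 := (univ : Finset (Dir K × Fin 2)).filter (fun t => On p (C.line t.1 t.2)) with hS1
  set S2 := (univ : Finset (VIdx K)).filter (fun v => On p (A.line v.1 v.2.1 v.2.2.1 v.2.2.2)) with hS2
  have hsub : (univ : Finset (Dir K)).filter (fun x => ∃ i, onCand A p x i) ⊆
      S1.image Prod.fst ∪ S2.image Prod.fst := by
    intro x hx
    simp only [mem_filter, mem_univ, true_and] at hx
    simp only [mem_union, mem_image]
    rcases key x hx with ⟨i, h⟩ | ⟨i, e, l, h⟩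
    · refine Or.inl ⟨(x, i), ?_, rfl⟩
      simp only [hS1, mem_filter, mem_univ, true_and]
      exact h
    · refine Or.inr ⟨(x, i, e, l), ?_, rfl⟩
      simp only [hS2, mem_filter, mem_univ, true_and]
      exact h
  calc _ ≤ _ := card_le_card hsub
    _ ≤ (S1.image Prod.fst).card + (S2.image Prod.fst).card := card_union_le _ _
    _ ≤ S1.card + S2.card := add_le_add card_image_le card_image_le
    _ = A.mP p := rfl

/-- For `p` not bad, the probability that `p` survives is at least `2^(-mP p)`. -/
theorem pr_mem_W_ge (A : AData B) (p : Pt K) (hp : p ∉ badPts A) :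
    ((1 : ℝ) / 2) ^ A.mP p ≤ pr (fun b : Dir K → Fin 2 => p ∈ A.W b) := by
  classical
  have hE : pr (fun b : Dir K → Fin 2 => p ∈ A.W b) =
      ∏ x : Dir K, pr (fun i : Fin 2 => ¬ onCand A p x i) := by
    rw [← pr_forall_coord (fun (x : Dir K) (i : Fin 2) => ¬ onCand A p x i)]
    congr 1
    funext b
    exact propext (mem_W_iff A b p)
  rw [hE]
  have hbad : ∀ x, ¬ (onCand A p x 0 ∧ onCand A p x 1) := by
    intro x hx
    apply hp
    simp only [badPts, mem_filter, mem_univ, true_and]
    exact ⟨x, hx⟩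
  have hfac : ∀ x : Dir K, (if (∃ i, onCand A p x i) then ((1 : ℝ) / 2) else 1) ≤
      pr (fun i : Fin 2 => ¬ onCand A p x i) := by
    intro x
    rw [pr_eq_filter]
    simp only [Fintype.card_fin]
    by_cases h : ∃ i, onCand A p x i
    · rw [if_pos h]
      -- at least one of the two is not blocked
      have hcard : 1 ≤ ((univ : Finset (Fin 2)).filter (fun i => ¬ onCand A p x i)).card := by
        rw [Nat.one_le_iff_ne_zero, Finset.card_ne_zero]
        by_cases h0 : onCand A p x 0
        · refine ⟨1, ?_⟩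
          simp only [mem_filter, mem_univ, true_and]
          exact fun h1 => hbad x ⟨h0, h1⟩
        · exact ⟨0, by simp only [mem_filter, mem_univ, true_and]; exact h0⟩
      have : (1 : ℝ) ≤ (((univ : Finset (Fin 2)).filter (fun i => ¬ onCand A p x i)).card : ℝ) := by
        exact_mod_cast hcard
      push_cast
      linarith
    · rw [if_neg h]
      push Not at h
      have : (univ : Finset (Fin 2)).filter (fun i => ¬ onCand A p x i) = univ := by
        ext i; simp [h i]
      rw [this]
      simp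
  calc ((1 : ℝ) / 2) ^ A.mP p
      ≤ ((1 : ℝ) / 2) ^ ((univ : Finset (Dir K)).filter (fun x => ∃ i, onCand A p x i)).card := by
        apply pow_le_pow_of_le_one (by norm_num) (by norm_num) (card_blocked_le A p)
    _ = ∏ x : Dir K, (if (∃ i, onCand A p x i) then ((1 : ℝ) / 2) else 1) := by
        rw [Finset.prod_ite]
        simp
    _ ≤ _ := by
        apply Finset.prod_le_prod
        · intro x _
          split_ifs <;> norm_num
        · intro x _
          exact hfac x

theorem avg_XF_eq (A : AData B) (F : Finset (Pt K)) :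
    avg (XF A F) = ∑ p ∈ F, pr (fun b : Dir K → Fin 2 => p ∈ A.W b) := by
  classical
  have h1 : ∀ b, XF A F b = ∑ p ∈ F, if p ∈ A.W b then (1 : ℝ) else 0 := by
    intro b
    unfold XF
    rw [Finset.sum_boole]
  simp_rw [pr_eq_avg]
  unfold avg
  rw [← Finset.sum_div]
  congr 1
  simp_rw [h1]
  rw [Finset.sum_comm]

/-- Lower bound for the mean, by Cauchy–Schwarz. -/
theorem avg_XF_ge (A : AData B) (F : Finset (Pt K)) (M : ℝ) (hM0 : 0 < M)
    (hM : ∑ p, (2 : ℝ) ^ A.mP p ≤ M) :
    (((F.card : ℝ) - 441 * ((q : ℝ) + 1)) ^ 2 ≤ avg (XF A F) * M) ∨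
      (F.card : ℝ) < 441 * ((q : ℝ) + 1) := by
  classical
  by_cases hF : (F.card : ℝ) < 441 * ((q : ℝ) + 1)
  · exact Or.inr hF
  left
  push Not at hF
  set F' := F \ badPts A with hF'
  have hcard : (F.card : ℝ) - 441 * ((q : ℝ) + 1) ≤ F'.card := by
    have h1 : F.card ≤ F'.card + (badPts A).card := by
      have : F ⊆ F' ∪ badPts A := by
        intro p hp
        simp only [hF', mem_union, mem_sdiff]
        by_cases h : p ∈ badPts A
        · exact Or.inr h
        · exact Or.inl ⟨hp, h⟩
      exact le_trans (card_le_card this) (card_union_le _ _)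
    have h2 := card_badPts_le A
    have h3 : (F.card : ℝ) ≤ F'.card + (badPts A).card := by exact_mod_cast h1
    have h4 : ((badPts A).card : ℝ) ≤ 441 * ((q : ℝ) + 1) := by exact_mod_cast h2
    linarith
  -- Cauchy-Schwarz
  have hCS : ((F'.card : ℝ)) ^ 2 ≤ (∑ p ∈ F', ((1 : ℝ) / 2) ^ A.mP p) * ∑ p ∈ F', (2 : ℝ) ^ A.mP p := by
    have := Finset.sum_sq_le_sum_mul_sum_of_sq_le_mul F' (r := fun _ => (1 : ℝ))
      (f := fun p => ((1 : ℝ) / 2) ^ A.mP p) (g := fun p => (2 : ℝ) ^ A.mP p)
      (fun p _ => by positivity) (fun p _ => by positivity)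
      (fun p _ => by
        rw [← mul_pow]
        norm_num)
    simpa using this
  have hsum1 : ∑ p ∈ F', ((1 : ℝ) / 2) ^ A.mP p ≤ avg (XF A F) := by
    rw [avg_XF_eq]
    calc ∑ p ∈ F', ((1 : ℝ) / 2) ^ A.mP p
        ≤ ∑ p ∈ F', pr (fun b : Dir K → Fin 2 => p ∈ A.W b) := by
          apply Finset.sum_le_sum
          intro p hp
          apply pr_mem_W_ge
          simp only [hF', mem_sdiff] at hp
          exact hp.2
      _ ≤ ∑ p ∈ F, pr (fun b : Dir K → Fin 2 => p ∈ A.W b) := by
          apply Finset.sum_le_sum_of_subset_of_nonneg sdiff_subset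
          intro p _ _
          exact pr_nonneg _
  have hsum2 : ∑ p ∈ F', (2 : ℝ) ^ A.mP p ≤ M := by
    refine le_trans ?_ hM
    apply Finset.sum_le_sum_of_subset_of_nonneg (subset_univ _)
    intro p _ _
    positivity
  have hnn : 0 ≤ ∑ p ∈ F', (2 : ℝ) ^ A.mP p := by positivity
  have hnn1 : 0 ≤ ∑ p ∈ F', ((1 : ℝ) / 2) ^ A.mP p := by positivity
  have h0 : 0 ≤ (F.card : ℝ) - 441 * ((q : ℝ) + 1) := by linarith
  calc ((F.card : ℝ) - 441 * ((q : ℝ) + 1)) ^ 2 ≤ (F'.card : ℝ) ^ 2 := by
        exact pow_le_pow_left₀ h0 hcard 2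
    _ ≤ _ := hCS
    _ ≤ avg (XF A F) * M := by
        apply mul_le_mul hsum1 hsum2 hnn
        exact le_trans hnn1 hsum1

/-- Concentration: the probability of exposing no point of a large `F` is tiny. -/
theorem pr_XF_le (A : AData B) (F : Finset (Pt K)) (μ : ℝ) (hμ : 0 < μ) (hle : μ ≤ avg (XF A F)) :
    pr (fun b : Dir K → Fin 2 => XF A F b ≤ 0) ≤
      Real.exp (-(μ ^ 2) / (2 * (((q : ℝ) + 1) * (42 * (q : ℝ)) ^ 2))) := by
  have h := mcdiarmid_lower (XF A F) (fun _ : Dir K => 42 * (q : ℝ))
    (fun ω i a => XF_lip A F ω i a) hμ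
  have hsum : ∑ _i : Dir K, (42 * (q : ℝ)) ^ 2 = ((q : ℝ) + 1) * (42 * (q : ℝ)) ^ 2 := by
    simp only [Finset.sum_const, Finset.card_univ, nsmul_eq_mul, card_Dir]
    push_cast
    ring
  rw [hsum] at h
  refine le_trans (pr_mono ?_) h
  intro b hb
  linarith

end

/-- For `F` with `|F| ≥ q^(39/20)`: the points on holes of both candidates of a direction number at most
`441 (q+1)`; for the others `P_b[p ∈ W b] = 2^(-m)` with `m ≤ mP p`, so by Cauchy–Schwarz
`E |F ∩ W b| ≥ (|F| - 441(q+1))² / ∑ 2^mP ≥ q^(19/10) / (4 C1mom)`.  Lipschitz `42 q` in each of `q + 1` bits; McDiarmid gives failure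
`≤ exp(-c q^(4/5))`, beating the list size `exp(q^(3/4))`. -/
theorem bits_exists :
    ∃ q₀ : ℕ, ∀ (K : Type) [Field K] [Fintype K] [DecidableEq K], q₀ ≤ Fintype.card K →
      ∀ (C : UData K) (B : BData C) (A : AData B) (LL : Finset (Finset (Ln K))),
        P1 B →
        (∑ p, (2 : ℝ) ^ A.mP p ≤ C1mom * (Fintype.card K : ℝ) ^ 2) →
        (LL.card : ℝ) ≤ Real.exp ((Fintype.card K : ℝ) ^ ((3 : ℝ) / 4)) →
        ∃ b : Dir K → Fin 2, ∀ S ∈ LL,
          (Fintype.card K : ℝ) ^ ((39 : ℝ) / 20) ≤ ((unc S).card : ℝ) →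
          ∃ p ∈ unc S, p ∈ A.W b := by
  have hC : 0 < C1mom := by unfold C1mom; positivity
  set a : ℝ := 1 / (112896 * C1mom ^ 2) with ha
  have ha0 : 0 < a := by positivity
  -- the thresholds
  have hlim1 : ∀ᶠ t : ℝ in Filter.atTop, 1764 ≤ t ^ ((19 : ℝ) / 20) ∧ 1 < a * t ^ ((1 : ℝ) / 20) ∧ 1 ≤ t := by
    have h1 := (tendsto_rpow_atTop (y := (19 : ℝ) / 20) (by norm_num)).eventually_ge_atTop 1764
    have h2 := (tendsto_rpow_atTop (y := (1 : ℝ) / 20) (by norm_num)).eventually_gt_atTop (1 / a)
    filter_upwards [h1, h2, Filter.eventually_ge_atTop (1 : ℝ)] with t h1 h2 h3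
    refine ⟨h1, ?_, h3⟩
    rw [div_lt_iff₀ ha0] at h2
    linarith
  obtain ⟨t₀, ht₀⟩ := Filter.eventually_atTop.1 hlim1
  obtain ⟨q₀, hq₀⟩ := exists_nat_ge t₀
  refine ⟨q₀, ?_⟩
  intro K _ _ _ hq C B A LL _ hmom hLL
  classical
  set Q : ℝ := (Fintype.card K : ℝ) with hQ
  have hQt : t₀ ≤ Q := le_trans hq₀ (by rw [hQ]; exact_mod_cast hq)
  obtain ⟨h1, h2, h3⟩ := ht₀ Q hQt
  have hQ0 : 0 < Q := by linarith
  set R : ℝ := Q ^ ((39 : ℝ) / 20) with hR
  set U : ℝ := Q ^ ((3 : ℝ) / 4) with hU
  set V : ℝ := Q ^ ((1 : ℝ) / 20) with hV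
  have hU0 : 0 < U := Real.rpow_pos_of_pos hQ0 _
  have hV0 : 0 < V := Real.rpow_pos_of_pos hQ0 _
  -- rpow identities
  have hp39 : R = Q * Q ^ ((19 : ℝ) / 20) := by
    rw [hR, show (39 : ℝ) / 20 = 1 + 19 / 20 by norm_num, Real.rpow_add hQ0, Real.rpow_one]
  have hp4 : R ^ 4 = Q ^ 7 * (V * U) := by
    have e1 : R ^ 4 = Q ^ ((39 : ℝ) / 5) := by
      rw [hR, ← Real.rpow_natCast, ← Real.rpow_mul hQ0.le]; norm_num
    have e2 : V * U = Q ^ ((4 : ℝ) / 5) := by
      rw [hV, hU, ← Real.rpow_add hQ0]; norm_num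
    have e3 : Q ^ 7 = Q ^ ((7 : ℝ)) := by
      rw [← Real.rpow_natCast]; norm_num
    rw [e1, e2, e3, ← Real.rpow_add hQ0]; norm_num
  have hR882 : 441 * (Q + 1) ≤ R / 2 := by
    have : 1764 * Q ≤ R := by
      rw [hp39]
      nlinarith
    linarith
  have hR0 : 0 < R := Real.rpow_pos_of_pos hQ0 _
  have hM0 : 0 < C1mom * Q ^ 2 := by positivity
  -- the bound for each `S`
  have key : ∀ S : Finset (Ln K), R ≤ ((unc S).card : ℝ) →
      pr (fun b : Dir K → Fin 2 => XF A (unc S) b ≤ 0) ≤ Real.exp (-(a * V * U)) := by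
    intro S hS
    set μ : ℝ := R ^ 2 / (4 * (C1mom * Q ^ 2)) with hμ
    have hμ0 : 0 < μ := by positivity
    have hle : μ ≤ avg (XF A (unc S)) := by
      have hav := avg_XF_ge A (unc S) (C1mom * Q ^ 2) hM0 hmom
      rcases hav with hav | hav
      · have h5 : (R / 2) ^ 2 ≤ avg (XF A (unc S)) * (C1mom * Q ^ 2) := by
          refine le_trans ?_ hav
          apply pow_le_pow_left₀ (by positivity)
          linarith
        rw [hμ, div_le_iff₀ (by positivity)]
        nlinarith
      · exfalso
        linarith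
    refine le_trans (pr_XF_le A (unc S) μ hμ0 hle) ?_
    apply Real.exp_le_exp.2
    rw [neg_div, neg_le_neg_iff]
    have hμ2 : μ ^ 2 = Q ^ 3 * (V * U) / (16 * C1mom ^ 2) := by
      rw [hμ, div_pow, ← pow_mul]
      have : R ^ (2 * 2) = Q ^ 7 * (V * U) := hp4
      rw [this]
      field_simp
      ring
    have hden : 2 * ((Q + 1) * (42 * Q) ^ 2) ≤ 7056 * Q ^ 3 := by
      have : (Q + 1) ≤ 2 * Q := by linarith
      have hQ2 : 0 ≤ Q ^ 2 := by positivity
      nlinarith
    have hden0 : 0 < 2 * ((Q + 1) * (42 * Q) ^ 2) := by positivity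
    rw [le_div_iff₀ hden0, hμ2, le_div_iff₀ (by positivity)]
    have hvu : 0 ≤ V * U := by positivity
    have haC : a * (112896 * C1mom ^ 2) = 1 := by
      rw [ha]; field_simp
    have h6 : a * V * U * (2 * ((Q + 1) * (42 * Q) ^ 2)) * (16 * C1mom ^ 2)
        ≤ a * V * U * (7056 * Q ^ 3) * (16 * C1mom ^ 2) := by
      apply mul_le_mul_of_nonneg_right _ (by positivity)
      apply mul_le_mul_of_nonneg_left hden (by positivity)
    have h7 : a * V * U * (7056 * Q ^ 3) * (16 * C1mom ^ 2) = Q ^ 3 * (V * U) * (a * (112896 * C1mom ^ 2)) := by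
      ring
    rw [h7, haC, mul_one] at h6
    exact h6
  -- union bound
  set LL' := LL.filter (fun S => R ≤ ((unc S).card : ℝ)) with hLL'
  have hunion : pr (fun b : Dir K → Fin 2 => ∃ S ∈ LL', XF A (unc S) b ≤ 0) < 1 := by
    refine lt_of_le_of_lt (pr_exists_le LL' (fun S b => XF A (unc S) b ≤ 0)) ?_
    have hs : ∑ S ∈ LL', pr (fun b : Dir K → Fin 2 => XF A (unc S) b ≤ 0)
        ≤ ∑ S ∈ LL', Real.exp (-(a * V * U)) := by
      apply Finset.sum_le_sum
      intro S hS
      simp only [hLL', mem_filter] at hS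
      exact key S hS.2
    refine lt_of_le_of_lt hs ?_
    rw [Finset.sum_const, nsmul_eq_mul]
    have hc : (LL'.card : ℝ) ≤ Real.exp U := by
      refine le_trans ?_ hLL
      exact_mod_cast card_le_card (filter_subset _ _)
    calc (LL'.card : ℝ) * Real.exp (-(a * V * U))
        ≤ Real.exp U * Real.exp (-(a * V * U)) := by
          apply mul_le_mul_of_nonneg_right hc (Real.exp_pos _).le
      _ = Real.exp (U + -(a * V * U)) := (Real.exp_add _ _).symm
      _ < 1 := by
          rw [Real.exp_lt_one_iff]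
          have : U < a * V * U := by
            have h8 : 1 * U < (a * V) * U := mul_lt_mul_of_pos_right h2 hU0
            linarith
          linarith
  obtain ⟨b, hb⟩ := exists_of_pr_lt_one _ hunion
  refine ⟨b, ?_⟩
  intro S hS hSR
  have hS' : S ∈ LL' := by
    simp only [hLL', mem_filter]
    exact ⟨hS, hSR⟩
  have hX : ¬ XF A (unc S) b ≤ 0 := fun h => hb ⟨S, hS', h⟩
  unfold XF at hX
  have hne : ((unc S).filter (fun p => p ∈ A.W b)).Nonempty := by
    rw [← Finset.card_pos]
    by_contra h0
    have : ((unc S).filter (fun p => p ∈ A.W b)).card = 0 := by omega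
    apply hX
    rw [this]
    simp
  obtain ⟨p, hp⟩ := hne
  simp only [mem_filter] at hp
  exact ⟨p, hp.1, hp.2⟩

end Crest.Agent.Ryser
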