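import Crest.Agent.Ryser.Seeds

set_option autoImplicit false
set_option linter.unusedSectionVars false
set_option linter.unusedVariables false

namespace Crest.Agent.Ryser

open Finset

namespace ContainerProof

variable {K : Type} [Field K] [Fintype K] [DecidableEq K]

local notation "q" => Fintype.card K

/-- Points off the holes. -/
def offH (H : Finset (Ln K)) : Finset (Pt K) := univ.filter (fun p => ∀ h ∈ H, ¬ On p h)

/-- Weight of the part of a line off the holes. -/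
noncomputable def lineW (H : Finset (Ln K)) (w : Pt K → ℝ) (ℓ : Ln K) : ℝ :=
  ∑ p ∈ linePts ℓ with (∀ h ∈ H, ¬ On p h), w p

@[simp] theorem mem_offH {H : Finset (Ln K)} {p : Pt K} : p ∈ offH H ↔ ∀ h ∈ H, ¬ On p h := by
  simp [offH]

theorem exists_dir_few (H : Finset (Ln K)) (hH : (H.card : ℝ) ≤ 42 * ((q : ℝ) + 1)) :
    ∃ d : Dir K, (H.filter (fun h => h.1 = d)).card ≤ 42 := by
  by_contra hcon
  push Not at hcon
  have h1 : H.card = ∑ d : Dir K, (H.filter (fun h => h.1 = d)).card :=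
    Finset.card_eq_sum_card_fiberwise (fun x _ => mem_univ _)
  have h2 : ∑ d : Dir K, 43 ≤ ∑ d : Dir K, (H.filter (fun h => h.1 = d)).card :=
    Finset.sum_le_sum (fun d _ => hcon d)
  rw [← h1] at h2
  simp only [sum_const, card_univ, card_Dir, smul_eq_mul] at h2
  have h3 : (((q + 1) * 43 : ℕ) : ℝ) ≤ (H.card : ℝ) := by exact_mod_cast h2
  push_cast at h3
  have : (0 : ℝ) ≤ q := by positivity
  linarith

theorem sum_offH_eq (H : Finset (Ln K)) (w : Pt K → ℝ) (d : Dir K) :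
    ∑ p ∈ offH H, w p =
      ∑ ℓ ∈ univ.filter (fun ℓ : Ln K => ℓ.1 = d ∧ ℓ ∉ H), lineW H w ℓ := by
  rw [← Finset.sum_fiberwise_of_maps_to (s := offH H)
    (t := univ.filter (fun ℓ : Ln K => ℓ.1 = d ∧ ℓ ∉ H)) (g := fun p => lineThru p d)]
  · apply sum_congr rfl
    intro ℓ hℓ
    simp only [mem_filter, mem_univ, true_and] at hℓ
    unfold lineW
    apply sum_congr _ (fun _ _ => rfl)
    ext p
    simp only [mem_filter, mem_offH, mem_linePts]
    constructor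
    · rintro ⟨h1, h2⟩
      refine ⟨?_, h1⟩
      rw [on_iff_lineThru, hℓ.1]; exact h2
    · rintro ⟨h1, h2⟩
      refine ⟨h2, ?_⟩
      rw [on_iff_lineThru, hℓ.1] at h1; exact h1
  · intro p hp
    simp only [mem_offH] at hp
    simp only [mem_filter, mem_univ, true_and, lineThru_fst]
    exact fun hmem => hp _ hmem (on_lineThru p d)

theorem card_dir_off (H : Finset (Ln K)) (d : Dir K) :
    (q : ℝ) - ((H.filter (fun h => h.1 = d)).card : ℝ) ≤
      ((univ.filter (fun ℓ : Ln K => ℓ.1 = d ∧ ℓ ∉ H)).card : ℝ) := by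
  have hsub : univ.filter (fun ℓ : Ln K => ℓ.1 = d) ⊆
      univ.filter (fun ℓ : Ln K => ℓ.1 = d ∧ ℓ ∉ H) ∪ H.filter (fun h => h.1 = d) := by
    intro ℓ hℓ
    simp only [mem_filter, mem_univ, true_and] at hℓ
    simp only [mem_union, mem_filter, mem_univ, true_and]
    by_cases h : ℓ ∈ H
    · right; exact ⟨h, hℓ⟩
    · left; exact ⟨hℓ, h⟩
  have h1 := card_le_card hsub
  rw [card_lines_of_dir] at h1
  have h2 := card_union_le (univ.filter (fun ℓ : Ln K => ℓ.1 = d ∧ ℓ ∉ H))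
    (H.filter (fun h => h.1 = d))
  have h3 : (q : ℝ) ≤ ((univ.filter (fun ℓ : Ln K => ℓ.1 = d ∧ ℓ ∉ H)).card : ℝ)
      + ((H.filter (fun h => h.1 = d)).card : ℝ) := by
    exact_mod_cast h1.trans h2
  linarith

theorem lineW_eq (H : Finset (Ln K)) (w : Pt K → ℝ) (ℓ : Ln K) :
    lineW H w ℓ = ∑ p ∈ offH H, if On p ℓ then w p else 0 := by
  unfold lineW
  rw [← Finset.sum_filter]
  apply sum_congr _ (fun _ _ => rfl)
  ext p
  simp [and_comm]

theorem sum_lineW_eq (S H : Finset (Ln K)) (w : Pt K → ℝ) :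
    ∑ ℓ ∈ S, lineW H w ℓ = ∑ p ∈ offH H, (cnt S p : ℝ) * w p := by
  simp_rw [lineW_eq]
  rw [Finset.sum_comm]
  apply sum_congr rfl
  intro p _
  rw [← Finset.sum_filter]
  simp [cnt]


/-- Numerical parameters: everything that "q large" is used for. -/
structure Large (ρ₀ wm Q a : ℝ) : Prop where
  hQ : 2 ≤ Q
  ha42 : 42 ≤ a
  ha1 : 8 * a ≤ ρ₀ * Q
  ha2 : 10 * a ≤ (ρ₀ / (4 * wm)) * Q

section Stats

variable {H S : Finset (Ln K)} {w : Pt K → ℝ} {ρ₀ wm ρ a : ℝ}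

theorem offH_cnt_pos (hcov : Covers S (univ.filter (fun p => ∀ h ∈ H, ¬ On p h)))
    {p : Pt K} (hp : p ∈ offH H) : 1 ≤ cnt (S.filter (fun l => l ∉ H)) p := by
  rw [mem_offH] at hp
  obtain ⟨l, hl, hon⟩ := hcov p (by simpa using hp)
  apply Finset.card_pos.mpr
  refine ⟨l, ?_⟩
  simp only [mem_filter]
  exact ⟨⟨hl, fun hmem => hp l hmem hon⟩, hon⟩

/-- The overlap of `S'` on the points off the holes. -/
noncomputable def overlap (H S' : Finset (Ln K)) (w : Pt K → ℝ) : ℝ :=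
  ∑ p ∈ offH H, ((cnt S' p : ℝ) - 1) * w p

theorem overlap_eq (H S' : Finset (Ln K)) (w : Pt K → ℝ) :
    overlap H S' w = ∑ ℓ ∈ S', lineW H w ℓ - ∑ p ∈ offH H, w p := by
  unfold overlap
  rw [sum_lineW_eq, ← Finset.sum_sub_distrib]
  apply sum_congr rfl
  intro p _
  ring

theorem sum_offH_ge (hH : (H.card : ℝ) ≤ 42 * ((q : ℝ) + 1))
    (hline : ∀ ℓ, ℓ ∉ H → |lineW H w ℓ - ρ * (q : ℝ)| ≤ 2 * a)
    (hpos : 0 ≤ ρ * (q : ℝ) - 2 * a) :
    ((q : ℝ) - 42) * (ρ * (q : ℝ) - 2 * a) ≤ ∑ p ∈ offH H, w p := by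
  obtain ⟨d, hd⟩ := exists_dir_few H hH
  rw [sum_offH_eq H w d]
  have h1 : ((univ.filter (fun ℓ : Ln K => ℓ.1 = d ∧ ℓ ∉ H)).card : ℝ) * (ρ * (q : ℝ) - 2 * a)
      ≤ ∑ ℓ ∈ univ.filter (fun ℓ : Ln K => ℓ.1 = d ∧ ℓ ∉ H), lineW H w ℓ := by
    rw [← nsmul_eq_mul]
    apply Finset.card_nsmul_le_sum
    intro ℓ hℓ
    simp only [mem_filter, mem_univ, true_and] at hℓ
    have := abs_le.mp (hline ℓ hℓ.2)
    linarith [this.1]
  have h2 := card_dir_off H d
  have h3 : ((H.filter (fun h => h.1 = d)).card : ℝ) ≤ 42 := by exact_mod_cast hd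
  have h4 : ((q : ℝ) - 42) ≤ ((univ.filter (fun ℓ : Ln K => ℓ.1 = d ∧ ℓ ∉ H)).card : ℝ) := by
    linarith
  calc ((q : ℝ) - 42) * (ρ * (q : ℝ) - 2 * a)
      ≤ ((univ.filter (fun ℓ : Ln K => ℓ.1 = d ∧ ℓ ∉ H)).card : ℝ) * (ρ * (q : ℝ) - 2 * a) :=
        mul_le_mul_of_nonneg_right h4 hpos
    _ ≤ _ := h1

theorem sum_S'_le {S' : Finset (Ln K)} (hS' : ∀ ℓ ∈ S', ℓ ∉ H)
    (hline : ∀ ℓ, ℓ ∉ H → |lineW H w ℓ - ρ * (q : ℝ)| ≤ 2 * a) :
    ∑ ℓ ∈ S', lineW H w ℓ ≤ (S'.card : ℝ) * (ρ * (q : ℝ) + 2 * a) := by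
  have := Finset.sum_le_card_nsmul S' (fun ℓ => lineW H w ℓ) (ρ * (q : ℝ) + 2 * a)
    (fun ℓ hℓ => by
      have := abs_le.mp (hline ℓ (hS' ℓ hℓ))
      linarith [this.2])
  rwa [nsmul_eq_mul] at this

theorem overlap_nonneg {S' : Finset (Ln K)} (hw : ∀ p, 1 ≤ w p ∧ w p ≤ wm)
    (hc : ∀ p ∈ offH H, 1 ≤ cnt S' p) : 0 ≤ overlap H S' w := by
  unfold overlap
  apply Finset.sum_nonneg
  intro p hp
  have h1 : (1 : ℝ) ≤ cnt S' p := by exact_mod_cast hc p hp
  have h2 := (hw p).1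
  exact mul_nonneg (by linarith) (by linarith)

/-- The set of doubly covered points. -/
def Pb (H S' : Finset (Ln K)) : Finset (Pt K) := (offH H).filter (fun p => 2 ≤ cnt S' p)

theorem card_Pb_le {S' : Finset (Ln K)} (hw : ∀ p, 1 ≤ w p ∧ w p ≤ wm)
    (hc : ∀ p ∈ offH H, 1 ≤ cnt S' p) : ((Pb H S').card : ℝ) ≤ overlap H S' w := by
  unfold overlap
  calc ((Pb H S').card : ℝ) = ∑ p ∈ Pb H S', (1 : ℝ) := by simp
    _ ≤ ∑ p ∈ Pb H S', ((cnt S' p : ℝ) - 1) * w p := by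
        apply Finset.sum_le_sum
        intro p hp
        simp only [Pb, mem_filter] at hp
        have h1 : (2 : ℝ) ≤ cnt S' p := by exact_mod_cast hp.2
        have h2 := (hw p).1
        nlinarith
    _ ≤ _ := by
        apply Finset.sum_le_sum_of_subset_of_nonneg (filter_subset _ _)
        intro p hp _
        have h1 : (1 : ℝ) ≤ cnt S' p := by exact_mod_cast hc p hp
        have h2 := (hw p).1
        exact mul_nonneg (by linarith) (by linarith)

theorem sum_inter_Pb (H S' : Finset (Ln K)) (P : Finset (Pt K)) :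
    ∑ ℓ ∈ S', ((linePts ℓ ∩ P).card : ℝ) = ∑ p ∈ P, (cnt S' p : ℝ) := by
  have : ∀ ℓ, ((linePts ℓ ∩ P).card : ℝ) = ∑ p ∈ P, if On p ℓ then (1 : ℝ) else 0 := by
    intro ℓ
    rw [← Finset.sum_filter]
    simp only [sum_const, nsmul_eq_mul, mul_one]
    congr 2
    ext p
    simp [and_comm]
  simp_rw [this]
  rw [Finset.sum_comm]
  apply sum_congr rfl
  intro p _
  rw [← Finset.sum_filter]
  simp [cnt]

theorem sum_inter_Pb_le {S' : Finset (Ln K)} (hw : ∀ p, 1 ≤ w p ∧ w p ≤ wm)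
    (hc : ∀ p ∈ offH H, 1 ≤ cnt S' p) :
    ∑ ℓ ∈ S', ((linePts ℓ ∩ Pb H S').card : ℝ) ≤ 2 * overlap H S' w := by
  rw [sum_inter_Pb H S' (Pb H S')]
  unfold overlap
  rw [Finset.mul_sum]
  calc ∑ p ∈ Pb H S', (cnt S' p : ℝ)
      ≤ ∑ p ∈ Pb H S', 2 * (((cnt S' p : ℝ) - 1) * w p) := by
        apply Finset.sum_le_sum
        intro p hp
        simp only [Pb, mem_filter] at hp
        have h1 : (2 : ℝ) ≤ cnt S' p := by exact_mod_cast hp.2
        have h2 := (hw p).1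
        nlinarith
    _ ≤ _ := by
        apply Finset.sum_le_sum_of_subset_of_nonneg (filter_subset _ _)
        intro p hp _
        have h1 : (1 : ℝ) ≤ cnt S' p := by exact_mod_cast hc p hp
        have h2 := (hw p).1
        exact mul_nonneg (by norm_num) (mul_nonneg (by linarith) (by linarith))


theorem overlap_bounds (hρ₀ : 0 < ρ₀) (hL : Large ρ₀ wm (q : ℝ) a) (hρ1 : ρ₀ ≤ ρ) (hρ2 : ρ ≤ 1)
    (hH : (H.card : ℝ) ≤ 42 * ((q : ℝ) + 1)) (hw : ∀ p, 1 ≤ w p ∧ w p ≤ wm)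
    (hline : ∀ ℓ, ℓ ∉ H → |lineW H w ℓ - ρ * (q : ℝ)| ≤ 2 * a)
    (hS : S.card = q) (hcov : Covers S (univ.filter (fun p => ∀ h ∈ H, ¬ On p h))) :
    overlap H (S.filter (fun l => l ∉ H)) w ≤ 5 * a * (q : ℝ) ∧
      (q : ℝ) - ((S.filter (fun l => l ∉ H)).card : ℝ) ≤ 5 * a / ρ₀ := by
  set S' := S.filter (fun l => l ∉ H) with hS'def
  have hQ := hL.hQ
  have ha42 := hL.ha42
  have ha1 := hL.ha1
  set Q : ℝ := (q : ℝ) with hQdef
  have hn : (S'.card : ℝ) ≤ Q := by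
    rw [hQdef, ← hS]
    exact_mod_cast card_le_card (filter_subset _ _)
  have hS'H : ∀ ℓ ∈ S', ℓ ∉ H := fun ℓ hℓ => (mem_filter.mp hℓ).2
  have hU := sum_S'_le (S' := S') (w := w) (ρ := ρ) (a := a) hS'H hline
  have hρQ : ρ₀ * Q ≤ ρ * Q := mul_le_mul_of_nonneg_right hρ1 (by linarith)
  have hpos : 0 ≤ ρ * Q - 2 * a := by linarith
  have hV := sum_offH_ge (H := H) (w := w) (ρ := ρ) (a := a) hH hline hpos
  have hD := overlap_eq H S' w
  have hc : ∀ p ∈ offH H, 1 ≤ cnt S' p := fun p hp => offH_cnt_pos hcov hp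
  have hD0 := overlap_nonneg (wm := wm) hw hc
  have hρ0 : 0 < ρ := lt_of_lt_of_le hρ₀ hρ1
  have hQ0 : 0 < Q := by linarith
  have ha0 : 0 < a := by linarith
  have key : Q * (ρ * Q + 2 * a) - (Q - 42) * (ρ * Q - 2 * a) ≤ 5 * a * Q := by
    have h1 : ρ * Q ≤ Q := by nlinarith
    have h2 : 42 * Q ≤ a * Q := by nlinarith
    nlinarith
  have hmul : (S'.card : ℝ) * (ρ * Q + 2 * a) ≤ Q * (ρ * Q + 2 * a) :=
    mul_le_mul_of_nonneg_right hn (by nlinarith)
  constructor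
  · rw [hD]; linarith
  · rw [le_div_iff₀ hρ₀]
    have h3 : (Q - (S'.card : ℝ)) * (ρ * Q + 2 * a) ≤ 5 * a * Q := by
      have : 0 ≤ (S'.card : ℝ) * (ρ * Q + 2 * a) - (Q - 42) * (ρ * Q - 2 * a) := by
        rw [hD] at hD0; linarith
      nlinarith
    have h4 : (Q - (S'.card : ℝ)) * (ρ₀ * Q) ≤ (Q - (S'.card : ℝ)) * (ρ * Q + 2 * a) :=
      mul_le_mul_of_nonneg_left (by linarith) (by linarith)
    have h5 : (Q - (S'.card : ℝ)) * ρ₀ * Q ≤ 5 * a * Q := by nlinarith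
    exact le_of_mul_le_mul_right h5 hQ0

end Stats

/-- The kill relation. -/
def Kills (H S' : Finset (Ln K)) (v m : Ln K) : Prop :=
  v.1 ≠ m.1 ∧ cross m v ∈ offH H ∧ cross m v ∉ Pb H S'

noncomputable instance (H S' : Finset (Ln K)) (v m : Ln K) : Decidable (Kills H S' v m) := by
  unfold Kills; infer_instance

/-- Candidates. -/
noncomputable def Cand (H T : Finset (Ln K)) (Bd : Finset (Pt K)) : Finset (Ln K) :=
  univ.filter (fun m => m ∉ H ∧ ∀ v ∈ T, m = v ∨ m.1 = v.1 ∨ ¬ (cross m v ∈ offH H ∧ cross m v ∉ Bd))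

/-- The decoder. -/
noncomputable def decode (H T : Finset (Ln K)) (Bd : Finset (Pt K)) (Z X : Finset (Ln K)) :
    Finset (Ln K) := (Cand H T Bd \ Z) ∪ X

section Killers

variable {H S : Finset (Ln K)} {w : Pt K → ℝ} {ρ₀ wm ρ a : ℝ}

theorem killers_ge (hρ₀ : 0 < ρ₀) (hwm : 1 ≤ wm) (hL : Large ρ₀ wm (q : ℝ) a) (hρ1 : ρ₀ ≤ ρ)
    (hw : ∀ p, 1 ≤ w p ∧ w p ≤ wm)
    (hline : ∀ ℓ, ℓ ∉ H → |lineW H w ℓ - ρ * (q : ℝ)| ≤ 2 * a)
    (hcov : Covers S (univ.filter (fun p => ∀ h ∈ H, ¬ On p h)))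
    {m : Ln K} (hmS : m ∉ S) (hmH : m ∉ H)
    (hmW : ((linePts m ∩ Pb H (S.filter (fun l => l ∉ H))).card : ℝ) < ρ₀ / (4 * wm) * (q : ℝ)) :
    2 * (ρ₀ / (4 * wm) * (q : ℝ)) ≤
      (((S.filter (fun l => l ∉ H)).filter (fun v => Kills H (S.filter (fun l => l ∉ H)) v m)).card : ℝ) := by
  set S' := S.filter (fun l => l ∉ H) with hS'def
  set Q : ℝ := (q : ℝ) with hQdef
  have hQ := hL.hQ
  have ha1 := hL.ha1
  have hwm0 : 0 < wm := by linarith
  set A := (linePts m).filter (fun p => p ∈ offH H ∧ p ∉ Pb H S') with hA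
  -- the image
  have hsub : A ⊆ (S'.filter (fun v => Kills H S' v m)).image (cross m) := by
    intro p hp
    simp only [hA, mem_filter, mem_linePts] at hp
    obtain ⟨hpm, hpo, hpb⟩ := hp
    have hc : 1 ≤ cnt S' p := offH_cnt_pos hcov hpo
    obtain ⟨ℓ, hℓ⟩ := Finset.card_pos.mp hc
    simp only [mem_filter] at hℓ
    obtain ⟨hℓS, hon⟩ := hℓ
    have hne : ℓ ≠ m := by
      rintro rfl
      exact hmS (mem_filter.mp hℓS).1
    have hdir : m.1 ≠ ℓ.1 := fun hd => hne (eq_of_on_of_dir_eq hpm hon hd).symm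
    have hcross : p = cross m ℓ := eq_cross hdir hpm hon
    refine mem_image.mpr ⟨ℓ, ?_, hcross.symm⟩
    simp only [mem_filter]
    refine ⟨hℓS, Ne.symm hdir, ?_, ?_⟩
    · rw [← hcross]; exact hpo
    · rw [← hcross]; exact hpb
  have hcard : (A.card : ℝ) ≤ ((S'.filter (fun v => Kills H S' v m)).card : ℝ) := by
    exact_mod_cast (card_le_card hsub).trans card_image_le
  refine le_trans ?_ hcard
  -- the weight
  have hsplit : lineW H w m = ∑ p ∈ A, w p + ∑ p ∈ linePts m ∩ Pb H S', w p := by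
    unfold lineW
    have hdisj : Disjoint A (linePts m ∩ Pb H S') := by
      rw [disjoint_left]
      intro p hp hp'
      simp only [hA, mem_filter] at hp
      exact hp.2.2 (mem_inter.mp hp').2
    rw [← Finset.sum_union hdisj]
    apply sum_congr _ (fun _ _ => rfl)
    ext p
    simp only [mem_filter, mem_linePts, hA, mem_union, mem_inter, mem_offH]
    constructor
    · rintro ⟨h1, h2⟩
      by_cases hb : p ∈ Pb H S'
      · right; exact ⟨h1, hb⟩
      · left; exact ⟨h1, h2, hb⟩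
    · rintro (⟨h1, h2, _⟩ | ⟨h1, h2⟩)
      · exact ⟨h1, h2⟩
      · refine ⟨h1, ?_⟩
        have := (mem_filter.mp h2).1
        simpa using this
  have h1 : ∑ p ∈ A, w p ≤ (A.card : ℝ) * wm := by
    have := Finset.sum_le_card_nsmul A w wm (fun p _ => (hw p).2)
    rwa [nsmul_eq_mul] at this
  have h2 : ∑ p ∈ linePts m ∩ Pb H S', w p ≤ ((linePts m ∩ Pb H S').card : ℝ) * wm := by
    have := Finset.sum_le_card_nsmul (linePts m ∩ Pb H S') w wm (fun p _ => (hw p).2)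
    rwa [nsmul_eq_mul] at this
  have h3 := (abs_le.mp (hline m hmH)).1
  have hρQ : ρ₀ * Q ≤ ρ * Q := mul_le_mul_of_nonneg_right hρ1 (by linarith)
  have h4 : ((linePts m ∩ Pb H S').card : ℝ) * wm ≤ ρ₀ / (4 * wm) * Q * wm :=
    mul_le_mul_of_nonneg_right hmW.le hwm0.le
  have h5 : ρ₀ / (4 * wm) * Q * wm = ρ₀ * Q / 4 := by field_simp
  have h6 : ρ₀ * Q / 2 ≤ (A.card : ℝ) * wm := by
    rw [h5] at h4
    linarith
  have h7 : 2 * (ρ₀ / (4 * wm) * Q) * wm = ρ₀ * Q / 2 := by field_simp; ring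
  rw [← h7] at h6
  exact le_of_mul_le_mul_right h6 hwm0


/-- The code of a `q`-set of lines covering the points off the holes. -/
theorem code_exists (hρ₀ : 0 < ρ₀) (hwm : 1 ≤ wm) (hL : Large ρ₀ wm (q : ℝ) a) (hρ1 : ρ₀ ≤ ρ)
    (hρ2 : ρ ≤ 1) (hH : (H.card : ℝ) ≤ 42 * ((q : ℝ) + 1)) (hw : ∀ p, 1 ≤ w p ∧ w p ≤ wm)
    (hline : ∀ ℓ, ℓ ∉ H → |lineW H w ℓ - ρ * (q : ℝ)| ≤ 2 * a)
    (hS : S.card = q) (hcov : Covers S (univ.filter (fun p => ∀ h ∈ H, ¬ On p h)))
    (t : ℕ) (ht : (1 - ρ₀ / (4 * wm)) ^ t * (Fintype.card (Ln K) : ℝ) < 1) :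
    ∃ (T : Finset (Ln K)) (Bd : Finset (Pt K)) (Z X : Finset (Ln K)),
      T.card ≤ t ∧ (Bd.card : ℝ) ≤ t * (10 * a / (ρ₀ / (4 * wm))) ∧
      (Z.card : ℝ) ≤ 20 * a / (ρ₀ / (4 * wm)) ^ 2 ∧ (X.card : ℝ) ≤ 5 * a / ρ₀ ∧
      S = decode H T Bd Z X := by
  set S' := S.filter (fun l => l ∉ H) with hS'def
  set Q : ℝ := (q : ℝ) with hQdef
  set τ : ℝ := ρ₀ / (4 * wm) with hτdef
  have hQ := hL.hQ
  have ha42 := hL.ha42
  have ha2 := hL.ha2
  have hwm0 : 0 < wm := by linarith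
  have hτ0 : 0 < τ := by positivity
  have hQ0 : 0 < Q := by linarith
  have ha0 : 0 < a := by linarith
  have hτ1 : τ ≤ 1 := by
    rw [hτdef, div_le_one (by positivity)]
    linarith
  obtain ⟨hD, hX⟩ := overlap_bounds hρ₀ hL hρ1 hρ2 hH hw hline hS hcov
  rw [← hS'def] at hD hX
  have hc : ∀ p ∈ offH H, 1 ≤ cnt S' p := fun p hp => offH_cnt_pos hcov hp
  have hPb := card_Pb_le (wm := wm) (w := w) hw hc
  have hPb' : ((Pb H S').card : ℝ) ≤ 5 * a * Q := hPb.trans hD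
  have hsum := sum_inter_Pb_le (wm := wm) (w := w) hw hc
  have hsum' : ∑ ℓ ∈ S', ((linePts ℓ ∩ Pb H S').card : ℝ) ≤ 10 * a * Q := by linarith
  -- good lines
  set B : ℝ := 10 * a / τ with hB
  have hB0 : 0 < B := by positivity
  set G := S'.filter (fun ℓ => ((linePts ℓ ∩ Pb H S').card : ℝ) ≤ B) with hG
  have hbad : ((S' \ G).card : ℝ) ≤ τ * Q := by
    have h1 : ((S' \ G).card : ℝ) * B ≤ ∑ ℓ ∈ S' \ G, ((linePts ℓ ∩ Pb H S').card : ℝ) := by
      rw [← nsmul_eq_mul]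
      apply Finset.card_nsmul_le_sum
      intro ℓ hℓ
      simp only [hG, mem_sdiff, mem_filter, not_and, not_le] at hℓ
      exact (hℓ.2 hℓ.1).le
    have h2 : ∑ ℓ ∈ S' \ G, ((linePts ℓ ∩ Pb H S').card : ℝ)
        ≤ ∑ ℓ ∈ S', ((linePts ℓ ∩ Pb H S').card : ℝ) :=
      Finset.sum_le_sum_of_subset_of_nonneg sdiff_subset (fun _ _ _ => by positivity)
    have h3 : ((S' \ G).card : ℝ) * B ≤ 10 * a * Q := by linarith
    have h4 : τ * Q * B = 10 * a * Q := by
      rw [hB]; field_simp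
    rw [← h4] at h3
    exact le_of_mul_le_mul_right h3 hB0
  -- weak lines
  set Weak := (univ : Finset (Ln K)).filter (fun l => τ * Q ≤ ((linePts l ∩ Pb H S').card : ℝ))
    with hWeak
  have hq0 : 0 < q := by
    have : (0 : ℝ) < (q : ℝ) := hQ0
    exact_mod_cast this
  have hτQ : 0 < τ * Q := by positivity
  have hrich := card_rich_lines_le (K := K) (Pb H S') hτQ hq0 (by
    rw [div_le_iff₀ hQ0]
    have : 5 * a ≤ τ * Q / 2 := by linarith
    nlinarith)
  rw [← hWeak] at hrich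
  have hWeakcard : (Weak.card : ℝ) ≤ 20 * a / τ ^ 2 := by
    rw [le_div_iff₀ (by positivity)]
    have h1 : (Weak.card : ℝ) * (τ * Q) ^ 2 ≤ 20 * a * Q * Q := by
      have : 4 * ((Pb H S').card : ℝ) * Q ≤ 4 * (5 * a * Q) * Q :=
        mul_le_mul_of_nonneg_right (by linarith) hQ0.le
      calc (Weak.card : ℝ) * (τ * Q) ^ 2 ≤ 4 * ((Pb H S').card : ℝ) * Q := hrich
        _ ≤ 4 * (5 * a * Q) * Q := this
        _ = 20 * a * Q * Q := by ring
    have h2 : (Weak.card : ℝ) * τ ^ 2 * (Q * Q) ≤ 20 * a * (Q * Q) := by nlinarith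
    exact le_of_mul_le_mul_right h2 (by positivity)
  -- seeds
  set N := (univ : Finset (Ln K)).filter (fun m => m ∉ S ∧ m ∉ H ∧ m ∉ Weak) with hN
  have hseed : ∃ T ⊆ G, T.card ≤ t ∧ ∀ m ∈ N, ∃ v ∈ T, Kills H S' v m := by
    have hGne : G.Nonempty := by
      by_contra hne
      rw [not_nonempty_iff_eq_empty] at hne
      have h0 : ((S' \ G).card : ℝ) = (S'.card : ℝ) := by rw [hne]; simp
      have hτ14 : τ ≤ 1 / 4 := by
        rw [hτdef, div_le_iff₀ (by positivity)]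
        linarith
      have h1 : 5 * a / ρ₀ ≤ 5 / 8 * Q := by
        rw [div_le_iff₀ hρ₀]
        have := hL.ha1
        nlinarith
      have h2 : τ * Q ≤ 1 / 4 * Q := mul_le_mul_of_nonneg_right hτ14 hQ0.le
      rw [h0] at hbad
      linarith
    apply greedy_seeds G N (fun v m => Kills H S' v m) hτ0 hτ1 hGne
    · intro m hm
      simp only [hN, mem_filter, mem_univ, true_and] at hm
      obtain ⟨hmS, hmH, hmW⟩ := hm
      have hmW' : ((linePts m ∩ Pb H S').card : ℝ) < τ * Q := by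
        simpa [hWeak] using hmW
      have hk := killers_ge (H := H) (S := S) (w := w) (ρ := ρ) (a := a) hρ₀ hwm hL hρ1 hw hline
        hcov hmS hmH hmW'
      rw [← hS'def, ← hτdef, ← hQdef] at hk
      have hsub : S'.filter (fun v => Kills H S' v m) ⊆
          G.filter (fun v => Kills H S' v m) ∪ (S' \ G) := by
        intro v hv
        simp only [mem_filter] at hv
        simp only [mem_union, mem_filter, mem_sdiff]
        by_cases hvG : v ∈ G
        · left; exact ⟨hvG, hv.2⟩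
        · right; exact ⟨hv.1, hvG⟩
      have h1 : ((S'.filter (fun v => Kills H S' v m)).card : ℝ) ≤
          ((G.filter (fun v => Kills H S' v m)).card : ℝ) + ((S' \ G).card : ℝ) := by
        exact_mod_cast (card_le_card hsub).trans (card_union_le _ _)
      have hGcard : (G.card : ℝ) ≤ Q := by
        rw [hQdef, ← hS]
        exact_mod_cast (card_le_card (filter_subset _ _)).trans (card_le_card (filter_subset _ _))
      have h2 : τ * (G.card : ℝ) ≤ τ * Q := mul_le_mul_of_nonneg_left hGcard hτ0.le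
      linarith
    · have hle : (N.card : ℝ) ≤ (Fintype.card (Ln K) : ℝ) := by
        exact_mod_cast card_le_univ N
      have h0 : 0 ≤ (1 - τ) ^ t := pow_nonneg (by linarith) t
      exact lt_of_le_of_lt (mul_le_mul_of_nonneg_left hle h0) ht
  obtain ⟨T, hTG, hTcard, hTkill⟩ := hseed
  -- the code
  set Bd : Finset (Pt K) := T.biUnion (fun v => linePts v ∩ Pb H S') with hBd
  have hBdsub : Bd ⊆ Pb H S' := by
    intro p hp
    simp only [hBd, mem_biUnion, mem_inter] at hp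
    obtain ⟨_, _, _, hp⟩ := hp
    exact hp
  have hTS' : T ⊆ S' := hTG.trans (filter_subset _ _)
  have hS'Cand : S' ⊆ Cand H T Bd := by
    intro m hm
    simp only [Cand, mem_filter, mem_univ, true_and]
    refine ⟨(mem_filter.mp hm).2, ?_⟩
    intro v hv
    by_cases h1 : m = v
    · left; exact h1
    by_cases h2 : m.1 = v.1
    · right; left; exact h2
    right; right
    rintro ⟨hco, hcb⟩
    apply hcb
    simp only [hBd, mem_biUnion, mem_inter, mem_linePts]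
    refine ⟨v, hv, on_cross_right h2, ?_⟩
    simp only [Pb, mem_filter]
    refine ⟨hco, ?_⟩
    have hsub2 : ({m, v} : Finset (Ln K)) ⊆ S'.filter (fun l => On (cross m v) l) := by
      intro l hl
      simp only [mem_insert, mem_singleton] at hl
      simp only [mem_filter]
      rcases hl with rfl | rfl
      · exact ⟨hm, on_cross_left h2⟩
      · exact ⟨hTS' hv, on_cross_right h2⟩
    have := card_le_card hsub2
    rw [card_pair h1] at this
    exact this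
  have hCandWeak : Cand H T Bd \ S' ⊆ Weak := by
    intro m hm
    simp only [mem_sdiff, Cand, mem_filter, mem_univ, true_and] at hm
    obtain ⟨⟨hmH, hmc⟩, hmS'⟩ := hm
    by_contra hmW
    have hmS : m ∉ S := fun hh => hmS' (mem_filter.mpr ⟨hh, hmH⟩)
    obtain ⟨v, hv, hd, hco, hcb⟩ := hTkill m (by simp [hN, hmS, hmH, hmW])
    rcases hmc v hv with h1 | h1 | h1
    · rw [h1] at hd; exact hd rfl
    · exact hd h1.symm
    · exact h1 ⟨hco, fun hh => hcb (hBdsub hh)⟩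
  refine ⟨T, Bd, Cand H T Bd \ S', S \ S', hTcard, ?_, ?_, ?_, ?_⟩
  · have h1 : (Bd.card : ℝ) ≤ ∑ v ∈ T, ((linePts v ∩ Pb H S').card : ℝ) := by
      exact_mod_cast card_biUnion_le
    have h2 : ∑ v ∈ T, ((linePts v ∩ Pb H S').card : ℝ) ≤ (T.card : ℝ) * B := by
      have := Finset.sum_le_card_nsmul T (fun v => ((linePts v ∩ Pb H S').card : ℝ)) B
        (fun v hv => (mem_filter.mp (hTG hv)).2)
      rwa [nsmul_eq_mul] at this
    have h3 : (T.card : ℝ) ≤ t := by exact_mod_cast hTcard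
    have h4 : (T.card : ℝ) * B ≤ t * B := mul_le_mul_of_nonneg_right h3 hB0.le
    linarith
  · have : ((Cand H T Bd \ S').card : ℝ) ≤ (Weak.card : ℝ) := by
      exact_mod_cast card_le_card hCandWeak
    linarith
  · have h1 : ((S \ S').card : ℝ) = Q - (S'.card : ℝ) := by
      rw [card_sdiff_of_subset (filter_subset _ _), Nat.cast_sub (card_le_card (filter_subset _ _)), hS]
    rw [h1]; exact hX
  · unfold decode
    have h1 : Cand H T Bd \ (Cand H T Bd \ S') = S' := by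
      ext m
      simp only [mem_sdiff, not_and, not_not]
      constructor
      · rintro ⟨h1, h2⟩; exact h2 h1
      · intro h; exact ⟨hS'Cand h, fun _ => h⟩
    rw [h1]
    ext m
    simp only [mem_union, mem_sdiff]
    constructor
    · intro h
      by_cases hm : m ∈ S'
      · left; exact hm
      · right; exact ⟨h, hm⟩
    · rintro (h | h)
      · exact (mem_filter.mp h).1
      · exact h.1

end Killers

end ContainerProof

end Crest.Agent.Ryser
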