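import Crest.Agent.Ryser.Geom

/-!
# Line sets: multiplicities, uncovered points, near-structure (deterministic).
-/

set_option autoImplicit false
set_option linter.unusedSectionVars false
set_option linter.unusedVariables false

namespace Crest.Agent.Ryser

open Finset

variable {K : Type} [Field K] [Fintype K] [DecidableEq K]

local notation "q" => Fintype.card K

/-- Number of lines of `S` through `p`. -/
def cnt (S : Finset (Ln K)) (p : Pt K) : ℕ := (S.filter (fun l => On p l)).card

/-- The points on no line of `S`. -/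
def unc (S : Finset (Ln K)) : Finset (Pt K) := univ.filter (fun p => cnt S p = 0)

/-- Number of lines of `S` of direction `d`. -/
def dirCnt (S : Finset (Ln K)) (d : Dir K) : ℕ := (S.filter (fun l => l.1 = d)).card

/-- `S` covers the point set `W`. -/
def Covers (S : Finset (Ln K)) (W : Finset (Pt K)) : Prop := ∀ p ∈ W, ∃ l ∈ S, On p l

/-- `|unc S| / q`. -/
noncomputable def phiS (S : Finset (Ln K)) : ℝ := ((unc S).card : ℝ) / q

/-- Near-structured: almost a pencil or almost a parallel class. -/
def Near (S : Finset (Ln K)) : Prop :=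
  (∃ z, (q : ℝ) + 1 ≤ cnt S z + 2 * phiS S) ∨ (∃ d, (q : ℝ) ≤ dirCnt S d + 2 * phiS S)

theorem sum_cnt (S : Finset (Ln K)) : ∑ p, cnt S p = S.card * q := by
  unfold cnt
  simp_rw [Finset.card_filter]
  rw [Finset.sum_comm]
  have h : ∀ l ∈ S, (∑ p : Pt K, if On p l then 1 else 0) = q := by
    intro l _
    rw [← Finset.card_filter]
    exact card_linePts l
  rw [Finset.sum_congr rfl h]
  simp

/-- For `q` lines, the total overlap equals the number of uncovered points. -/
theorem sum_cnt_sub_one (S : Finset (Ln K)) (hS : S.card = q) :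
    ∑ p, (cnt S p - 1) = (unc S).card := by
  have h1 : ∑ p, cnt S p = q * q := by rw [sum_cnt, hS]
  have h2 : ∀ p, (cnt S p - 1) + 1 = cnt S p + (if cnt S p = 0 then 1 else 0) := by
    intro p; split_ifs with h <;> omega
  have h3 : ∑ p, ((cnt S p - 1) + 1) = ∑ p, (cnt S p + (if cnt S p = 0 then 1 else 0)) :=
    sum_congr rfl fun p _ => h2 p
  rw [sum_add_distrib, sum_add_distrib, h1, ← Finset.card_filter] at h3
  have h4 : ∑ _p : Pt K, 1 = q * q := by simp [Fintype.card_prod]
  rw [h4] at h3
  have h5 : (univ.filter fun p : Pt K => cnt S p = 0) = unc S := rfl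
  rw [h5] at h3
  omega

/-- Points on `m` outside `F`, covered by lines of `T ∌ m`: at most `|T|` of them. -/
theorem card_le_of_cover (m : Ln K) (T : Finset (Ln K)) (hT : m ∉ T) (A F : Finset (Pt K))
    (hA : ∀ p ∈ A, On p m) (hc : ∀ p ∈ A, p ∉ F → ∃ l ∈ T, On p l) :
    A.card ≤ (A ∩ F).card + T.card := by
  have hsub : A \ F ⊆ T.biUnion (fun l => linePts l ∩ linePts m) := by
    intro p hp
    rw [mem_sdiff] at hp
    obtain ⟨l, hl, hpl⟩ := hc p hp.1 hp.2
    rw [mem_biUnion]
    refine ⟨l, hl, ?_⟩
    simp [hpl, hA p hp.1]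
  have hle : (T.biUnion (fun l => linePts l ∩ linePts m)).card ≤ T.card * 1 := by
    apply card_biUnion_le_card_mul
    intro l hl
    apply card_inter_linePts_le_one
    rintro rfl
    exact hT hl
  have := card_le_card hsub
  have h2 := Finset.card_inter_add_card_sdiff A F
  omega

/-- Pairwise disjoint pieces of `F`, each of size at least `c`. -/
theorem card_mul_le_of_disjoint (M : Finset (Ln K)) (B : Ln K → Finset (Pt K)) (F : Finset (Pt K))
    (c : ℕ) (hB : ∀ m ∈ M, B m ⊆ F) (hc : ∀ m ∈ M, c ≤ (B m).card)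
    (hd : ∀ m ∈ M, ∀ m' ∈ M, m ≠ m' → Disjoint (B m) (B m')) :
    M.card * c ≤ F.card := by
  have h1 : (M.biUnion B).card = ∑ m ∈ M, (B m).card := by
    apply card_biUnion
    intro m hm m' hm' hne
    exact hd m hm m' hm' hne
  have h2 : M.biUnion B ⊆ F := by
    intro p hp
    rw [mem_biUnion] at hp
    obtain ⟨m, hm, hp⟩ := hp
    exact hB m hm hp
  have h3 : M.card * c ≤ ∑ m ∈ M, (B m).card := by
    have := Finset.card_nsmul_le_sum M (fun m => (B m).card) c hc
    simpa using this
  calc M.card * c ≤ ∑ m ∈ M, (B m).card := h3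
    _ = (M.biUnion B).card := h1.symm
    _ ≤ F.card := card_le_card h2

theorem mem_unc {S : Finset (Ln K)} {p : Pt K} : p ∈ unc S ↔ ∀ l ∈ S, ¬ On p l := by
  simp only [unc, cnt, mem_filter, mem_univ, true_and, card_eq_zero, filter_eq_empty_iff]

/-- A point with multiplicity `a`: `(q + 1 - a) (a - 1) ≤ |F|`. -/
theorem pencil_bound (S : Finset (Ln K)) (hS : S.card = q) (z : Pt K) :
    (q + 1 - cnt S z) * (cnt S z - 1) ≤ (unc S).card := by
  set a := cnt S z with ha
  rcases Nat.eq_zero_or_pos a with ha0 | hapos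
  · simp [ha0]
  set M : Finset (Ln K) := (univ.filter (fun l : Ln K => On z l)) \ S with hM
  have hMcard : M.card = q + 1 - a := by
    have h1 : (univ.filter (fun l : Ln K => On z l)).card = q + 1 := card_lines_through z
    have h2 : (univ.filter (fun l : Ln K => On z l) ∩ S).card = a := by
      rw [ha, cnt]
      congr 1
      ext l
      simp [and_comm]
    have h3 := Finset.card_inter_add_card_sdiff (univ.filter (fun l : Ln K => On z l)) S
    rw [← hM] at h3
    omega
  rw [← hMcard]
  set T : Finset (Ln K) := S.filter (fun l => ¬ On z l) with hT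
  have hTcard : T.card = q - a := by
    have := Finset.card_filter_add_card_filter_not (s := S) (fun l => On z l)
    rw [← hT] at this
    have h' : (S.filter (fun l => On z l)).card = a := rfl
    omega
  have hale : a ≤ q := by
    rw [← hS]
    exact card_filter_le _ _
  refine card_mul_le_of_disjoint M (fun m => ((linePts m).erase z) ∩ unc S) (unc S) (a - 1)
    (fun m _ => inter_subset_right) ?_ ?_
  · intro m hm
    have hm' : On z m ∧ m ∉ S := by
      simpa [hM] using hm
    have hc := card_le_of_cover m T (fun h => hm'.2 (mem_filter.mp h).1) ((linePts m).erase z)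
      (unc S) (fun p hp => by simpa using (mem_erase.mp hp).2) (by
        intro p hp hpF
        have hp' := mem_erase.mp hp
        have hpm : On p m := by simpa using hp'.2
        rw [mem_unc] at hpF
        push Not at hpF
        obtain ⟨l, hl, hpl⟩ := hpF
        refine ⟨l, mem_filter.mpr ⟨hl, ?_⟩, hpl⟩
        intro hzl
        have := line_unique hp'.1 hpl hzl hpm hm'.1
        exact hm'.2 (this ▸ hl))
    have hcard : ((linePts m).erase z).card = q - 1 := by
      rw [card_erase_of_mem (by simpa using hm'.1), card_linePts]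
    omega
  · intro m hm m' hm' hne
    have h1 : On z m := by simpa [hM] using (mem_sdiff.mp hm).1
    have h2 : On z m' := by simpa [hM] using (mem_sdiff.mp hm').1
    rw [Finset.disjoint_left]
    intro p hp hp'
    have hp1 := mem_erase.mp (mem_inter.mp hp).1
    have hp2 := mem_erase.mp (mem_inter.mp hp').1
    apply hne
    exact line_unique hp1.1 (by simpa using hp1.2) h1 (by simpa using hp2.2) h2

/-- A direction with `a` lines: `(q - a) a ≤ |F|`. -/
theorem class_bound (S : Finset (Ln K)) (hS : S.card = q) (d : Dir K) :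
    (q - dirCnt S d) * dirCnt S d ≤ (unc S).card := by
  set a := dirCnt S d with ha
  set M : Finset (Ln K) := (univ.filter (fun l : Ln K => l.1 = d)) \ S with hM
  have hMcard : M.card = q - a := by
    have h1 : (univ.filter (fun l : Ln K => l.1 = d)).card = q := card_lines_of_dir d
    have h2 : (univ.filter (fun l : Ln K => l.1 = d) ∩ S).card = a := by
      rw [ha, dirCnt]
      congr 1
      ext l
      simp [and_comm]
    have h3 := Finset.card_inter_add_card_sdiff (univ.filter (fun l : Ln K => l.1 = d)) S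
    rw [← hM] at h3
    omega
  rw [← hMcard]
  set T : Finset (Ln K) := S.filter (fun l => ¬ l.1 = d) with hT
  have hTcard : T.card = q - a := by
    have := Finset.card_filter_add_card_filter_not (s := S) (fun l => l.1 = d)
    rw [← hT] at this
    have h' : (S.filter (fun l => l.1 = d)).card = a := rfl
    omega
  have hale : a ≤ q := by
    rw [← hS]
    exact card_filter_le _ _
  refine card_mul_le_of_disjoint M (fun m => (linePts m) ∩ unc S) (unc S) a
    (fun m _ => inter_subset_right) ?_ ?_
  · intro m hm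
    have hm' : m.1 = d ∧ m ∉ S := by
      simpa [hM] using hm
    have hc := card_le_of_cover m T (fun h => hm'.2 (mem_filter.mp h).1) (linePts m)
      (unc S) (fun p hp => by simpa using hp) (by
        intro p hp hpF
        have hpm : On p m := by simpa using hp
        rw [mem_unc] at hpF
        push Not at hpF
        obtain ⟨l, hl, hpl⟩ := hpF
        refine ⟨l, mem_filter.mpr ⟨hl, ?_⟩, hpl⟩
        intro hld
        have := eq_of_on_of_dir_eq hpl hpm (hld.trans hm'.1.symm)
        exact hm'.2 (this ▸ hl))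
    have hcard : (linePts m).card = q := card_linePts m
    omega
  · intro m hm m' hm' hne
    have h1 : m.1 = d := by simpa [hM] using (mem_sdiff.mp hm).1
    have h2 : m'.1 = d := by simpa [hM] using (mem_sdiff.mp hm').1
    rw [Finset.disjoint_left]
    intro p hp hp'
    have hp1 : On p m := by simpa using (mem_inter.mp hp).1
    have hp2 : On p m' := by simpa using (mem_inter.mp hp').1
    exact hne (eq_of_on_of_dir_eq hp1 hp2 (h1.trans h2.symm))

private theorem two_mul_choose_two (n : ℕ) : 2 * n.choose 2 = n * n - n := by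
  induction n with
  | zero => simp
  | succ k ih =>
    rw [Nat.choose_succ_succ' k 1, Nat.choose_one_right, mul_add, ih]
    have : k ≤ k * k := Nat.le_mul_self k
    have h2 : (k + 1) * (k + 1) = k * k + 2 * k + 1 := by ring
    rw [h2]
    omega

/-- Pairs of lines either cross at a point or are parallel. -/
theorem pairs_identity (S : Finset (Ln K)) :
    ∑ p, (cnt S p).choose 2 + ∑ d, (dirCnt S d).choose 2 = S.card.choose 2 := by
  classical
  let f : Ln K × Ln K → Pt K ⊕ Dir K := fun x =>
    if x.1.1 = x.2.1 then Sum.inr x.1.1 else Sum.inl (cross x.1 x.2)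
  have hfib := Finset.card_eq_sum_card_fiberwise (f := f) (s := S.offDiag) (t := univ)
    (fun x _ => by simp)
  rw [Fintype.sum_sum_type] at hfib
  have hP : ∀ p : Pt K, (S.offDiag.filter (fun x => f x = Sum.inl p)) =
      (S.filter (fun l => On p l)).offDiag := by
    intro p
    ext ⟨l, l'⟩
    simp only [mem_filter, mem_offDiag, f]
    constructor
    · rintro ⟨⟨h1, h2, h3⟩, h4⟩
      split_ifs at h4 with hdir
      have h4' : cross l l' = p := by simpa using h4
      subst h4'
      exact ⟨⟨h1, on_cross_left hdir⟩, ⟨h2, on_cross_right hdir⟩, h3⟩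
    · rintro ⟨⟨h1, h1'⟩, ⟨h2, h2'⟩, h3⟩
      refine ⟨⟨h1, h2, h3⟩, ?_⟩
      have hdir : l.1 ≠ l'.1 := fun h => h3 (eq_of_on_of_dir_eq h1' h2' h)
      rw [if_neg hdir, ← eq_cross hdir h1' h2']
  have hD : ∀ d : Dir K, (S.offDiag.filter (fun x => f x = Sum.inr d)) =
      (S.filter (fun l => l.1 = d)).offDiag := by
    intro d
    ext ⟨l, l'⟩
    simp only [mem_filter, mem_offDiag, f]
    constructor
    · rintro ⟨⟨h1, h2, h3⟩, h4⟩
      split_ifs at h4 with hdir
      have h4' : l.1 = d := by simpa using h4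
      exact ⟨⟨h1, h4'⟩, ⟨h2, hdir ▸ h4'⟩, h3⟩
    · rintro ⟨⟨h1, h1'⟩, ⟨h2, h2'⟩, h3⟩
      refine ⟨⟨h1, h2, h3⟩, ?_⟩
      rw [if_pos (h1'.trans h2'.symm), h1']
  simp_rw [hP, hD, offDiag_card] at hfib
  have key : 2 * (∑ p, (cnt S p).choose 2 + ∑ d, (dirCnt S d).choose 2) = 2 * S.card.choose 2 := by
    rw [two_mul_choose_two, mul_add, Finset.mul_sum, Finset.mul_sum]
    simp_rw [two_mul_choose_two]
    rw [hfib]
    rfl
  omega

/-- The sum of `dirCnt` over all directions. -/
theorem sum_dirCnt (S : Finset (Ln K)) : ∑ d, dirCnt S d = S.card := by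
  unfold dirCnt
  exact (Finset.card_eq_sum_card_fiberwise (f := fun l : Ln K => l.1) (s := S) (t := univ)
    (fun x _ => by simp)).symm

/-- What failure of `Near` gives. -/
theorem not_near_bounds (S : Finset (Ln K)) (hS : S.card = q) (hq : 2 ≤ q)
    (hφ : 4 * phiS S ≤ q) (hn : ¬ Near S) :
    (∀ p, (cnt S p : ℝ) ≤ 2 * phiS S + 1) ∧ (∀ d, (dirCnt S d : ℝ) ≤ 2 * phiS S) ∧
      (q : ℝ) ≤ 2 * phiS S ^ 2 + 3 * phiS S + 1 := by
  have hq0 : (0 : ℝ) < q := by
    have : 0 < q := by omega
    exact_mod_cast this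
  have hφ0 : 0 ≤ phiS S := by unfold phiS; positivity
  have hF : ((unc S).card : ℝ) = phiS S * q := by
    unfold phiS; field_simp
  unfold Near at hn
  push Not at hn
  obtain ⟨hn1, hn2⟩ := hn
  set φ := phiS S with hφdef
  have hP : ∀ p, (cnt S p : ℝ) ≤ 2 * φ + 1 := by
    intro z
    have hale : cnt S z ≤ q := by
      rw [← hS]; exact card_filter_le _ _
    by_contra hcon
    push Not at hcon
    have hb := pencil_bound S hS z
    have hb' : (((q + 1 - cnt S z) * (cnt S z - 1) : ℕ) : ℝ) ≤ ((unc S).card : ℝ) := by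
      exact_mod_cast hb
    have hapos : 1 ≤ cnt S z := by
      by_contra h0
      have : cnt S z = 0 := by omega
      rw [this] at hcon
      simp at hcon
      linarith
    rw [Nat.cast_mul, Nat.cast_sub (by omega), Nat.cast_sub hapos, hF] at hb'
    push_cast at hb'
    have h1 := hn1 z
    nlinarith [mul_pos (sub_pos.mpr hcon) (sub_pos.mpr h1)]
  have hD : ∀ d, (dirCnt S d : ℝ) ≤ 2 * φ := by
    intro d
    have hale : dirCnt S d ≤ q := by
      rw [← hS]; exact card_filter_le _ _
    by_contra hcon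
    push Not at hcon
    have hb := class_bound S hS d
    have hb' : (((q - dirCnt S d) * dirCnt S d : ℕ) : ℝ) ≤ ((unc S).card : ℝ) := by
      exact_mod_cast hb
    rw [Nat.cast_mul, Nat.cast_sub hale, hF] at hb'
    have h1 := hn2 d
    nlinarith [mul_pos (sub_pos.mpr hcon) (sub_pos.mpr h1)]
  refine ⟨hP, hD, ?_⟩
  have hpairs := pairs_identity S
  have hpairsR : ∑ p, (((cnt S p).choose 2 : ℕ) : ℝ) + ∑ d, (((dirCnt S d).choose 2 : ℕ) : ℝ)
      = ((S.card.choose 2 : ℕ) : ℝ) := by
    exact_mod_cast hpairs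
  rw [Nat.cast_choose_two, hS] at hpairsR
  have hp1 : ∀ p, (((cnt S p).choose 2 : ℕ) : ℝ) ≤ (φ + 1 / 2) * ((cnt S p - 1 : ℕ) : ℝ) := by
    intro p
    rw [Nat.cast_choose_two]
    have h := hP p
    rcases Nat.eq_zero_or_pos (cnt S p) with h0 | h0
    · simp [h0]
    · rw [Nat.cast_sub h0]
      push_cast
      have h1 : (1 : ℝ) ≤ cnt S p := by exact_mod_cast h0
      nlinarith
  have hp2 : ∀ d, (((dirCnt S d).choose 2 : ℕ) : ℝ) ≤ φ * (dirCnt S d : ℝ) := by
    intro d
    rw [Nat.cast_choose_two]
    have h := hD d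
    have h1 : (0 : ℝ) ≤ dirCnt S d := by positivity
    nlinarith
  have hs1 : ∑ p, (((cnt S p).choose 2 : ℕ) : ℝ) ≤ (φ + 1 / 2) * (φ * q) := by
    calc ∑ p, (((cnt S p).choose 2 : ℕ) : ℝ)
        ≤ ∑ p, (φ + 1 / 2) * ((cnt S p - 1 : ℕ) : ℝ) := sum_le_sum fun p _ => hp1 p
      _ = (φ + 1 / 2) * ((∑ p, (cnt S p - 1) : ℕ) : ℝ) := by
          rw [← Finset.mul_sum]; push_cast; rfl
      _ = (φ + 1 / 2) * (φ * q) := by rw [sum_cnt_sub_one S hS, hF]
  have hs2 : ∑ d, (((dirCnt S d).choose 2 : ℕ) : ℝ) ≤ φ * q := by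
    calc ∑ d, (((dirCnt S d).choose 2 : ℕ) : ℝ)
        ≤ ∑ d, φ * (dirCnt S d : ℝ) := sum_le_sum fun d _ => hp2 d
      _ = φ * ((∑ d, dirCnt S d : ℕ) : ℝ) := by rw [← Finset.mul_sum]; push_cast; rfl
      _ = φ * q := by rw [sum_dirCnt, hS]
  have hfinal : (q : ℝ) * (q - 1) / 2 ≤ (φ + 1 / 2) * (φ * q) + φ * q := by
    rw [← hpairsR]; exact add_le_add hs1 hs2
  have hfinal2 : (q : ℝ) * ((q : ℝ) - (2 * φ ^ 2 + 3 * φ + 1)) ≤ 0 := by
    nlinarith
  by_contra hcon
  push Not at hcon
  have := mul_pos hq0 (sub_pos.mpr hcon)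
  linarith

/-- First moment over all lines. -/
theorem sum_inter (P : Finset (Pt K)) :
    ∑ l : Ln K, ((linePts l ∩ P).card : ℝ) = P.card * (q + 1) := by
  have h : ∑ l : Ln K, (linePts l ∩ P).card = P.card * (q + 1) := by
    have h1 : ∀ l : Ln K, (linePts l ∩ P).card = ∑ p ∈ P, if On p l then 1 else 0 := by
      intro l
      rw [← Finset.card_filter, inter_comm]
      congr 1
      ext p
      simp
    simp_rw [h1]
    rw [Finset.sum_comm]
    have h2 : ∀ p ∈ P, (∑ l : Ln K, if On p l then 1 else 0) = q + 1 := by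
      intro p _
      rw [← Finset.card_filter]
      exact card_lines_through p
    rw [Finset.sum_congr rfl h2]
    simp
  exact_mod_cast h

/-- Lines through two points. -/
theorem sum_lines_two (p p' : Pt K) :
    (∑ l : Ln K, (if On p l then 1 else 0) * (if On p' l then 1 else 0)) =
      if p = p' then q + 1 else 1 := by
  split_ifs with h
  · subst h
    have : ∀ l : Ln K, (if On p l then 1 else 0) * (if On p l then 1 else 0) =
        if On p l then 1 else 0 := by
      intro l; split_ifs <;> simp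
    simp_rw [this]
    rw [← Finset.card_filter]
    exact card_lines_through p
  · rw [Finset.sum_eq_single (line2 p p')]
    · rw [if_pos (on_line2_left p p'), if_pos (on_line2_right h)]
    · intro l _ hl
      by_cases h1 : On p l
      · by_cases h2 : On p' l
        · exact absurd (eq_line2 h h1 h2).symm hl
        · simp [h2]
      · simp [h1]
    · simp

/-- Second moment over all lines. -/
theorem sum_inter_sq (P : Finset (Pt K)) :
    ∑ l : Ln K, ((linePts l ∩ P).card : ℝ) ^ 2 = P.card * q + (P.card : ℝ) ^ 2 := by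
  have h : ∑ l : Ln K, (linePts l ∩ P).card ^ 2 = P.card * q + P.card ^ 2 := by
    have h1 : ∀ l : Ln K, (linePts l ∩ P).card = ∑ p ∈ P, if On p l then 1 else 0 := by
      intro l
      rw [← Finset.card_filter, inter_comm]
      congr 1
      ext p
      simp
    simp_rw [h1, sq, Finset.sum_mul_sum]
    rw [Finset.sum_comm]
    have h2 : ∀ p ∈ P, (∑ l : Ln K, ∑ p' ∈ P, (if On p l then 1 else 0) *
        (if On p' l then 1 else 0)) = q + P.card := by
      intro p hp
      rw [Finset.sum_comm]
      simp_rw [sum_lines_two]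
      rw [Finset.sum_ite, Finset.filter_eq, if_pos hp]
      simp only [sum_const, smul_eq_mul, mul_one, card_singleton, one_mul]
      have : (P.filter (fun x => ¬ p = x)).card + 1 = P.card := by
        have h3 := Finset.card_filter_add_card_filter_not (s := P) (fun x => p = x)
        rw [Finset.filter_eq, if_pos hp] at h3
        simp at h3
        omega
      omega
    rw [Finset.sum_congr rfl h2]
    simp
    ring
  exact_mod_cast h

/-- Few lines are rich in a sparse set: if `|P| / q ≤ τ / 2`, at most `4 |P| q / τ²` lines have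
`≥ τ` points of `P`. -/
theorem card_rich_lines_le (P : Finset (Pt K)) {τ : ℝ} (hτ : 0 < τ) (hq : 0 < q)
    (hP : (P.card : ℝ) / q ≤ τ / 2) :
    (((univ : Finset (Ln K)).filter (fun l => τ ≤ ((linePts l ∩ P).card : ℝ))).card : ℝ) * τ ^ 2
      ≤ 4 * P.card * q := by
  have hq0 : (0 : ℝ) < q := by exact_mod_cast hq
  set μ : ℝ := (P.card : ℝ) / q with hμ
  have hμ0 : 0 ≤ μ := by positivity
  have hPμ : (P.card : ℝ) = μ * q := by rw [hμ]; field_simp
  -- centred second moment
  have hcentred : ∑ l : Ln K, (((linePts l ∩ P).card : ℝ) - μ) ^ 2 ≤ P.card * q := by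
    have hexp : ∀ l : Ln K, (((linePts l ∩ P).card : ℝ) - μ) ^ 2 =
        ((linePts l ∩ P).card : ℝ) ^ 2 - 2 * μ * ((linePts l ∩ P).card : ℝ) + μ ^ 2 := by
      intro l; ring
    simp_rw [hexp]
    rw [Finset.sum_add_distrib, Finset.sum_sub_distrib, sum_inter_sq, ← Finset.mul_sum, sum_inter]
    simp only [sum_const, card_univ, card_Ln, nsmul_eq_mul]
    push_cast
    rw [hPμ]
    have : 0 ≤ μ ^ 2 * q := mul_nonneg (sq_nonneg _) hq0.le
    nlinarith
  set R := (univ : Finset (Ln K)).filter (fun l => τ ≤ ((linePts l ∩ P).card : ℝ)) with hR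
  have hlow : (R.card : ℝ) * (τ / 2) ^ 2 ≤ ∑ l : Ln K, (((linePts l ∩ P).card : ℝ) - μ) ^ 2 := by
    calc (R.card : ℝ) * (τ / 2) ^ 2 = ∑ _l ∈ R, (τ / 2) ^ 2 := by simp
      _ ≤ ∑ l ∈ R, (((linePts l ∩ P).card : ℝ) - μ) ^ 2 := by
          apply sum_le_sum
          intro l hl
          have h1 : τ ≤ ((linePts l ∩ P).card : ℝ) := (mem_filter.mp hl).2
          apply pow_le_pow_left₀ (by positivity)
          linarith
      _ ≤ ∑ l : Ln K, (((linePts l ∩ P).card : ℝ) - μ) ^ 2 :=
          sum_le_sum_of_subset_of_nonneg (subset_univ _) (fun _ _ _ => sq_nonneg _)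
  nlinarith

end Crest.Agent.Ryser
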