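import Crest.Agent.Ryser.Layer2

/-!
# Keep parameters: the full design and its good properties.
-/

set_option autoImplicit false
set_option linter.unusedSectionVars false
set_option linter.unusedVariables false

namespace Crest.Agent.Ryser

open Finset

variable {K : Type} [Field K] [Fintype K] [DecidableEq K]

local notation "q" => Fintype.card K

section
variable {C : UData K} {B : BData C} {A : AData B}

/-- Keep parameters. -/
structure KData (A : AData B) where
  s : Dir K → Fin 2 → Fin 10 → K
  s_mem : ∀ x i l, s x i l ∈ goodS A x i l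

variable (Kd : KData A)

def KData.keep (x : Dir K) (i : Fin 2) (l : Fin 10) : Pt K := keepPt (C := C) x i (Kd.s x i l)
def KData.E (x : Dir K) (i e : Fin 2) (l : Fin 10) : Ln K := eLine A x i e l (Kd.s x i l)
noncomputable def KData.M (x : Dir K) (i e : Fin 2) (j l : Fin 10) : Pt K :=
  mPt A x i e j l (Kd.s x i l)

/-- Index of a candidate hole: `none` is the line `U`. -/
abbrev HIdx (K : Type) := Dir K × Fin 2 × Option (Fin 2 × Fin 10)

/-- The line of a hole index. -/
def holeOf (A : AData B) (h : HIdx K) : Ln K :=
  match h with
  | (x, i, none) => C.line x i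
  | (x, i, some (e, j)) => A.line x i e j

/-- The designated points of a hole. -/
noncomputable def KData.des (h : HIdx K) : Finset (Pt K) :=
  match h with
  | (x, i, none) => univ.image (fun l => Kd.keep x i l)
  | (x, i, some (e, j)) => (univ.filter (fun l => l ≠ j)).image (fun l => Kd.M x i e j l)

/-- The designated points of a base. -/
noncomputable def KData.desBase (x : Dir K) (i e : Fin 2) : Finset (Pt K) :=
  Kd.des (x, i, none) ∪ univ.biUnion (fun j => Kd.des (x, i, some (e, j)))

/-- The output of layer 3. -/
structure P3 : Prop where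
  /-- internal genericity -/
  gint : ∀ x i e (L : Ln K), ¬ On (B.base x i e) L → (∀ l, L ≠ Kd.E x i e l) →
    (Kd.desBase x i e ∩ linePts L).card ≤ 2
  /-- at most 8 concurrent holes (at a non-base) have a designated point on a line missing the center -/
  g1pt : ∀ z, z ∉ B.all → ∀ L : Ln K, ¬ On z L →
    (univ.filter (fun h : HIdx K => On z (holeOf A h) ∧ ∃ p ∈ Kd.des h, On p L)).card ≤ 8
  /-- at most 8 parallel holes have a designated point on a transversal -/
  g1par : ∀ (d : Dir K) (L : Ln K), L.1 ≠ d →
    (univ.filter (fun h : HIdx K => (holeOf A h).1 = d ∧ ∃ p ∈ Kd.des h, On p L)).card ≤ 8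
  /-- distinct keep points -/
  s_inj : ∀ x i, Function.Injective (Kd.s x i)
  /-- distinct designated points on a hole `A` -/
  m_inj : ∀ x i e j l l', l ≠ j → l' ≠ j → Kd.M x i e j l = Kd.M x i e j l' → l = l'

/-- The designated points of base `e` of the gadget `(x,i)` with keep parameters `t`. -/
noncomputable def desBaseT (A : AData B) (x : Dir K) (i e : Fin 2) (t : Fin 10 → K) : Finset (Pt K) :=
  (univ.image (fun l => keepPt (C := C) x i (t l))) ∪
    univ.biUnion (fun j => (univ.filter (fun l => l ≠ j)).image (fun l => mPt A x i e j l (t l)))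

open Classical in
/-- The tuples of keep parameters allowed for the gadget `(x,i)`. -/
noncomputable def gam (A : AData B) (x : Dir K) (i : Fin 2) : Finset (Fin 10 → K) :=
  univ.filter (fun t =>
    (∀ l, t l ∈ goodS A x i l) ∧ Function.Injective t ∧
    (∀ e j l l', l ≠ j → l' ≠ j → mPt A x i e j l (t l) = mPt A x i e j l' (t l') → l = l') ∧
    (∀ e (L : Ln K), ¬ On (B.base x i e) L → (∀ l, L ≠ eLine A x i e l (t l)) →
      (desBaseT A x i e t ∩ linePts L).card ≤ 2))

end

end Crest.Agent.Ryser
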