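import Mathlib

/-!
# S0045/S0046 (Ryser counterexample): affine plane basics.

`Pt K = K × K`, `Dir K = Option K` (`none` = vertical), `Ln K = Dir K × K`:
`(some m, b)` is `y = m x + b`, `(none, b)` is `x = b`.
-/

set_option autoImplicit false
set_option linter.unusedSectionVars false
set_option linter.unusedVariables false

namespace Crest.Agent.Ryser

open Finset

abbrev Pt (K : Type) := K × K
abbrev Dir (K : Type) := Option K
abbrev Ln (K : Type) := Option K × K

variable {K : Type} [Field K]

/-- Incidence. -/
def On (p : Pt K) (l : Ln K) : Prop :=
  match l.1 with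
  | some m => p.2 = m * p.1 + l.2
  | none => p.1 = l.2

instance [DecidableEq K] (p : Pt K) (l : Ln K) : Decidable (On p l) := by
  unfold On; split <;> infer_instance

/-- The line of direction `d` through `p`. -/
def lineThru (p : Pt K) (d : Dir K) : Ln K :=
  match d with
  | some m => (some m, p.2 - m * p.1)
  | none => (none, p.1)

@[simp] theorem lineThru_fst (p : Pt K) (d : Dir K) : (lineThru p d).1 = d := by
  cases d <;> rfl

theorem on_lineThru (p : Pt K) (d : Dir K) : On p (lineThru p d) := by
  cases d with
  | none => simp [On, lineThru]
  | some m => simp [On, lineThru]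

theorem lineThru_of_on {p : Pt K} {l : Ln K} (h : On p l) : lineThru p l.1 = l := by
  rcases l with ⟨d, b⟩
  cases d with
  | none => simp only [On] at h; simp [lineThru, h]
  | some m =>
    simp only [On] at h
    simp only [lineThru, Prod.mk.injEq, true_and]
    rw [h]; ring

theorem on_iff_lineThru {p : Pt K} {l : Ln K} : On p l ↔ lineThru p l.1 = l :=
  ⟨lineThru_of_on, fun h => by rw [← h]; exact on_lineThru p _⟩

/-- Two lines of the same direction through a common point coincide. -/
theorem eq_of_on_of_dir_eq {p : Pt K} {l l' : Ln K} (h : On p l) (h' : On p l')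
    (hd : l.1 = l'.1) : l = l' := by
  rw [← lineThru_of_on h, ← lineThru_of_on h', hd]

/-- Distinct parallel lines are disjoint. -/
theorem not_on_of_parallel {p : Pt K} {l l' : Ln K} (hd : l.1 = l'.1) (hne : l ≠ l')
    (h : On p l) : ¬ On p l' := fun h' => hne (eq_of_on_of_dir_eq h h' hd)

/-- The direction of the line through two points (junk if they are equal). -/
noncomputable def dirOf [DecidableEq K] (p p' : Pt K) : Dir K :=
  if p.1 = p'.1 then none else some ((p'.2 - p.2) / (p'.1 - p.1))

/-- The line through two points (junk if they are equal). -/
noncomputable def line2 [DecidableEq K] (p p' : Pt K) : Ln K := lineThru p (dirOf p p')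

theorem on_line2_left [DecidableEq K] (p p' : Pt K) : On p (line2 p p') := on_lineThru _ _

theorem on_line2_right [DecidableEq K] {p p' : Pt K} (hne : p ≠ p') : On p' (line2 p p') := by
  unfold line2 dirOf
  split_ifs with h
  · simp [lineThru, On, h]
  · have hx : p'.1 - p.1 ≠ 0 := sub_ne_zero.mpr (Ne.symm h)
    simp only [lineThru, On]
    field_simp
    ring

/-- Two distinct points lie on at most one common line. -/
theorem line_unique {p p' : Pt K} {l l' : Ln K} (hne : p ≠ p') (h1 : On p l) (h2 : On p' l)
    (h1' : On p l') (h2' : On p' l') : l = l' := by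
  rcases l with ⟨d, b⟩
  rcases l' with ⟨d', b'⟩
  rcases p with ⟨x, y⟩
  rcases p' with ⟨x', y'⟩
  cases d with
  | none =>
    cases d' with
    | none =>
      simp only [On] at h1 h2 h1' h2'
      simp [← h1, ← h1']
    | some m' =>
      simp only [On] at h1 h2 h1' h2'
      exfalso; apply hne
      have hx : x = x' := h1.trans h2.symm
      subst hx
      rw [h1', h2']
  | some m =>
    cases d' with
    | none =>
      simp only [On] at h1 h2 h1' h2'
      exfalso; apply hne
      have hx : x = x' := h1'.trans h2'.symm
      subst hx
      rw [h1, h2]
    | some m' =>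
      simp only [On] at h1 h2 h1' h2'
      have hx : x ≠ x' := by
        rintro rfl
        apply hne
        rw [h1, h2]
      have hxx : x - x' ≠ 0 := sub_ne_zero.mpr hx
      have hm : m = m' := by
        have : (m - m') * (x - x') = 0 := by
          linear_combination h2 - h1 - h2' + h1'
        rcases mul_eq_zero.mp this with h | h
        · exact sub_eq_zero.mp h
        · exact absurd h hxx
      subst hm
      have hb : b = b' := by linear_combination h1' - h1
      rw [hb]

theorem eq_line2 [DecidableEq K] {p p' : Pt K} {l : Ln K} (hne : p ≠ p') (h1 : On p l)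
    (h2 : On p' l) : line2 p p' = l :=
  line_unique hne (on_line2_left _ _) (on_line2_right hne) h1 h2

/-- Two lines of different directions meet in a point (junk otherwise). -/
noncomputable def cross [DecidableEq K] (l l' : Ln K) : Pt K :=
  match l.1, l'.1 with
  | some m, some m' => let x := (l'.2 - l.2) / (m - m'); (x, m * x + l.2)
  | some m, none => (l'.2, m * l'.2 + l.2)
  | none, some m' => (l.2, m' * l.2 + l'.2)
  | none, none => (0, 0)

theorem on_cross_left [DecidableEq K] {l l' : Ln K} (h : l.1 ≠ l'.1) : On (cross l l') l := by
  rcases l with ⟨d, b⟩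
  rcases l' with ⟨d', b'⟩
  cases d <;> cases d' <;> simp_all [cross, On]

theorem on_cross_right [DecidableEq K] {l l' : Ln K} (h : l.1 ≠ l'.1) : On (cross l l') l' := by
  rcases l with ⟨d, b⟩
  rcases l' with ⟨d', b'⟩
  cases d with
  | none =>
    cases d' with
    | none => simp at h
    | some m' => simp [cross, On]
  | some m =>
    cases d' with
    | none => simp [cross, On]
    | some m' =>
      have hm : m - m' ≠ 0 := by
        intro h0; apply h; simp [sub_eq_zero.mp h0]
      simp only [cross, On]
      field_simp
      ring

/-- Two distinct lines share at most one point. -/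
theorem point_unique {p p' : Pt K} {l l' : Ln K} (hne : l ≠ l') (h1 : On p l) (h2 : On p l')
    (h1' : On p' l) (h2' : On p' l') : p = p' := by
  by_contra h
  exact hne (line_unique h h1 h1' h2 h2')

theorem eq_cross [DecidableEq K] {p : Pt K} {l l' : Ln K} (h : l.1 ≠ l'.1) (h1 : On p l)
    (h2 : On p l') : p = cross l l' := by
  refine point_unique (l := l) (l' := l') ?_ h1 h2 (on_cross_left h) (on_cross_right h)
  rintro rfl; exact h rfl

/-- Parametrisation of a line. -/
def param (l : Ln K) (s : K) : Pt K :=
  match l.1 with
  | some m => (s, m * s + l.2)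
  | none => (l.2, s)

theorem on_param (l : Ln K) (s : K) : On (param l s) l := by
  rcases l with ⟨d, b⟩
  cases d <;> simp [param, On]

theorem param_injective (l : Ln K) : Function.Injective (param l) := by
  rcases l with ⟨d, b⟩
  intro s t h
  cases d with
  | none => simpa [param] using congrArg Prod.snd h
  | some m => simpa [param] using congrArg Prod.fst h

theorem exists_param {p : Pt K} {l : Ln K} (h : On p l) : ∃ s, param l s = p := by
  rcases l with ⟨d, b⟩
  rcases p with ⟨x, y⟩
  cases d with
  | none => simp only [On] at h; exact ⟨y, by simp [param, h]⟩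
  | some m => simp only [On] at h; exact ⟨x, by simp [param, h]⟩

variable [Fintype K] [DecidableEq K]

/-- The points of a line. -/
def linePts (l : Ln K) : Finset (Pt K) := univ.filter (fun p => On p l)

@[simp] theorem mem_linePts {l : Ln K} {p : Pt K} : p ∈ linePts l ↔ On p l := by simp [linePts]

theorem linePts_eq_image (l : Ln K) : linePts l = univ.image (param l) := by
  ext p
  simp only [mem_linePts, mem_image, mem_univ, true_and]
  exact ⟨exists_param, fun ⟨s, hs⟩ => hs ▸ on_param l s⟩

/-- A line has `q` points. -/
theorem card_linePts (l : Ln K) : (linePts l).card = Fintype.card K := by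
  rw [linePts_eq_image, card_image_of_injective _ (param_injective l), card_univ]

theorem card_Dir : Fintype.card (Dir K) = Fintype.card K + 1 := by simp

theorem card_Ln : Fintype.card (Ln K) = (Fintype.card K + 1) * Fintype.card K := by
  simp [Fintype.card_prod]

theorem card_Pt : Fintype.card (Pt K) = Fintype.card K * Fintype.card K := by
  simp [Fintype.card_prod]

/-- The lines through a point are exactly the `lineThru p d`. -/
theorem lines_through_eq_image (p : Pt K) :
    (univ.filter (fun l : Ln K => On p l)) = univ.image (lineThru p) := by
  ext l
  simp only [mem_filter, mem_univ, true_and, mem_image]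
  exact ⟨fun h => ⟨l.1, lineThru_of_on h⟩, fun ⟨d, hd⟩ => hd ▸ on_lineThru p d⟩

theorem lineThru_injective (p : Pt K) : Function.Injective (lineThru (K := K) p) := by
  intro d d' h
  have := congrArg Prod.fst h
  simpa using this

/-- A point is on `q + 1` lines. -/
theorem card_lines_through (p : Pt K) :
    (univ.filter (fun l : Ln K => On p l)).card = Fintype.card K + 1 := by
  rw [lines_through_eq_image, card_image_of_injective _ (lineThru_injective p), card_univ]
  simp

/-- Each direction contains `q` lines. -/
theorem card_lines_of_dir (d : Dir K) :
    (univ.filter (fun l : Ln K => l.1 = d)).card = Fintype.card K := by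
  have : (univ.filter (fun l : Ln K => l.1 = d)) = univ.image (fun b : K => (d, b)) := by
    ext ⟨a, b⟩
    simp only [mem_filter, mem_univ, true_and, mem_image, Prod.mk.injEq]
    constructor
    · rintro rfl; exact ⟨b, rfl, rfl⟩
    · rintro ⟨_, h, _⟩; exact h.symm
  rw [this, card_image_of_injective, card_univ]
  intro a b h
  simpa using h

/-- A line and a set of points on another line: two distinct lines meet at most once. -/
theorem card_inter_linePts_le_one {l l' : Ln K} (h : l ≠ l') :
    (linePts l ∩ linePts l').card ≤ 1 := by
  rw [card_le_one]
  intro p hp p' hp'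
  simp only [mem_inter, mem_linePts] at hp hp'
  exact point_unique h hp.1 hp.2 hp'.1 hp'.2

/-- Each line of direction `d` is met exactly once by a line of direction `d' ≠ d`. -/
theorem inter_linePts_eq_singleton {l l' : Ln K} (h : l.1 ≠ l'.1) :
    linePts l ∩ linePts l' = {cross l l'} := by
  ext p
  simp only [mem_inter, mem_linePts, mem_singleton]
  constructor
  · rintro ⟨h1, h2⟩; exact eq_cross h h1 h2
  · rintro rfl; exact ⟨on_cross_left h, on_cross_right h⟩

end Crest.Agent.Ryser
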