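import Crest.Agent.Ryser.RandLines

/-!
# The kill lemma.
-/

set_option autoImplicit false
set_option linter.unusedSectionVars false
set_option linter.unusedVariables false

namespace Crest.Agent.Ryser

open Finset

variable {K : Type} [Field K] [Fintype K] [DecidableEq K]

local notation "q" => Fintype.card K

section killOne
variable {ι : Type} [Fintype ι] [DecidableEq ι] {Ω : ι → Type} [∀ i, Fintype (Ω i)]
  [∀ i, Nonempty (Ω i)] (H : ∀ i, Ω i → Finset (Ln K))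

/-- Points of `Y` on no line of `ω` outside `T`. -/
def goodSet (Y : Finset (Pt K)) (T : Finset (Ln K)) (ω : ∀ i, Ω i) : Finset (Pt K) :=
  Y.filter (fun p => ∀ l ∈ holesAt H ω, l ∉ T → ¬ On p l)

theorem mem_holesAt {ω : ∀ i, Ω i} {l : Ln K} : l ∈ holesAt H ω ↔ ∃ i, l ∈ H i (ω i) := by
  simp [holesAt]

theorem card_filter_on_le (Y : Finset (Pt K)) (M : Finset (Ln K)) (τ : ℝ)
    (hτ : ∀ l ∈ M, ((linePts l ∩ Y).card : ℝ) ≤ τ) :
    ((Y.filter (fun p => ∃ l ∈ M, On p l)).card : ℝ) ≤ M.card * τ := by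
  have h1 : Y.filter (fun p => ∃ l ∈ M, On p l) ⊆ M.biUnion (fun l => linePts l ∩ Y) := by
    intro p hp
    obtain ⟨hpY, l, hl, hpl⟩ := mem_filter.mp hp
    exact mem_biUnion.mpr ⟨l, hl, mem_inter.mpr ⟨mem_linePts.mpr hpl, hpY⟩⟩
  have h2 : (Y.filter (fun p => ∃ l ∈ M, On p l)).card ≤ ∑ l ∈ M, (linePts l ∩ Y).card :=
    (card_le_card h1).trans card_biUnion_le
  have h3 : ((Y.filter (fun p => ∃ l ∈ M, On p l)).card : ℝ) ≤ ∑ l ∈ M, ((linePts l ∩ Y).card : ℝ) := by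
    exact_mod_cast h2
  refine h3.trans ?_
  refine (Finset.sum_le_sum hτ).trans ?_
  simp

theorem goodSet_sdiff (Y : Finset (Pt K)) (T : Finset (Ln K)) (ω : ∀ i, Ω i) (i : ι) (a : Ω i) :
    goodSet H Y T (Function.update ω i a) \ goodSet H Y T ω
      ⊆ Y.filter (fun p => ∃ l ∈ (H i (ω i)).filter (fun l => l ∉ T), On p l) := by
  intro p hp
  obtain ⟨hp1, hp2⟩ := mem_sdiff.mp hp
  obtain ⟨hpY, hpg⟩ := mem_filter.mp hp1
  refine mem_filter.mpr ⟨hpY, ?_⟩
  have : ¬ (∀ l ∈ holesAt H ω, l ∉ T → ¬ On p l) := fun h => hp2 (mem_filter.mpr ⟨hpY, h⟩)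
  push Not at this
  obtain ⟨l, hl, hlT, hpl⟩ := this
  obtain ⟨j, hj⟩ := (mem_holesAt H).mp hl
  by_cases hji : j = i
  · subst hji
    exact ⟨l, mem_filter.mpr ⟨hj, hlT⟩, hpl⟩
  · exfalso
    have hl' : l ∈ holesAt H (Function.update ω i a) := by
      apply (mem_holesAt H).mpr
      refine ⟨j, ?_⟩
      rw [Function.update_of_ne hji]
      exact hj
    exact hpg l hl' hlT hpl

/-- Lipschitz constant of the number of good points. -/
theorem goodSet_lipschitz (Y : Finset (Pt K)) (T : Finset (Ln K)) (κ : ℕ)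
    (hκ : ∀ i a, (H i a).card ≤ κ) (τ : ℝ) (hτ0 : 0 ≤ τ)
    (hT : ∀ l, l ∉ T → ((linePts l ∩ Y).card : ℝ) ≤ τ) (ω : ∀ i, Ω i) (i : ι) (a : Ω i) :
    |((goodSet H Y T (Function.update ω i a)).card : ℝ) - ((goodSet H Y T ω).card : ℝ)|
      ≤ κ * τ := by
  have key : ∀ (ω : ∀ i, Ω i) (a : Ω i),
      (((goodSet H Y T (Function.update ω i a)) \ (goodSet H Y T ω)).card : ℝ) ≤ κ * τ := by
    intro ω a
    have h1 := card_le_card (goodSet_sdiff H Y T ω i a)
    have h2 := card_filter_on_le Y ((H i (ω i)).filter (fun l => l ∉ T)) τ (by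
      intro l hl
      exact hT l (mem_filter.mp hl).2)
    have h3 : (((H i (ω i)).filter (fun l => l ∉ T)).card : ℝ) ≤ κ := by
      exact_mod_cast (card_filter_le _ _).trans (hκ i _)
    calc (((goodSet H Y T (Function.update ω i a)) \ (goodSet H Y T ω)).card : ℝ)
        ≤ ((Y.filter (fun p => ∃ l ∈ (H i (ω i)).filter (fun l => l ∉ T), On p l)).card : ℝ) := by
          exact_mod_cast h1
      _ ≤ _ := h2
      _ ≤ κ * τ := mul_le_mul_of_nonneg_right h3 hτ0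
  have hA := key ω a
  have hB := key (Function.update ω i a) (ω i)
  rw [Function.update_idem, Function.update_eq_self] at hB
  have h1 : ((goodSet H Y T (Function.update ω i a)).card : ℝ)
      ≤ (goodSet H Y T ω).card + ((goodSet H Y T (Function.update ω i a) \ goodSet H Y T ω).card : ℝ) := by
    have := card_le_card_sdiff_add_card (s := goodSet H Y T (Function.update ω i a)) (t := goodSet H Y T ω)
    have h' : ((goodSet H Y T (Function.update ω i a)).card : ℝ)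
        ≤ ((goodSet H Y T (Function.update ω i a) \ goodSet H Y T ω).card : ℝ) + (goodSet H Y T ω).card := by
      exact_mod_cast this
    linarith
  have h2 : ((goodSet H Y T ω).card : ℝ)
      ≤ (goodSet H Y T (Function.update ω i a)).card + ((goodSet H Y T ω \ goodSet H Y T (Function.update ω i a)).card : ℝ) := by
    have := card_le_card_sdiff_add_card (s := goodSet H Y T ω) (t := goodSet H Y T (Function.update ω i a))
    have h' : ((goodSet H Y T ω).card : ℝ)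
        ≤ ((goodSet H Y T ω \ goodSet H Y T (Function.update ω i a)).card : ℝ) + (goodSet H Y T (Function.update ω i a)).card := by
      exact_mod_cast this
    linarith
  rw [abs_le]
  constructor <;> linarith

/-- The mean of the number of good points. -/
theorem avg_goodSet_ge (Y : Finset (Pt K)) (T : Finset (Ln K)) (ρ : ℝ)
    (hρ : ∀ p ∈ Y, ρ ≤ pr (fun ω : ∀ i, Ω i => ∀ i, ¬ ∃ l ∈ H i (ω i), On p l)) :
    ρ * Y.card ≤ avg (fun ω : ∀ i, Ω i => ((goodSet H Y T ω).card : ℝ)) := by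
  classical
  have h1 : (fun ω : ∀ i, Ω i => ((goodSet H Y T ω).card : ℝ))
      = fun ω => ∑ p ∈ Y, (if (∀ l ∈ holesAt H ω, l ∉ T → ¬ On p l) then (1 : ℝ) else 0) := by
    funext ω
    unfold goodSet
    rw [Finset.sum_boole]
  rw [h1, avg_sum]
  have h2 : ∀ p ∈ Y, ρ ≤ avg (fun ω : ∀ i, Ω i =>
      if (∀ l ∈ holesAt H ω, l ∉ T → ¬ On p l) then (1 : ℝ) else 0) := by
    intro p hp
    rw [← pr_eq_avg]
    refine (hρ p hp).trans (pr_mono ?_)
    intro ω hω l hl hlT hpl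
    obtain ⟨j, hj⟩ := (mem_holesAt H).mp hl
    exact hω j ⟨l, hj, hpl⟩
  have h3 := Finset.sum_le_sum h2
  simp only [Finset.sum_const, nsmul_eq_mul] at h3
  linarith

/-- Good points that do not survive are on a line of `T`. -/
theorem goodSet_le_survivors (Y : Finset (Pt K)) (T : Finset (Ln K)) (κ : ℕ)
    (hκ : ∀ i a, (H i a).card ≤ κ) (D : ℝ) (hD0 : 0 ≤ D)
    (hD : ∀ l, ((linePts l ∩ Y).card : ℝ) ≤ D) (ω : ∀ i, Ω i) :
    ((goodSet H Y T ω).card : ℝ) ≤ (survivors H Y ω).card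
      + κ * (countE (fun i a => (H i a ∩ T).Nonempty) ω) * D := by
  classical
  set M := (holesAt H ω).filter (fun l => l ∈ T) with hM
  have hMcard : (M.card : ℝ) ≤ κ * (countE (fun i a => (H i a ∩ T).Nonempty) ω) := by
    have h1 : M ⊆ (univ.filter (fun i => (H i (ω i) ∩ T).Nonempty)).biUnion (fun i => H i (ω i)) := by
      intro l hl
      obtain ⟨hl1, hl2⟩ := mem_filter.mp hl
      obtain ⟨j, hj⟩ := (mem_holesAt H).mp hl1
      exact mem_biUnion.mpr ⟨j, mem_filter.mpr ⟨mem_univ _, ⟨l, mem_inter.mpr ⟨hj, hl2⟩⟩⟩, hj⟩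
    have h2 : M.card ≤ κ * (univ.filter (fun i => (H i (ω i) ∩ T).Nonempty)).card := by
      refine (card_le_card h1).trans (card_biUnion_le.trans ?_)
      refine (Finset.sum_le_sum (fun i _ => hκ i (ω i))).trans ?_
      simp [mul_comm]
    have h3 : countE (fun i a => (H i a ∩ T).Nonempty) ω
        = (univ.filter (fun i => (H i (ω i) ∩ T).Nonempty)).card := by
      unfold countE
      congr!
    rw [h3]
    exact_mod_cast h2
  have h1 : goodSet H Y T ω \ survivors H Y ω ⊆ Y.filter (fun p => ∃ l ∈ M, On p l) := by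
    intro p hp
    obtain ⟨hp1, hp2⟩ := mem_sdiff.mp hp
    obtain ⟨hpY, hpg⟩ := mem_filter.mp hp1
    refine mem_filter.mpr ⟨hpY, ?_⟩
    have : ¬ (∀ l ∈ holesAt H ω, ¬ On p l) := fun h => hp2 (mem_filter.mpr ⟨hpY, h⟩)
    push Not at this
    obtain ⟨l, hl, hpl⟩ := this
    refine ⟨l, mem_filter.mpr ⟨hl, ?_⟩, hpl⟩
    by_contra hlT
    exact hpg l hl hlT hpl
  have h2 := card_filter_on_le Y M D (fun l _ => hD l)
  have h3 : ((goodSet H Y T ω \ survivors H Y ω).card : ℝ) ≤ M.card * D :=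
    le_trans (by exact_mod_cast card_le_card h1) h2
  have h4 := card_le_card_sdiff_add_card (s := goodSet H Y T ω) (t := survivors H Y ω)
  have h5 : ((goodSet H Y T ω).card : ℝ)
      ≤ ((goodSet H Y T ω \ survivors H Y ω).card : ℝ) + (survivors H Y ω).card := by
    exact_mod_cast h4
  have h6 : (M.card : ℝ) * D ≤ κ * (countE (fun i a => (H i a ∩ T).Nonempty) ω) * D :=
    mul_le_mul_of_nonneg_right hMcard hD0
  linarith

theorem kill_pr_or_le {α : Type} [Fintype α] (P Q : α → Prop) :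
    pr (fun a => P a ∨ Q a) ≤ pr P + pr Q := by
  classical
  simp only [pr_eq_filter]
  rw [← add_div]
  apply div_le_div_of_nonneg_right _ (by positivity)
  rw [Finset.filter_or]
  exact_mod_cast card_union_le _ _

/-- The kill lemma for one set `Y`. -/
theorem kill_one (Y : Finset (Pt K)) (T : Finset (Ln K)) (κ : ℕ)
    (hκ : ∀ i a, (H i a).card ≤ κ) (τ D ρ V : ℝ) (hτ0 : 0 ≤ τ) (hD0 : 0 ≤ D) (R : ℕ)
    (hT : ∀ l, l ∉ T → ((linePts l ∩ Y).card : ℝ) ≤ τ)
    (hD : ∀ l, ((linePts l ∩ Y).card : ℝ) ≤ D)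
    (hρ : ∀ p ∈ Y, ρ ≤ pr (fun ω : ∀ i, Ω i => ∀ i, ¬ ∃ l ∈ H i (ω i), On p l))
    (hρ0 : 0 < ρ) (hY : 0 < Y.card)
    (hR : (κ * R : ℝ) * D ≤ ρ * Y.card / 4)
    (hV : 0 < V) (hV' : (Fintype.card ι : ℝ) * (κ * τ) ^ 2 ≤ V) :
    pr (fun ω : ∀ i, Ω i => ((survivors H Y ω).card : ℝ) < ρ * Y.card / 4)
      ≤ pr (fun ω : ∀ i, Ω i => R ≤ countE (fun i a => (H i a ∩ T).Nonempty) ω)
        + Real.exp (-((ρ * Y.card / 2) ^ 2) / (2 * V)) := by
  have hYr : (0 : ℝ) < Y.card := by exact_mod_cast hY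
  have hMD := mcdiarmid_lower_V (fun ω : ∀ i, Ω i => ((goodSet H Y T ω).card : ℝ))
    (fun _ => (κ : ℝ) * τ) (fun ω i a => goodSet_lipschitz H Y T κ hκ τ hτ0 hT ω i a)
    (t := ρ * Y.card / 2) (V := V) (by positivity) hV (by
      simpa [Finset.sum_const, nsmul_eq_mul, Finset.card_univ] using hV')
  have hinc : ∀ ω : ∀ i, Ω i, ((survivors H Y ω).card : ℝ) < ρ * Y.card / 4 →
      (R ≤ countE (fun i a => (H i a ∩ T).Nonempty) ω) ∨
        (((goodSet H Y T ω).card : ℝ)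
          ≤ avg (fun ω : ∀ i, Ω i => ((goodSet H Y T ω).card : ℝ)) - ρ * Y.card / 2) := by
    intro ω hω
    by_contra hcon
    push Not at hcon
    obtain ⟨h1, h2⟩ := hcon
    have h3 := goodSet_le_survivors H Y T κ hκ D hD0 hD ω
    have h4 : (κ : ℝ) * (countE (fun i a => (H i a ∩ T).Nonempty) ω) * D ≤ (κ * R : ℝ) * D := by
      apply mul_le_mul_of_nonneg_right _ hD0
      apply mul_le_mul_of_nonneg_left _ (by positivity)
      exact_mod_cast h1.le
    have h5 := avg_goodSet_ge H Y T ρ hρ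
    linarith
  refine (pr_mono hinc).trans ((kill_pr_or_le _ _).trans ?_)
  exact add_le_add le_rfl hMD

/-- The product bound on the probability that a point is not hit. -/
theorem pr_not_hit_ge {A B x : ℝ} (hx : 0 < x) (hBx : 2 * B ≤ x) (hB : 0 < B) (hA : 0 < A)
    (hι : (Fintype.card ι : ℝ) ≤ A * x) (p : Pt K)
    (hp : ∀ i, pr (fun a => ∃ l ∈ H i a, On p l) ≤ B / x) :
    Real.exp (-2 * A * B) ≤ pr (fun ω : ∀ i, Ω i => ∀ i, ¬ ∃ l ∈ H i (ω i), On p l) := by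
  have h1 := pr_forall_coord (Ω := Ω) (fun i a => ¬ ∃ l ∈ H i a, On p l)
  rw [h1]
  set u := B / x with hu
  have hu0 : 0 < u := div_pos hB hx
  have hu1 : u ≤ 1 / 2 := by
    rw [hu, div_le_iff₀ hx]; linarith
  have hexp : Real.exp (-2 * u) ≤ 1 - u := by
    have h2 := Real.add_one_le_exp (2 * u)
    have h3 : Real.exp (-2 * u) = (Real.exp (2 * u))⁻¹ := by
      rw [← Real.exp_neg]; ring_nf
    rw [h3]
    have h4 : (0 : ℝ) < 1 + 2 * u := by linarith
    have h5 : (Real.exp (2 * u))⁻¹ ≤ (1 + 2 * u)⁻¹ :=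
      inv_anti₀ h4 (by linarith)
    refine h5.trans ?_
    rw [inv_le_iff_one_le_mul₀ h4]
    nlinarith
  have h2 : ∀ i ∈ (univ : Finset ι), Real.exp (-2 * u)
      ≤ pr (fun a => ¬ ∃ l ∈ H i a, On p l) := by
    intro i _
    rw [pr_not]
    have := hp i
    linarith
  have h3 := Finset.prod_le_prod (fun i _ => (Real.exp_pos _).le) h2
  simp only [Finset.prod_const, Finset.card_univ] at h3
  refine le_trans ?_ h3
  rw [← Real.exp_nat_mul]
  apply Real.exp_le_exp.mpr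
  have h4 : (Fintype.card ι : ℝ) * (2 * u) ≤ 2 * A * B := by
    have : (Fintype.card ι : ℝ) * u ≤ A * x * u := mul_le_mul_of_nonneg_right hι hu0.le
    have h5 : A * x * u = A * B := by
      rw [hu]; field_simp
    nlinarith
  nlinarith

end killOne

/-- Shape of a family of point sets on which the kill lemma is applied. -/
structure KillShape (YY : Finset (Finset (Pt K))) (K₀ : ℝ) (C₉ : ℕ) : Prop where
  lower : ∀ Y ∈ YY, (q : ℝ) ^ ((3 : ℝ) / 2) ≤ K₀ * Y.card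
  upper : ∀ Y ∈ YY, (Y.card : ℝ) ≤ (q : ℝ) ^ ((39 : ℝ) / 20)
  lines : ∀ Y ∈ YY, ∀ l : Ln K, ((linePts l ∩ Y).card : ℝ) ≤ K₀ * Real.sqrt Y.card
  count : ∀ n : ℕ, (YY.filter (fun Y => Y.card ≤ n * q)).card ≤
    (q ^ 2 + q + 1) ^ (C₉ * (n + 1) * logq K)

/-- The constant in the kill lemma: `exp (-2 A B) / 4`. -/
noncomputable def killc (A B : ℝ) : ℝ := Real.exp (-2 * A * B) / 4

/-- All numerics of the kill lemma, as `x → ∞`. -/
theorem kill_numeric (B K₀ c₂ e6 C : ℝ) (hc₂ : 0 < c₂) (he6 : 0 < e6) (hC : 0 < C) :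
    ∀ᶠ x : ℝ in Filter.atTop,
      100 ≤ x ∧ 2 * B ≤ x ∧ 2 ≤ x ^ ((1 : ℝ) / 80) ∧ Real.sqrt K₀ ≤ c₂ * (x ^ ((1 : ℝ) / 80)) ^ 60 ∧
      4 * Real.exp 1 * B * Real.sqrt K₀ ≤ c₂ * (x ^ ((1 : ℝ) / 80)) ^ 18 ∧
      180 * C * Real.log x ≤ c₂ * (x ^ ((1 : ℝ) / 80)) ^ 2 ∧
      90 * C * Real.log x ^ 2 ≤ e6 * (x ^ ((1 : ℝ) / 80)) ^ 2 ∧
      2 * K₀ ≤ (x ^ ((1 : ℝ) / 80)) ^ 40 ∧ 2 ≤ Real.log x := by
  have hw : Filter.Tendsto (fun x : ℝ => x ^ ((1 : ℝ) / 80)) Filter.atTop Filter.atTop :=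
    tendsto_rpow_atTop (by norm_num)
  have hpow : ∀ k : ℕ, k ≠ 0 → ∀ c a : ℝ, 0 < c →
      ∀ᶠ x : ℝ in Filter.atTop, a ≤ c * (x ^ ((1 : ℝ) / 80)) ^ k := by
    intro k hk c a hc
    have h1 : Filter.Tendsto (fun x : ℝ => (x ^ ((1 : ℝ) / 80)) ^ k) Filter.atTop Filter.atTop :=
      (Filter.tendsto_pow_atTop hk).comp hw
    filter_upwards [h1.eventually_ge_atTop (a / c)] with x hx
    rw [div_le_iff₀ hc] at hx
    linarith
  have hrw : ∀ᶠ x : ℝ in Filter.atTop, (x ^ ((1 : ℝ) / 80)) ^ 2 = x ^ ((1 : ℝ) / 40) := by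
    filter_upwards [Filter.eventually_gt_atTop (0 : ℝ)] with x hx
    rw [← Real.rpow_natCast, ← Real.rpow_mul hx.le]
    norm_num
  have hlog1 := (isLittleO_log_rpow_atTop (r := (1 : ℝ) / 40) (by norm_num)).bound
    (c := c₂ / (180 * C)) (by positivity)
  have hlog2 := (isLittleO_log_rpow_rpow_atTop (s := (1 : ℝ) / 40) (2 : ℝ) (by norm_num)).bound
    (c := e6 / (90 * C)) (by positivity)
  filter_upwards [Filter.eventually_ge_atTop (100 : ℝ), Filter.eventually_ge_atTop (2 * B),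
    (hw.eventually_ge_atTop (2 : ℝ)), hpow 60 (by norm_num) c₂ (Real.sqrt K₀) hc₂,
    hpow 18 (by norm_num) c₂ (4 * Real.exp 1 * B * Real.sqrt K₀) hc₂,
    hpow 40 (by norm_num) 1 (2 * K₀) one_pos,
    Real.tendsto_log_atTop.eventually_ge_atTop (2 : ℝ), hrw, hlog1, hlog2,
    Filter.eventually_gt_atTop (1 : ℝ)]
    with x h1 h2 h3 h4 h5 h6 h7 h8 h9 h10 h11
  have hxpos : 0 < x := by linarith
  have hr : 0 ≤ x ^ ((1 : ℝ) / 40) := by positivity
  refine ⟨h1, h2, h3, h4, h5, ?_, ?_, by simpa using h6, h7⟩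
  · rw [h8]
    rw [Real.norm_eq_abs, Real.norm_eq_abs, abs_of_nonneg hr] at h9
    have h12 := le_trans (le_abs_self _) h9
    have h13 : (180 * C) * Real.log x ≤ (180 * C) * (c₂ / (180 * C) * x ^ ((1 : ℝ) / 40)) :=
      mul_le_mul_of_nonneg_left h12 (by positivity)
    refine h13.trans (le_of_eq ?_)
    field_simp
  · rw [h8]
    rw [Real.norm_eq_abs, Real.norm_eq_abs, abs_of_nonneg hr] at h10
    have h12 := le_trans (le_abs_self _) h10
    rw [Real.rpow_two] at h12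
    have h13 : (90 * C) * Real.log x ^ 2 ≤ (90 * C) * (e6 / (90 * C) * x ^ ((1 : ℝ) / 40)) :=
      mul_le_mul_of_nonneg_left h12 (by positivity)
    refine h13.trans (le_of_eq ?_)
    field_simp

theorem logq_le_five (hq : 2 ≤ q) (hL : 2 ≤ Real.log (q : ℝ)) :
    (logq K : ℝ) ≤ 5 * Real.log (q : ℝ) := by
  have hq2r : (2 : ℝ) ≤ (q : ℝ) := by exact_mod_cast hq
  obtain ⟨x, hx⟩ : ∃ x : ℝ, x = (q : ℝ) := ⟨_, rfl⟩
  rw [← hx] at hL hq2r ⊢
  obtain ⟨L, hLdef⟩ : ∃ L : ℝ, L = Real.log x := ⟨_, rfl⟩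
  rw [← hLdef] at hL ⊢
  have hxpos : 0 < x := by linarith
  have hl2 : 0.69 < Real.log 2 := by
    have := Real.log_two_gt_d9
    norm_num at this ⊢
    linarith
  obtain ⟨t, ht⟩ : ∃ t : ℕ, t = Nat.ceil (3 * L / Real.log 2) := ⟨_, rfl⟩
  have hpow : q ^ 2 + q + 1 ≤ 2 ^ t := by
    have h1 : q ^ 2 + q + 1 ≤ q ^ 3 := by
      have : 2 * q ^ 2 ≤ q ^ 3 := by nlinarith [sq_nonneg q]
      nlinarith
    refine h1.trans ?_
    have h2 : (x ^ 3 : ℝ) ≤ (2 : ℝ) ^ t := by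
      have h3 : x ^ 3 = Real.exp (3 * L) := by
        rw [hLdef, mul_comm, Real.exp_mul, Real.exp_log hxpos]
        norm_cast
      have h4 : (2 : ℝ) ^ t = Real.exp (t * Real.log 2) := by
        rw [mul_comm, Real.exp_mul, Real.exp_log (by norm_num)]
        norm_cast
      rw [h3, h4]
      apply Real.exp_le_exp.mpr
      have h5 : 3 * L / Real.log 2 ≤ t := ht ▸ Nat.le_ceil _
      rwa [div_le_iff₀ (by linarith)] at h5
    have h6 : ((q ^ 3 : ℕ) : ℝ) ≤ ((2 ^ t : ℕ) : ℝ) := by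
      push_cast
      rw [← hx]
      exact h2
    exact_mod_cast h6
  have h7 : logq K ≤ t := Nat.clog_le_of_le_pow hpow
  have h8 : (logq K : ℝ) ≤ t := by exact_mod_cast h7
  have hLpos : 0 ≤ L := by linarith
  have h9 : (t : ℝ) < 3 * L / Real.log 2 + 1 := ht ▸ Nat.ceil_lt_add_one (by
    apply div_nonneg (by linarith) (by linarith))
  have h10 : 3 * L / Real.log 2 ≤ 4.4 * L := by
    rw [div_le_iff₀ (by linarith)]
    nlinarith
  linarith

section killPerY
variable {ι : Type} [Fintype ι] [DecidableEq ι] {Ω : ι → Type} [∀ i, Fintype (Ω i)]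
  [∀ i, Nonempty (Ω i)] (H : ∀ i, Ω i → Finset (Ln K))

/-- The exponent. -/
def mmK (K : Type) [Fintype K] (C₉ n : ℕ) : ℕ := 3 * (C₉ + 1) * (n + 1) * logq K

set_option maxHeartbeats 1500000 in
theorem kill_per_Y {A B K₀ : ℝ} {κ C₉ : ℕ} (hA : 0 < A) (hB : 0 < B) (hK₀ : 0 < K₀)
    (x w L ρ κ' c₂ C : ℝ) (hxdef : x = (q : ℝ)) (hwdef : w = x ^ ((1 : ℝ) / 80))
    (hLdef : L = Real.log x) (hρdef : ρ = Real.exp (-2 * A * B)) (hκ'def : κ' = (κ : ℝ) + 1)
    (hc₂def : c₂ = ρ / (8 * κ' * K₀)) (hCdef : C = (C₉ : ℝ) + 1)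
    (hx100 : (100 : ℝ) ≤ x) (h2B : 2 * B ≤ x)
    (hw2 : 2 ≤ w)
    (h60 : Real.sqrt K₀ ≤ c₂ * w ^ 60)
    (h18 : 4 * Real.exp 1 * B * Real.sqrt K₀ ≤ c₂ * w ^ 18)
    (hlog : 180 * C * L ≤ c₂ * w ^ 2)
    (hlog2 : 90 * C * L ^ 2 ≤ (ρ ^ 2 / (8 * A * κ' ^ 2)) * w ^ 2)
    (h40 : 2 * K₀ ≤ w ^ 40) (hL2 : 2 ≤ L)
    (hι : (Fintype.card ι : ℝ) ≤ A * x) (hκ : ∀ i a, (H i a).card ≤ κ)
    (Y : Finset (Pt K))
    (hlower : x ^ ((3 : ℝ) / 2) ≤ K₀ * Y.card)
    (hupper : (Y.card : ℝ) ≤ x ^ ((39 : ℝ) / 20))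
    (hlines : ∀ l : Ln K, ((linePts l ∩ Y).card : ℝ) ≤ K₀ * Real.sqrt Y.card)
    (hp : ∀ p ∈ Y, ∀ i, pr (fun a => ∃ l ∈ H i a, On p l) ≤ B / x)
    (hm : ∀ m : Ln K, ∑ i, pr (fun a => m ∈ H i a) ≤ B / x) :
    pr (fun ω : ∀ i, Ω i => ((survivors H Y ω).card : ℝ) < killc A B * Y.card)
      ≤ 2 * ((x ^ (3 * mmK K C₉ (Y.card / q + 1)))⁻¹) := by
  classical
  have hx0 : 0 < x := by linarith
  have hq0 : 0 < q := by
    have : (0 : ℝ) < (q : ℝ) := hxdef ▸ hx0
    exact_mod_cast this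
  have hq2 : 2 ≤ q := by
    have : (2 : ℝ) ≤ (q : ℝ) := by rw [← hxdef]; linarith
    exact_mod_cast this
  have hw0 : 0 < w := by linarith
  have hw1 : 1 ≤ w := by linarith
  have hxw : x = w ^ 80 := by
    rw [hwdef, ← Real.rpow_natCast, ← Real.rpow_mul hx0.le]
    norm_num
  have h32 : x ^ ((3 : ℝ) / 2) = w ^ 120 := by
    rw [hwdef, ← Real.rpow_natCast, ← Real.rpow_mul hx0.le]
    norm_num
  have h3920 : x ^ ((39 : ℝ) / 20) = w ^ 156 := by
    rw [hwdef, ← Real.rpow_natCast, ← Real.rpow_mul hx0.le]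
    norm_num
  rw [h32] at hlower
  rw [h3920] at hupper
  obtain ⟨y, hydef⟩ : ∃ y : ℝ, y = (Y.card : ℝ) := ⟨_, rfl⟩
  rw [← hydef] at hlower hupper hlines
  have hkc : killc A B * Y.card = ρ * y / 4 := by
    unfold killc; rw [hρdef, hydef]; ring
  rw [hkc]
  have hy0 : 0 < y := by
    have : 0 < K₀ * y := lt_of_lt_of_le (by positivity) hlower
    exact (pos_iff_pos_of_mul_pos this).mp hK₀
  have hYcard : 0 < Y.card := by
    have : (0 : ℝ) < (Y.card : ℝ) := hydef ▸ hy0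
    exact_mod_cast this
  obtain ⟨sy, hsydef⟩ : ∃ sy : ℝ, sy = Real.sqrt y := ⟨_, rfl⟩
  rw [← hsydef] at hlines
  have hsy2 : sy ^ 2 = y := hsydef ▸ Real.sq_sqrt hy0.le
  have hsy0 : 0 < sy := hsydef ▸ Real.sqrt_pos.mpr hy0
  have hsyle : sy ≤ w ^ 78 := by
    rw [hsydef, Real.sqrt_le_iff]
    refine ⟨by positivity, ?_⟩
    calc y ≤ w ^ 156 := hupper
      _ = (w ^ 78) ^ 2 := by ring
  obtain ⟨sK, hsKdef⟩ : ∃ sK : ℝ, sK = Real.sqrt K₀ := ⟨_, rfl⟩
  rw [← hsKdef] at h60 h18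
  have hsK0 : 0 < sK := hsKdef ▸ Real.sqrt_pos.mpr hK₀
  have hsK2 : sK ^ 2 = K₀ := hsKdef ▸ Real.sq_sqrt hK₀.le
  have hsyge : w ^ 60 ≤ sK * sy := by
    have h1 : (w ^ 60) ^ 2 ≤ (sK * sy) ^ 2 := by
      rw [mul_pow, hsK2, hsy2]
      calc (w ^ 60) ^ 2 = w ^ 120 := by ring
        _ ≤ K₀ * y := hlower
    exact (pow_le_pow_iff_left₀ (by positivity) (by positivity) (by norm_num)).mp h1
  -- constants
  have hρ0 : 0 < ρ := hρdef ▸ Real.exp_pos _
  have hκ'0 : 0 < κ' := by rw [hκ'def]; positivity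
  have hκ'le : (κ : ℝ) ≤ κ' := by rw [hκ'def]; linarith
  have hc₂0 : 0 < c₂ := by rw [hc₂def]; positivity
  have hC0 : 0 < C := by rw [hCdef]; positivity
  -- the threshold and the rich lines
  obtain ⟨τ, hτdef⟩ : ∃ τ : ℝ, τ = sy / w := ⟨_, rfl⟩
  have hτ0 : 0 < τ := by rw [hτdef]; positivity
  have hτ2 : τ ^ 2 = y / w ^ 2 := by
    rw [hτdef, div_pow, hsy2]
  obtain ⟨T, hTdef⟩ : ∃ T : Finset (Ln K),
      T = univ.filter (fun l => τ ≤ ((linePts l ∩ Y).card : ℝ)) := ⟨_, rfl⟩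
  have hgτ : y / x ≤ τ / 2 := by
    rw [div_le_div_iff₀ hx0 (by norm_num), hτdef, hxw, ← hsy2]
    have h1 : sy ^ 2 * 2 ≤ sy * w ^ 79 := by
      have h2 : 2 * sy ≤ w ^ 79 := by
        calc 2 * sy ≤ w * w ^ 78 := mul_le_mul hw2 hsyle hsy0.le hw0.le
          _ = w ^ 79 := by ring
      nlinarith
    calc sy ^ 2 * 2 ≤ sy * w ^ 79 := h1
      _ = sy / w * w ^ 80 := by field_simp
  have hTcard : (T.card : ℝ) ≤ 4 * x * w ^ 2 := by
    have h1 := card_rich_lines_le Y hτ0 hq0 (by rw [← hxdef, ← hydef]; exact hgτ)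
    rw [hτ2, ← hTdef, ← hxdef, ← hydef] at h1
    have h2 : (T.card : ℝ) * (y / w ^ 2) ≤ 4 * y * x := h1
    have h3 : (T.card : ℝ) * y ≤ (4 * x * w ^ 2) * y := by
      have h4 : (T.card : ℝ) * y = (T.card : ℝ) * (y / w ^ 2) * w ^ 2 := by
        rw [mul_assoc, div_mul_cancel₀ _ (by positivity)]
      rw [h4]
      calc (T.card : ℝ) * (y / w ^ 2) * w ^ 2 ≤ 4 * y * x * w ^ 2 :=
            mul_le_mul_of_nonneg_right h2 (by positivity)
        _ = (4 * x * w ^ 2) * y := by ring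
    exact le_of_mul_le_mul_right h3 hy0
  have hTout : ∀ l, l ∉ T → ((linePts l ∩ Y).card : ℝ) ≤ τ := by
    intro l hl
    simp only [hTdef, mem_filter, mem_univ, true_and, not_le] at hl
    exact hl.le
  -- Chernoff part
  have hμ : ∑ i, pr (fun a => (H i a ∩ T).Nonempty) ≤ 4 * B * w ^ 2 := by
    refine (sum_pr_hit H T hm).trans ?_
    calc (T.card : ℝ) * (B / x) ≤ (4 * x * w ^ 2) * (B / x) :=
          mul_le_mul_of_nonneg_right hTcard (by positivity)
      _ = 4 * B * w ^ 2 := by field_simp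
  have hμ0 : 0 < 4 * B * w ^ 2 := by positivity
  obtain ⟨R, hRdef⟩ : ∃ R : ℕ, R = Nat.ceil (c₂ * sy) := ⟨_, rfl⟩
  have hc₂sy : 1 ≤ c₂ * sy := by
    have h1 : sK * 1 ≤ sK * (c₂ * sy) := by
      calc sK * 1 = sK := mul_one _
        _ ≤ c₂ * w ^ 60 := h60
        _ ≤ c₂ * (sK * sy) := mul_le_mul_of_nonneg_left hsyge hc₂0.le
        _ = sK * (c₂ * sy) := by ring
    exact le_of_mul_le_mul_left h1 hsK0
  have hRge : c₂ * sy ≤ R := hRdef ▸ Nat.le_ceil _
  have hRle : (R : ℝ) ≤ 2 * (c₂ * sy) := by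
    have h1 : (R : ℝ) < c₂ * sy + 1 :=
      hRdef ▸ Nat.ceil_lt_add_one (show 0 ≤ c₂ * sy by positivity)
    linarith
  have hRr : (0 : ℝ) < R := by linarith
  have hRpos : 0 < R := by exact_mod_cast hRr
  have hbase : Real.exp 1 * (4 * B * w ^ 2) / R ≤ (w ^ 40)⁻¹ := by
    rw [div_le_iff₀ hRr, inv_mul_eq_div, le_div_iff₀ (by positivity)]
    have h1 : sK * (Real.exp 1 * (4 * B * w ^ 2) * w ^ 40) ≤ sK * (c₂ * sy) := by
      calc sK * (Real.exp 1 * (4 * B * w ^ 2) * w ^ 40)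
          = (4 * Real.exp 1 * B * sK) * w ^ 42 := by ring
        _ ≤ (c₂ * w ^ 18) * w ^ 42 := mul_le_mul_of_nonneg_right h18 (by positivity)
        _ = c₂ * w ^ 60 := by ring
        _ ≤ c₂ * (sK * sy) := mul_le_mul_of_nonneg_left hsyge hc₂0.le
        _ = sK * (c₂ * sy) := by ring
    exact (le_of_mul_le_mul_left h1 hsK0).trans hRge
  have hChern : pr (fun ω : ∀ i, Ω i => R ≤ countE (fun i a => (H i a ∩ T).Nonempty) ω)
      ≤ ((w ^ 40)⁻¹) ^ R := by
    refine (pr_countE_ge (fun i a => (H i a ∩ T).Nonempty) hμ0 hμ hRpos).trans ?_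
    exact pow_le_pow_left₀ (by positivity) hbase R
  -- the arithmetic of the exponent
  obtain ⟨n, hndef⟩ : ∃ n : ℕ, n = Y.card / q + 1 := ⟨_, rfl⟩
  rw [← hndef]
  obtain ⟨m, hmdef⟩ : ∃ m : ℕ, m = mmK K C₉ n := ⟨_, rfl⟩
  rw [← hmdef]
  have hn : ((n : ℝ) + 1) ≤ 2 * (y / x) := by
    have h1 : ((Y.card / q : ℕ) : ℝ) ≤ y / x := by
      rw [hydef, hxdef]; exact Nat.cast_div_le
    have h2 : 2 ≤ y / x := by
      rw [le_div_iff₀ hx0, hxw]
      have h3 : K₀ * (2 * w ^ 80) ≤ K₀ * y := by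
        calc K₀ * (2 * w ^ 80) = (2 * K₀) * w ^ 80 := by ring
          _ ≤ w ^ 40 * w ^ 80 := mul_le_mul_of_nonneg_right h40 (by positivity)
          _ = w ^ 120 := by ring
          _ ≤ K₀ * y := hlower
      exact le_of_mul_le_mul_left h3 hK₀
    rw [hndef]
    push_cast
    linarith
  have hlogq : (logq K : ℝ) ≤ 5 * L := by
    rw [hLdef, hxdef]
    exact logq_le_five hq2 (by rw [← hxdef, ← hLdef]; exact hL2)
  have hLpos : 0 < L := by linarith
  have hmreal : (m : ℝ) = 3 * C * ((n : ℝ) + 1) * (logq K : ℝ) := by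
    rw [hmdef, hCdef]; unfold mmK; push_cast; ring
  have hmle : (m : ℝ) ≤ 30 * C * (y / x) * L := by
    rw [hmreal]
    have h1 : ((n : ℝ) + 1) * (logq K : ℝ) ≤ (2 * (y / x)) * (5 * L) :=
      mul_le_mul hn hlogq (by positivity) (by positivity)
    calc 3 * C * ((n : ℝ) + 1) * (logq K : ℝ) = 3 * C * (((n : ℝ) + 1) * (logq K : ℝ)) := by ring
      _ ≤ 3 * C * ((2 * (y / x)) * (5 * L)) := mul_le_mul_of_nonneg_left h1 (by positivity)
      _ = 30 * C * (y / x) * L := by ring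
  -- fail₂ bound
  have h6m : 6 * m ≤ R := by
    have h1 : (6 * (m : ℝ)) ≤ c₂ * sy := by
      calc 6 * (m : ℝ) ≤ 6 * (30 * C * (y / x) * L) := by linarith
        _ = (180 * C * L) * (y / x) := by ring
        _ ≤ (c₂ * w ^ 2) * (y / x) := mul_le_mul_of_nonneg_right hlog (by positivity)
        _ = c₂ * sy * (sy / w ^ 78) := by
            rw [hxw, ← hsy2]
            field_simp
        _ ≤ c₂ * sy * 1 := by
            apply mul_le_mul_of_nonneg_left _ (by positivity)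
            rw [div_le_one (by positivity)]
            exact hsyle
        _ = c₂ * sy := mul_one _
    have h2 : ((6 * m : ℕ) : ℝ) ≤ (R : ℝ) := by
      push_cast
      linarith
    exact_mod_cast h2
  have hxm : x ^ (3 * m) = w ^ (240 * m) := by
    rw [hxw, ← pow_mul]
    congr 1
    ring
  have hfail2 : pr (fun ω : ∀ i, Ω i => R ≤ countE (fun i a => (H i a ∩ T).Nonempty) ω)
      ≤ (x ^ (3 * m))⁻¹ := by
    refine hChern.trans ?_
    rw [hxm, inv_pow, ← pow_mul]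
    apply inv_anti₀ (by positivity)
    apply pow_le_pow_right₀ hw1
    omega
  -- fail₁ bound
  obtain ⟨V, hVdef⟩ : ∃ V : ℝ, V = A * x * (κ' * τ) ^ 2 := ⟨_, rfl⟩
  have hV0 : 0 < V := by rw [hVdef]; positivity
  have hV' : (Fintype.card ι : ℝ) * ((κ : ℝ) * τ) ^ 2 ≤ V := by
    rw [hVdef]
    apply mul_le_mul hι _ (by positivity) (by positivity)
    apply pow_le_pow_left₀ (by positivity)
    exact mul_le_mul_of_nonneg_right hκ'le hτ0.le
  have hfail1 : Real.exp (-((ρ * y / 2) ^ 2) / (2 * V)) ≤ (x ^ (3 * m))⁻¹ := by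
    have hxexp : (x ^ (3 * m))⁻¹ = Real.exp (- (3 * (m : ℝ) * L)) := by
      have h1 : (3 * (m : ℝ) * L) = ((3 * m : ℕ) : ℝ) * L := by push_cast; ring
      rw [Real.exp_neg, h1, Real.exp_nat_mul, hLdef, Real.exp_log hx0]
    rw [hxexp]
    apply Real.exp_le_exp.mpr
    have hident : (ρ * y / 2) ^ 2 / (2 * V)
        = (ρ ^ 2 / (8 * A * κ' ^ 2)) * w ^ 2 * (y / x) := by
      rw [hVdef, mul_pow, hτ2]
      field_simp
      ring
    have h1 : 3 * (m : ℝ) * L ≤ (ρ ^ 2 / (8 * A * κ' ^ 2)) * w ^ 2 * (y / x) := by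
      calc 3 * (m : ℝ) * L ≤ 3 * (30 * C * (y / x) * L) * L := by
            apply mul_le_mul_of_nonneg_right _ hLpos.le
            linarith
        _ = (90 * C * L ^ 2) * (y / x) := by ring
        _ ≤ _ := mul_le_mul_of_nonneg_right hlog2 (by positivity)
    rw [neg_div, hident]
    linarith
  -- combine
  have hRD : ((κ : ℝ) * R) * (K₀ * sy) ≤ ρ * Y.card / 4 := by
    rw [← hydef]
    have h1 : ((κ : ℝ) * R) * (K₀ * sy) ≤ (κ' * (2 * (c₂ * sy))) * (K₀ * sy) := by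
      apply mul_le_mul_of_nonneg_right _ (by positivity)
      apply mul_le_mul hκ'le hRle (by positivity) (by positivity)
    refine h1.trans (le_of_eq ?_)
    rw [hc₂def, ← hsy2]
    field_simp
    ring
  have hρY : ∀ p ∈ Y, ρ ≤ pr (fun ω : ∀ i, Ω i => ∀ i, ¬ ∃ l ∈ H i (ω i), On p l) := by
    intro p hpY
    rw [hρdef]
    exact pr_not_hit_ge H hx0 h2B hB hA hι p (hp p hpY)
  have hone := kill_one H Y T κ hκ τ (K₀ * sy) ρ V hτ0.le (by positivity) R hTout
    (by rw [hsydef, hydef]; rw [hsydef, hydef] at hlines; exact hlines) hρY hρ0 hYcard hRD hV0 hV'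
  rw [← hydef] at hone
  refine hone.trans ?_
  linarith

end killPerY

/-- The kill lemma, union form.  `|ι| ≤ A q`, `|H i a| ≤ κ`, each point of each `Y ∈ YY` is hit by coordinate `i`
with probability `≤ B / q`, each line is produced with total probability `≤ B / q`.  Then with
probability `≥ 7/8`, for all `Y ∈ YY`, a fraction `≥ killc A B` of `Y` survives.

Proof for one `Y`, `y = |Y|`, `g = y / q`: rich lines `𝓡 = {m : |m ∩ Y| > a}`, `a² = c y / ln³ q` (`c` small);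
`|𝓡| ≤ 16 q ln³ q / c` (`card_rich_lines_le`, `a ≥ 2g` as `g ≤ q^(19/20)`).  Number of coordinates producing
a rich line is `< t₀ = c₂ √y` except with probability `(e μ_r / t₀)^t₀ ≤ q^(-t₀/2)` (`pr_countE_ge`).
`X(ω)` = points of `Y` on no non-rich line of `ω`: Lipschitz `2 κ a` in each coordinate, mean
`≥ y ∏ (1 - B/q) ≥ y exp(-2 A B)`; `mcdiarmid_lower` gives `X ≥ mean / 2` except with probability
`exp(-c' g ln³ q)`.  Rich lines cover `≤ κ t₀ K₀ √y ≤ y exp(-2AB) / 4` points when `c₂` is small.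
Union: `count` and `lower` (`g ≥ √q / K₀`). -/
theorem kill_union (A B : ℝ) (κ : ℕ) (K₀ : ℝ) (C₉ : ℕ) (hA : 0 < A) (hB : 0 < B) (hK₀ : 0 < K₀) :
    ∃ q₀ : ℕ, ∀ (K : Type) [Field K] [Fintype K] [DecidableEq K], q₀ ≤ Fintype.card K →
      ∀ (ι : Type) [Fintype ι] [DecidableEq ι] (Ω : ι → Type) [∀ i, Fintype (Ω i)]
        [∀ i, Nonempty (Ω i)] (H : ∀ i, Ω i → Finset (Ln K)) (YY : Finset (Finset (Pt K))),
        (Fintype.card ι : ℝ) ≤ A * Fintype.card K →
        (∀ i a, (H i a).card ≤ κ) →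
        (∀ Y ∈ YY, ∀ p ∈ Y, ∀ i, pr (fun a => ∃ l ∈ H i a, On p l) ≤ B / Fintype.card K) →
        (∀ m : Ln K, ∑ i, pr (fun a => m ∈ H i a) ≤ B / Fintype.card K) →
        KillShape YY K₀ C₉ →
        pr (fun ω : ∀ i, Ω i => ∃ Y ∈ YY,
          ((survivors H Y ω).card : ℝ) < killc A B * Y.card) ≤ 1 / 8 := by
  have hnum := kill_numeric B K₀ (Real.exp (-2 * A * B) / (8 * ((κ : ℝ) + 1) * K₀))
    (Real.exp (-2 * A * B) ^ 2 / (8 * A * ((κ : ℝ) + 1) ^ 2)) ((C₉ : ℝ) + 1)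
    (by positivity) (by positivity) (by positivity)
  have hnum' := tendsto_natCast_atTop_atTop.eventually hnum
  obtain ⟨q₀, hq₀⟩ := Filter.eventually_atTop.mp hnum'
  refine ⟨q₀, ?_⟩
  intro K _ _ _ hq ι _ _ Ω _ _ H YY hι hκ hp hm hS
  obtain ⟨h100, h2B, hw2, h60, h18, hlog, hlog2, h40, hL2⟩ := hq₀ _ hq
  have hY := fun Y (hY : Y ∈ YY) => kill_per_Y H hA hB hK₀ _ _ _ _ _ _ _ rfl rfl rfl rfl rfl rfl rfl
    h100 h2B hw2 h60 h18 hlog hlog2 h40 hL2
    hι hκ Y (hS.lower Y hY) (hS.upper Y hY) (hS.lines Y hY) (hp Y hY) hm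
  obtain ⟨x, hxdef⟩ : ∃ x : ℝ, x = (Fintype.card K : ℝ) := ⟨_, rfl⟩
  rw [← hxdef] at h100 h2B hY
  have hx0 : 0 < x := by linarith
  have hx1 : 1 ≤ x := by linarith
  have hq0 : 0 < Fintype.card K := by
    have : (0 : ℝ) < (Fintype.card K : ℝ) := hxdef ▸ hx0
    exact_mod_cast this
  have hq2 : 2 ≤ Fintype.card K := by
    have : (2 : ℝ) ≤ (Fintype.card K : ℝ) := by rw [← hxdef]; linarith
    exact_mod_cast this
  refine (pr_exists_le YY _).trans ?_
  refine (Finset.sum_le_sum hY).trans ?_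
  obtain ⟨f, hf⟩ : ∃ f : ℕ → ℝ, f = fun n => 2 * ((x ^ (3 * mmK K C₉ n))⁻¹) := ⟨_, rfl⟩
  have hmaps : ∀ Y ∈ YY, Y.card / Fintype.card K + 1 ∈ range (Fintype.card K + 2) := by
    intro Y _
    have h1 : Y.card ≤ Fintype.card K * Fintype.card K := by
      have := card_le_univ Y
      rwa [card_Pt] at this
    have h2 : Y.card / Fintype.card K ≤ Fintype.card K := by
      apply Nat.div_le_of_le_mul
      exact h1
    simp only [mem_range]
    omega
  have hsum : ∑ Y ∈ YY, f (Y.card / Fintype.card K + 1)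
      = ∑ n ∈ range (Fintype.card K + 2), ∑ Y ∈ YY with Y.card / Fintype.card K + 1 = n,
          f (Y.card / Fintype.card K + 1) :=
    (Finset.sum_fiberwise_of_maps_to hmaps _).symm
  have hfY : (∑ Y ∈ YY, 2 * ((x ^ (3 * mmK K C₉ (Y.card / Fintype.card K + 1)))⁻¹))
      = ∑ Y ∈ YY, f (Y.card / Fintype.card K + 1) := by
    rw [hf]
  rw [hfY, hsum]
  have hlog1 : 1 ≤ logq K := logq_pos hq2
  have hterm : ∀ n ∈ range (Fintype.card K + 2),
      ∑ Y ∈ YY with Y.card / Fintype.card K + 1 = n, f (Y.card / Fintype.card K + 1)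
        ≤ 2 * (x ^ 2)⁻¹ := by
    intro n _
    have h1 : ∑ Y ∈ YY with Y.card / Fintype.card K + 1 = n, f (Y.card / Fintype.card K + 1)
        = ((YY.filter (fun Y => Y.card / Fintype.card K + 1 = n)).card : ℝ) * f n := by
      rw [← nsmul_eq_mul, ← Finset.sum_const]
      apply Finset.sum_congr rfl
      intro Y hY
      rw [(mem_filter.mp hY).2]
    rw [h1]
    have hm1 : 1 ≤ mmK K C₉ n := by
      unfold mmK
      exact Nat.mul_pos (by positivity) (by omega)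
    have hcard : ((YY.filter (fun Y => Y.card / Fintype.card K + 1 = n)).card : ℝ)
        ≤ x ^ mmK K C₉ n := by
      have h2 : (YY.filter (fun Y => Y.card / Fintype.card K + 1 = n)).card
          ≤ (YY.filter (fun Y => Y.card ≤ n * Fintype.card K)).card := by
        apply card_le_card
        intro Y hY
        obtain ⟨h3, h4⟩ := mem_filter.mp hY
        refine mem_filter.mpr ⟨h3, ?_⟩
        rw [← h4]
        have h5 := Nat.div_add_mod Y.card (Fintype.card K)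
        have h6 := Nat.mod_lt Y.card hq0
        have h7 : (Y.card / Fintype.card K + 1) * Fintype.card K
            = Fintype.card K * (Y.card / Fintype.card K) + Fintype.card K := by ring
        rw [h7]
        omega
      have h3 := hS.count n
      have h4 : Fintype.card K ^ 2 + Fintype.card K + 1 ≤ Fintype.card K ^ 3 := by
        have h8 : 2 * Fintype.card K ^ 2 ≤ Fintype.card K ^ 3 := by
          calc 2 * Fintype.card K ^ 2 ≤ Fintype.card K * Fintype.card K ^ 2 :=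
                Nat.mul_le_mul_right _ hq2
            _ = Fintype.card K ^ 3 := by ring
        nlinarith
      have h5 : (Fintype.card K ^ 2 + Fintype.card K + 1) ^ (C₉ * (n + 1) * logq K)
          ≤ Fintype.card K ^ mmK K C₉ n := by
        calc (Fintype.card K ^ 2 + Fintype.card K + 1) ^ (C₉ * (n + 1) * logq K)
            ≤ (Fintype.card K ^ 3) ^ (C₉ * (n + 1) * logq K) := Nat.pow_le_pow_left h4 _
          _ = Fintype.card K ^ (3 * (C₉ * (n + 1) * logq K)) := by rw [← pow_mul]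
          _ ≤ Fintype.card K ^ mmK K C₉ n := by
              apply Nat.pow_le_pow_right hq0
              unfold mmK
              have : 3 * (C₉ * (n + 1) * logq K) ≤ 3 * (C₉ + 1) * (n + 1) * logq K := by
                have : 3 * (C₉ * (n + 1) * logq K) = 3 * C₉ * (n + 1) * logq K := by ring
                rw [this]
                apply Nat.mul_le_mul_right
                apply Nat.mul_le_mul_right
                omega
              exact this
      have h6 := (h2.trans h3).trans h5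
      rw [hxdef]
      exact_mod_cast h6
    calc ((YY.filter (fun Y => Y.card / Fintype.card K + 1 = n)).card : ℝ) * f n
        ≤ x ^ mmK K C₉ n * f n := by
          apply mul_le_mul_of_nonneg_right hcard
          rw [hf]
          positivity
      _ = 2 * (x ^ (2 * mmK K C₉ n))⁻¹ := by
          rw [hf]
          have h9 : 3 * mmK K C₉ n = mmK K C₉ n + 2 * mmK K C₉ n := by ring
          simp only [h9, pow_add]
          field_simp
      _ ≤ 2 * (x ^ 2)⁻¹ := by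
          apply mul_le_mul_of_nonneg_left _ (by norm_num)
          apply inv_anti₀ (by positivity)
          apply pow_le_pow_right₀ hx1
          omega
  refine (Finset.sum_le_sum hterm).trans ?_
  rw [Finset.sum_const, nsmul_eq_mul, card_range]
  push_cast
  rw [← hxdef]
  have hfin : (x + 2) * (2 * (x ^ 2)⁻¹) = ((x + 2) * 2) * (x ^ 2)⁻¹ := by ring
  rw [hfin, mul_inv_le_iff₀ (by positivity)]
  nlinarith

end Crest.Agent.Ryser
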