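import Crest.Agent.Ryser.Layer0Model

/-!
# Layer 0, the abstract properties (`P0.p1`, `P0.kill`, `P0.moment`).

Model for `p1_union`, `kill_union`: `ι = Dir K`, `Ω x = {a // a.1 ≠ a.2}`, `H x a = {(x, a.1), (x, a.2)}`.
A line `m` is produced only by `x = m.1`, with probability `2/q`; a point is hit by coordinate `x` with probability `2/q`.
-/

set_option autoImplicit false
set_option linter.unusedSectionVars false
set_option linter.unusedVariables false

namespace Crest.Agent.Ryser

open Finset

section model0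
variable {K : Type} [Field K] [Fintype K] [DecidableEq K]

local notation "q" => Fintype.card K

/-- One coordinate of layer 0. -/
abbrev OmE (K : Type) [Field K] [Fintype K] [DecidableEq K] := {a : K × K // a.1 ≠ a.2}

instance instNonemptyOmE : Nonempty (OmE K) := ⟨⟨(0, 1), by simp⟩⟩

/-- The two lines of one coordinate of layer 0. -/
def H0 (x : Dir K) (a : OmE K) : Finset (Ln K) := {(x, a.1.1), (x, a.1.2)}

theorem mem_H0 {x : Dir K} {a : OmE K} {m : Ln K} :
    m ∈ H0 x a ↔ m.1 = x ∧ (m.2 = a.1.1 ∨ m.2 = a.1.2) := by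
  rcases m with ⟨d, b⟩
  simp only [H0, mem_insert, mem_singleton, Prod.mk.injEq]
  tauto

theorem card_H0_le (x : Dir K) (a : OmE K) : (H0 x a).card ≤ 2 := Finset.card_le_two

theorem card_OmE : Fintype.card (OmE K) = q * q - q := by
  rw [Fintype.card_subtype]
  have : (univ.filter (fun a : K × K => a.1 ≠ a.2)) = (univ : Finset K).offDiag := by
    ext a
    simp
  rw [this, Finset.offDiag_card, Finset.card_univ]

theorem two_le_q : 2 ≤ q := Fintype.one_lt_card

theorem card_OmE_cast : (Fintype.card (OmE K) : ℝ) = q * (q - 1) := by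
  rw [card_OmE, Nat.cast_sub (Nat.le_mul_self _)]
  push_cast
  ring

/-- The probability that one of the two offsets of a coordinate is `b`. -/
theorem pr_off_le (b : K) : pr (fun a : OmE K => a.1.1 = b ∨ a.1.2 = b) ≤ 2 / q := by
  classical
  have hq2 : (2 : ℝ) ≤ q := by exact_mod_cast (two_le_q (K := K))
  have hq1 : (0 : ℝ) < (q : ℝ) - 1 := by linarith
  have hq0 : (0 : ℝ) < (q : ℝ) := by linarith
  rw [pr_eq_filter, card_OmE_cast]
  have h1 : ((univ : Finset (OmE K)).filter (fun a => a.1.1 = b)).card ≤ q - 1 := by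
    have : ((univ : Finset (OmE K)).filter (fun a => a.1.1 = b)).card
        ≤ ((univ : Finset K).erase b).card := by
      apply card_le_card_of_injOn (fun a => a.1.2)
      · intro a ha
        have ha' : a.1.1 = b := by simpa using ha
        have := a.2
        simp only [coe_erase, coe_univ, Set.mem_sdiff, Set.mem_univ, Set.mem_singleton_iff,
          true_and]
        intro h
        exact this (ha'.trans h.symm)
      · intro a ha a' ha' h
        have h1 : a.1.1 = b := by simpa using ha
        have h2 : a'.1.1 = b := by simpa using ha'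
        apply Subtype.ext
        apply Prod.ext
        · exact h1.trans h2.symm
        · exact h
    simpa [Finset.card_erase_of_mem] using this
  have h2 : ((univ : Finset (OmE K)).filter (fun a => a.1.2 = b)).card ≤ q - 1 := by
    have : ((univ : Finset (OmE K)).filter (fun a => a.1.2 = b)).card
        ≤ ((univ : Finset K).erase b).card := by
      apply card_le_card_of_injOn (fun a => a.1.1)
      · intro a ha
        have ha' : a.1.2 = b := by simpa using ha
        have := a.2
        simp only [coe_erase, coe_univ, Set.mem_sdiff, Set.mem_univ, Set.mem_singleton_iff,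
          true_and]
        intro h
        exact this (h.trans ha'.symm)
      · intro a ha a' ha' h
        have h1 : a.1.2 = b := by simpa using ha
        have h2 : a'.1.2 = b := by simpa using ha'
        apply Subtype.ext
        apply Prod.ext
        · exact h
        · exact h1.trans h2.symm
    simpa [Finset.card_erase_of_mem] using this
  have h3 : ((univ : Finset (OmE K)).filter (fun a => a.1.1 = b ∨ a.1.2 = b)).card
      ≤ 2 * (q - 1) := by
    rw [Finset.filter_or]
    refine (card_union_le _ _).trans ?_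
    omega
  have h4 : (((univ : Finset (OmE K)).filter (fun a => a.1.1 = b ∨ a.1.2 = b)).card : ℝ)
      ≤ 2 * ((q : ℝ) - 1) := by
    have : ((2 * (q - 1) : ℕ) : ℝ) = 2 * ((q : ℝ) - 1) := by
      rw [Nat.cast_mul, Nat.cast_sub (by have := two_le_q (K := K); omega : 1 ≤ q)]
      simp
    rw [← this]
    exact_mod_cast h3
  rw [div_le_div_iff₀ (by positivity) hq0]
  nlinarith

/-- A line `m` is produced only by its own direction, with probability at most `2/q`. -/
theorem sum_pr_mem_H0_le (m : Ln K) : ∑ i, pr (fun a : OmE K => m ∈ H0 i a) ≤ 2 / q := by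
  rw [Finset.sum_eq_single m.1]
  · refine le_trans (pr_mono ?_) (pr_off_le m.2)
    intro a ha
    rcases (mem_H0.mp ha).2 with h | h
    · exact Or.inl h.symm
    · exact Or.inr h.symm
  · intro i _ hi
    classical
    rw [pr_eq_filter]
    have : (univ.filter (fun a : OmE K => m ∈ H0 i a)) = ∅ := by
      ext a
      simp only [mem_filter, mem_univ, true_and, notMem_empty, iff_false]
      intro h
      exact hi (mem_H0.mp h).1.symm
    rw [this]
    simp
  · intro h
    exact absurd (mem_univ _) h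

/-- The offset of the line of direction `x` through `p`. -/
def off0 (p : Pt K) (x : Dir K) : K := (lineThru p x).2

theorem on_iff_off0 {p : Pt K} {x : Dir K} {b : K} : On p (x, b) ↔ b = off0 p x := by
  constructor
  · intro h
    have := lineThru_of_on h
    have h2 : lineThru p x = (x, b) := this
    unfold off0
    rw [h2]
  · intro h
    subst h
    have : ((x, off0 p x) : Ln K) = lineThru p x := by
      apply Prod.ext
      · simp
      · rfl
    rw [this]
    exact on_lineThru p x

/-- A point is hit by a coordinate with probability at most `2/q`. -/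
theorem pr_hit_le (p : Pt K) (i : Dir K) :
    pr (fun a : OmE K => ∃ l ∈ H0 i a, On p l) ≤ 2 / q := by
  refine le_trans (pr_mono ?_) (pr_off_le (off0 p i))
  rintro a ⟨l, hl, hp⟩
  rcases l with ⟨d, b⟩
  rcases mem_H0.mp hl with ⟨h1, h2⟩
  simp only at h1 h2
  subst h1
  have := on_iff_off0.mp hp
  rcases h2 with h2 | h2
  · exact Or.inl (h2.symm.trans this)
  · exact Or.inr (h2.symm.trans this)

theorem line_toU_mem_H0 (ω : OmU K) (x : Dir K) (i : Fin 2) : (toU ω).line x i ∈ H0 x (ω x) := by
  refine mem_H0.mpr ⟨rfl, ?_⟩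
  show (toU ω).off x i = _ ∨ (toU ω).off x i = _
  show (if i = 0 then (ω x).1.1 else (ω x).1.2) = _ ∨ (if i = 0 then (ω x).1.1 else (ω x).1.2) = _
  split_ifs
  · exact Or.inl rfl
  · exact Or.inr rfl

theorem exists_line_toU_of_mem_H0 (ω : OmU K) {x : Dir K} {m : Ln K} (h : m ∈ H0 x (ω x)) :
    ∃ i : Fin 2, (toU ω).line x i = m := by
  rcases mem_H0.mp h with ⟨h1, h2⟩
  rcases h2 with h2 | h2
  · refine ⟨0, ?_⟩
    apply Prod.ext
    · exact h1.symm
    · exact h2.symm
  · refine ⟨1, ?_⟩
    apply Prod.ext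
    · exact h1.symm
    · exact h2.symm

theorem survivors_H0 (Y : Finset (Pt K)) (ω : OmU K) :
    survivors H0 Y ω = uSurvivors (toU ω) Y := by
  unfold survivors uSurvivors
  apply Finset.filter_congr
  intro p _
  constructor
  · intro h x i
    apply h
    unfold holesAt
    exact mem_biUnion.mpr ⟨x, mem_univ _, line_toU_mem_H0 ω x i⟩
  · intro h l hl
    unfold holesAt at hl
    rcases mem_biUnion.mp hl with ⟨x, _, hx⟩
    rcases exists_line_toU_of_mem_H0 ω hx with ⟨i, hi⟩
    rw [← hi]
    exact h x i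

theorem mU_le_countE (ω : OmU K) (p : Pt K) :
    mU (toU ω) p ≤ countE (fun (x : Dir K) (a : OmE K) => ∃ l ∈ H0 x a, On p l) ω := by
  classical
  unfold mU countE
  apply card_le_card_of_injOn (fun t => t.1)
  · intro t ht
    have ht' : On p ((toU ω).line t.1 t.2) := by simpa using ht
    simp only [coe_filter, mem_univ, true_and]
    exact ⟨_, line_toU_mem_H0 ω t.1 t.2, ht'⟩
  · intro t ht t' ht' h
    have h1 : On p ((toU ω).line t.1 t.2) := by simpa using ht
    have h2 : On p ((toU ω).line t'.1 t'.2) := by simpa using ht'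
    rcases t with ⟨x, i⟩
    rcases t' with ⟨x', i'⟩
    simp only at h
    subst h
    simp only at h1 h2
    have h3 := eq_of_on_of_dir_eq h1 h2 rfl
    have h4 : (toU ω).off x i = (toU ω).off x i' := by
      have := congrArg Prod.snd h3
      exact this
    have : i = i' := by
      by_contra hne
      have hoff := (toU ω).off_ne x
      have hcases : ∀ j : Fin 2, j = 0 ∨ j = 1 := by
        intro j
        fin_cases j <;> simp
      rcases hcases i with h5 | h5 <;> rcases hcases i' with h6 | h6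
      · exact hne (h5.trans h6.symm)
      · rw [h5, h6] at h4
        exact hoff h4
      · rw [h5, h6] at h4
        exact hoff h4.symm
      · exact hne (h5.trans h6.symm)
    rw [this]

end model0

theorem l0_p1 : ∃ q₀ : ℕ, ∀ (K : Type) [Field K] [Fintype K] [DecidableEq K], q₀ ≤ Fintype.card K →
    pr (fun ω : OmU K => ¬ ∀ k R : ℕ, NumP1 K 2 k R → ∀ K₁ K₂ : Finset (Ln K), K₁.card ≤ k → K₂.card ≤ k →
      (univ.filter (fun x : Dir K => ∃ i, (toU ω).line x i ∈ spanOf K₁ K₂)).card < R) ≤ 1 / 8 := by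
  refine ⟨100, ?_⟩
  intro K _ _ _ hq
  have hι : Fintype.card (Dir K) ≤ Fintype.card K ^ 2 := by
    rw [card_Dir]
    nlinarith
  have := p1_union (K := K) (ι := Dir K) (Ω := fun _ => OmE K) H0 hι (B := 2) (by norm_num)
    sum_pr_mem_H0_le hq
  refine le_trans (pr_mono ?_) this
  intro ω hω
  push Not at hω
  rcases hω with ⟨k, R, hN, K₁, K₂, h1, h2, h3⟩
  refine ⟨k, R, hN, K₁, K₂, h1, h2, h3.trans ?_⟩
  classical
  unfold countE
  apply card_le_card
  intro x hx
  have hx' : ∃ i, (toU ω).line x i ∈ spanOf K₁ K₂ := by simpa using hx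
  rcases hx' with ⟨i, hi⟩
  simp only [mem_filter, mem_univ, true_and]
  exact ⟨_, mem_inter.mpr ⟨line_toU_mem_H0 ω x i, hi⟩⟩

theorem l0_kill (K₀ : ℝ) (C₉ : ℕ) (hK₀ : 0 < K₀) :
    ∃ q₀ : ℕ, ∀ (K : Type) [Field K] [Fintype K] [DecidableEq K], q₀ ≤ Fintype.card K →
      ∀ YY : Finset (Finset (Pt K)), KillShape YY K₀ C₉ →
      pr (fun ω : OmU K => ¬ ∀ Y ∈ YY, killc 2 2 * Y.card ≤ ((uSurvivors (toU ω) Y).card : ℝ)) ≤ 1 / 8 := by
  rcases kill_union 2 2 2 K₀ C₉ (by norm_num) (by norm_num) hK₀ with ⟨q₀, hq₀⟩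
  refine ⟨q₀, ?_⟩
  intro K _ _ _ hq YY hYY
  have hcard : (Fintype.card (Dir K) : ℝ) ≤ 2 * Fintype.card K := by
    rw [card_Dir]
    have : (2 : ℝ) ≤ Fintype.card K := by exact_mod_cast (two_le_q (K := K))
    push_cast
    linarith
  have := hq₀ K hq (Dir K) (fun _ => OmE K) H0 YY hcard (fun i a => card_H0_le i a)
    (fun Y _ p _ i => pr_hit_le p i) sum_pr_mem_H0_le hYY
  refine le_trans (pr_mono ?_) this
  intro ω hω
  push Not at hω
  rcases hω with ⟨Y, hY, hlt⟩
  refine ⟨Y, hY, ?_⟩
  rw [survivors_H0]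
  exact hlt

/-- `avg 2^(mU p) = (1 + 2/q)^(q+1) ≤ exp 3` for each `p` (`avg_prod_coord`); Markov. -/
theorem l0_moment : ∃ q₀ : ℕ, ∀ (K : Type) [Field K] [Fintype K] [DecidableEq K], q₀ ≤ Fintype.card K →
    pr (fun ω : OmU K => ¬ ∑ p, (2 : ℝ) ^ mU (toU ω) p ≤ 8 * Real.exp 3 * (Fintype.card K : ℝ) ^ 2) ≤ 1 / 8 := by
  refine ⟨2, ?_⟩
  intro K _ _ _ hq
  classical
  have hq2 : (2 : ℝ) ≤ Fintype.card K := by exact_mod_cast hq
  have hq0 : (0 : ℝ) < Fintype.card K := by linarith
  -- each point
  have hp : ∀ p : Pt K, avg (fun ω : OmU K => (2 : ℝ) ^ mU (toU ω) p) ≤ Real.exp 3 := by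
    intro p
    have h1 : avg (fun ω : OmU K => (2 : ℝ) ^ mU (toU ω) p)
        ≤ avg (fun ω : OmU K => (2 : ℝ) ^ countE
            (fun (x : Dir K) (a : OmE K) => ∃ l ∈ H0 x a, On p l) ω) := by
      apply avg_mono
      intro ω
      exact pow_le_pow_right₀ (by norm_num) (mU_le_countE ω p)
    refine h1.trans ((avg_two_pow_countE_le
      (fun (x : Dir K) (a : OmE K) => ∃ l ∈ H0 x a, On p l)).trans ?_)
    apply Real.exp_le_exp.mpr
    calc ∑ i : Dir K, pr (fun a : OmE K => ∃ l ∈ H0 i a, On p l)
        ≤ ∑ _i : Dir K, (2 / (Fintype.card K : ℝ)) :=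
          Finset.sum_le_sum (fun i _ => pr_hit_le p i)
      _ = ((Fintype.card K : ℝ) + 1) * (2 / Fintype.card K) := by
          rw [Finset.sum_const, Finset.card_univ, card_Dir]
          simp
      _ ≤ 3 := by
          rw [mul_div_assoc', div_le_iff₀ hq0]
          linarith
  have hsum : avg (fun ω : OmU K => ∑ p, (2 : ℝ) ^ mU (toU ω) p)
      ≤ (Fintype.card K : ℝ) ^ 2 * Real.exp 3 := by
    have : avg (fun ω : OmU K => ∑ p, (2 : ℝ) ^ mU (toU ω) p)
        = ∑ p, avg (fun ω : OmU K => (2 : ℝ) ^ mU (toU ω) p) := by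
      unfold avg
      rw [Finset.sum_comm, Finset.sum_div]
    rw [this]
    calc ∑ p : Pt K, avg (fun ω : OmU K => (2 : ℝ) ^ mU (toU ω) p)
        ≤ ∑ _p : Pt K, Real.exp 3 := Finset.sum_le_sum (fun p _ => hp p)
      _ = _ := by
          rw [Finset.sum_const, Finset.card_univ, card_Pt]
          simp
          ring
  have ht : 0 < 8 * Real.exp 3 * (Fintype.card K : ℝ) ^ 2 := by positivity
  have hM := pr_ge_le_avg (fun ω : OmU K => ∑ p, (2 : ℝ) ^ mU (toU ω) p)
    (fun ω => by positivity) ht
  have h1 : pr (fun ω : OmU K => ¬ ∑ p, (2 : ℝ) ^ mU (toU ω) p ≤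
      8 * Real.exp 3 * (Fintype.card K : ℝ) ^ 2)
      ≤ pr (fun ω : OmU K => 8 * Real.exp 3 * (Fintype.card K : ℝ) ^ 2
        ≤ ∑ p, (2 : ℝ) ^ mU (toU ω) p) := by
    apply pr_mono
    intro ω hω
    exact le_of_lt (not_le.mp hω)
  refine h1.trans (hM.trans ?_)
  rw [div_le_iff₀ ht]
  calc _ ≤ (Fintype.card K : ℝ) ^ 2 * Real.exp 3 := hsum
    _ = _ := by ring

end Crest.Agent.Ryser
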