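import Crest.Agent.Ryser.Layer0A
import Crest.Agent.Ryser.Layer0B

/-!
# Layer 0: the random lines `U`.
-/

set_option autoImplicit false
set_option linter.unusedSectionVars false
set_option linter.unusedVariables false

namespace Crest.Agent.Ryser

open Finset

/-- Union bound for two events. -/
theorem l0_pr_or_le {α : Type} [Fintype α] (P Q : α → Prop) :
    pr (fun a => P a ∨ Q a) ≤ pr P + pr Q := by
  classical
  simp only [pr_eq_filter]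
  rw [← add_div]
  apply div_le_div_of_nonneg_right _ (by positivity)
  rw [filter_or]
  exact_mod_cast card_union_le _ _

/-- Combine the five failure probabilities `≤ 1/8` (`pr_exists_le` / `exists_of_pr_lt_one`). -/
theorem layer0 (K₀ : ℝ) (C₉ : ℕ) (hK₀ : 0 < K₀) :
    ∃ q₀ : ℕ, ∀ (K : Type) [Field K] [Fintype K] [DecidableEq K], q₀ ≤ Fintype.card K →
      ∀ YY : Finset (Finset (Pt K)), KillShape YY K₀ C₉ → ∃ C : UData K, P0 C YY := by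
  obtain ⟨q1, h1⟩ := l0_surv
  obtain ⟨q2, h2⟩ := l0_pattern
  obtain ⟨q3, h3⟩ := l0_p1
  obtain ⟨q4, h4⟩ := l0_kill K₀ C₉ hK₀
  obtain ⟨q5, h5⟩ := l0_moment
  refine ⟨q1 + q2 + q3 + q4 + q5, ?_⟩
  intro K _ _ _ hq YY hY
  have a1 := h1 K (by omega)
  have a2 := h2 K (by omega)
  have a3 := h3 K (by omega)
  have a4 := h4 K (by omega) YY hY
  have a5 := h5 K (by omega)
  haveI : Nonempty (OmU K) := ⟨fun _ => ⟨(0, 1), zero_ne_one⟩⟩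
  have hlt : pr (fun ω : OmU K =>
      (¬ ∀ ℓ, |((Surv0 (toU ω) ℓ).card : ℝ) - Fintype.card K * delta0 K|
        ≤ (Fintype.card K : ℝ) ^ ((2 : ℝ) / 3)) ∨
      ((¬ ∀ (P : Fin 19 → Pt K) (v : Fin 19 → K × K), (∀ j, v j ≠ 0) →
        c0pat * Fintype.card K ≤ ((patternGood (toU ω) P v).card : ℝ)) ∨
      ((¬ ∀ k R : ℕ, NumP1 K 2 k R → ∀ K₁ K₂ : Finset (Ln K), K₁.card ≤ k → K₂.card ≤ k →
        (univ.filter (fun x : Dir K => ∃ i, (toU ω).line x i ∈ spanOf K₁ K₂)).card < R) ∨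
      ((¬ ∀ Y ∈ YY, killc 2 2 * Y.card ≤ ((uSurvivors (toU ω) Y).card : ℝ)) ∨
      (¬ ∑ p, (2 : ℝ) ^ mU (toU ω) p ≤ 8 * Real.exp 3 * (Fintype.card K : ℝ) ^ 2))))) < 1 := by
    refine lt_of_le_of_lt (l0_pr_or_le _ _) ?_
    have b1 := l0_pr_or_le (fun ω : OmU K => ¬ ∀ (P : Fin 19 → Pt K) (v : Fin 19 → K × K), (∀ j, v j ≠ 0) →
        c0pat * Fintype.card K ≤ ((patternGood (toU ω) P v).card : ℝ))
      (fun ω => (¬ ∀ k R : ℕ, NumP1 K 2 k R → ∀ K₁ K₂ : Finset (Ln K), K₁.card ≤ k → K₂.card ≤ k →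
        (univ.filter (fun x : Dir K => ∃ i, (toU ω).line x i ∈ spanOf K₁ K₂)).card < R) ∨
      ((¬ ∀ Y ∈ YY, killc 2 2 * Y.card ≤ ((uSurvivors (toU ω) Y).card : ℝ)) ∨
      (¬ ∑ p, (2 : ℝ) ^ mU (toU ω) p ≤ 8 * Real.exp 3 * (Fintype.card K : ℝ) ^ 2)))
    have b2 := l0_pr_or_le (fun ω : OmU K => ¬ ∀ k R : ℕ, NumP1 K 2 k R → ∀ K₁ K₂ : Finset (Ln K), K₁.card ≤ k → K₂.card ≤ k →
        (univ.filter (fun x : Dir K => ∃ i, (toU ω).line x i ∈ spanOf K₁ K₂)).card < R)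
      (fun ω => (¬ ∀ Y ∈ YY, killc 2 2 * Y.card ≤ ((uSurvivors (toU ω) Y).card : ℝ)) ∨
      (¬ ∑ p, (2 : ℝ) ^ mU (toU ω) p ≤ 8 * Real.exp 3 * (Fintype.card K : ℝ) ^ 2))
    have b3 := l0_pr_or_le (fun ω : OmU K => ¬ ∀ Y ∈ YY, killc 2 2 * Y.card ≤ ((uSurvivors (toU ω) Y).card : ℝ))
      (fun ω => ¬ ∑ p, (2 : ℝ) ^ mU (toU ω) p ≤ 8 * Real.exp 3 * (Fintype.card K : ℝ) ^ 2)
    linarith
  obtain ⟨ω, hω⟩ := exists_of_pr_lt_one _ hlt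
  simp only [not_or, not_not] at hω
  obtain ⟨c1, c2, c3, c4, c5⟩ := hω
  exact ⟨toU ω, ⟨c1, c3, c4, c5, c2⟩⟩

end Crest.Agent.Ryser
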