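import Crest.Agent.Ryser.Layer0A_aux

/-!
# Layer 0, the two concentration properties (`P0.surv0`, `P0.pattern`): direct McDiarmid.
-/

set_option autoImplicit false
set_option linter.unusedSectionVars false
set_option linter.unusedVariables false

namespace Crest.Agent.Ryser

open Finset

namespace L0A

section conc

variable {K : Type} [Field K] [Fintype K] [DecidableEq K]

local notation "q" => Fintype.card K

open Classical in
/-- The count of good parameters. -/
noncomputable def goodCount {S : Type} [DecidableEq S] {n : ℕ} (T : Finset S) (pts : S → Fin n → Pt K)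
    (ex : Fin n → Dir K) (ω : OmU K) : ℝ :=
  ((T.filter (fun s => Good pts ex s ω)).card : ℝ)

theorem goodCount_lip {S : Type} [DecidableEq S] {n : ℕ} (T : Finset S) (pts : S → Fin n → Pt K) (ex : Fin n → Dir K)
    (huniq : ∀ j y, y ≠ ex j → ∀ b, ∀ s ∈ T, ∀ s' ∈ T, On (pts s j) (y, b) → On (pts s' j) (y, b) → s = s')
    (ω : OmU K) (x : Dir K) (a : {a : K × K // a.1 ≠ a.2}) :
    |goodCount T pts ex (Function.update ω x a) - goodCount T pts ex ω| ≤ 4 * (n : ℝ) := by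
  classical
  unfold goodCount
  have := good_lipschitz T pts ex huniq ω x a
  convert this using 1

theorem goodCount_avg {S : Type} [DecidableEq S] {n : ℕ} (T : Finset S) (pts : S → Fin n → Pt K)
    (ex : Fin n → Dir K) :
    avg (goodCount T pts ex) = ∑ s ∈ T, ∏ y : Dir K, pr (fun a : {a : K × K // a.1 ≠ a.2} =>
      a.1.1 ∉ avoidSet pts ex s y ∧ a.1.2 ∉ avoidSet pts ex s y) := by
  classical
  have h := avg_card_filter (α := OmU K) T (Good pts ex)
  have h2 : avg (goodCount T pts ex) = avg (fun a : OmU K => (((T.filter (fun s => Good pts ex s a))).card : ℝ)) := by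
    congr 1
  rw [h2, h]
  exact Finset.sum_congr rfl (fun s _ => pr_good pts ex s)

theorem goodCount_upper {S : Type} [DecidableEq S] {n : ℕ} (T : Finset S) (pts : S → Fin n → Pt K) (ex : Fin n → Dir K)
    (huniq : ∀ j y, y ≠ ex j → ∀ b, ∀ s ∈ T, ∀ s' ∈ T, On (pts s j) (y, b) → On (pts s' j) (y, b) → s = s')
    {t : ℝ} (ht : 0 < t) :
    pr (fun ω : OmU K => avg (goodCount T pts ex) + t ≤ goodCount T pts ex ω)
      ≤ Real.exp (-(t ^ 2) / (2 * (((q : ℝ) + 1) * (4 * (n : ℝ)) ^ 2))) := by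
  have := mcdiarmid_upper (ι := Dir K) (Ω := fun _ => {a : K × K // a.1 ≠ a.2}) (goodCount T pts ex)
    (fun _ => 4 * (n : ℝ)) (fun ω x a => goodCount_lip T pts ex huniq ω x a) ht
  rwa [sum_sq_dir] at this

theorem goodCount_lower {S : Type} [DecidableEq S] {n : ℕ} (T : Finset S) (pts : S → Fin n → Pt K) (ex : Fin n → Dir K)
    (huniq : ∀ j y, y ≠ ex j → ∀ b, ∀ s ∈ T, ∀ s' ∈ T, On (pts s j) (y, b) → On (pts s' j) (y, b) → s = s')
    {t : ℝ} (ht : 0 < t) :
    pr (fun ω : OmU K => goodCount T pts ex ω ≤ avg (goodCount T pts ex) - t)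
      ≤ Real.exp (-(t ^ 2) / (2 * (((q : ℝ) + 1) * (4 * (n : ℝ)) ^ 2))) := by
  have := mcdiarmid_lower (ι := Dir K) (Ω := fun _ => {a : K × K // a.1 ≠ a.2}) (goodCount T pts ex)
    (fun _ => 4 * (n : ℝ)) (fun ω x a => goodCount_lip T pts ex huniq ω x a) ht
  rwa [sum_sq_dir] at this

/-! ### `Surv0` as a count. -/

/-- `Surv0` in the language of `goodCount`. -/
theorem surv0_card_eq (ℓ : Ln K) (ω : OmU K) :
    ((Surv0 (toU ω) ℓ).card : ℝ) =
      goodCount (linePts ℓ) (fun (p : Pt K) (_ : Fin 1) => p) (fun _ => ℓ.1) ω := by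
  classical
  unfold goodCount Surv0 Good
  congr 2
  ext p
  simp [toU_line]

theorem avoidSet_surv (ℓ : Ln K) (p : Pt K) (y : Dir K) :
    avoidSet (fun (p : Pt K) (_ : Fin 1) => p) (fun _ => ℓ.1) p y =
      if y = ℓ.1 then ∅ else {(lineThru p y).2} := by
  unfold avoidSet
  split_ifs with h
  · simp [h]
  · have : (univ.filter (fun _ : Fin 1 => y ≠ ℓ.1)) = univ := by
      ext j; simp [h]
    rw [this]
    ext b
    simp

theorem prod_surv (ℓ : Ln K) (p : Pt K) :
    ∏ y : Dir K, pr (fun a : {a : K × K // a.1 ≠ a.2} =>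
      a.1.1 ∉ avoidSet (fun (p : Pt K) (_ : Fin 1) => p) (fun _ => ℓ.1) p y ∧
        a.1.2 ∉ avoidSet (fun (p : Pt K) (_ : Fin 1) => p) (fun _ => ℓ.1) p y) = delta0 K := by
  have h : ∀ y : Dir K, pr (fun a : {a : K × K // a.1 ≠ a.2} =>
      a.1.1 ∉ avoidSet (fun (p : Pt K) (_ : Fin 1) => p) (fun _ => ℓ.1) p y ∧
        a.1.2 ∉ avoidSet (fun (p : Pt K) (_ : Fin 1) => p) (fun _ => ℓ.1) p y)
      = if y = ℓ.1 then 1 else 1 - 2 / (q : ℝ) := by
    intro y
    rw [avoidSet_surv]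
    split_ifs with hy
    · exact pr_avoid_empty
    · exact pr_avoid_singleton _
  simp_rw [h]
  rw [← Finset.mul_prod_erase univ _ (mem_univ ℓ.1)]
  simp only [if_true, one_mul]
  have h2 : ∀ y ∈ (univ : Finset (Dir K)).erase ℓ.1,
      (if y = ℓ.1 then (1 : ℝ) else 1 - 2 / (q : ℝ)) = 1 - 2 / (q : ℝ) := by
    intro y hy
    rw [if_neg (ne_of_mem_erase hy)]
  rw [Finset.prod_congr rfl h2, Finset.prod_const, card_erase_of_mem (mem_univ _), card_univ, card_Dir]
  simp [delta0]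

theorem surv_avg (ℓ : Ln K) :
    avg (goodCount (linePts ℓ) (fun (p : Pt K) (_ : Fin 1) => p) (fun _ => ℓ.1)) = (q : ℝ) * delta0 K := by
  rw [goodCount_avg]
  rw [Finset.sum_congr rfl (fun p _ => prod_surv ℓ p)]
  rw [Finset.sum_const, card_linePts]
  simp

theorem surv_uniq (ℓ : Ln K) :
    ∀ (j : Fin 1) (y : Dir K), y ≠ (fun _ : Fin 1 => ℓ.1) j → ∀ b, ∀ s ∈ linePts ℓ, ∀ s' ∈ linePts ℓ,
      On ((fun (p : Pt K) (_ : Fin 1) => p) s j) (y, b) → On ((fun (p : Pt K) (_ : Fin 1) => p) s' j) (y, b) → s = s' := by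
  intro j y hy b s hs s' hs' h h'
  have hne : ℓ ≠ (y, b) := by
    rintro rfl
    exact hy rfl
  exact point_unique hne (mem_linePts.mp hs) h (mem_linePts.mp hs') h'

end conc

/-! ### Numerics -/

theorem exists_large_pow_exp (n : ℕ) {ε : ℝ} (hε : 0 < ε) :
    ∃ Y : ℝ, ∀ y : ℝ, Y ≤ y → y ^ n * Real.exp (-y) ≤ ε := by
  have h := Real.tendsto_pow_mul_exp_neg_atTop_nhds_zero n
  have h2 := h.eventually (Iic_mem_nhds hε)
  obtain ⟨Y, hY⟩ := Filter.eventually_atTop.mp h2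
  exact ⟨Y, hY⟩

/-- For large `q`: the numerical condition for `l0_surv`. -/
theorem surv_numeric : ∃ q₀ : ℕ, ∀ q : ℕ, q₀ ≤ q → 1 ≤ q →
    ((q : ℝ) + 1) * q * (2 * Real.exp (-(((q : ℝ) ^ ((2 : ℝ) / 3)) ^ 2) / (2 * (((q : ℝ) + 1) * (4 * ((1 : ℕ) : ℝ)) ^ 2)))) ≤ 1 / 8 := by
  obtain ⟨Y, hY⟩ := exists_large_pow_exp 6 (ε := 1 / (32 * 64 ^ 6)) (by positivity)
  refine ⟨⌈(64 * max Y 1) ^ 3⌉₊, ?_⟩
  intro q hq hq1
  have hq0 : (0 : ℝ) < q := by exact_mod_cast hq1
  have hq1' : (1 : ℝ) ≤ q := by exact_mod_cast hq1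
  set x : ℝ := (q : ℝ) ^ ((1 : ℝ) / 3) with hx
  have hx0 : 0 < x := Real.rpow_pos_of_pos hq0 _
  have hx3 : x ^ 3 = q := by
    rw [hx, ← Real.rpow_natCast, ← Real.rpow_mul hq0.le]
    norm_num
  have hq2 : (q : ℝ) ^ ((2 : ℝ) / 3) = x ^ 2 := by
    rw [hx, ← Real.rpow_natCast, ← Real.rpow_mul hq0.le]
    norm_num
  have hbig : (64 * max Y 1) ^ 3 ≤ (q : ℝ) := (Nat.le_ceil _).trans (by exact_mod_cast hq)
  have hxbig : 64 * max Y 1 ≤ x := by
    have h64 : 0 ≤ 64 * max Y 1 := by positivity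
    by_contra hcon
    push Not at hcon
    have : x ^ 3 < (64 * max Y 1) ^ 3 := pow_lt_pow_left₀ hcon hx0.le (by norm_num)
    rw [hx3] at this
    linarith
  set y : ℝ := x / 64 with hy
  have hyY : Y ≤ y := by
    rw [hy, le_div_iff₀ (by norm_num)]
    have := le_max_left Y 1
    linarith
  have hy0 : 0 < y := by positivity
  have h1 := hY y hyY
  -- the exponent
  have hexp : -y ≥ -((x ^ 2) ^ 2) / (2 * (((q : ℝ) + 1) * (4 * ((1 : ℕ) : ℝ)) ^ 2)) → True := fun _ => trivial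
  have hexp2 : -((x ^ 2) ^ 2) / (2 * (((q : ℝ) + 1) * (4 * ((1 : ℕ) : ℝ)) ^ 2)) ≤ -y := by
    have hden : 0 < 2 * (((q : ℝ) + 1) * (4 * ((1 : ℕ) : ℝ)) ^ 2) := by positivity
    rw [div_le_iff₀ hden]
    have hq1le : (q : ℝ) + 1 ≤ 2 * x ^ 3 := by rw [hx3]; linarith
    have : y * (2 * (((q : ℝ) + 1) * (4 * ((1 : ℕ) : ℝ)) ^ 2)) ≤ (x ^ 2) ^ 2 := by
      rw [hy]
      push_cast
      have hx3pos : 0 < x := hx0
      nlinarith [mul_le_mul_of_nonneg_left hq1le hx0.le, sq_nonneg x]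
    linarith
  have hexp3 := Real.exp_le_exp.mpr hexp2
  rw [hq2]
  have hpoly : ((q : ℝ) + 1) * q ≤ 2 * x ^ 6 := by
    have : (q : ℝ) * q = x ^ 6 := by rw [← hx3]; ring
    nlinarith
  have hx6 : x ^ 6 = 64 ^ 6 * y ^ 6 := by
    rw [hy]; field_simp
  calc ((q : ℝ) + 1) * q * (2 * Real.exp (-((x ^ 2) ^ 2) / (2 * (((q : ℝ) + 1) * (4 * ((1 : ℕ) : ℝ)) ^ 2))))
      ≤ (2 * x ^ 6) * (2 * Real.exp (-y)) := by
        apply mul_le_mul hpoly (by linarith) (by positivity) (by positivity)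
    _ = 4 * 64 ^ 6 * (y ^ 6 * Real.exp (-y)) := by rw [hx6]; ring
    _ ≤ 4 * 64 ^ 6 * (1 / (32 * 64 ^ 6)) := by
        apply mul_le_mul_of_nonneg_left h1 (by positivity)
    _ = 1 / 8 := by norm_num

end L0A

open L0A in
/-- For `ℓ` of direction `d` and `p ∈ ℓ`: the `q` directions `y ≠ d` are independent, each misses `p` with probability
`1 - 2/q` exactly, so the mean of `|Surv0|` is exactly `q (1-2/q)^q`; changing one coordinate changes `|Surv0|` by at most 4;
two-sided McDiarmid with `t = q^(2/3)`: failure `≤ 2 exp(-q^(1/3)/64)` per line, union over `q(q+1)` lines. -/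
theorem l0_surv : ∃ q₀ : ℕ, ∀ (K : Type) [Field K] [Fintype K] [DecidableEq K], q₀ ≤ Fintype.card K →
    pr (fun ω : OmU K => ¬ ∀ ℓ, |((Surv0 (toU ω) ℓ).card : ℝ) - Fintype.card K * delta0 K|
      ≤ (Fintype.card K : ℝ) ^ ((2 : ℝ) / 3)) ≤ 1 / 8 := by
  obtain ⟨q₀, hq₀⟩ := surv_numeric
  refine ⟨q₀, ?_⟩
  intro K _ _ _ hq
  have hq1 : 1 < Fintype.card K := card_K_gt_one
  have hq0 : (0 : ℝ) < Fintype.card K := by exact_mod_cast (by omega : 0 < Fintype.card K)
  set t : ℝ := (Fintype.card K : ℝ) ^ ((2 : ℝ) / 3) with ht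
  have ht0 : 0 < t := Real.rpow_pos_of_pos hq0 _
  set E : ℝ := Real.exp (-(t ^ 2) / (2 * (((Fintype.card K : ℝ) + 1) * (4 * ((1 : ℕ) : ℝ)) ^ 2))) with hE
  have hsub : ∀ ω : OmU K, (¬ ∀ ℓ, |((Surv0 (toU ω) ℓ).card : ℝ) - Fintype.card K * delta0 K| ≤ t) →
      ∃ ℓ ∈ (univ : Finset (Ln K)), (avg (goodCount (linePts ℓ) (fun (p : Pt K) (_ : Fin 1) => p) (fun _ => ℓ.1)) + t
          ≤ goodCount (linePts ℓ) (fun (p : Pt K) (_ : Fin 1) => p) (fun _ => ℓ.1) ω) ∨
        (goodCount (linePts ℓ) (fun (p : Pt K) (_ : Fin 1) => p) (fun _ => ℓ.1) ω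
          ≤ avg (goodCount (linePts ℓ) (fun (p : Pt K) (_ : Fin 1) => p) (fun _ => ℓ.1)) - t) := by
    intro ω hω
    push Not at hω
    obtain ⟨ℓ, hℓ⟩ := hω
    refine ⟨ℓ, mem_univ _, ?_⟩
    rw [surv_avg, ← surv0_card_eq]
    rcases lt_abs.mp hℓ with h | h
    · left; linarith
    · right; linarith
  refine (pr_mono hsub).trans ((pr_exists_le _ _).trans ?_)
  have hper : ∀ ℓ ∈ (univ : Finset (Ln K)), pr (fun ω : OmU K =>
      (avg (goodCount (linePts ℓ) (fun (p : Pt K) (_ : Fin 1) => p) (fun _ => ℓ.1)) + t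
          ≤ goodCount (linePts ℓ) (fun (p : Pt K) (_ : Fin 1) => p) (fun _ => ℓ.1) ω) ∨
        (goodCount (linePts ℓ) (fun (p : Pt K) (_ : Fin 1) => p) (fun _ => ℓ.1) ω
          ≤ avg (goodCount (linePts ℓ) (fun (p : Pt K) (_ : Fin 1) => p) (fun _ => ℓ.1)) - t)) ≤ 2 * E := by
    intro ℓ _
    have h1 := goodCount_upper (linePts ℓ) (fun (p : Pt K) (_ : Fin 1) => p) (fun _ => ℓ.1) (surv_uniq ℓ) ht0
    have h2 := goodCount_lower (linePts ℓ) (fun (p : Pt K) (_ : Fin 1) => p) (fun _ => ℓ.1) (surv_uniq ℓ) ht0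
    have h3 := pr_exists_le (α := OmU K) (univ : Finset Bool)
      (fun b ω => if b then (avg (goodCount (linePts ℓ) (fun (p : Pt K) (_ : Fin 1) => p) (fun _ => ℓ.1)) + t
          ≤ goodCount (linePts ℓ) (fun (p : Pt K) (_ : Fin 1) => p) (fun _ => ℓ.1) ω) else
        (goodCount (linePts ℓ) (fun (p : Pt K) (_ : Fin 1) => p) (fun _ => ℓ.1) ω
          ≤ avg (goodCount (linePts ℓ) (fun (p : Pt K) (_ : Fin 1) => p) (fun _ => ℓ.1)) - t))
    simp only [Fintype.sum_bool, if_true, Bool.false_eq_true, if_false, mem_univ, true_and] at h3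
    refine (pr_mono ?_).trans (h3.trans ?_)
    · intro ω hω
      rcases hω with h | h
      · exact ⟨true, by simpa using h⟩
      · exact ⟨false, by simpa using h⟩
    · simp only [Nat.cast_one] at h1 h2
      have hE' : E = Real.exp (-(t ^ 2) / (2 * (((Fintype.card K : ℝ) + 1) * (4 * (1 : ℝ)) ^ 2))) := by
        rw [hE]; norm_num
      rw [hE']
      linarith
  refine (Finset.sum_le_sum hper).trans ?_
  rw [Finset.sum_const, card_univ, card_Ln, nsmul_eq_mul]
  push_cast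
  have := hq₀ (Fintype.card K) hq (by omega)
  calc ((Fintype.card K : ℝ) + 1) * Fintype.card K * (2 * E)
      ≤ 1 / 8 := this

namespace L0A

/-! ### Patterns -/

section pattern

variable {K : Type} [Field K] [Fintype K] [DecidableEq K]

local notation "q" => Fintype.card K

/-- A line not parallel to `v` meets the parametrised line `P + s • v` at most once. -/
theorem on_param_unique (P v : K × K) (hv : v ≠ 0) (y : Dir K) (hy : y ≠ dirOfVec v) (b : K) (s s' : K)
    (h : On (P + s • v) (y, b)) (h' : On (P + s' • v) (y, b)) : s = s' := by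
  rcases P with ⟨P1, P2⟩
  rcases v with ⟨v1, v2⟩
  cases y with
  | none =>
    simp only [On, Prod.fst_add, Prod.smul_fst, smul_eq_mul] at h h'
    have hv1 : v1 ≠ 0 := by
      intro h0
      apply hy
      simp [dirOfVec, h0]
    have : (s - s') * v1 = 0 := by linear_combination h - h'
    rcases mul_eq_zero.mp this with h0 | h0
    · exact sub_eq_zero.mp h0
    · exact absurd h0 hv1
  | some m =>
    simp only [On, Prod.fst_add, Prod.snd_add, Prod.smul_fst, Prod.smul_snd, smul_eq_mul] at h h'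
    have : (s - s') * (v2 - m * v1) = 0 := by linear_combination h - h'
    rcases mul_eq_zero.mp this with h0 | h0
    · exact sub_eq_zero.mp h0
    · exfalso
      have hv2 : v2 = m * v1 := sub_eq_zero.mp h0
      by_cases hv1 : v1 = 0
      · apply hv
        simp [hv2, hv1]
      · apply hy
        simp only [dirOfVec, hv1, if_false]
        congr 1
        rw [hv2]
        field_simp

theorem pattern_uniq (P : Fin 19 → Pt K) (v : Fin 19 → K × K) (hv : ∀ j, v j ≠ 0) :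
    ∀ (j : Fin 19) (y : Dir K), y ≠ (fun j => dirOfVec (v j)) j → ∀ b, ∀ s ∈ (univ : Finset K), ∀ s' ∈ (univ : Finset K),
      On ((fun (s : K) (j : Fin 19) => P j + s • v j) s j) (y, b) →
      On ((fun (s : K) (j : Fin 19) => P j + s • v j) s' j) (y, b) → s = s' := by
  intro j y hy b s _ s' _ h h'
  exact on_param_unique (P j) (v j) (hv j) y hy b s s' h h'

theorem patternGood_card_eq (ω : OmU K) (P : Fin 19 → Pt K) (v : Fin 19 → K × K) :
    ((patternGood (toU ω) P v).card : ℝ) =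
      goodCount (univ : Finset K) (fun (s : K) (j : Fin 19) => P j + s • v j) (fun j => dirOfVec (v j)) ω := by
  classical
  unfold goodCount patternGood Good
  congr 2
  ext s
  simp [toU_line]

/-- `(1 - 38/q)^(q+1) ≥ exp(-40)` for `q ≥ 779`. -/
theorem pow_38_ge {N : ℕ} (hq : 779 ≤ N) :
    Real.exp (-40) ≤ (1 - 38 / (N : ℝ)) ^ (N + 1) := by
  have hq' : (779 : ℝ) ≤ N := by exact_mod_cast hq
  have hq0 : (0 : ℝ) < (N : ℝ) := by linarith
  have hd : (0 : ℝ) < (N : ℝ) - 38 := by linarith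
  -- `1 - 38/q ≥ exp(-38/(q-38))`
  have h1 : Real.exp (-(38 / ((N : ℝ) - 38))) ≤ 1 - 38 / (N : ℝ) := by
    have h := Real.add_one_le_exp (38 / ((N : ℝ) - 38))
    have heq : 38 / ((N : ℝ) - 38) + 1 = (N : ℝ) / ((N : ℝ) - 38) := by
      field_simp
      ring
    rw [heq] at h
    rw [Real.exp_neg]
    have hpos : 0 < (N : ℝ) / ((N : ℝ) - 38) := by positivity
    calc (Real.exp (38 / ((N : ℝ) - 38)))⁻¹ ≤ ((N : ℝ) / ((N : ℝ) - 38))⁻¹ := inv_anti₀ hpos h
      _ = 1 - 38 / (N : ℝ) := by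
        field_simp
  have h2 : Real.exp (-(38 / ((N : ℝ) - 38))) ^ (N + 1) ≤ (1 - 38 / (N : ℝ)) ^ (N + 1) :=
    pow_le_pow_left₀ (Real.exp_pos _).le h1 _
  refine le_trans ?_ h2
  rw [← Real.exp_nat_mul]
  apply Real.exp_le_exp.mpr
  have : ((N + 1 : ℕ) : ℝ) * (38 / ((N : ℝ) - 38)) ≤ 40 := by
    push_cast
    rw [mul_div_assoc', div_le_iff₀ hd]
    linarith
  push_cast at this ⊢
  linarith

theorem pattern_avg_ge (hq : 779 ≤ q) (P : Fin 19 → Pt K) (v : Fin 19 → K × K) :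
    2 * c0pat * q ≤ avg (goodCount (univ : Finset K) (fun (s : K) (j : Fin 19) => P j + s • v j)
      (fun j => dirOfVec (v j))) := by
  rw [goodCount_avg]
  have hq' : (779 : ℝ) ≤ q := by exact_mod_cast hq
  have hq0 : (0 : ℝ) < q := by linarith
  have hper : ∀ s ∈ (univ : Finset K), Real.exp (-40) ≤ ∏ y : Dir K, pr (fun a : {a : K × K // a.1 ≠ a.2} =>
      a.1.1 ∉ avoidSet (fun (s : K) (j : Fin 19) => P j + s • v j) (fun j => dirOfVec (v j)) s y ∧
      a.1.2 ∉ avoidSet (fun (s : K) (j : Fin 19) => P j + s • v j) (fun j => dirOfVec (v j)) s y) := by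
    intro s _
    refine (pow_38_ge hq).trans ?_
    have hbase : 0 ≤ 1 - 38 / (q : ℝ) := by
      rw [sub_nonneg, div_le_one hq0]
      linarith
    have hconst : (1 - 38 / (q : ℝ)) ^ (q + 1) = ∏ _y : Dir K, (1 - 38 / (q : ℝ)) := by
      rw [Finset.prod_const, card_univ, card_Dir]
    rw [hconst]
    apply Finset.prod_le_prod
    · intro y _
      exact hbase
    · intro y _
      refine le_trans ?_ (pr_avoid_ge _)
      have hc : ((avoidSet (fun (s : K) (j : Fin 19) => P j + s • v j) (fun j => dirOfVec (v j)) s y).card : ℝ) ≤ 19 := by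
        exact_mod_cast card_avoidSet_le _ _ s y
      have : 2 * ((avoidSet (fun (s : K) (j : Fin 19) => P j + s • v j) (fun j => dirOfVec (v j)) s y).card : ℝ) / (q : ℝ)
          ≤ 38 / (q : ℝ) := by
        apply div_le_div_of_nonneg_right _ hq0.le
        linarith
      linarith
  have := Finset.sum_le_sum hper
  rw [Finset.sum_const, card_univ, nsmul_eq_mul] at this
  have hc : 2 * c0pat = Real.exp (-40) := by
    unfold c0pat; ring
  rw [hc]
  linarith

end pattern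

/-- For large `q`: the numerical condition for `l0_pattern`. -/
theorem pattern_numeric : ∃ q₀ : ℕ, ∀ q : ℕ, q₀ ≤ q → 1 ≤ q →
    (q : ℝ) ^ 76 * Real.exp (-((c0pat * q) ^ 2) / (2 * (((q : ℝ) + 1) * (4 * ((19 : ℕ) : ℝ)) ^ 2))) ≤ 1 / 8 := by
  have hc : 0 < c0pat := by unfold c0pat; positivity
  set κ : ℝ := c0pat ^ 2 / 23104 with hκ
  have hκ0 : 0 < κ := by positivity
  obtain ⟨Y, hY⟩ := exists_large_pow_exp 76 (ε := κ ^ 76 / 8) (by positivity)
  refine ⟨⌈max Y 1 / κ⌉₊, ?_⟩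
  intro q hq hq1
  have hq0 : (0 : ℝ) < q := by exact_mod_cast hq1
  have hq1' : (1 : ℝ) ≤ q := by exact_mod_cast hq1
  have hbig : max Y 1 / κ ≤ (q : ℝ) := (Nat.le_ceil _).trans (by exact_mod_cast hq)
  set y : ℝ := κ * q with hy
  have hyY : Y ≤ y := by
    rw [div_le_iff₀ hκ0] at hbig
    have := le_max_left Y 1
    rw [hy]
    linarith
  have h1 := hY y hyY
  have hexp : -((c0pat * q) ^ 2) / (2 * (((q : ℝ) + 1) * (4 * ((19 : ℕ) : ℝ)) ^ 2)) ≤ -y := by
    have hden : 0 < 2 * (((q : ℝ) + 1) * (4 * ((19 : ℕ) : ℝ)) ^ 2) := by positivity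
    rw [div_le_iff₀ hden]
    have : y * (2 * (((q : ℝ) + 1) * (4 * ((19 : ℕ) : ℝ)) ^ 2)) ≤ (c0pat * q) ^ 2 := by
      rw [hy, hκ]
      push_cast
      have hq2 : (q : ℝ) + 1 ≤ 2 * q := by linarith
      have hcq : 0 ≤ c0pat ^ 2 * (q : ℝ) := by positivity
      have := mul_le_mul_of_nonneg_left hq2 hcq
      nlinarith
    linarith
  have hexp2 := Real.exp_le_exp.mpr hexp
  have hpow : (q : ℝ) ^ 76 = y ^ 76 / κ ^ 76 := by
    rw [hy]
    field_simp
  calc (q : ℝ) ^ 76 * Real.exp (-((c0pat * q) ^ 2) / (2 * (((q : ℝ) + 1) * (4 * ((19 : ℕ) : ℝ)) ^ 2)))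
      ≤ (q : ℝ) ^ 76 * Real.exp (-y) := by
        apply mul_le_mul_of_nonneg_left hexp2 (by positivity)
    _ = (y ^ 76 * Real.exp (-y)) / κ ^ 76 := by rw [hpow]; ring
    _ ≤ (κ ^ 76 / 8) / κ ^ 76 := by
        apply div_le_div_of_nonneg_right h1 (by positivity)
    _ = 1 / 8 := by
        field_simp

end L0A

open L0A in
/-- See the docstring of `P0.pattern`: for fixed `s`, probability `≥ (1 - 38/q)^(q+1) ≥ exp(-40)`; the count is Lipschitz 76 in each
coordinate (each line not parallel to `v j` meets the parametrised line `P j + s • v j` once); lower McDiarmid with `t = c0pat q`; union over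
the `q^76` patterns (only the points `P j`, `v j` matter). -/
theorem l0_pattern : ∃ q₀ : ℕ, ∀ (K : Type) [Field K] [Fintype K] [DecidableEq K], q₀ ≤ Fintype.card K →
    pr (fun ω : OmU K => ¬ ∀ (P : Fin 19 → Pt K) (v : Fin 19 → K × K), (∀ j, v j ≠ 0) →
      c0pat * Fintype.card K ≤ ((patternGood (toU ω) P v).card : ℝ)) ≤ 1 / 8 := by
  classical
  obtain ⟨q₁, hq₁⟩ := pattern_numeric
  refine ⟨max q₁ 779, ?_⟩
  intro K _ _ _ hq
  have hq779 : 779 ≤ Fintype.card K := (le_max_right _ _).trans hq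
  have hq1 : q₁ ≤ Fintype.card K := (le_max_left _ _).trans hq
  have hq0 : (0 : ℝ) < Fintype.card K := by
    have : 0 < Fintype.card K := by omega
    exact_mod_cast this
  have hc : 0 < c0pat := by unfold c0pat; positivity
  set t : ℝ := c0pat * Fintype.card K with ht
  have ht0 : 0 < t := by positivity
  set E : ℝ := Real.exp (-(t ^ 2) / (2 * (((Fintype.card K : ℝ) + 1) * (4 * ((19 : ℕ) : ℝ)) ^ 2))) with hE
  set S : Finset ((Fin 19 → Pt K) × (Fin 19 → K × K)) := univ.filter (fun x => ∀ j, x.2 j ≠ 0) with hS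
  have hsub : ∀ ω : OmU K, (¬ ∀ (P : Fin 19 → Pt K) (v : Fin 19 → K × K), (∀ j, v j ≠ 0) →
      c0pat * Fintype.card K ≤ ((patternGood (toU ω) P v).card : ℝ)) →
      ∃ x ∈ S, goodCount (univ : Finset K) (fun (s : K) (j : Fin 19) => x.1 j + s • x.2 j) (fun j => dirOfVec (x.2 j)) ω
        ≤ avg (goodCount (univ : Finset K) (fun (s : K) (j : Fin 19) => x.1 j + s • x.2 j) (fun j => dirOfVec (x.2 j))) - t := by
    intro ω hω
    push Not at hω
    obtain ⟨P, v, hv, hlt⟩ := hω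
    refine ⟨(P, v), by simp [hS, hv], ?_⟩
    have h1 := pattern_avg_ge hq779 P v
    rw [patternGood_card_eq] at hlt
    have : t + t = 2 * c0pat * Fintype.card K := by rw [ht]; ring
    simp only
    linarith
  refine (pr_mono hsub).trans ((pr_exists_le _ _).trans ?_)
  have hper : ∀ x ∈ S, pr (fun ω : OmU K =>
      goodCount (univ : Finset K) (fun (s : K) (j : Fin 19) => x.1 j + s • x.2 j) (fun j => dirOfVec (x.2 j)) ω
        ≤ avg (goodCount (univ : Finset K) (fun (s : K) (j : Fin 19) => x.1 j + s • x.2 j) (fun j => dirOfVec (x.2 j))) - t) ≤ E := by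
    intro x hx
    have hv : ∀ j, x.2 j ≠ 0 := by simpa [hS] using hx
    exact goodCount_lower (univ : Finset K) (fun (s : K) (j : Fin 19) => x.1 j + s • x.2 j) (fun j => dirOfVec (x.2 j))
      (pattern_uniq x.1 x.2 hv) ht0
  refine (Finset.sum_le_sum hper).trans ?_
  rw [Finset.sum_const, nsmul_eq_mul]
  have hcard : (S.card : ℝ) ≤ (Fintype.card K : ℝ) ^ 76 := by
    have h1 : S.card ≤ Fintype.card ((Fin 19 → Pt K) × (Fin 19 → K × K)) := by
      rw [← card_univ]
      exact card_filter_le _ _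
    have h2 : Fintype.card ((Fin 19 → Pt K) × (Fin 19 → K × K)) = Fintype.card K ^ 76 := by
      simp [Fintype.card_prod]
      ring
    rw [h2] at h1
    exact_mod_cast h1
  have hE0 : 0 ≤ E := (Real.exp_pos _).le
  calc (S.card : ℝ) * E ≤ (Fintype.card K : ℝ) ^ 76 * E := mul_le_mul_of_nonneg_right hcard hE0
    _ ≤ 1 / 8 := hq₁ (Fintype.card K) hq1 (by omega)

end Crest.Agent.Ryser
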