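import Crest.Agent.Ryser.Layer0Model

/-!
# Layer 0, helpers for `l0_surv` and `l0_pattern`: a uniform treatment of "points avoid all `U` lines".

For a family `pts s j` of points (`s : S`, `j : Fin n`) and excluded directions `ex j`, `Good pts ex s ω` says that each `pts s j`
lies on no `U` line of the outcome `ω` of direction `≠ ex j`.  The coordinates are independent, so `pr (Good s)` is a product,
and the count of good `s` has bounded differences.
-/

set_option autoImplicit false
set_option linter.unusedSectionVars false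
set_option linter.unusedVariables false

namespace Crest.Agent.Ryser
namespace L0A

open Finset

variable {K : Type} [Field K] [Fintype K] [DecidableEq K]

local notation "q" => Fintype.card K

instance pairNonempty : Nonempty {a : K × K // a.1 ≠ a.2} := ⟨⟨(0, 1), zero_ne_one⟩⟩

/-- The `i`-th line of direction `y` of the coordinate value `a`. -/
def lineOf (y : Dir K) (a : {a : K × K // a.1 ≠ a.2}) (i : Fin 2) : Ln K :=
  (y, if i = 0 then a.1.1 else a.1.2)

theorem toU_line (ω : OmU K) (y : Dir K) (i : Fin 2) :
    (toU ω).line y i = lineOf y (ω y) i := rfl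

theorem on_pair_iff (p : Pt K) (y : Dir K) (b : K) : On p (y, b) ↔ (lineThru p y).2 = b := by
  rw [on_iff_lineThru]
  constructor
  · intro h
    have := congrArg Prod.snd h
    simpa using this
  · intro h
    apply Prod.ext
    · simp
    · simpa using h

/-- The bad values of a coordinate `y`. -/
noncomputable def avoidSet {S : Type} {n : ℕ} (pts : S → Fin n → Pt K) (ex : Fin n → Dir K) (s : S) (y : Dir K) :
    Finset K :=
  (univ.filter (fun j => y ≠ ex j)).image (fun j => (lineThru (pts s j) y).2)

theorem card_avoidSet_le {S : Type} {n : ℕ} (pts : S → Fin n → Pt K) (ex : Fin n → Dir K) (s : S) (y : Dir K) :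
    (avoidSet pts ex s y).card ≤ n := by
  unfold avoidSet
  refine card_image_le.trans ((card_filter_le _ _).trans ?_)
  simp

/-- The point family avoids the `U` lines. -/
def Good {S : Type} {n : ℕ} (pts : S → Fin n → Pt K) (ex : Fin n → Dir K) (s : S) (ω : OmU K) : Prop :=
  ∀ j, ∀ y, y ≠ ex j → ∀ i, ¬ On (pts s j) (lineOf y (ω y) i)

theorem good_iff {S : Type} {n : ℕ} (pts : S → Fin n → Pt K) (ex : Fin n → Dir K) (s : S) (ω : OmU K) :
    Good pts ex s ω ↔ ∀ y, (ω y).1.1 ∉ avoidSet pts ex s y ∧ (ω y).1.2 ∉ avoidSet pts ex s y := by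
  unfold Good avoidSet
  constructor
  · intro h y
    constructor
    · intro hm
      obtain ⟨j, hj, hb⟩ := mem_image.mp hm
      have hj' : y ≠ ex j := by simpa using hj
      apply h j y hj' 0
      rw [lineOf]
      simp only [if_true]
      exact (on_pair_iff _ _ _).mpr hb
    · intro hm
      obtain ⟨j, hj, hb⟩ := mem_image.mp hm
      have hj' : y ≠ ex j := by simpa using hj
      apply h j y hj' 1
      rw [lineOf]
      simp only [one_ne_zero, if_false]
      exact (on_pair_iff _ _ _).mpr hb
  · intro h j y hy i hon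
    obtain ⟨h0, h1⟩ := h y
    rw [lineOf, on_pair_iff] at hon
    have hmem : (lineThru (pts s j) y).2 ∈ (univ.filter (fun j => y ≠ ex j)).image
        (fun j => (lineThru (pts s j) y).2) :=
      mem_image.mpr ⟨j, by simpa using hy, rfl⟩
    split_ifs at hon with hi
    · exact h0 (hon ▸ hmem)
    · exact h1 (hon ▸ hmem)

/-- The probability that a coordinate avoids a set. -/
theorem pr_avoid (B : Finset K) :
    pr (fun a : {a : K × K // a.1 ≠ a.2} => a.1.1 ∉ B ∧ a.1.2 ∉ B)
      = (((Bᶜ).card : ℝ) * (Bᶜ).card - (Bᶜ).card) / ((q : ℝ) * q - q) := by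
  classical
  rw [pr_eq_filter]
  have hnum : (univ.filter (fun a : {a : K × K // a.1 ≠ a.2} => a.1.1 ∉ B ∧ a.1.2 ∉ B)).card
      = (Bᶜ).offDiag.card := by
    rw [← Finset.card_map (Function.Embedding.subtype _)]
    congr 1
    ext ⟨x, y⟩
    simp only [mem_map, mem_filter, mem_univ, true_and, Function.Embedding.coe_subtype,
      Subtype.exists, exists_and_left, exists_prop, exists_eq_right_right, mem_offDiag, mem_compl,
      Prod.mk.injEq]
    constructor
    · rintro ⟨⟨hx, hy⟩, hne⟩
      exact ⟨hx, hy, hne⟩
    · rintro ⟨hx, hy, hne⟩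
      exact ⟨⟨hx, hy⟩, hne⟩
  have hden : Fintype.card {a : K × K // a.1 ≠ a.2} = (univ : Finset K).offDiag.card := by
    rw [Fintype.card_subtype]
    congr 1
    ext ⟨x, y⟩
    simp
  rw [hnum, hden, offDiag_card, offDiag_card, card_univ]
  have h1 : (Bᶜ).card ≤ (Bᶜ).card * (Bᶜ).card := Nat.le_mul_self _
  have h2 : q ≤ q * q := Nat.le_mul_self _
  rw [Nat.cast_sub h1, Nat.cast_sub h2]
  push_cast
  rfl

theorem card_compl_real (B : Finset K) : (((Bᶜ).card : ℕ) : ℝ) = (q : ℝ) - B.card := by
  rw [card_compl]
  rw [Nat.cast_sub (by exact card_le_univ B)]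

theorem card_K_gt_one : 1 < q := Fintype.one_lt_card

/-- Exact value for the empty set. -/
theorem pr_avoid_empty :
    pr (fun a : {a : K × K // a.1 ≠ a.2} => a.1.1 ∉ (∅ : Finset K) ∧ a.1.2 ∉ (∅ : Finset K)) = 1 := by
  have hq : (1 : ℝ) < q := by exact_mod_cast (card_K_gt_one (K := K))
  rw [pr_avoid, card_compl_real]
  simp only [card_empty, Nat.cast_zero, sub_zero]
  apply div_self
  nlinarith

/-- Exact value for a singleton. -/
theorem pr_avoid_singleton (b : K) :
    pr (fun a : {a : K × K // a.1 ≠ a.2} => a.1.1 ∉ ({b} : Finset K) ∧ a.1.2 ∉ ({b} : Finset K))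
      = 1 - 2 / (q : ℝ) := by
  have hq : (1 : ℝ) < q := by exact_mod_cast (card_K_gt_one (K := K))
  have hq0 : (0 : ℝ) < q := by linarith
  rw [pr_avoid, card_compl_real]
  simp only [card_singleton, Nat.cast_one]
  have h1 : (q : ℝ) - 1 ≠ 0 := by linarith
  have h2 : (q : ℝ) * q - q ≠ 0 := by nlinarith
  field_simp
  ring

/-- Lower bound in general. -/
theorem pr_avoid_ge (B : Finset K) :
    1 - 2 * B.card / (q : ℝ) ≤
      pr (fun a : {a : K × K // a.1 ≠ a.2} => a.1.1 ∉ B ∧ a.1.2 ∉ B) := by
  have hq : (1 : ℝ) < q := by exact_mod_cast (card_K_gt_one (K := K))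
  have hq0 : (0 : ℝ) < q := by linarith
  rw [pr_avoid, card_compl_real]
  have hden : 0 < (q : ℝ) * q - q := by nlinarith
  rw [le_div_iff₀ hden]
  set b : ℝ := (B.card : ℝ) with hb
  have hb2 : 0 ≤ b * (b - 1) := by
    rcases Nat.eq_zero_or_pos B.card with h | h
    · simp [hb, h]
    · have : (1 : ℝ) ≤ b := by rw [hb]; exact_mod_cast h
      have hb0 : 0 ≤ b := by linarith
      exact mul_nonneg hb0 (by linarith)
  have key : (1 - 2 * b / q) * (q * q - q) = (q - 2 * b) * (q - 1) := by
    field_simp
  rw [key]
  nlinarith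

/-- The good event is a product event. -/
theorem pr_good {S : Type} {n : ℕ} (pts : S → Fin n → Pt K) (ex : Fin n → Dir K) (s : S) :
    pr (Good pts ex s) = ∏ y : Dir K, pr (fun a : {a : K × K // a.1 ≠ a.2} =>
      a.1.1 ∉ avoidSet pts ex s y ∧ a.1.2 ∉ avoidSet pts ex s y) := by
  have h := pr_forall_coord (ι := Dir K) (Ω := fun _ => {a : K × K // a.1 ≠ a.2})
    (fun y a => a.1.1 ∉ avoidSet pts ex s y ∧ a.1.2 ∉ avoidSet pts ex s y)
  rw [← h]
  congr 1
  funext ω
  exact propext (good_iff pts ex s ω)

/-- The average of a count is the sum of the probabilities. -/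
theorem avg_card_filter {α S : Type} [Fintype α] [DecidableEq S] (T : Finset S) (G : S → α → Prop)
    [∀ s a, Decidable (G s a)] :
    avg (fun a => (((T.filter (fun s => G s a))).card : ℝ)) = ∑ s ∈ T, pr (G s) := by
  simp only [pr_eq_avg]
  unfold avg
  rw [← Finset.sum_div]
  congr 1
  rw [Finset.sum_comm]
  apply Finset.sum_congr rfl
  intro a _
  rw [Finset.sum_boole]

/-- Bounded differences of a count, abstractly. -/
theorem card_filter_diff_le {α S : Type} [DecidableEq S] (T D : Finset S) (G : S → α → Prop)
    [∀ s a, Decidable (G s a)] (a a' : α)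
    (hD : ∀ s ∈ T, s ∉ D → (G s a' ↔ G s a)) :
    |(((T.filter (fun s => G s a')).card : ℝ)) - ((T.filter (fun s => G s a)).card : ℝ)| ≤ D.card := by
  have h1 : T.filter (fun s => G s a') ⊆ T.filter (fun s => G s a) ∪ D := by
    intro s hs
    simp only [mem_filter, mem_union] at hs ⊢
    by_cases hsD : s ∈ D
    · exact Or.inr hsD
    · exact Or.inl ⟨hs.1, (hD s hs.1 hsD).mp hs.2⟩
  have h2 : T.filter (fun s => G s a) ⊆ T.filter (fun s => G s a') ∪ D := by
    intro s hs
    simp only [mem_filter, mem_union] at hs ⊢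
    by_cases hsD : s ∈ D
    · exact Or.inr hsD
    · exact Or.inl ⟨hs.1, (hD s hs.1 hsD).mpr hs.2⟩
  have h3 := (card_le_card h1).trans (card_union_le _ _)
  have h4 := (card_le_card h2).trans (card_union_le _ _)
  have h3' : (((T.filter (fun s => G s a')).card : ℝ)) ≤ ((T.filter (fun s => G s a)).card : ℝ) + D.card := by
    exact_mod_cast h3
  have h4' : (((T.filter (fun s => G s a)).card : ℝ)) ≤ ((T.filter (fun s => G s a')).card : ℝ) + D.card := by
    exact_mod_cast h4
  rw [abs_le]
  constructor <;> linarith

/-- Bounded differences of the number of good parameters. -/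
theorem good_lipschitz {S : Type} [DecidableEq S] {n : ℕ} (T : Finset S) (pts : S → Fin n → Pt K) (ex : Fin n → Dir K)
    (huniq : ∀ j y, y ≠ ex j → ∀ b, ∀ s ∈ T, ∀ s' ∈ T, On (pts s j) (y, b) → On (pts s' j) (y, b) → s = s')
    [∀ s ω, Decidable (Good pts ex s ω)]
    (ω : OmU K) (x : Dir K) (a : {a : K × K // a.1 ≠ a.2}) :
    |(((T.filter (fun s => Good pts ex s (Function.update ω x a))).card : ℝ))
        - ((T.filter (fun s => Good pts ex s ω)).card : ℝ)| ≤ 4 * n := by
  classical
  set lines : Finset (Ln K) := (univ : Finset (Fin 2)).image (lineOf x a) ∪ (univ : Finset (Fin 2)).image (lineOf x (ω x))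
    with hlines
  have hlc : lines.card ≤ 4 := by
    refine (card_union_le _ _).trans ?_
    have h1 : ((univ : Finset (Fin 2)).image (lineOf x a)).card ≤ 2 := card_image_le.trans (by simp)
    have h2 : ((univ : Finset (Fin 2)).image (lineOf x (ω x))).card ≤ 2 := card_image_le.trans (by simp)
    omega
  set D : Finset S := (univ.filter (fun j => x ≠ ex j)).biUnion (fun j =>
      lines.biUnion (fun m => T.filter (fun s => On (pts s j) m))) with hD
  have hDcard : D.card ≤ n * 4 := by
    have hinner : ∀ j ∈ univ.filter (fun j => x ≠ ex j),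
        (lines.biUnion (fun m => T.filter (fun s => On (pts s j) m))).card ≤ 4 := by
      intro j hj
      have hj' : x ≠ ex j := by simpa using hj
      have hin : ∀ m ∈ lines, (T.filter (fun s => On (pts s j) m)).card ≤ 1 := by
        intro m hm
        rw [card_le_one]
        intro s hs s' hs'
        simp only [mem_filter] at hs hs'
        have hm1 : m.1 = x := by
          simp only [hlines, mem_union, mem_image, mem_univ, true_and] at hm
          rcases hm with ⟨i, rfl⟩ | ⟨i, rfl⟩ <;> rfl
        obtain ⟨m1, m2⟩ := m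
        simp only at hm1
        subst hm1
        exact huniq j m1 hj' m2 s hs.1 s' hs'.1 hs.2 hs'.2
      have := card_biUnion_le_card_mul lines _ 1 hin
      omega
    have h := card_biUnion_le_card_mul _ _ 4 hinner
    have hc : (univ.filter (fun j => x ≠ ex j)).card ≤ n := by
      refine (card_filter_le _ _).trans ?_
      simp
    exact h.trans (Nat.mul_le_mul_right 4 hc)
  have hkey := card_filter_diff_le T D (fun s ω => Good pts ex s ω) ω (Function.update ω x a) (by
    intro s hs hsD
    have hoff : ∀ j, x ≠ ex j → ∀ m ∈ lines, ¬ On (pts s j) m := by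
      intro j hj m hm hon
      apply hsD
      simp only [hD, mem_biUnion, mem_filter, mem_univ, true_and]
      exact ⟨j, hj, m, hm, hs, hon⟩
    constructor
    · intro h j y hy i hon
      by_cases hyx : y = x
      · subst hyx
        exact hoff j hy _ (mem_union_right _ (mem_image.mpr ⟨i, mem_univ _, rfl⟩)) hon
      · apply h j y hy i
        simpa [Function.update_of_ne hyx] using hon
    · intro h j y hy i hon
      by_cases hyx : y = x
      · subst hyx
        rw [Function.update_self] at hon
        exact hoff j hy _ (mem_union_left _ (mem_image.mpr ⟨i, mem_univ _, rfl⟩)) hon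
      · apply h j y hy i
        simpa [Function.update_of_ne hyx] using hon)
  refine hkey.trans ?_
  have : (D.card : ℝ) ≤ ((n * 4 : ℕ) : ℝ) := by exact_mod_cast hDcard
  push_cast at this
  linarith

/-- McDiarmid for the count of good parameters: sum of squares. -/
theorem sum_sq_dir (c : ℝ) : ∑ _x : Dir K, c ^ 2 = ((q : ℝ) + 1) * c ^ 2 := by
  rw [Finset.sum_const, card_univ, card_Dir]
  simp

end L0A
end Crest.Agent.Ryser
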