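import Crest.Agent.Ryser.Structure

/-!
# Layer 0: the random lines `U`.

Model: `ι = Dir K`, `Ω x = {a : K × K // a.1 ≠ a.2}`, `H x a = {(x, a.1), (x, a.2)}`: each point is hit by coordinate
`x` with probability exactly `2/q`.  All properties hold for most outcomes by `kill_union`, `p1_union`,
McDiarmid, Markov.
-/

set_option autoImplicit false
set_option linter.unusedSectionVars false
set_option linter.unusedVariables false

namespace Crest.Agent.Ryser

open Finset

variable {K : Type} [Field K] [Fintype K] [DecidableEq K]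

local notation "q" => Fintype.card K

/-- The constant of the pattern property. -/
noncomputable def c0pat : ℝ := Real.exp (-40) / 2

/-- The parameters `s` whose 19 image points `P j + s • v j` avoid all `U` lines not parallel to `v j`. -/
noncomputable def patternGood (C : UData K) (P : Fin 19 → Pt K) (v : Fin 19 → K × K) : Finset K :=
  univ.filter (fun s => ∀ j, ∀ y, y ≠ dirOfVec (v j) → ∀ i, ¬ On (P j + s • v j) (C.line y i))

/-- The points of `Y` on no `U` line. -/
def uSurvivors (C : UData K) (Y : Finset (Pt K)) : Finset (Pt K) :=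
  Y.filter (fun p => ∀ x i, ¬ On p (C.line x i))

/-- The output of layer 0. -/
structure P0 (C : UData K) (YY : Finset (Finset (Pt K))) : Prop where
  /-- exact mean `q (1 - 2/q)^q`, Lipschitz 2 in each of `q` coordinates -/
  surv0 : ∀ ℓ, |((Surv0 C ℓ).card : ℝ) - q * delta0 K| ≤ (q : ℝ) ^ ((2 : ℝ) / 3)
  /-- `p1_union` with `B = 2`. -/
  p1 : ∀ k R : ℕ, NumP1 K 2 k R → ∀ K₁ K₂ : Finset (Ln K), K₁.card ≤ k → K₂.card ≤ k →
    (univ.filter (fun x : Dir K => ∃ i, C.line x i ∈ spanOf K₁ K₂)).card < R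
  /-- `kill_union` with `A = 2`, `B = 2`, `κ = 2`. -/
  kill : ∀ Y ∈ YY, killc 2 2 * Y.card ≤ ((uSurvivors C Y).card : ℝ)
  /-- expectation `≤ q² (1 + 2/q)^(q+1)`, Markov. -/
  moment : ∑ p, (2 : ℝ) ^ mU C p ≤ 8 * Real.exp 3 * (q : ℝ) ^ 2
  /-- for fixed `s`, probability `≥ (1 - 38/q)^(q+1)`; Lipschitz 76; union over `q⁷⁶` patterns. -/
  pattern : ∀ (P : Fin 19 → Pt K) (v : Fin 19 → K × K), (∀ j, v j ≠ 0) →
    c0pat * q ≤ ((patternGood C P v).card : ℝ)

/-- The probability space of layer 0. -/
abbrev OmU (K : Type) [Field K] [Fintype K] [DecidableEq K] := ∀ _x : Dir K, {a : K × K // a.1 ≠ a.2}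

/-- The lines of an outcome. -/
def toU (ω : OmU K) : UData K where
  off x i := if i = 0 then (ω x).1.1 else (ω x).1.2
  off_ne x := by simpa using (ω x).2

end Crest.Agent.Ryser
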