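import Crest.Agent.Ryser.Layer0

/-!
# Layer 1: the bases.

Model: `ι = Dir K × Fin 2`, `Ω (x,i)` = ordered pairs of distinct points of `Surv0 C (C.line x i)`.
For `c` in `Surv0 C (C.line x i)` and `d ≠ x`, the line `lineThru c d` is not a `U` line, meets each `U y i'` at most
once, so each coordinate puts a base on it with probability `≤ 2 e³ / q`.  So `d` is free with probability
`≥ (1 - 2 e³/q)^(2 (q+1)) ≥ exp(-5 e³)`.  The count of free directions in a class is Lipschitz 2;
McDiarmid and a union bound over `c, x, i, e, l` (about `q⁴` events).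
-/

set_option autoImplicit false
set_option linter.unusedSectionVars false
set_option linter.unusedVariables false

namespace Crest.Agent.Ryser

open Finset

variable {K : Type} [Field K] [Fintype K] [DecidableEq K]

local notation "q" => Fintype.card K

/-- Density of free directions in each class. -/
noncomputable def phi1 : ℝ := Real.exp (-5 * Real.exp 3) / 50

theorem phi1_pos : 0 < phi1 := by unfold phi1; positivity

/-- The output of layer 1. -/
def P1 {C : UData K} (B : BData C) : Prop :=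
  ∀ x i e l, phi1 * q ≤ ((B.dom x i e l).card : ℝ)

/-! ### The probability space -/

/-- A coordinate: an ordered pair of distinct points of `Surv0 C (C.line t.1 t.2)`. -/
abbrev OmB1 (C : UData K) (t : Dir K × Fin 2) :=
  {a : Pt K × Pt K // a ∈ (Surv0 C (C.line t.1 t.2)).offDiag}

/-- The probability space of layer 1. -/
abbrev OmB (C : UData K) := ∀ t : Dir K × Fin 2, OmB1 C t

/-- The bases of an outcome. -/
def toB {C : UData K} (ω : OmB C) : BData C where
  base x i e := if e = 0 then (ω (x, i)).1.1 else (ω (x, i)).1.2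
  base_mem x i e := by
    have := (ω (x, i)).2
    rw [mem_offDiag] at this
    split_ifs
    · exact this.1
    · exact this.2.1
  base_ne x i := by
    have := (ω (x, i)).2
    rw [mem_offDiag] at this
    simpa using this.2.2

/-- The event at one coordinate: neither point of the coordinate is a point of the line other than `c`. -/
def EFree (C : UData K) (c : Pt K) (d : Dir K) (t : Dir K × Fin 2) (a : OmB1 C t) : Prop :=
  (a.1.1 ≠ c → ¬ On a.1.1 (lineThru c d)) ∧ (a.1.2 ≠ c → ¬ On a.1.2 (lineThru c d))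

theorem free_iff {C : UData K} (ω : OmB C) (c : Pt K) (d : Dir K) :
    (toB ω).Free c d ↔ ∀ t, EFree C c d t (ω t) := by
  constructor
  · intro h t
    have h0 : (ω t).1.1 ∈ (toB ω).all := by
      simp only [BData.all, mem_image, mem_univ, true_and]
      exact ⟨(t.1, t.2, 0), by simp [toB]⟩
    have h1 : (ω t).1.2 ∈ (toB ω).all := by
      simp only [BData.all, mem_image, mem_univ, true_and]
      exact ⟨(t.1, t.2, 1), by simp [toB]⟩
    exact ⟨fun hne => h _ h0 hne, fun hne => h _ h1 hne⟩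
  · intro h p hp hne
    simp only [BData.all, mem_image, mem_univ, true_and] at hp
    obtain ⟨⟨x, i, e⟩, rfl⟩ := hp
    by_cases he : e = 0
    · simp only [toB, he, if_true] at hne ⊢
      exact (h (x, i)).1 hne
    · simp only [toB, he, if_false] at hne ⊢
      exact (h (x, i)).2 hne

/-- The line through `c` of direction `d` is no `U` line. -/
theorem line_ne_U {C : UData K} {x : Dir K} {i : Fin 2} {c : Pt K}
    (hc : c ∈ Surv0 C (C.line x i)) {d : Dir K} (hd : d ≠ x) (t : Dir K × Fin 2) :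
    lineThru c d ≠ C.line t.1 t.2 := by
  intro h
  simp only [Surv0, mem_filter, mem_linePts] at hc
  have h1 : d = t.1 := by
    have := congrArg Prod.fst h
    simpa [UData.line] using this
  have h2 : On c (C.line t.1 t.2) := h ▸ on_lineThru c d
  exact hc.2 t.1 (h1 ▸ hd) t.2 h2

theorem pr_not_eq {α : Type} [Fintype α] [Nonempty α] (P : α → Prop) :
    pr P = 1 - pr (fun a => ¬ P a) := by
  classical
  simp only [pr_eq_filter]
  have h : (Fintype.card α : ℝ) ≠ 0 := by exact_mod_cast Fintype.card_ne_zero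
  have h2 := Finset.card_filter_add_card_filter_not (s := (univ : Finset α)) P
  rw [card_univ] at h2
  field_simp
  have h3 : ((univ.filter P).card : ℝ) + ((univ.filter (fun a => ¬ P a)).card : ℝ) = Fintype.card α := by
    exact_mod_cast h2
  linarith

/-- The probability that a coordinate avoids the line. -/
theorem pr_EFree_ge (C : UData K) {x : Dir K} {i : Fin 2} {c : Pt K}
    (hc : c ∈ Surv0 C (C.line x i)) {d : Dir K} (hd : d ≠ x) (t : Dir K × Fin 2) {r : ℝ}
    (hr : 0 < r) (hS : r ≤ ((Surv0 C (C.line t.1 t.2)).card : ℝ) - 1) [Nonempty (OmB1 C t)] :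
    1 - 2 / r ≤ pr (EFree C c d t) := by
  classical
  set S := Surv0 C (C.line t.1 t.2) with hSdef
  set L := lineThru c d with hL
  set T := S.filter (fun p => On p L) with hT
  have hS1 : (1 : ℝ) < S.card := by linarith
  -- at most one point of `S` on `L`
  have hT1 : T.card ≤ 1 := by
    have hsub : T ⊆ linePts (C.line t.1 t.2) ∩ linePts L := by
      intro p hp
      simp only [hT, hSdef, Surv0, mem_filter, mem_linePts] at hp
      simp only [mem_inter, mem_linePts]
      exact ⟨hp.1.1, hp.2⟩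
    exact (card_le_card hsub).trans (card_inter_linePts_le_one (line_ne_U hc hd t).symm)
  have hcount : (univ.filter (fun a : OmB1 C t => ¬ EFree C c d t a)).card ≤ 2 * S.card := by
    have hsub : ((univ.filter (fun a : OmB1 C t => ¬ EFree C c d t a)).map (Function.Embedding.subtype _))
        ⊆ (T ×ˢ S) ∪ (S ×ˢ T) := by
      intro a ha
      simp only [mem_map, mem_filter, mem_univ, true_and, Function.Embedding.subtype_apply] at ha
      obtain ⟨⟨a, hamem⟩, hE, rfl⟩ := ha
      have hm := hamem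
      rw [mem_offDiag] at hm
      simp only [mem_union, mem_product, hT, mem_filter]
      simp only [EFree, not_and_or, Classical.not_imp, not_not] at hE
      rcases hE with hE | hE
      · exact Or.inl ⟨⟨hm.1, hE.2⟩, hm.2.1⟩
      · exact Or.inr ⟨hm.1, ⟨hm.2.1, hE.2⟩⟩
    have h1 := card_le_card hsub
    rw [card_map] at h1
    refine h1.trans ((card_union_le _ _).trans ?_)
    rw [card_product, card_product]
    nlinarith
  have hcardΩ : Fintype.card (OmB1 C t) = S.card * S.card - S.card := by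
    rw [Fintype.card_coe, offDiag_card]
  have hcardΩ' : ((Fintype.card (OmB1 C t) : ℕ) : ℝ) = (S.card : ℝ) * ((S.card : ℝ) - 1) := by
    rw [hcardΩ, Nat.cast_sub (Nat.le_mul_self _)]
    push_cast
    ring
  rw [pr_not_eq, pr_eq_filter, hcardΩ']
  have hbound : ((univ.filter (fun a : OmB1 C t => ¬ EFree C c d t a)).card : ℝ)
      / ((S.card : ℝ) * ((S.card : ℝ) - 1)) ≤ 2 / r := by
    have h1 : ((univ.filter (fun a : OmB1 C t => ¬ EFree C c d t a)).card : ℝ) ≤ 2 * S.card := by
      exact_mod_cast hcount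
    have hSpos : (0 : ℝ) < S.card := by linarith
    rw [div_le_div_iff₀ (by nlinarith) hr]
    nlinarith [mul_le_mul_of_nonneg_left hS (by linarith : (0:ℝ) ≤ 2 * (S.card : ℝ))]
  linarith

/-- The probability that a direction is free at `c`. -/
theorem pr_free_ge (C : UData K) {x : Dir K} {i : Fin 2} {c : Pt K}
    (hc : c ∈ Surv0 C (C.line x i)) {d : Dir K} (hd : d ≠ x) {r : ℝ}
    (hr : 2 ≤ r) (hS : ∀ t : Dir K × Fin 2, r ≤ ((Surv0 C (C.line t.1 t.2)).card : ℝ) - 1)
    [∀ t, Nonempty (OmB1 C t)] :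
    (1 - 2 / r) ^ (2 * (Fintype.card K + 1)) ≤ pr (fun ω : OmB C => (toB ω).Free c d) := by
  have h1 : pr (fun ω : OmB C => (toB ω).Free c d) = ∏ t, pr (EFree C c d t) := by
    rw [← pr_forall_coord]
    congr 1
    funext ω
    exact propext (free_iff ω c d)
  rw [h1]
  have hr0 : 0 < r := by linarith
  have h2 : 0 ≤ 1 - 2 / r := by
    have : 2 / r ≤ 1 := by rw [div_le_one hr0]; exact hr
    linarith
  calc (1 - 2 / r) ^ (2 * (Fintype.card K + 1))
      = ∏ _t : Dir K × Fin 2, (1 - 2 / r) := by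
        simp [Finset.prod_const, Finset.card_univ, Fintype.card_prod]
        ring_nf
    _ ≤ ∏ t, pr (EFree C c d t) := by
        apply Finset.prod_le_prod
        · intro t _; exact h2
        · intro t _; exact pr_EFree_ge C hc hd t hr0 (hS t)

/-! ### Bounded differences -/

/-- The direction of a line through `c` is determined by another point. -/
theorem dir_eq_of_on {c p : Pt K} {d : Dir K} (hne : p ≠ c) (h : On p (lineThru c d)) :
    d = dirOf c p := by
  have h1 := eq_line2 (p := c) (p' := p) (Ne.symm hne) (on_lineThru c d) h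
  have h2 := congrArg Prod.fst h1
  simp only [lineThru_fst, line2] at h2
  exact h2.symm

/-- The filter counted in layer 1. -/
noncomputable def freeSet {C : UData K} (x : Dir K) (c : Pt K) (e : Fin 2) (l : Fin 10) (ω : OmB C) :
    Finset (Dir K) :=
  univ.filter (fun d => cls d = (e, l) ∧ d ≠ x ∧ (toB ω).Free c d)

theorem freeSet_card_le {C : UData K} (x : Dir K) (c : Pt K) (e : Fin 2) (l : Fin 10) (ω : OmB C)
    (t : Dir K × Fin 2) (a : OmB1 C t) :
    (freeSet x c e l ω).card ≤ (freeSet x c e l (Function.update ω t a)).card + 2 := by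
  classical
  have hsub : freeSet x c e l ω ⊆
      freeSet x c e l (Function.update ω t a) ∪ {dirOf c a.1.1, dirOf c a.1.2} := by
    intro d hd
    simp only [freeSet, mem_filter, mem_univ, true_and] at hd
    simp only [freeSet, mem_union, mem_filter, mem_univ, true_and, mem_insert, mem_singleton]
    by_cases hfree : (toB (Function.update ω t a)).Free c d
    · exact Or.inl ⟨hd.1, hd.2.1, hfree⟩
    · right
      rw [free_iff] at hfree
      push Not at hfree
      obtain ⟨t', ht'⟩ := hfree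
      have hfreeω := (free_iff ω c d).mp hd.2.2
      by_cases htt : t' = t
      · subst htt
        rw [Function.update_self] at ht'
        simp only [EFree, not_and_or, Classical.not_imp, not_not] at ht'
        rcases ht' with h | h
        · exact Or.inl (dir_eq_of_on h.1 h.2)
        · exact Or.inr (dir_eq_of_on h.1 h.2)
      · rw [Function.update_of_ne htt] at ht'
        exact absurd (hfreeω t') ht'
  have h1 := card_le_card hsub
  refine h1.trans ((card_union_le _ _).trans ?_)
  have h2 : ({dirOf c a.1.1, dirOf c a.1.2} : Finset (Dir K)).card ≤ 2 := card_le_two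
  omega

theorem freeSet_lip {C : UData K} (x : Dir K) (c : Pt K) (e : Fin 2) (l : Fin 10) (ω : OmB C)
    (t : Dir K × Fin 2) (a : OmB1 C t) :
    |((freeSet x c e l (Function.update ω t a)).card : ℝ) - ((freeSet x c e l ω).card : ℝ)| ≤ 2 := by
  have h1 := freeSet_card_le x c e l ω t a
  have h2 := freeSet_card_le x c e l (Function.update ω t a) t (ω t)
  rw [Function.update_idem, Function.update_eq_self] at h2
  have h1' : ((freeSet x c e l ω).card : ℝ) ≤ ((freeSet x c e l (Function.update ω t a)).card : ℝ) + 2 := by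
    exact_mod_cast h1
  have h2' : ((freeSet x c e l (Function.update ω t a)).card : ℝ) ≤ ((freeSet x c e l ω).card : ℝ) + 2 := by
    exact_mod_cast h2
  rw [abs_le]
  constructor <;> linarith

/-- Average of the count. -/
theorem avg_freeSet {C : UData K} (x : Dir K) (c : Pt K) (e : Fin 2) (l : Fin 10) :
    avg (fun ω : OmB C => ((freeSet x c e l ω).card : ℝ)) =
      ∑ d ∈ univ.filter (fun d : Dir K => cls d = (e, l) ∧ d ≠ x),
        pr (fun ω : OmB C => (toB ω).Free c d) := by
  classical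
  have h : ∀ ω : OmB C, ((freeSet x c e l ω).card : ℝ) =
      ∑ d ∈ univ.filter (fun d : Dir K => cls d = (e, l) ∧ d ≠ x),
        (if (toB ω).Free c d then (1 : ℝ) else 0) := by
    intro ω
    rw [Finset.sum_boole, filter_filter]
    congr 2
    unfold freeSet
    apply filter_congr
    intro d _
    tauto
  simp_rw [h]
  simp only [pr_eq_avg]
  unfold avg
  rw [Finset.sum_comm, Finset.sum_div]

/-! ### Numerics -/

theorem exp_neg_le_one_sub (u : ℝ) (hu1 : u < 1) : Real.exp (-(u / (1 - u))) ≤ 1 - u := by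
  have h1 : 0 < 1 - u := by linarith
  have h3 := Real.add_one_le_exp (u / (1 - u))
  have h2 : u / (1 - u) + 1 = 1 / (1 - u) := by field_simp; ring
  rw [h2] at h3
  rw [Real.exp_neg, inv_le_comm₀ (Real.exp_pos _) h1]
  rwa [one_div] at h3

theorem exp_neg_pow_le_one_sub_pow (u : ℝ) (hu1 : u < 1) (n : ℕ) :
    Real.exp (-(u / (1 - u)) * n) ≤ (1 - u) ^ n := by
  have h : Real.exp (-(u / (1 - u)) * n) = Real.exp (-(u / (1 - u))) ^ n := by
    rw [← Real.exp_nat_mul]; congr 1; ring
  rw [h]
  exact pow_le_pow_left₀ (Real.exp_pos _).le (exp_neg_le_one_sub u hu1) n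

/-- `(1 - 2/q)^q ≥ 2 exp(-3)` for `q ≥ 16`. -/
theorem delta0_ge' (hq : 16 ≤ Fintype.card K) : 2 * Real.exp (-3) ≤ delta0 K := by
  have hq' : (16 : ℝ) ≤ (Fintype.card K : ℝ) := by exact_mod_cast hq
  have hqpos : (0 : ℝ) < (Fintype.card K : ℝ) := by linarith
  set Q : ℝ := (Fintype.card K : ℝ) with hQ
  have hu : 2 / Q < 1 := by rw [div_lt_one hqpos]; linarith
  have h1 := exp_neg_pow_le_one_sub_pow (2 / Q) hu (Fintype.card K)
  unfold delta0
  refine le_trans ?_ h1
  have h2 : (2 / Q) / (1 - 2 / Q) = 2 / (Q - 2) := by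
    have : Q - 2 ≠ 0 := by linarith
    field_simp
  rw [h2, ← hQ]
  have h3 : 2 / (Q - 2) * Q ≤ 2.3 := by
    have : 0 < Q - 2 := by linarith
    rw [div_mul_eq_mul_div, div_le_iff₀ this]
    linarith
  have hlog : Real.log 2 < 0.7 := by
    have := Real.log_two_lt_d9
    linarith
  have h4 : 2 * Real.exp (-3) = Real.exp (Real.log 2 + -3) := by
    rw [Real.exp_add, Real.exp_log (by norm_num)]
  rw [h4]
  apply Real.exp_le_exp.mpr
  have : -(2 / (Q - 2)) * Q = -(2 / (Q - 2) * Q) := by ring
  rw [this]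
  norm_num at h3 hlog ⊢
  linarith

/-- `q^(2/3) + 1 ≤ q / A` for large `q`. -/
theorem rpow_aux {A Q : ℝ} (hA : 1 ≤ A) (hQ : (2 * A) ^ 3 ≤ Q) :
    Q ^ ((2 : ℝ) / 3) + 1 ≤ Q / A := by
  have hApos : 0 < A := by linarith
  have hQpos : 0 < Q := lt_of_lt_of_le (by positivity) hQ
  set y := Q ^ ((1 : ℝ) / 3) with hy
  have hypos : 0 < y := Real.rpow_pos_of_pos hQpos _
  have hy3 : y ^ 3 = Q := by
    rw [hy, ← Real.rpow_natCast, ← Real.rpow_mul hQpos.le]
    norm_num
  have hy2 : Q ^ ((2 : ℝ) / 3) = y ^ 2 := by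
    rw [hy, ← Real.rpow_natCast, ← Real.rpow_mul hQpos.le]
    norm_num
  have hyA : 2 * A ≤ y := by
    by_contra hlt
    push Not at hlt
    have := pow_lt_pow_left₀ hlt hypos.le (by norm_num : 3 ≠ 0)
    rw [hy3] at this
    linarith
  rw [hy2, le_div_iff₀ hApos, ← hy3]
  have hy1 : 1 ≤ y := by linarith
  have h1 : 1 ≤ y ^ 2 := one_le_pow₀ hy1
  have h2 : (y ^ 2 + y ^ 2) * A ≤ y ^ 3 := by
    have : y ^ 3 = y ^ 2 * y := by ring
    rw [this]
    nlinarith [sq_nonneg y]
  have h3 : (y ^ 2 + 1) * A ≤ (y ^ 2 + y ^ 2) * A :=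
    mul_le_mul_of_nonneg_right (by linarith) hApos.le
  linarith

theorem exists_large_exp {a : ℝ} (ha : 0 < a) :
    ∃ q₁ : ℕ, ∀ n : ℕ, q₁ ≤ n → 80 * (n : ℝ) ^ 3 < Real.exp (a * n) := by
  have h := isLittleO_pow_exp_pos_mul_atTop (k := 3) (b := a) ha
  have h2 := h.bound (show (0 : ℝ) < 1 / 160 by norm_num)
  rw [Filter.eventually_atTop] at h2
  obtain ⟨x₀, hx₀⟩ := h2
  refine ⟨⌈x₀⌉₊, fun n hn => ?_⟩
  have h3 := hx₀ n (Nat.ceil_le.mp hn)
  have h4 : ‖((n : ℝ)) ^ 3‖ = (n : ℝ) ^ 3 := by
    rw [Real.norm_eq_abs, abs_of_nonneg (by positivity)]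
  rw [h4, Real.norm_eq_abs, abs_of_pos (Real.exp_pos _)] at h3
  have := Real.exp_pos (a * n)
  linarith

/-! ### The main theorem -/

theorem layer1 :
    ∃ q₀ : ℕ, ∀ (K : Type) [Field K] [Fintype K] [DecidableEq K], q₀ ≤ Fintype.card K →
      ∀ C : UData K, (∀ ℓ, |((Surv0 C ℓ).card : ℝ) - Fintype.card K * delta0 K|
          ≤ (Fintype.card K : ℝ) ^ ((2 : ℝ) / 3)) →
        ∃ B : BData C, P1 B := by
  set A : ℝ := Real.exp 3 with hAdef
  have hA1 : 1 ≤ A := by
    rw [hAdef]; exact Real.one_le_exp (by norm_num)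
  have hApos : 0 < A := by linarith
  set a : ℝ := phi1 ^ 2 / 32 with hadef
  have ha : 0 < a := by have := phi1_pos; positivity
  obtain ⟨q₁, hq₁⟩ := exists_large_exp ha
  obtain ⟨q₂, hq₂⟩ : ∃ q₂ : ℕ, (2 * A) ^ 3 + 10 * A + 200 ≤ (q₂ : ℝ) := exists_nat_ge _
  refine ⟨q₁ + q₂, ?_⟩
  intro K _ _ _ hq C hsurv
  have hq1 : q₁ ≤ Fintype.card K := by omega
  have hq2 : (q₂ : ℝ) ≤ (Fintype.card K : ℝ) := by
    have : q₂ ≤ Fintype.card K := by omega
    exact_mod_cast this
  set Q : ℝ := (Fintype.card K : ℝ) with hQ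
  have hA3 : 0 ≤ (2 * A) ^ 3 := by positivity
  have hQ200 : 200 ≤ Q := by nlinarith
  have hQpos : 0 < Q := by linarith
  have hq16 : 16 ≤ Fintype.card K := by
    have : (16 : ℝ) ≤ (Fintype.card K : ℝ) := by linarith
    exact_mod_cast this
  have hδ : 2 * Real.exp (-3) ≤ delta0 K := delta0_ge' hq16
  set r : ℝ := Q / A with hr
  have hA3' : (2 * A) ^ 3 ≤ Q := by nlinarith
  have hrp := rpow_aux hA1 hA3'
  -- every `Surv0` is large
  have hS : ∀ ℓ : Ln K, r ≤ ((Surv0 C ℓ).card : ℝ) - 1 := by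
    intro ℓ
    have h1 := (abs_le.mp (hsurv ℓ)).1
    have h2 : Q * (2 * Real.exp (-3)) ≤ Q * delta0 K :=
      mul_le_mul_of_nonneg_left hδ hQpos.le
    have h3 : Real.exp (-3) = 1 / A := by
      rw [Real.exp_neg, hAdef, one_div]
    rw [h3] at h2
    have h4 : Q * (2 * (1 / A)) = 2 * r := by rw [hr]; ring
    rw [h4] at h2
    linarith
  have hrpos : 0 < r := by rw [hr]; positivity
  have hr2 : 2 ≤ r := by
    rw [hr, le_div_iff₀ hApos]
    nlinarith
  have hr2' : 2 < r := by
    rw [hr, lt_div_iff₀ hApos]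
    nlinarith
  have hcardS : ∀ t : Dir K × Fin 2, (2 : ℝ) < ((Surv0 C (C.line t.1 t.2)).card : ℝ) := by
    intro t
    have := hS (C.line t.1 t.2)
    linarith
  haveI hne : ∀ t, Nonempty (OmB1 C t) := by
    intro t
    have h2 : 1 < (Surv0 C (C.line t.1 t.2)).card := by
      have := hcardS t
      have h3 : (1 : ℝ) < ((Surv0 C (C.line t.1 t.2)).card : ℝ) := by linarith
      exact_mod_cast h3
    obtain ⟨p, hp, p', hp', hne⟩ := Finset.one_lt_card.mp h2
    exact ⟨⟨(p, p'), mem_offDiag.mpr ⟨hp, hp', hne⟩⟩⟩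
  haveI : Nonempty (OmB C) := ⟨fun t => (hne t).some⟩
  -- the probability of a free direction
  have hfree : ∀ (x : Dir K) (i : Fin 2) (c : Pt K), c ∈ Surv0 C (C.line x i) → ∀ d, d ≠ x →
      Real.exp (-5 * A) ≤ pr (fun ω : OmB C => (toB ω).Free c d) := by
    intro x i c hc d hd
    refine le_trans ?_ (pr_free_ge C hc hd hr2 (fun t => hS _))
    have hu : 2 / r < 1 := by rw [div_lt_one hrpos]; exact hr2'
    have h1 := exp_neg_pow_le_one_sub_pow (2 / r) hu (2 * (Fintype.card K + 1))
    refine le_trans ?_ h1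
    apply Real.exp_le_exp.mpr
    have hv : (2 / r) / (1 - 2 / r) = 2 * A / (Q - 2 * A) := by
      have hne1 : Q - 2 * A ≠ 0 := by nlinarith
      have hne2 : r - 2 ≠ 0 := by linarith
      have h5 : (2 / r) / (1 - 2 / r) = 2 / (r - 2) := by
        field_simp
      rw [h5, hr]
      field_simp
    rw [hv]
    push_cast
    rw [← hQ]
    have hden : 0 < Q - 2 * A := by nlinarith
    have : 2 * A / (Q - 2 * A) * (2 * (Q + 1)) ≤ 5 * A := by
      rw [div_mul_eq_mul_div, div_le_iff₀ hden]
      nlinarith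
    nlinarith
  -- the average count
  set t₀ : ℝ := phi1 * Q with ht₀
  have ht₀pos : 0 < t₀ := by have := phi1_pos; positivity
  have havg : ∀ (x : Dir K) (i : Fin 2) (c : Pt K) (e : Fin 2) (l : Fin 10),
      c ∈ Surv0 C (C.line x i) →
      phi1 * Q ≤ avg (fun ω : OmB C => ((freeSet x c e l ω).card : ℝ)) - t₀ := by
    intro x i c e l hc
    rw [avg_freeSet]
    set D := univ.filter (fun d : Dir K => cls d = (e, l) ∧ d ≠ x) with hD
    have h1 : (D.card : ℝ) * Real.exp (-5 * A) ≤
        ∑ d ∈ D, pr (fun ω : OmB C => (toB ω).Free c d) := by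
      rw [← nsmul_eq_mul]
      apply Finset.card_nsmul_le_sum
      intro d hd
      simp only [hD, mem_filter, mem_univ, true_and] at hd
      exact hfree x i c hc d hd.2
    have h2 : (Fintype.card K + 1) / 20 ≤ D.card + 1 := by
      have h3 := card_cls_ge (K := K) (e, l)
      have h4 : (univ.filter (fun d : Dir K => cls d = (e, l))) ⊆ insert x D := by
        intro d hd
        simp only [mem_filter, mem_univ, true_and] at hd
        simp only [mem_insert, hD, mem_filter, mem_univ, true_and]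
        by_cases hdx : d = x
        · exact Or.inl hdx
        · exact Or.inr ⟨hd, hdx⟩
      have h5 := (card_le_card h4).trans (card_insert_le _ _)
      omega
    have h3 : Fintype.card K ≤ 20 * D.card + 38 := by omega
    have h3' : Q ≤ 20 * (D.card : ℝ) + 38 := by
      rw [hQ]; exact_mod_cast h3
    have h4 : Real.exp (-5 * A) = 50 * phi1 := by
      unfold phi1; rw [hAdef]; ring
    rw [h4] at h1
    have hφ := phi1_pos
    rw [ht₀]
    nlinarith [mul_le_mul_of_nonneg_left h3' hφ.le]
  -- McDiarmid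
  have hmc : ∀ (x : Dir K) (c : Pt K) (e : Fin 2) (l : Fin 10),
      pr (fun ω : OmB C => ((freeSet x c e l ω).card : ℝ) ≤
        avg (fun ω : OmB C => ((freeSet x c e l ω).card : ℝ)) - t₀) ≤ Real.exp (-(a * Q)) := by
    intro x c e l
    have h1 := mcdiarmid_lower (fun ω : OmB C => ((freeSet x c e l ω).card : ℝ))
      (fun _ => (2 : ℝ)) (fun ω i b => freeSet_lip x c e l ω i b) ht₀pos
    refine h1.trans ?_
    apply Real.exp_le_exp.mpr
    have h2 : ∑ _t : Dir K × Fin 2, (2 : ℝ) ^ 2 = 8 * (Q + 1) := by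
      simp only [Finset.sum_const, Finset.card_univ, Fintype.card_prod, Fintype.card_option,
        Fintype.card_fin, nsmul_eq_mul]
      push_cast
      rw [← hQ]
      ring
    rw [h2, ht₀, hadef]
    have hφ := phi1_pos
    rw [neg_div, neg_le_neg_iff, le_div_iff₀ (by positivity)]
    have : phi1 ^ 2 / 32 * Q * (2 * (8 * (Q + 1))) = phi1 ^ 2 * Q * (Q + 1) / 2 := by ring
    rw [this, mul_pow]
    have hQ1 : Q + 1 ≤ 2 * Q := by linarith
    have h5 : 0 ≤ phi1 ^ 2 * Q := by positivity
    have := mul_le_mul_of_nonneg_left hQ1 h5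
    linarith
  -- union bound
  have hunion : pr (fun ω : OmB C => ∃ j ∈ (univ : Finset (Dir K × Pt K × Fin 2 × Fin 10)),
      ((freeSet j.1 j.2.1 j.2.2.1 j.2.2.2 ω).card : ℝ) ≤
        avg (fun ω : OmB C => ((freeSet j.1 j.2.1 j.2.2.1 j.2.2.2 ω).card : ℝ)) - t₀) < 1 := by
    refine lt_of_le_of_lt (pr_exists_le _ _) ?_
    have h1 : ∑ j ∈ (univ : Finset (Dir K × Pt K × Fin 2 × Fin 10)),
        pr (fun ω : OmB C => ((freeSet j.1 j.2.1 j.2.2.1 j.2.2.2 ω).card : ℝ) ≤
          avg (fun ω : OmB C => ((freeSet j.1 j.2.1 j.2.2.1 j.2.2.2 ω).card : ℝ)) - t₀)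
        ≤ ∑ _j ∈ (univ : Finset (Dir K × Pt K × Fin 2 × Fin 10)), Real.exp (-(a * Q)) :=
      Finset.sum_le_sum (fun j _ => hmc j.1 j.2.1 j.2.2.1 j.2.2.2)
    refine lt_of_le_of_lt h1 ?_
    simp only [Finset.sum_const, Finset.card_univ, Fintype.card_prod, Fintype.card_option,
      Fintype.card_fin, nsmul_eq_mul]
    push_cast
    rw [← hQ, Real.exp_neg, ← div_eq_mul_inv, div_lt_one (Real.exp_pos _)]
    have h2 := hq₁ _ hq1
    rw [← hQ] at h2
    have h3 : (Q + 1) * (Q * Q * (2 * 10)) ≤ 80 * Q ^ 3 := by nlinarith [sq_nonneg Q, pow_pos hQpos 3]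
    linarith
  obtain ⟨ω, hω⟩ := exists_of_pr_lt_one _ hunion
  refine ⟨toB ω, ?_⟩
  intro x i e l
  have hc : (toB ω).base x i e ∈ Surv0 C (C.line x i) := (toB ω).base_mem x i e
  have h1 := havg x i _ e l hc
  push Not at hω
  have h2 := hω (x, (toB ω).base x i e, e, l) (mem_univ _)
  have h3 : (toB ω).dom x i e l = freeSet x ((toB ω).base x i e) e l ω := rfl
  rw [h3]
  linarith

end Crest.Agent.Ryser
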