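import Crest.Agent.Ryser.Layer2Model

/-!
# Layer 2: abstract properties: `P2.p1`, `P2.kill`, `P2.moment`, `P2.dirMoment`, `wt_bounds`.

Model: `ι = VIdx K`, `Ω v = DomV B v`, `H v a = {lineThru (base v) a}`.  Key lemma: a line is produced by at most one `v`
(Free: its unique base; bases determine `(x,i,e)`; `cls` of the direction determines `(e,l)`), with probability `≤ 1/|dom v| ≤ 1/(phi1 q)`.
A point `p` that is not the base of `v` is hit with probability `pv v p ≤ 1/(phi1 q)`.
-/

set_option autoImplicit false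
set_option linter.unusedSectionVars false
set_option linter.unusedVariables false

namespace Crest.Agent.Ryser

open Finset

section aux
variable {K : Type} [Field K] [Fintype K] [DecidableEq K]

local notation "q" => Fintype.card K

theorem l2b_base_on_U {C : UData K} (B : BData C) (x : Dir K) (i e : Fin 2) :
    On (B.base x i e) (C.line x i) := by
  have h := B.base_mem x i e
  unfold Surv0 at h
  rw [mem_filter] at h
  have h1 := h.1
  simpa [linePts] using h1

theorem base_not_on_U {C : UData K} (B : BData C) (x : Dir K) (i e : Fin 2) (y : Dir K) (i' : Fin 2)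
    (hy : y ≠ x) : ¬ On (B.base x i e) (C.line y i') := by
  have h := B.base_mem x i e
  unfold Surv0 at h
  rw [mem_filter] at h
  exact h.2 y hy i'

theorem l2b_base_inj {C : UData K} (B : BData C) {x x' : Dir K} {i i' e e' : Fin 2}
    (h : B.base x i e = B.base x' i' e') : x = x' ∧ i = i' ∧ e = e' := by
  have hx : x = x' := by
    by_contra hne
    have h1 := l2b_base_on_U B x' i' e'
    rw [← h] at h1
    exact base_not_on_U B x i e x' i' (Ne.symm hne) h1
  subst hx
  have hi : i = i' := by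
    by_contra hne
    have h1 := l2b_base_on_U B x i e
    have h2 := l2b_base_on_U B x i' e'
    rw [← h] at h2
    have h3 : C.line x i = C.line x i' := eq_of_on_of_dir_eq h1 h2 rfl
    have h4 : C.off x i = C.off x i' := by
      simpa [UData.line] using h3
    have h5 := C.off_ne x
    fin_cases i <;> fin_cases i' <;> simp_all
  subst hi
  refine ⟨rfl, rfl, ?_⟩
  by_contra hne
  have h5 := B.base_ne x i
  fin_cases e <;> fin_cases e' <;> simp_all

/-- The base of an index. -/
abbrev baseV {C : UData K} (B : BData C) (v : VIdx K) : Pt K := B.base v.1 v.2.1 v.2.2.1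

/-- The lines produced by an index. -/
def layerH {C : UData K} (B : BData C) (v : VIdx K) (a : DomV B v) : Finset (Ln K) :=
  {lineThru (baseV B v) a.1}

theorem baseV_mem_all {C : UData K} (B : BData C) (v : VIdx K) : baseV B v ∈ B.all := by
  unfold BData.all
  rw [mem_image]
  exact ⟨(v.1, v.2.1, v.2.2.1), mem_univ _, rfl⟩

/-- A line is produced by at most one index. -/
theorem producer_unique {C : UData K} (B : BData C) {v v' : VIdx K} (a : DomV B v) (a' : DomV B v')
    (h : lineThru (baseV B v) a.1 = lineThru (baseV B v') a'.1) : v = v' := by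
  have hdir : a.1 = a'.1 := by
    have := congrArg Prod.fst h
    simpa using this
  have hbase : baseV B v = baseV B v' := by
    by_contra hne
    have ha := a.2
    unfold BData.dom at ha
    rw [mem_filter] at ha
    have hfree := ha.2.2.2
    have hon : On (baseV B v') (lineThru (baseV B v) a.1) := by
      rw [h]; exact on_lineThru _ _
    exact hfree _ (baseV_mem_all B v') (Ne.symm hne) hon
  obtain ⟨hx, hi, he⟩ := l2b_base_inj B hbase
  have hl : v.2.2.2 = v'.2.2.2 := by
    have ha := a.2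
    have ha' := a'.2
    unfold BData.dom at ha ha'
    rw [mem_filter] at ha ha'
    have h1 := ha.2.1
    have h2 := ha'.2.1
    rw [← hdir, h1] at h2
    exact (Prod.ext_iff.mp h2).2
  rcases v with ⟨x, i, e, l⟩
  rcases v' with ⟨x', i', e', l'⟩
  simp only at hx hi he hl
  subst hx hi he hl
  rfl

theorem pr_le_of_unique {α : Type} [Fintype α] (P : α → Prop) (h : ∀ a b, P a → P b → a = b) :
    pr P ≤ 1 / Fintype.card α := by
  classical
  rw [pr_eq_filter]
  apply div_le_div_of_nonneg_right _ (by positivity)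
  have : (univ.filter P).card ≤ 1 := by
    rw [Finset.card_le_one]
    intro a ha b hb
    exact h a b (mem_filter.mp ha).2 (mem_filter.mp hb).2
  exact_mod_cast this

theorem card_domV_lower {C : UData K} {B : BData C} (hB : P1 B) (v : VIdx K) :
    phi1 * q ≤ (Fintype.card (DomV B v) : ℝ) := by
  have h := hB v.1 v.2.1 v.2.2.1 v.2.2.2
  have h2 : Fintype.card (DomV B v) = (B.dom v.1 v.2.1 v.2.2.1 v.2.2.2).card := by
    simp [DomV]
  rw [h2]
  exact h

theorem nonempty_domV {C : UData K} {B : BData C} (hB : P1 B) (hq : 1 ≤ q) (v : VIdx K) :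
    Nonempty (DomV B v) := by
  have h := card_domV_lower hB v
  have hq' : (0 : ℝ) < q := by exact_mod_cast hq
  have hp : 0 < phi1 * (q : ℝ) := mul_pos phi1_pos hq'
  have h3 : (0 : ℝ) < (Fintype.card (DomV B v) : ℝ) := lt_of_lt_of_le hp h
  have h4 : 0 < Fintype.card (DomV B v) := by exact_mod_cast h3
  exact Fintype.card_pos_iff.mp h4

theorem BA_pos : 0 < BA := by unfold BA; exact div_pos one_pos phi1_pos

/-- At most one element of `Ω v` gives probability at most `1/(phi1 q)`. -/
theorem pr_le_BA {C : UData K} {B : BData C} (hB : P1 B) (hq : 1 ≤ q) (v : VIdx K)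
    (P : DomV B v → Prop) (h : ∀ a b, P a → P b → a = b) : pr P ≤ BA / q := by
  have hq' : (0 : ℝ) < q := by exact_mod_cast hq
  have h1 := pr_le_of_unique P h
  have h2 := card_domV_lower hB v
  have hp : 0 < phi1 * (q : ℝ) := mul_pos phi1_pos hq'
  refine h1.trans ?_
  unfold BA
  rw [div_div]
  exact one_div_le_one_div_of_le hp h2

theorem line_hm {C : UData K} {B : BData C} (hB : P1 B) (hq : 1 ≤ q) (m : Ln K) :
    ∑ v, pr (fun a : DomV B v => m ∈ layerH B v a) ≤ BA / q := by
  classical
  have hq' : (0 : ℝ) < q := by exact_mod_cast hq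
  have hpos : 0 ≤ BA / (q : ℝ) := div_nonneg BA_pos.le hq'.le
  have hone : ∀ v, pr (fun a : DomV B v => m ∈ layerH B v a) ≤ BA / q := by
    intro v
    apply pr_le_BA hB hq
    intro a b ha hb
    simp only [layerH, mem_singleton] at ha hb
    have h3 : a.1 = b.1 := by
      have h4 := congrArg Prod.fst (ha.symm.trans hb)
      simpa using h4
    exact Subtype.ext h3
  by_cases hex : ∃ v, ∃ a : DomV B v, m ∈ layerH B v a
  · obtain ⟨v₀, a₀, h₀⟩ := hex
    rw [Finset.sum_eq_single v₀]
    · exact hone v₀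
    · intro v _ hne
      have : (univ.filter (fun a : DomV B v => m ∈ layerH B v a)) = ∅ := by
        ext a
        simp only [mem_filter, mem_univ, true_and, notMem_empty, iff_false]
        intro ha
        apply hne
        simp only [layerH, mem_singleton] at ha h₀
        exact producer_unique B a a₀ (ha.symm.trans h₀)
      rw [pr_eq_filter, this]
      simp
    · intro h; exact absurd (mem_univ _) h
  · have : ∀ v, pr (fun a : DomV B v => m ∈ layerH B v a) = 0 := by
      intro v
      have h1 : (univ.filter (fun a : DomV B v => m ∈ layerH B v a)) = ∅ := by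
        ext a
        simp only [mem_filter, mem_univ, true_and, notMem_empty, iff_false]
        intro ha
        exact hex ⟨v, a, ha⟩
      rw [pr_eq_filter, h1]
      simp
    simp only [this, Finset.sum_const_zero]
    exact hpos

/-- A point which is not the base is hit with small probability. -/
theorem point_pr {C : UData K} {B : BData C} (hB : P1 B) (hq : 1 ≤ q) (v : VIdx K) (p : Pt K)
    (hp : p ≠ baseV B v) :
    pr (fun a : DomV B v => On p (lineThru (baseV B v) a.1)) ≤ BA / q := by
  apply pr_le_BA hB hq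
  intro a b ha hb
  have h := line_unique hp ha (on_lineThru _ _) hb (on_lineThru _ _)
  have h3 : a.1 = b.1 := by
    have h4 := congrArg Prod.fst h
    simpa using h4
  exact Subtype.ext h3

theorem card_VIdx : Fintype.card (VIdx K) = (q + 1) * 40 := by
  simp [VIdx, Fintype.card_prod, Fintype.card_option]

theorem phi1_le : phi1 ≤ 1 / 50 := by
  unfold phi1
  have : Real.exp (-5 * Real.exp 3) ≤ 1 := by
    apply Real.exp_le_one_iff.mpr
    have := Real.exp_pos 3
    linarith
  linarith

/-- The number of indices with a given base is at most `10`. -/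
theorem card_base_eq_le {C : UData K} (B : BData C) (p : Pt K) :
    (univ.filter (fun v : VIdx K => p = baseV B v)).card ≤ 10 := by
  classical
  by_cases hex : ∃ v : VIdx K, p = baseV B v
  · obtain ⟨v₀, h₀⟩ := hex
    have hsub : (univ.filter (fun v : VIdx K => p = baseV B v)) ⊆
        (univ : Finset (Fin 10)).image (fun l => ((v₀.1, v₀.2.1, v₀.2.2.1, l) : VIdx K)) := by
      intro v hv
      rw [mem_filter] at hv
      rw [mem_image]
      refine ⟨v.2.2.2, mem_univ _, ?_⟩
      obtain ⟨h1, h2, h3⟩ := l2b_base_inj B (h₀.symm.trans hv.2)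
      rcases v with ⟨x, i, e, l⟩
      simp only at h1 h2 h3
      simp [h1, h2, h3]
    calc _ ≤ _ := card_le_card hsub
      _ ≤ (univ : Finset (Fin 10)).card := card_image_le
      _ = 10 := by simp
  · have : (univ.filter (fun v : VIdx K => p = baseV B v)) = ∅ := by
      ext v
      simp only [mem_filter, mem_univ, true_and, notMem_empty, iff_false]
      intro h
      exact hex ⟨v, h⟩
    rw [this]
    simp

/-- Sum bound for the count of holes through a point. -/
theorem sum_point_pr {C : UData K} {B : BData C} (hB : P1 B) (hq : 40 ≤ q) (p : Pt K) :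
    ∑ v, pr (fun a : DomV B v => On p (lineThru (baseV B v) a.1)) ≤ 50 / phi1 := by
  classical
  have hq1 : 1 ≤ q := by omega
  have hq' : (40 : ℝ) ≤ q := by exact_mod_cast hq
  have hq0 : (0 : ℝ) < q := by linarith
  have hphi := phi1_pos
  have h1 : ∀ v : VIdx K, pr (fun a : DomV B v => On p (lineThru (baseV B v) a.1)) ≤
      (if p = baseV B v then 1 else 0) + BA / q := by
    intro v
    have hBA : 0 ≤ BA / (q : ℝ) := div_nonneg BA_pos.le hq0.le
    by_cases hb : p = baseV B v
    · simp only [hb, if_true]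
      have := pr_le_one (fun a : DomV B v => On (baseV B v) (lineThru (baseV B v) a.1))
      linarith
    · simp only [hb, if_false, zero_add]
      exact point_pr hB hq1 v p hb
  have h2 := Finset.sum_le_sum (fun v (_ : v ∈ (univ : Finset (VIdx K))) => h1 v)
  refine h2.trans ?_
  rw [Finset.sum_add_distrib, Finset.sum_const, Finset.card_univ, card_VIdx]
  rw [Finset.sum_boole]
  have h3 : (((univ.filter (fun v : VIdx K => p = baseV B v)).card : ℕ) : ℝ) ≤ 10 := by
    exact_mod_cast card_base_eq_le B p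
  have h4 : ((q + 1) * 40) • (BA / (q : ℝ)) ≤ 41 / phi1 := by
    rw [nsmul_eq_mul]
    unfold BA
    push_cast
    rw [div_div, mul_comm phi1 (q : ℝ), ← div_div]
    rw [← mul_div_assoc]
    apply div_le_div_of_nonneg_right _ hphi.le
    rw [mul_one_div, div_le_iff₀ hq0]
    nlinarith
  have h5 : 10 ≤ 9 / phi1 := by
    have hle := phi1_le
    rw [le_div_iff₀ hphi]
    linarith
  have h6 : 50 / phi1 = 41 / phi1 + 9 / phi1 := by ring
  rw [h6]
  linarith

/-- Sum bound for the count of holes of a given direction. -/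
theorem sum_dir_pr {C : UData K} {B : BData C} (hB : P1 B) (hq : 40 ≤ q) (d : Dir K) :
    ∑ v, pr (fun a : DomV B v => a.1 = d) ≤ 50 / phi1 := by
  classical
  have hq1 : 1 ≤ q := by omega
  have hq' : (40 : ℝ) ≤ q := by exact_mod_cast hq
  have hq0 : (0 : ℝ) < q := by linarith
  have hphi := phi1_pos
  have h1 : ∀ v : VIdx K, pr (fun a : DomV B v => a.1 = d) ≤ BA / q := by
    intro v
    apply pr_le_BA hB hq1
    intro a b ha hb
    exact Subtype.ext (ha.trans hb.symm)
  have h2 := Finset.sum_le_sum (fun v (_ : v ∈ (univ : Finset (VIdx K))) => h1 v)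
  refine h2.trans ?_
  rw [Finset.sum_const, Finset.card_univ, card_VIdx]
  rw [nsmul_eq_mul]
  unfold BA
  push_cast
  rw [div_div, mul_comm phi1 (q : ℝ), ← div_div]
  rw [← mul_div_assoc]
  apply div_le_div_of_nonneg_right _ hphi.le
  rw [mul_one_div, div_le_iff₀ hq0]
  nlinarith

theorem avg_sum' {α β : Type} [Fintype α] (s : Finset β) (f : β → α → ℝ) :
    avg (fun a => ∑ b ∈ s, f b a) = ∑ b ∈ s, avg (f b) := by
  unfold avg
  rw [← Finset.sum_div]
  congr 1
  rw [Finset.sum_comm]

theorem countE_eq_card {ι : Type} [Fintype ι] [DecidableEq ι] {Ω : ι → Type} [∀ i, Fintype (Ω i)]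
    (E : ∀ i, Ω i → Prop) (ω : ∀ i, Ω i) (s : Finset ι) (h : ∀ i, i ∈ s ↔ E i (ω i)) :
    countE E ω = s.card := by
  classical
  unfold countE
  congr 1
  ext i
  simp [h]

theorem five_pow_le (m : ℕ) : (m : ℝ) ^ 5 ≤ 132 * 2 ^ m := by
  by_cases hm : m < 8
  · interval_cases m <;> norm_num
  · push Not at hm
    induction m, hm using Nat.le_induction with
    | base => norm_num
    | succ n hn ih =>
      have hn' : (8 : ℝ) ≤ n := by exact_mod_cast hn
      have h1 : ((n + 1 : ℕ) : ℝ) ^ 5 ≤ 2 * (n : ℝ) ^ 5 := by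
        push_cast
        have hy : (n : ℝ) + 1 ≤ (9 / 8) * n := by linarith
        have h0 : (0 : ℝ) ≤ (n : ℝ) + 1 := by linarith
        calc ((n : ℝ) + 1) ^ 5 ≤ ((9 / 8) * n) ^ 5 := pow_le_pow_left₀ h0 hy 5
          _ = (9 / 8) ^ 5 * (n : ℝ) ^ 5 := by ring
          _ ≤ 2 * (n : ℝ) ^ 5 := by
            apply mul_le_mul_of_nonneg_right _ (by positivity)
            norm_num
      calc ((n + 1 : ℕ) : ℝ) ^ 5 ≤ 2 * (n : ℝ) ^ 5 := h1
        _ ≤ 2 * (132 * 2 ^ n) := by linarith
        _ = 132 * 2 ^ (n + 1) := by ring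

end aux

theorem l2_p1 : ∃ q₀ : ℕ, ∀ (K : Type) [Field K] [Fintype K] [DecidableEq K], q₀ ≤ Fintype.card K →
    ∀ (C : UData K) (B : BData C), P1 B →
    pr (fun ω : OmA B => ¬ ∀ k R : ℕ, NumP1 K BA k R → ∀ K₁ K₂ : Finset (Ln K), K₁.card ≤ k → K₂.card ≤ k →
      (univ.filter (fun v : VIdx K => (toA ω).line v.1 v.2.1 v.2.2.1 v.2.2.2 ∈ spanOf K₁ K₂)).card < R) ≤ 1 / 8 := by
  refine ⟨100, ?_⟩
  intro K _ _ _ hq C B hB
  classical
  have hq1 : 1 ≤ Fintype.card K := by omega
  have : ∀ v : VIdx K, Nonempty (DomV B v) := nonempty_domV hB hq1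
  have hι : Fintype.card (VIdx K) ≤ Fintype.card K ^ 2 := by
    rw [card_VIdx]
    nlinarith
  have h := p1_union (K := K) (ι := VIdx K) (Ω := fun v => DomV B v) (layerH B) hι BA_pos
    (fun m => line_hm hB hq1 m) hq
  refine le_trans (pr_mono ?_) h
  intro ω hω
  push Not at hω
  obtain ⟨k, R, hN, K₁, K₂, h1, h2, h3⟩ := hω
  refine ⟨k, R, hN, K₁, K₂, h1, h2, ?_⟩
  have heq := countE_eq_card (fun v a => (layerH B v a ∩ spanOf K₁ K₂).Nonempty) ω
    (univ.filter (fun v : VIdx K => (toA ω).line v.1 v.2.1 v.2.2.1 v.2.2.2 ∈ spanOf K₁ K₂)) (by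
      intro v
      simp only [mem_filter, mem_univ, true_and, layerH]
      constructor
      · intro h
        refine ⟨lineThru (baseV B v) (ω v).1, ?_⟩
        rw [mem_inter, mem_singleton]
        exact ⟨rfl, h⟩
      · rintro ⟨m, hm⟩
        rw [mem_inter, mem_singleton] at hm
        have h5 : (toA ω).line v.1 v.2.1 v.2.2.1 v.2.2.2 = m := hm.1.symm
        rw [h5]
        exact hm.2)
  rw [heq]
  exact h3

theorem l2_kill (K₀ : ℝ) (C₉ : ℕ) (hK₀ : 0 < K₀) :
    ∃ q₀ : ℕ, ∀ (K : Type) [Field K] [Fintype K] [DecidableEq K], q₀ ≤ Fintype.card K →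
    ∀ (C : UData K) (B : BData C) (YY : Finset (Finset (Pt K))), P1 B → KillShape YY K₀ C₉ →
      (∀ Y ∈ YY, ∀ p ∈ Y, ∀ x i, ¬ On p (C.line x i)) →
    pr (fun ω : OmA B => ¬ ∀ Y ∈ YY, killc 41 BA * Y.card ≤
      ((Y.filter (fun p => ∀ v : VIdx K, ¬ On p ((toA ω).line v.1 v.2.1 v.2.2.1 v.2.2.2))).card : ℝ)) ≤ 1 / 8 := by
  obtain ⟨q₁, hq₁⟩ := kill_union 41 BA 1 K₀ C₉ (by norm_num) BA_pos hK₀
  refine ⟨max q₁ 100, ?_⟩
  intro K _ _ _ hq C B YY hB hshape hY
  classical
  have hq1 : q₁ ≤ Fintype.card K := le_trans (le_max_left _ _) hq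
  have hq2 : 100 ≤ Fintype.card K := le_trans (le_max_right _ _) hq
  have hqpos : 1 ≤ Fintype.card K := by omega
  have : ∀ v : VIdx K, Nonempty (DomV B v) := nonempty_domV hB hqpos
  have h := hq₁ K hq1 (VIdx K) (fun v => DomV B v) (layerH B) YY
    (by
      rw [card_VIdx]
      push_cast
      have : (100 : ℝ) ≤ Fintype.card K := by exact_mod_cast hq2
      nlinarith)
    (by
      intro v a
      simp [layerH])
    (by
      intro Y hYm p hp v
      have hne : p ≠ baseV B v := by
        rintro rfl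
        exact hY Y hYm _ hp v.1 v.2.1 (l2b_base_on_U B _ _ _)
      refine le_trans (pr_mono ?_) (point_pr hB hqpos v p hne)
      rintro a ⟨l, hl, hon⟩
      simp only [layerH, mem_singleton] at hl
      rw [← hl]
      exact hon)
    (fun m => line_hm hB hqpos m)
    hshape
  refine le_trans (pr_mono ?_) h
  intro ω hω
  push Not at hω
  obtain ⟨Y, hYm, hlt⟩ := hω
  refine ⟨Y, hYm, ?_⟩
  have heq : (survivors (layerH B) Y ω).card =
      (Y.filter (fun p => ∀ v : VIdx K, ¬ On p ((toA ω).line v.1 v.2.1 v.2.2.1 v.2.2.2))).card := by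
    congr 1
    ext p
    simp only [survivors, mem_filter, holesAt, mem_biUnion, mem_univ, true_and, layerH, mem_singleton]
    constructor
    · rintro ⟨h0, h⟩
      exact ⟨h0, fun v => h _ ⟨v, rfl⟩⟩
    · rintro ⟨h0, h⟩
      refine ⟨h0, ?_⟩
      rintro l ⟨v, hv⟩
      rw [hv]
      exact h v
  rw [heq]
  exact hlt

theorem l2_moment : ∃ q₀ : ℕ, ∀ (K : Type) [Field K] [Fintype K] [DecidableEq K], q₀ ≤ Fintype.card K →
    ∀ (C : UData K) (B : BData C), P1 B →
    (∑ p, (2 : ℝ) ^ mU C p ≤ 8 * Real.exp 3 * (Fintype.card K : ℝ) ^ 2) →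
    pr (fun ω : OmA B => ¬ ∑ p, (2 : ℝ) ^ (toA ω).mP p ≤ C1mom * (Fintype.card K : ℝ) ^ 2) ≤ 1 / 8 := by
  refine ⟨100, ?_⟩
  intro K _ _ _ hq C B hB hmom
  classical
  have hq40 : 40 ≤ Fintype.card K := by omega
  have hqpos : 1 ≤ Fintype.card K := by omega
  have hq0 : (0 : ℝ) < Fintype.card K := by exact_mod_cast hqpos
  have : ∀ v : VIdx K, Nonempty (DomV B v) := nonempty_domV hB hqpos
  set E : Pt K → ∀ v : VIdx K, DomV B v → Prop :=
    fun p v a => On p (lineThru (baseV B v) a.1) with hE
  have hmP : ∀ (ω : OmA B) p, (2 : ℝ) ^ (toA ω).mP p = 2 ^ mU C p * 2 ^ countE (E p) ω := by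
    intro ω p
    rw [← pow_add]
    congr 1
    unfold AData.mP
    congr 1
    symm
    apply countE_eq_card
    intro v
    simp only [mem_filter, mem_univ, true_and]
    rfl
  have havg : ∀ p, avg (fun ω : OmA B => (2 : ℝ) ^ countE (E p) ω) ≤ Real.exp (50 / phi1) := by
    intro p
    refine (avg_two_pow_countE_le (E p)).trans ?_
    exact Real.exp_le_exp.mpr (sum_point_pr hB hq40 p)
  have hexp := Real.exp_pos (50 / phi1)
  have hexp3 := Real.exp_pos 3
  have htotal : avg (fun ω : OmA B => ∑ p, (2 : ℝ) ^ (toA ω).mP p) ≤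
      Real.exp (50 / phi1) * (8 * Real.exp 3 * (Fintype.card K : ℝ) ^ 2) := by
    simp only [hmP]
    rw [avg_sum']
    have h1 : ∀ p, avg (fun ω : OmA B => (2 : ℝ) ^ mU C p * 2 ^ countE (E p) ω) ≤
        (2 : ℝ) ^ mU C p * Real.exp (50 / phi1) := by
      intro p
      rw [avg_mul_left]
      exact mul_le_mul_of_nonneg_left (havg p) (by positivity)
    refine (Finset.sum_le_sum (fun p _ => h1 p)).trans ?_
    rw [← Finset.sum_mul, mul_comm]
    exact mul_le_mul_of_nonneg_left hmom hexp.le
  have hC : 0 < C1mom := by unfold C1mom; positivity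
  have hpos : 0 < C1mom * (Fintype.card K : ℝ) ^ 2 := by positivity
  have hmark := pr_ge_le_avg (fun ω : OmA B => ∑ p, (2 : ℝ) ^ (toA ω).mP p)
    (fun ω => Finset.sum_nonneg (fun p _ => by positivity)) hpos
  have hmono : pr (fun ω : OmA B => ¬ ∑ p, (2 : ℝ) ^ (toA ω).mP p ≤ C1mom * (Fintype.card K : ℝ) ^ 2)
      ≤ pr (fun ω : OmA B => C1mom * (Fintype.card K : ℝ) ^ 2 ≤ ∑ p, (2 : ℝ) ^ (toA ω).mP p) := by
    apply pr_mono
    intro ω hω
    push Not at hω
    exact hω.le
  refine hmono.trans (hmark.trans ?_)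
  rw [div_le_iff₀ hpos]
  refine htotal.trans ?_
  unfold C1mom
  have h2 : (0:ℝ) ≤ Real.exp (50 / phi1) * (8 * Real.exp 3 * (Fintype.card K : ℝ) ^ 2) := by positivity
  nlinarith

theorem l2_dirMoment : ∃ q₀ : ℕ, ∀ (K : Type) [Field K] [Fintype K] [DecidableEq K], q₀ ≤ Fintype.card K →
    ∀ (C : UData K) (B : BData C), P1 B →
    pr (fun ω : OmA B => ¬ ∑ d, ((toA ω).mD d : ℝ) ^ 5 ≤ C2mom * Fintype.card K) ≤ 1 / 8 := by
  refine ⟨100, ?_⟩
  intro K _ _ _ hq C B hB
  classical
  have hq40 : 40 ≤ Fintype.card K := by omega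
  have hqpos : 1 ≤ Fintype.card K := by omega
  have hq0 : (0 : ℝ) < Fintype.card K := by exact_mod_cast hqpos
  have hq1 : (1 : ℝ) ≤ Fintype.card K := by exact_mod_cast hqpos
  have : ∀ v : VIdx K, Nonempty (DomV B v) := nonempty_domV hB hqpos
  set E : Dir K → ∀ v : VIdx K, DomV B v → Prop := fun d v a => a.1 = d with hE
  have hmD : ∀ (ω : OmA B) d, ((toA ω).mD d : ℝ) ^ 5 ≤ 528 * 2 ^ countE (E d) ω := by
    intro ω d
    have h1 := five_pow_le ((toA ω).mD d)
    have h2 : (toA ω).mD d = 2 + countE (E d) ω := by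
      unfold AData.mD
      congr 1
      symm
      apply countE_eq_card
      intro v
      simp only [mem_filter, mem_univ, true_and]
      rfl
    rw [h2] at h1 ⊢
    rw [pow_add] at h1
    norm_num at h1 ⊢
    linarith
  have havg : ∀ d, avg (fun ω : OmA B => (2 : ℝ) ^ countE (E d) ω) ≤ Real.exp (50 / phi1) := by
    intro d
    refine (avg_two_pow_countE_le (E d)).trans ?_
    exact Real.exp_le_exp.mpr (sum_dir_pr hB hq40 d)
  have hexp := Real.exp_pos (50 / phi1)
  have htotal : avg (fun ω : OmA B => ∑ d, ((toA ω).mD d : ℝ) ^ 5) ≤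
      528 * Real.exp (50 / phi1) * (2 * Fintype.card K) := by
    have h0 : avg (fun ω : OmA B => ∑ d, ((toA ω).mD d : ℝ) ^ 5) ≤
        avg (fun ω : OmA B => ∑ d, 528 * (2 : ℝ) ^ countE (E d) ω) :=
      avg_mono (fun ω => Finset.sum_le_sum (fun d _ => hmD ω d))
    refine h0.trans ?_
    rw [avg_sum']
    have h1 : ∀ d, avg (fun ω : OmA B => 528 * (2 : ℝ) ^ countE (E d) ω) ≤
        528 * Real.exp (50 / phi1) := by
      intro d
      rw [avg_mul_left]
      exact mul_le_mul_of_nonneg_left (havg d) (by norm_num)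
    refine (Finset.sum_le_sum (fun d _ => h1 d)).trans ?_
    rw [Finset.sum_const, Finset.card_univ, nsmul_eq_mul, Fintype.card_option, mul_comm]
    apply mul_le_mul_of_nonneg_left _ (by positivity)
    push_cast
    linarith
  have hC : 0 < C2mom := by unfold C2mom; positivity
  have hpos : 0 < C2mom * (Fintype.card K : ℝ) := by positivity
  have hmark := pr_ge_le_avg (fun ω : OmA B => ∑ d, ((toA ω).mD d : ℝ) ^ 5)
    (fun ω => Finset.sum_nonneg (fun p _ => by positivity)) hpos
  have hmono : pr (fun ω : OmA B => ¬ ∑ d, ((toA ω).mD d : ℝ) ^ 5 ≤ C2mom * Fintype.card K)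
      ≤ pr (fun ω : OmA B => C2mom * (Fintype.card K : ℝ) ≤ ∑ d, ((toA ω).mD d : ℝ) ^ 5) := by
    apply pr_mono
    intro ω hω
    push Not at hω
    exact hω.le
  refine hmono.trans (hmark.trans ?_)
  rw [div_le_iff₀ hpos]
  refine htotal.trans ?_
  unfold C2mom
  have h2 : (0:ℝ) ≤ Real.exp (50 / phi1) * (Fintype.card K : ℝ) := by positivity
  nlinarith

end Crest.Agent.Ryser
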