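import Crest.Agent.Ryser.Layer2Model

/-!
# Layer 2: good keep parameters (`P2.good`).

Plan: fix a gadget `(x,i)`, an index `l` and the values `a` of the 20 own coordinates.  Then the 19 points are
`P t + s • v t` for fixed `P`, `v`, the pattern property gives `S₀` with `c0pat q ≤ |S₀|`, and for each `s ∈ S₀` a foreign
hole hits one of the 19 points with probability at most `19 / (phi1 q)`.  So the mean of the number of parameters
of `S₀` on no foreign hole is at least `c0pat q exp (-800 / phi1)`; this count is 19-Lipschitz.  McDiarmid and a union bound over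
`x, i, l, a`.  Own holes exclude at most `380` values of `s`.
-/

set_option autoImplicit false
set_option linter.unusedSectionVars false
set_option linter.unusedVariables false

namespace Crest.Agent.Ryser

open Finset

/-! ### Abstract concentration -/

section abstractConc
variable {ι : Type} [Fintype ι] [DecidableEq ι] {Ω : ι → Type} [∀ i, Fintype (Ω i)]
  [∀ i, Nonempty (Ω i)] {σ : Type}

open Classical in
/-- The number of `s ∈ S` not bad at any coordinate. -/
noncomputable def goodCount (S : Finset σ) (Bad : σ → ∀ i, Ω i → Prop) (ω : ∀ i, Ω i) : ℕ :=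
  (S.filter (fun s => ∀ i, ¬ Bad s i (ω i))).card

omit [∀ i, Nonempty (Ω i)] in
theorem pr_not' {α : Type} [Fintype α] [Nonempty α] (P : α → Prop) :
    pr (fun a => ¬ P a) = 1 - pr P := by
  classical
  rw [pr_eq_filter, pr_eq_filter]
  have h := Finset.card_filter_add_card_filter_not (s := (univ : Finset α)) P
  have hc : (Fintype.card α : ℝ) ≠ 0 := by exact_mod_cast Fintype.card_ne_zero
  have h2 : ((univ.filter (fun a => ¬ P a)).card : ℝ) + ((univ.filter P).card : ℝ)
      = Fintype.card α := by
    rw [Finset.card_univ] at h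
    have := congrArg (fun n : ℕ => (n : ℝ)) h
    push_cast at this
    linarith
  field_simp
  linarith

theorem goodCount_avg_ge (S : Finset σ) (Bad : σ → ∀ i, Ω i → Prop) {τ : ℝ}
    (hτ : ∀ s ∈ S, ∀ i, pr (Bad s i) ≤ τ) (hτ1 : τ ≤ 1) :
    (S.card : ℝ) * (1 - τ) ^ (Fintype.card ι) ≤
      avg (fun ω : ∀ i, Ω i => (goodCount S Bad ω : ℝ)) := by
  classical
  have h1 : (fun ω : ∀ i, Ω i => (goodCount S Bad ω : ℝ))
      = fun ω => ∑ s ∈ S, (if ∀ i, ¬ Bad s i (ω i) then (1 : ℝ) else 0) := by
    funext ω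
    unfold goodCount
    rw [Finset.card_filter]
    push_cast
    rfl
  rw [h1]
  have h2 : avg (fun ω : ∀ i, Ω i => ∑ s ∈ S, (if ∀ i, ¬ Bad s i (ω i) then (1 : ℝ) else 0))
      = ∑ s ∈ S, pr (fun ω : ∀ i, Ω i => ∀ i, ¬ Bad s i (ω i)) := by
    unfold avg
    rw [Finset.sum_comm, Finset.sum_div]
    apply Finset.sum_congr rfl
    intro s _
    rw [pr_eq_avg]
    rfl
  rw [h2]
  have h3 : ∀ s ∈ S, (1 - τ) ^ (Fintype.card ι) ≤ pr (fun ω : ∀ i, Ω i => ∀ i, ¬ Bad s i (ω i)) := by
    intro s hs
    rw [pr_forall_coord (fun i a => ¬ Bad s i a)]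
    rw [← Finset.card_univ, ← Finset.prod_const]
    apply Finset.prod_le_prod
    · intro i _
      linarith
    · intro i _
      rw [pr_not']
      linarith [hτ s hs i]
  calc (S.card : ℝ) * (1 - τ) ^ (Fintype.card ι)
      = ∑ s ∈ S, (1 - τ) ^ (Fintype.card ι) := by simp
    _ ≤ _ := Finset.sum_le_sum h3

open Classical in
theorem goodCount_le_of_update (S : Finset σ) (Bad : σ → ∀ i, Ω i → Prop) {L : ℕ}
    (hL : ∀ i a, (S.filter (fun s => Bad s i a)).card ≤ L) (ω ω' : ∀ i, Ω i) (i : ι)
    (h : ∀ j, j ≠ i → ω' j = ω j) : goodCount S Bad ω ≤ goodCount S Bad ω' + L := by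
  classical
  unfold goodCount
  have hsub : S.filter (fun s => ∀ i, ¬ Bad s i (ω i)) ⊆
      S.filter (fun s => ∀ i, ¬ Bad s i (ω' i)) ∪ S.filter (fun s => Bad s i (ω' i)) := by
    intro s hs
    simp only [mem_filter, mem_union] at hs ⊢
    by_cases hb : Bad s i (ω' i)
    · exact Or.inr ⟨hs.1, hb⟩
    · left
      refine ⟨hs.1, fun j => ?_⟩
      by_cases hj : j = i
      · subst hj; exact hb
      · rw [h j hj]; exact hs.2 j
  calc _ ≤ _ := Finset.card_le_card hsub
    _ ≤ _ := Finset.card_union_le _ _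
    _ ≤ _ := Nat.add_le_add_left (hL i (ω' i)) _

open Classical in
theorem goodCount_lip (S : Finset σ) (Bad : σ → ∀ i, Ω i → Prop) {L : ℕ}
    (hL : ∀ i a, (S.filter (fun s => Bad s i a)).card ≤ L) (ω : ∀ i, Ω i) (i : ι) (a : Ω i) :
    |(goodCount S Bad (Function.update ω i a) : ℝ) - goodCount S Bad ω| ≤ L := by
  have h1 := goodCount_le_of_update S Bad hL ω (Function.update ω i a) i
    (fun j hj => Function.update_of_ne hj _ _)
  have h2 := goodCount_le_of_update S Bad hL (Function.update ω i a) ω i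
    (fun j hj => (Function.update_of_ne hj _ _).symm)
  have h1' : (goodCount S Bad ω : ℝ) ≤ goodCount S Bad (Function.update ω i a) + L := by
    exact_mod_cast h1
  have h2' : (goodCount S Bad (Function.update ω i a) : ℝ) ≤ goodCount S Bad ω + L := by
    exact_mod_cast h2
  rw [abs_le]
  constructor <;> linarith

open Classical in
/-- The abstract tail bound. -/
theorem goodCount_tail (S : Finset σ) (Bad : σ → ∀ i, Ω i → Prop) {τ : ℝ} {L : ℕ}
    (hτ : ∀ s ∈ S, ∀ i, pr (Bad s i) ≤ τ) (hτ1 : τ ≤ 1)
    (hL : ∀ i a, (S.filter (fun s => Bad s i a)).card ≤ L) {t : ℝ} (ht : 0 < t) :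
    pr (fun ω : ∀ i, Ω i => (goodCount S Bad ω : ℝ) ≤ (S.card : ℝ) * (1 - τ) ^ (Fintype.card ι) - t)
      ≤ Real.exp (-(t ^ 2) / (2 * ((Fintype.card ι : ℝ) * (L : ℝ) ^ 2))) := by
  have h := mcdiarmid_lower (fun ω : ∀ i, Ω i => (goodCount S Bad ω : ℝ)) (fun _ => (L : ℝ))
    (fun ω i a => goodCount_lip S Bad hL ω i a) ht
  have hsum : ∑ i : ι, (L : ℝ) ^ 2 = (Fintype.card ι : ℝ) * (L : ℝ) ^ 2 := by
    simp [Finset.card_univ]
  rw [hsum] at h
  refine le_trans (pr_mono ?_) h
  intro ω hω
  have := goodCount_avg_ge (Ω := Ω) S Bad hτ hτ1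
  linarith

end abstractConc

/-! ### Geometry of one gadget -/

section geom
variable {K : Type} [Field K] [Fintype K] [DecidableEq K]

/-- The direction vector of a line. -/
def lineVec (U : Ln K) : K × K :=
  match U.1 with
  | some m => (1, m)
  | none => (0, 1)

theorem param_eq_add (U : Ln K) (s : K) : param U s = param U 0 + s • lineVec U := by
  rcases U with ⟨d, b⟩
  cases d with
  | none => ext <;> simp [param, lineVec]
  | some m => ext <;> simp [param, lineVec, mul_comm, add_comm]

theorem lineVec_ne (U : Ln K) : lineVec U ≠ 0 := by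
  rcases U with ⟨d, b⟩
  cases d with
  | none => simp [lineVec, Prod.ext_iff]
  | some m => simp [lineVec, Prod.ext_iff]

theorem dirOfVec_lineVec (U : Ln K) : dirOfVec (lineVec U) = U.1 := by
  rcases U with ⟨d, b⟩
  cases d with
  | none => simp [lineVec, dirOfVec]
  | some m => simp [lineVec, dirOfVec]

/-- The intersection point of a fixed line and a moving parallel family is an affine function of the parameter. -/
theorem cross_affine (U : Ln K) (c : Pt K) (a b : Dir K) (hab : a ≠ b) (hb : b ≠ U.1) :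
    ∃ (P : Pt K) (v : K × K), v ≠ 0 ∧ dirOfVec v = a ∧
      ∀ s, cross (lineThru c a) (lineThru (param U s) b) = P + s • v := by
  rcases U with ⟨d, u⟩
  cases a with
  | none =>
    cases b with
    | none => exact absurd rfl hab
    | some m' =>
      -- A: x = c.1 ; E: y = m' x + (Y - m' X)
      cases d with
      | none =>
        refine ⟨(c.1, m' * c.1 + (0 - m' * u)), (0, 1), by simp [Prod.ext_iff], by simp [dirOfVec], ?_⟩
        intro s
        ext <;> simp [cross, lineThru, param] ; ring
      | some m =>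
        have hm : m - m' ≠ 0 := by
          intro h; apply hb; simp [sub_eq_zero.mp h]
        refine ⟨(c.1, m' * c.1 + u), (0, m - m'), by simp [Prod.ext_iff, hm], by simp [dirOfVec], ?_⟩
        intro s
        ext <;> simp [cross, lineThru, param] ; ring
  | some m₁ =>
    cases b with
    | none =>
      cases d with
      | none => exact absurd rfl hb
      | some m =>
        refine ⟨(0, c.2 - m₁ * c.1), (1, m₁), by simp [Prod.ext_iff], by simp [dirOfVec], ?_⟩
        intro s
        ext <;> simp [cross, lineThru, param] ; ring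
    | some m' =>
      have h1 : m₁ - m' ≠ 0 := by
        intro h; apply hab; simp [sub_eq_zero.mp h]
      cases d with
      | none =>
        refine ⟨((0 - m' * u - (c.2 - m₁ * c.1)) / (m₁ - m'),
            m₁ * ((0 - m' * u - (c.2 - m₁ * c.1)) / (m₁ - m')) + (c.2 - m₁ * c.1)),
            (1 / (m₁ - m'), m₁ / (m₁ - m')), ?_, ?_, ?_⟩
        · simp [Prod.ext_iff, h1]
        · simp [dirOfVec, h1]
        · intro s
          ext <;> simp [cross, lineThru, param] <;> field_simp <;> ring
      | some m =>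
        have hm : m - m' ≠ 0 := by
          intro h; apply hb; simp [sub_eq_zero.mp h]
        refine ⟨((u - (c.2 - m₁ * c.1)) / (m₁ - m'),
            m₁ * ((u - (c.2 - m₁ * c.1)) / (m₁ - m')) + (c.2 - m₁ * c.1)),
            ((m - m') / (m₁ - m'), m₁ * (m - m') / (m₁ - m')), ?_, ?_, ?_⟩
        · simp [Prod.ext_iff, h1, hm]
        · simp [dirOfVec, h1, hm]; field_simp
        · intro s
          ext <;> simp [cross, lineThru, param] <;> field_simp <;> ring

end geom

/-! ### One gadget -/

section gadget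
variable {K : Type} [Field K] [Fintype K] [DecidableEq K]
variable {C : UData K} (B : BData C) (x : Dir K) (i : Fin 2) (l : Fin 10)
  (a : Fin 2 × Fin 10 → Dir K)

/-- Index of the 19 points. -/
abbrev PIdx := Option (Fin 2 × Fin 9)

/-- The line carrying a point. -/
def ptLine (t : PIdx) : Ln K :=
  match t with
  | none => C.line x i
  | some (e, k) => lineThru (B.base x i e) (a (e, l.succAbove k))

/-- The point with parameter `s`, for the own directions `a`. -/
noncomputable def ptAt (t : PIdx) (s : K) : Pt K :=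
  match t with
  | none => param (C.line x i) s
  | some (e, k) => cross (lineThru (B.base x i e) (a (e, l.succAbove k)))
      (lineThru (param (C.line x i) s) (a (e, l)))

/-- Admissible own directions. -/
def ValidO : Prop := ∀ w : Fin 2 × Fin 10, a w ∈ B.dom x i w.1 w.2

variable {B x i l a}

theorem ValidO.cls_eq (ha : ValidO B x i a) (w : Fin 2 × Fin 10) : cls (a w) = w := by
  have := ha w
  simp only [BData.dom, mem_filter, mem_univ, true_and] at this
  exact this.1

theorem ValidO.ne_x (ha : ValidO B x i a) (w : Fin 2 × Fin 10) : a w ≠ x := by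
  have := ha w
  simp only [BData.dom, mem_filter, mem_univ, true_and] at this
  exact this.2.1

theorem ValidO.own_ne (ha : ValidO B x i a) (e : Fin 2) (k : Fin 9) :
    a (e, l.succAbove k) ≠ a (e, l) := by
  intro h
  have h1 := ha.cls_eq (e, l.succAbove k)
  have h2 := ha.cls_eq (e, l)
  rw [h, h2] at h1
  have := congrArg Prod.snd h1
  exact (Fin.succAbove_ne l k) this.symm

theorem ptAt_on (ha : ValidO B x i a) (t : PIdx) (s : K) :
    On (ptAt B x i l a t s) (ptLine B x i l a t) := by
  rcases t with _ | ⟨e, k⟩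
  · exact on_param _ _
  · apply on_cross_left
    simpa using ha.own_ne e k

theorem ptAt_affine (ha : ValidO B x i a) (t : PIdx) :
    ∃ (P : Pt K) (v : K × K), v ≠ 0 ∧ dirOfVec v = (ptLine B x i l a t).1 ∧
      ∀ s, ptAt B x i l a t s = P + s • v := by
  rcases t with _ | ⟨e, k⟩
  · exact ⟨param (C.line x i) 0, lineVec (C.line x i), lineVec_ne _, dirOfVec_lineVec _,
      param_eq_add _⟩
  · obtain ⟨P, v, h1, h2, h3⟩ := cross_affine (C.line x i) (B.base x i e) (a (e, l.succAbove k))
      (a (e, l)) (ha.own_ne e k) (ha.ne_x (e, l))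
    exact ⟨P, v, h1, by simpa [ptLine] using h2, h3⟩

theorem ptAt_injective (ha : ValidO B x i a) (t : PIdx) :
    Function.Injective (ptAt B x i l a t) := by
  obtain ⟨P, v, h1, _, h3⟩ := ptAt_affine (l := l) ha t
  intro s s' h
  rw [h3, h3] at h
  have h4 : (s - s') • v = 0 := by
    have := add_left_cancel h
    rw [sub_smul, this, sub_self]
  rcases smul_eq_zero.mp h4 with h5 | h5
  · exact sub_eq_zero.mp h5
  · exact absurd h5 h1

/-- A line other than `ptLine t` is hit by at most one parameter. -/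
theorem card_param_on_le (ha : ValidO B x i a) (t : PIdx) (h : Ln K) (hne : h ≠ ptLine B x i l a t) :
    (univ.filter (fun s => On (ptAt B x i l a t s) h)).card ≤ 1 := by
  rw [card_le_one]
  intro s hs s' hs'
  simp only [mem_filter, mem_univ, true_and] at hs hs'
  apply ptAt_injective (l := l) ha t
  exact point_unique hne hs (ptAt_on ha t s) hs' (ptAt_on ha t s')

variable (B x i l a)

open Classical in
/-- The parameters whose points avoid all `U` lines except possibly the carrying one. -/
noncomputable def S0 : Finset K :=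
  univ.filter (fun s => ∀ (t : PIdx) (y : Dir K) (i' : Fin 2), C.line y i' ≠ ptLine B x i l a t →
    ¬ On (ptAt B x i l a t s) (C.line y i'))

variable {B x i l a}

theorem card_S0_ge (ha : ValidO B x i a)
    (hpat : ∀ (P : Fin 19 → Pt K) (v : Fin 19 → K × K), (∀ j, v j ≠ 0) →
      c0pat * Fintype.card K ≤ ((patternGood C P v).card : ℝ)) :
    c0pat * Fintype.card K ≤ ((S0 B x i l a).card : ℝ) := by
  classical
  choose P v h1 h2 h3 using ptAt_affine (l := l) ha
  have hcard : Fintype.card (PIdx) = 19 := by simp [PIdx]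
  let e19 : Fin 19 ≃ PIdx := (Fintype.equivFinOfCardEq hcard).symm
  refine (hpat (fun j => P (e19 j)) (fun j => v (e19 j)) (fun j => h1 _)).trans ?_
  have hsub : patternGood C (fun j => P (e19 j)) (fun j => v (e19 j)) ⊆ S0 B x i l a := by
    intro s hs
    simp only [patternGood, mem_filter, mem_univ, true_and] at hs
    simp only [S0, mem_filter, mem_univ, true_and]
    intro t y i' hne
    by_cases hy : y = (ptLine B x i l a t).1
    · exact not_on_of_parallel hy.symm hne.symm (ptAt_on ha t s)
    · have := hs (e19.symm t) y (by simpa [h2] using hy) i'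
      simpa [h3] using this
  exact_mod_cast card_le_card hsub

theorem off_inj (C : UData K) (x : Dir K) {i i' : Fin 2} (h : C.off x i = C.off x i') : i = i' := by
  have := C.off_ne x
  fin_cases i <;> fin_cases i' <;> simp_all

/-- A base of a foreign gadget is not one of the points. -/
theorem ptAt_ne_base (ha : ValidO B x i a) {s : K} (hs : s ∈ S0 B x i l a) (t : PIdx)
    {x' : Dir K} {i' e' : Fin 2} (hv : (x', i') ≠ (x, i)) : ptAt B x i l a t s ≠ B.base x' i' e' := by
  classical
  intro hb
  simp only [S0, mem_filter, mem_univ, true_and] at hs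
  have h1 : On (B.base x' i' e') (C.line x' i') := by
    have := B.base_mem x' i' e'
    simp only [Surv0, mem_filter, mem_linePts] at this
    exact this.1
  have h2 : C.line x' i' = ptLine B x i l a t := by
    by_contra hne
    exact hs t x' i' hne (hb ▸ h1)
  rcases t with _ | ⟨e, k⟩
  · simp only [ptLine, UData.line, Prod.mk.injEq] at h2
    obtain ⟨rfl, h3⟩ := h2
    exact hv (by rw [off_inj C x' h3])
  · have h3 : x' = a (e, l.succAbove k) := by
      have := congrArg Prod.fst h2
      simpa [ptLine, UData.line] using this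
    have h4 : On (B.base x i e) (C.line x' i') := by
      rw [h2]
      exact on_lineThru _ _
    have h5 := B.base_mem x i e
    simp only [Surv0, mem_filter, mem_linePts] at h5
    exact h5.2 x' (by rw [h3]; exact ha.ne_x _) i' h4

variable (B x i l a)

/-- A hole through the base of `v`. -/
def holeV (v : VIdx K) (d : Dir K) : Ln K := lineThru (B.base v.1 v.2.1 v.2.2.1) d

/-- A foreign hole `(v, d)` kills parameter `s`. -/
def BadG (s : K) (v : VIdx K) (d : DomV B v) : Prop :=
  (v.1, v.2.1) ≠ (x, i) ∧ ∃ t : PIdx, On (ptAt B x i l a t s) (holeV B v d.1) ∧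
    holeV B v d.1 ≠ ptLine B x i l a t

open Classical in
/-- The parameters excluded by own holes. -/
noncomputable def E0 : Finset K :=
  univ.filter (fun s => ∃ (t : PIdx) (w : Fin 2 × Fin 10),
    lineThru (B.base x i w.1) (a w) ≠ ptLine B x i l a t ∧
      On (ptAt B x i l a t s) (lineThru (B.base x i w.1) (a w)))

variable {B x i l a}

theorem pr_on_lineThru_le (D : Finset (Dir K)) (c p : Pt K) (hne : p ≠ c) :
    pr (fun d : {d // d ∈ D} => On p (lineThru c d.1)) ≤ 1 / (D.card : ℝ) := by
  classical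
  rw [pr_eq_filter, Fintype.card_coe]
  apply div_le_div_of_nonneg_right _ (by positivity)
  have : (univ.filter (fun d : {d // d ∈ D} => On p (lineThru c d.1))).card ≤ 1 := by
    rw [card_le_one]
    intro d hd d' hd'
    simp only [mem_filter, mem_univ, true_and] at hd hd'
    have := line_unique hne hd (on_lineThru c _) hd' (on_lineThru c _)
    exact Subtype.ext (lineThru_injective c this)
  exact_mod_cast this

theorem pr_false' {α : Type} [Fintype α] : pr (fun _ : α => False) = 0 := by
  classical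
  rw [pr_eq_filter]
  simp

theorem pr_BadG_le (ha : ValidO B x i a) (hP : P1 B) (hq : 0 < Fintype.card K) {s : K}
    (hs : s ∈ S0 B x i l a) (v : VIdx K) :
    pr (BadG B x i l a s v) ≤ 19 / (phi1 * Fintype.card K) := by
  classical
  have hq' : (0 : ℝ) < Fintype.card K := by exact_mod_cast hq
  have hpos : 0 < phi1 * (Fintype.card K : ℝ) := mul_pos phi1_pos hq'
  by_cases hv : (v.1, v.2.1) = (x, i)
  · refine le_trans (pr_mono (Q := fun _ => False) ?_) ?_
    · intro d hd
      exact hd.1 hv
    · rw [pr_false']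
      positivity
  · rcases v with ⟨x', i', e', l'⟩
    refine le_trans (pr_mono (Q := fun d => ∃ t ∈ (univ : Finset PIdx),
      On (ptAt B x i l a t s) (holeV B (x', i', e', l') d.1)) ?_) ?_
    · rintro d ⟨_, t, h1, _⟩
      exact ⟨t, mem_univ _, h1⟩
    · refine (pr_exists_le _ _).trans ?_
      have h1 : ∀ t ∈ (univ : Finset PIdx),
          pr (fun d : DomV B (x', i', e', l') => On (ptAt B x i l a t s) (holeV B (x', i', e', l') d.1))
            ≤ 1 / (phi1 * Fintype.card K) := by
        intro t _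
        refine (pr_on_lineThru_le _ _ _ (ptAt_ne_base ha hs t hv)).trans ?_
        exact one_div_le_one_div_of_le hpos (hP x' i' e' l')
      refine (Finset.sum_le_sum h1).trans (le_of_eq ?_)
      simp only [Finset.sum_const, Finset.card_univ, nsmul_eq_mul]
      have hcard : Fintype.card (PIdx) = 19 := by simp [PIdx]
      rw [hcard]
      push_cast
      ring

open Classical in
theorem card_BadG_le (ha : ValidO B x i a) (S : Finset K) (v : VIdx K) (d : DomV B v) :
    (S.filter (fun s => BadG B x i l a s v d)).card ≤ 19 := by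
  set h := holeV B v d.1 with hh
  have hsub : S.filter (fun s => BadG B x i l a s v d) ⊆
      (univ : Finset PIdx).biUnion (fun t => (univ.filter (fun s => On (ptAt B x i l a t s) h ∧
        h ≠ ptLine B x i l a t))) := by
    intro s hs
    rw [mem_filter] at hs
    obtain ⟨_, _, t, h1, h2⟩ := hs
    simp only [mem_biUnion, mem_univ, true_and, mem_filter]
    exact ⟨t, h1, h2⟩
  refine (card_le_card hsub).trans ?_
  have hle : ∀ t ∈ (univ : Finset PIdx),
      (univ.filter (fun s => On (ptAt B x i l a t s) h ∧ h ≠ ptLine B x i l a t)).card ≤ 1 := by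
    intro t _
    by_cases hne : h = ptLine B x i l a t
    · simp [hne]
    · refine le_trans (card_le_card ?_) (card_param_on_le (l := l) ha t h hne)
      intro s hs
      simp only [mem_filter, mem_univ, true_and] at hs ⊢
      exact hs.1
  refine (card_biUnion_le_card_mul _ _ _ hle).trans (le_of_eq ?_)
  simp [PIdx]

theorem card_E0_le (ha : ValidO B x i a) : (E0 B x i l a).card ≤ 380 := by
  classical
  have hsub : E0 B x i l a ⊆
      (univ : Finset (PIdx × (Fin 2 × Fin 10))).biUnion (fun tw =>
        univ.filter (fun s => lineThru (B.base x i tw.2.1) (a tw.2) ≠ ptLine B x i l a tw.1 ∧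
          On (ptAt B x i l a tw.1 s) (lineThru (B.base x i tw.2.1) (a tw.2)))) := by
    intro s hs
    simp only [E0, mem_filter, mem_univ, true_and] at hs
    obtain ⟨t, w, h1, h2⟩ := hs
    simp only [mem_biUnion, mem_univ, true_and, mem_filter]
    exact ⟨(t, w), h1, h2⟩
  refine (card_le_card hsub).trans ?_
  have hle : ∀ tw ∈ (univ : Finset (PIdx × (Fin 2 × Fin 10))),
      (univ.filter (fun s => lineThru (B.base x i tw.2.1) (a tw.2) ≠ ptLine B x i l a tw.1 ∧
          On (ptAt B x i l a tw.1 s) (lineThru (B.base x i tw.2.1) (a tw.2)))).card ≤ 1 := by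
    intro tw _
    by_cases hne : lineThru (B.base x i tw.2.1) (a tw.2) = ptLine B x i l a tw.1
    · simp [hne]
    · refine le_trans (card_le_card ?_) (card_param_on_le (l := l) ha tw.1 _ hne)
      intro s hs
      simp only [mem_filter, mem_univ, true_and] at hs ⊢
      exact hs.2
  refine (card_biUnion_le_card_mul _ _ _ hle).trans (le_of_eq ?_)
  simp [PIdx]

/-- The own directions of an outcome. -/
def ownOf (ω : OmA B) (x : Dir K) (i : Fin 2) : Fin 2 × Fin 10 → Dir K :=
  fun w => (ω (x, i, w.1, w.2)).1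

theorem ownOf_valid (ω : OmA B) (x : Dir K) (i : Fin 2) : ValidO B x i (ownOf ω x i) :=
  fun w => (ω (x, i, w.1, w.2)).2

theorem mem_goodS (ω : OmA B) {s : K} (hs : s ∈ S0 B x i l (ownOf ω x i))
    (hE : s ∉ E0 B x i l (ownOf ω x i))
    (hb : ∀ v, ¬ BadG B x i l (ownOf ω x i) s v (ω v)) : s ∈ goodS (toA ω) x i l := by
  classical
  set a := ownOf ω x i with ha
  have hV : ValidO B x i a := ownOf_valid ω x i
  have hline : ∀ e j, (toA ω).line x i e j = lineThru (B.base x i e) (a (e, j)) := fun e j => rfl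
  simp only [S0, mem_filter, mem_univ, true_and] at hs
  simp only [E0, mem_filter, mem_univ, true_and, not_exists, not_and] at hE
  -- the general avoidance statement
  have key : ∀ (t : PIdx) (h : Ln K), h ∈ (toA ω).holes → h ≠ ptLine B x i l a t →
      ¬ On (ptAt B x i l a t s) h := by
    intro t h hh hne
    simp only [AData.holes, mem_union, mem_image, mem_univ, true_and] at hh
    rcases hh with ⟨⟨y, i'⟩, rfl⟩ | ⟨⟨x', i', e', l'⟩, rfl⟩
    · exact hs t y i' hne
    · by_cases hv : (x', i') = (x, i)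
      · obtain ⟨rfl, rfl⟩ := Prod.mk.inj hv
        exact hE t (e', l') hne
      · intro hon
        exact hb (x', i', e', l') ⟨hv, t, hon, hne⟩
  simp only [goodS, mem_filter, mem_univ, true_and]
  constructor
  · exact fun h hh hne => key none h hh hne
  · intro e j hj h hh hne
    obtain ⟨k, rfl⟩ := Fin.exists_succAbove_eq hj
    exact key (some (e, k)) h hh hne

/-- The count of parameters controls `goodS`. -/
theorem goodCount_le_goodS (ω : OmA B) (x : Dir K) (i : Fin 2) (l : Fin 10) :
    goodCount (S0 B x i l (ownOf ω x i)) (BadG B x i l (ownOf ω x i)) ω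
      ≤ (goodS (toA ω) x i l).card + 380 := by
  classical
  unfold goodCount
  have hsub : (S0 B x i l (ownOf ω x i)).filter
        (fun s => ∀ v, ¬ BadG B x i l (ownOf ω x i) s v (ω v)) ⊆
      goodS (toA ω) x i l ∪ E0 B x i l (ownOf ω x i) := by
    intro s hs
    simp only [mem_filter] at hs
    by_cases hE : s ∈ E0 B x i l (ownOf ω x i)
    · exact mem_union_right _ hE
    · exact mem_union_left _ (mem_goodS ω hs.1 hE hs.2)
  exact (card_le_card hsub).trans ((card_union_le _ _).trans
    (Nat.add_le_add_left (card_E0_le (ownOf_valid ω x i)) _))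

end gadget

/-! ### Numerics -/

/-- The mean density. -/
noncomputable def muK : ℝ := c0pat * Real.exp (-800 / phi1)

theorem muK_pos : 0 < muK := by
  unfold muK c0pat
  positivity

theorem c1keep_eq : c1keep = muK / 4 := rfl

theorem tail_num (c : ℝ) (hc : 0 < c) :
    ∃ N : ℕ, ∀ q : ℕ, N ≤ q → 20 * ((q : ℝ) + 1) ^ 21 * Real.exp (-(c * q)) ≤ 1 / 16 := by
  have h := Real.tendsto_pow_mul_exp_neg_atTop_nhds_zero 21
  have h2 : Filter.Tendsto (fun n : ℕ => c * (n : ℝ)) Filter.atTop Filter.atTop :=
    tendsto_natCast_atTop_atTop.const_mul_atTop hc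
  have h3 := h.comp h2
  set D : ℝ := 20 * (2 / c) ^ 21 with hDdef
  have hD : 0 < D := by positivity
  have h4 : ∀ᶠ n : ℕ in Filter.atTop,
      ((fun x : ℝ => x ^ 21 * Real.exp (-x)) ∘ (fun n : ℕ => c * (n : ℝ))) n < (1 / 16) / D :=
    h3.eventually (gt_mem_nhds (by positivity))
  obtain ⟨N, hN⟩ := Filter.eventually_atTop.mp h4
  refine ⟨max N 1, fun q hq => ?_⟩
  have hqN : N ≤ q := le_trans (le_max_left _ _) hq
  have hq1 : 1 ≤ q := le_trans (le_max_right _ _) hq
  have hq1' : (1 : ℝ) ≤ q := by exact_mod_cast hq1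
  have h5 := hN q hqN
  simp only [Function.comp] at h5
  have h6 : ((q : ℝ) + 1) ^ 21 ≤ (2 / c) ^ 21 * (c * q) ^ 21 := by
    rw [← mul_pow]
    apply pow_le_pow_left₀ (by positivity)
    have : 2 / c * (c * q) = 2 * q := by field_simp
    rw [this]
    linarith
  have hexp := Real.exp_pos (-(c * q))
  calc 20 * ((q : ℝ) + 1) ^ 21 * Real.exp (-(c * q))
      ≤ 20 * ((2 / c) ^ 21 * (c * q) ^ 21) * Real.exp (-(c * q)) := by gcongr
    _ = D * ((c * q) ^ 21 * Real.exp (-(c * q))) := by rw [hDdef]; ring
    _ ≤ D * ((1 / 16) / D) := by gcongr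
    _ = 1 / 16 := by field_simp

theorem numeric_good : ∃ N : ℕ, ∀ q : ℕ, N ≤ q →
    100 ≤ q ∧ 1900 / phi1 ≤ q ∧ 380 * 4 ≤ muK * q ∧
      20 * ((q : ℝ) + 1) ^ 21 * Real.exp (-(muK ^ 2 / 231040 * q)) ≤ 1 / 16 := by
  obtain ⟨N, hN⟩ := tail_num (muK ^ 2 / 231040) (by have := muK_pos; positivity)
  obtain ⟨N1, hN1⟩ := exists_nat_ge (1900 / phi1)
  obtain ⟨N2, hN2⟩ := exists_nat_ge (380 * 4 / muK)
  refine ⟨max (max N 100) (max N1 N2), fun q hq => ?_⟩
  have h1 : N ≤ q := le_trans (le_trans (le_max_left _ _) (le_max_left _ _)) hq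
  have h2 : 100 ≤ q := le_trans (le_trans (le_max_right _ _) (le_max_left _ _)) hq
  have h3 : N1 ≤ q := le_trans (le_trans (le_max_left _ _) (le_max_right _ _)) hq
  have h4 : N2 ≤ q := le_trans (le_trans (le_max_right _ _) (le_max_right _ _)) hq
  refine ⟨h2, hN1.trans (by exact_mod_cast h3), ?_, hN q h1⟩
  have h5 : 380 * 4 / muK ≤ q := hN2.trans (by exact_mod_cast h4)
  rw [div_le_iff₀ muK_pos] at h5
  linarith

theorem pow_lower (q : ℕ) (h100 : 100 ≤ q) (h1900 : 1900 / phi1 ≤ q) :
    Real.exp (-800 / phi1) ≤ (1 - 19 / (phi1 * q)) ^ (40 * (q + 1)) := by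
  have hphi := phi1_pos
  have hq0 : (100 : ℝ) ≤ q := by exact_mod_cast h100
  have hqpos : (0 : ℝ) < q := by linarith
  set τ : ℝ := 19 / (phi1 * q) with hτdef
  have hτ0 : 0 ≤ τ := by positivity
  have h1900' : 1900 ≤ q * phi1 := by
    rwa [div_le_iff₀ hphi] at h1900
  have hτ : τ ≤ 1 / 100 := by
    rw [hτdef, div_le_div_iff₀ (by positivity) (by norm_num)]
    nlinarith
  have h1 : Real.exp (-(100 / 99 * τ)) ≤ 1 - τ := by
    rw [Real.exp_neg, inv_le_comm₀ (Real.exp_pos _) (by linarith)]
    have h2 := Real.add_one_le_exp (100 / 99 * τ)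
    refine le_trans ?_ h2
    rw [inv_le_iff_one_le_mul₀ (by linarith)]
    nlinarith
  have h2 : Real.exp (-(100 / 99 * τ)) ^ (40 * (q + 1)) ≤ (1 - τ) ^ (40 * (q + 1)) :=
    pow_le_pow_left₀ (Real.exp_pos _).le h1 _
  refine le_trans ?_ h2
  rw [← Real.exp_nat_mul]
  apply Real.exp_le_exp.mpr
  have h3 : (((40 * (q + 1) : ℕ) : ℝ)) * -(100 / 99 * τ)
      = - ((100 / 99 * 760 * ((q : ℝ) + 1) / q) / phi1) := by
    rw [hτdef]
    push_cast
    field_simp
    ring
  rw [h3, neg_div, neg_le_neg_iff]
  apply div_le_div_of_nonneg_right _ hphi.le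
  rw [div_le_iff₀ hqpos]
  nlinarith

/-! ### The theorem -/

/-- See the docstring of `P2.good`. -/
theorem l2_good :
    ∃ q₀ : ℕ, ∀ (K : Type) [Field K] [Fintype K] [DecidableEq K], q₀ ≤ Fintype.card K →
    ∀ (C : UData K) (B : BData C), (∀ (P : Fin 19 → Pt K) (v : Fin 19 → K × K), (∀ j, v j ≠ 0) →
      c0pat * Fintype.card K ≤ ((patternGood C P v).card : ℝ)) → P1 B →
    pr (fun ω : OmA B => ¬ ∀ x i l, c1keep * Fintype.card K ≤ ((goodS (toA ω) x i l).card : ℝ)) ≤ 1 / 16 := by
  obtain ⟨N, hN⟩ := numeric_good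
  refine ⟨N, ?_⟩
  intro K _ _ _ hqN C B hpat hP
  obtain ⟨h100, h1900, h380, htail⟩ := hN _ hqN
  have hqpos : 0 < Fintype.card K := by omega
  have hqpos' : (0 : ℝ) < Fintype.card K := by exact_mod_cast hqpos
  have hq100 : (100 : ℝ) ≤ Fintype.card K := by exact_mod_cast h100
  have hphi := phi1_pos
  have hmu := muK_pos
  -- the domains are nonempty
  have hne : ∀ v : VIdx K, Nonempty (DomV B v) := by
    intro v
    have h1 := hP v.1 v.2.1 v.2.2.1 v.2.2.2
    have h2 : 0 < ((B.dom v.1 v.2.1 v.2.2.1 v.2.2.2).card : ℝ) :=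
      lt_of_lt_of_le (mul_pos hphi hqpos') h1
    have h3 : 0 < (B.dom v.1 v.2.1 v.2.2.1 v.2.2.2).card := by exact_mod_cast h2
    obtain ⟨d, hd⟩ := Finset.card_pos.mp h3
    exact ⟨⟨d, hd⟩⟩
  set τ : ℝ := 19 / (phi1 * Fintype.card K) with hτdef
  have h1900' : 1900 ≤ (Fintype.card K : ℝ) * phi1 := by
    rwa [div_le_iff₀ hphi] at h1900
  have hτ1 : τ ≤ 1 := by
    rw [hτdef, div_le_one (by positivity)]
    nlinarith
  have hn : Fintype.card (VIdx K) = 40 * (Fintype.card K + 1) := by
    simp [VIdx, Fintype.card_prod]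
    ring
  have hpow := pow_lower (Fintype.card K) h100 h1900
  -- the events
  have hEv : ∀ j : Dir K × Fin 2 × Fin 10 × (Fin 2 × Fin 10 → Dir K),
      pr (fun ω : OmA B => ValidO B j.1 j.2.1 j.2.2.2 ∧
        ((goodCount (S0 B j.1 j.2.1 j.2.2.1 j.2.2.2) (BadG B j.1 j.2.1 j.2.2.1 j.2.2.2) ω : ℕ) : ℝ)
          ≤ muK * Fintype.card K / 2)
        ≤ Real.exp (-(muK ^ 2 / 231040 * Fintype.card K)) := by
    rintro ⟨x, i, l, a⟩
    by_cases ha : ValidO B x i a
    · have ht : 0 < muK * (Fintype.card K : ℝ) / 2 := by positivity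
      have h1 := goodCount_tail (Ω := fun v : VIdx K => DomV B v) (S0 B x i l a) (BadG B x i l a)
        (τ := τ) (L := 19)
        (fun s hs v => pr_BadG_le ha hP hqpos hs v) hτ1
        (fun v d => card_BadG_le ha _ v d) ht
      have hS := card_S0_ge (l := l) ha hpat
      have hT : muK * (Fintype.card K : ℝ) ≤
          ((S0 B x i l a).card : ℝ) * (1 - τ) ^ (Fintype.card (VIdx K)) := by
        rw [hn]
        calc muK * (Fintype.card K : ℝ)
            = (c0pat * Fintype.card K) * Real.exp (-800 / phi1) := by unfold muK; ring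
          _ ≤ ((S0 B x i l a).card : ℝ) * (1 - τ) ^ (40 * (Fintype.card K + 1)) := by
              apply mul_le_mul hS hpow (Real.exp_pos _).le (by positivity)
      refine le_trans (pr_mono ?_) (h1.trans ?_)
      · rintro ω ⟨_, hω⟩
        simp only at hω ⊢
        linarith
      · apply Real.exp_le_exp.mpr
        rw [neg_div, neg_le_neg_iff, hn]
        push_cast
        rw [div_pow, le_div_iff₀ (by positivity)]
        have hq2 : (Fintype.card K : ℝ) + 1 ≤ 2 * Fintype.card K := by linarith
        have hmu2 : 0 < muK ^ 2 := by positivity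
        have h5 : muK ^ 2 / 231040 * (Fintype.card K : ℝ) * (2 * (40 * ((Fintype.card K : ℝ) + 1) * 19 ^ 2))
            ≤ muK ^ 2 / 231040 * (Fintype.card K : ℝ) * (2 * (40 * (2 * Fintype.card K) * 19 ^ 2)) := by
          gcongr
        refine h5.trans (le_of_eq ?_)
        ring
    · refine le_trans (pr_mono (Q := fun _ => False) ?_) ?_
      · rintro ω ⟨h1, _⟩
        exact ha h1
      · rw [pr_false']
        exact (Real.exp_pos _).le
  -- the union bound
  have hcover : ∀ ω : OmA B,
      (¬ ∀ x i l, c1keep * Fintype.card K ≤ ((goodS (toA ω) x i l).card : ℝ)) →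
      ∃ j ∈ (univ : Finset (Dir K × Fin 2 × Fin 10 × (Fin 2 × Fin 10 → Dir K))),
        ValidO B j.1 j.2.1 j.2.2.2 ∧
        ((goodCount (S0 B j.1 j.2.1 j.2.2.1 j.2.2.2) (BadG B j.1 j.2.1 j.2.2.1 j.2.2.2) ω : ℕ) : ℝ)
          ≤ muK * Fintype.card K / 2 := by
    intro ω hω
    push Not at hω
    obtain ⟨x, i, l, h⟩ := hω
    refine ⟨(x, i, l, ownOf ω x i), mem_univ _, ownOf_valid ω x i, ?_⟩
    simp only
    have h1 := goodCount_le_goodS ω x i l
    have h1' : ((goodCount (S0 B x i l (ownOf ω x i)) (BadG B x i l (ownOf ω x i)) ω : ℕ) : ℝ)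
        ≤ ((goodS (toA ω) x i l).card : ℝ) + 380 := by
      exact_mod_cast h1
    rw [c1keep_eq] at h
    linarith
  refine le_trans (pr_mono hcover) ((pr_exists_le _ _).trans ?_)
  refine (Finset.sum_le_sum (fun j _ => hEv j)).trans ?_
  simp only [Finset.sum_const, Finset.card_univ, nsmul_eq_mul]
  have hcard : ((Fintype.card (Dir K × Fin 2 × Fin 10 × (Fin 2 × Fin 10 → Dir K)) : ℕ) : ℝ)
      = 20 * ((Fintype.card K : ℝ) + 1) ^ 21 := by
    have hc1 : Fintype.card (Fin 2 × Fin 10 → Dir K) = (Fintype.card K + 1) ^ 20 := by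
      rw [Fintype.card_fun, card_Dir, Fintype.card_prod, Fintype.card_fin, Fintype.card_fin]
    rw [Fintype.card_prod, Fintype.card_prod, Fintype.card_prod, hc1, card_Dir, Fintype.card_fin,
      Fintype.card_fin]
    push_cast
    ring
  rw [hcard]
  exact htail

end Crest.Agent.Ryser
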