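import Crest.Agent.Ryser.Layer2Reg
import Crest.Agent.Ryser.Layer2Good
import Crest.Agent.Ryser.Layer2B

/-!
# Layer 2: the directions of the holes `A`.
-/

set_option autoImplicit false
set_option linter.unusedSectionVars false
set_option linter.unusedVariables false

namespace Crest.Agent.Ryser

open Finset

/-- Union bound for two events. -/
theorem pr_or_le2 {α : Type} [Fintype α] (P Q : α → Prop) :
    pr (fun a => P a ∨ Q a) ≤ pr P + pr Q := by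
  classical
  simp only [pr_eq_filter]
  rw [← add_div]
  apply div_le_div_of_nonneg_right _ (by positivity)
  rw [Finset.filter_or]
  exact_mod_cast Finset.card_union_le _ _

/-- Combine the failure probabilities (total `≤ 5/8`); `DomV B v` is nonempty by `P1 B` for large `q`. -/
theorem layer2 (K₀ : ℝ) (C₉ : ℕ) (hK₀ : 0 < K₀) :
    ∃ q₀ : ℕ, ∀ (K : Type) [Field K] [Fintype K] [DecidableEq K], q₀ ≤ Fintype.card K →
      ∀ (C : UData K) (B : BData C) (YY₀ YY : Finset (Finset (Pt K))),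
        P0 C YY₀ → P1 B → KillShape YY K₀ C₉ →
        (∀ Y ∈ YY, ∀ p ∈ Y, ∀ x i, ¬ On p (C.line x i)) →
        ∃ A : AData B, P2 A YY := by
  obtain ⟨q₁, h1⟩ := l2_p1
  obtain ⟨q₂, h2⟩ := l2_kill K₀ C₉ hK₀
  obtain ⟨q₃, h3⟩ := l2_moment
  obtain ⟨q₄, h4⟩ := l2_dirMoment
  obtain ⟨q₅, h5⟩ := l2_good
  obtain ⟨q₆, h6⟩ := l2_reg
  refine ⟨q₁ + q₂ + q₃ + q₄ + q₅ + q₆ + 1, ?_⟩
  intro K _ _ _ hq C B YY₀ YY hP0 hP1 hKS hY
  have hq1 : 0 < Fintype.card K := by omega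
  have : ∀ v : VIdx K, Nonempty (DomV B v) := by
    intro v
    have h := hP1 v.1 v.2.1 v.2.2.1 v.2.2.2
    have hpos : (0 : ℝ) < phi1 * Fintype.card K := by
      have := phi1_pos
      have : (0 : ℝ) < Fintype.card K := by exact_mod_cast hq1
      positivity
    have hc : (0 : ℝ) < ((B.dom v.1 v.2.1 v.2.2.1 v.2.2.2).card : ℝ) := lt_of_lt_of_le hpos h
    have hc' : 0 < (B.dom v.1 v.2.1 v.2.2.1 v.2.2.2).card := by exact_mod_cast hc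
    obtain ⟨d, hd⟩ := Finset.card_pos.mp hc'
    exact ⟨⟨d, hd⟩⟩
  have e1 := h1 K (by omega) C B hP1
  have e2 := h2 K (by omega) C B YY hP1 hKS hY
  have e3 := h3 K (by omega) C B hP1 hP0.moment
  have e4 := h4 K (by omega) C B hP1
  have e5 := h5 K (by omega) C B hP0.pattern hP1
  have e6 := h6 K (by omega) C B hP1
  have hlt : pr (fun ω : OmA B =>
      (¬ ∀ k R : ℕ, NumP1 K BA k R → ∀ K₁ K₂ : Finset (Ln K), K₁.card ≤ k → K₂.card ≤ k →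
        (univ.filter (fun v : VIdx K => (toA ω).line v.1 v.2.1 v.2.2.1 v.2.2.2 ∈ spanOf K₁ K₂)).card < R) ∨
      (¬ ∀ Y ∈ YY, killc 41 BA * Y.card ≤
        ((Y.filter (fun p => ∀ v : VIdx K, ¬ On p ((toA ω).line v.1 v.2.1 v.2.2.1 v.2.2.2))).card : ℝ)) ∨
      (¬ ∑ p, (2 : ℝ) ^ (toA ω).mP p ≤ C1mom * (Fintype.card K : ℝ) ^ 2) ∨
      (¬ ∑ d, ((toA ω).mD d : ℝ) ^ 5 ≤ C2mom * Fintype.card K) ∨
      (¬ ∀ x i l, c1keep * Fintype.card K ≤ ((goodS (toA ω) x i l).card : ℝ)) ∨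
      (¬ ∀ ℓ, |∑ p ∈ (toA ω).surv ℓ, B.wt p - ((Surv0 C ℓ).card : ℝ)|
        ≤ (Fintype.card K : ℝ) ^ ((2 : ℝ) / 3))) < 1 := by
    refine lt_of_le_of_lt (pr_or_le2 _ _) ?_
    have a2 := pr_or_le2 (fun ω : OmA B => ¬ ∀ Y ∈ YY, killc 41 BA * Y.card ≤
        ((Y.filter (fun p => ∀ v : VIdx K, ¬ On p ((toA ω).line v.1 v.2.1 v.2.2.1 v.2.2.2))).card : ℝ))
      (fun ω : OmA B =>
      (¬ ∑ p, (2 : ℝ) ^ (toA ω).mP p ≤ C1mom * (Fintype.card K : ℝ) ^ 2) ∨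
      (¬ ∑ d, ((toA ω).mD d : ℝ) ^ 5 ≤ C2mom * Fintype.card K) ∨
      (¬ ∀ x i l, c1keep * Fintype.card K ≤ ((goodS (toA ω) x i l).card : ℝ)) ∨
      (¬ ∀ ℓ, |∑ p ∈ (toA ω).surv ℓ, B.wt p - ((Surv0 C ℓ).card : ℝ)|
        ≤ (Fintype.card K : ℝ) ^ ((2 : ℝ) / 3)))
    have a3 := pr_or_le2 (fun ω : OmA B => ¬ ∑ p, (2 : ℝ) ^ (toA ω).mP p ≤ C1mom * (Fintype.card K : ℝ) ^ 2)
      (fun ω : OmA B =>
      (¬ ∑ d, ((toA ω).mD d : ℝ) ^ 5 ≤ C2mom * Fintype.card K) ∨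
      (¬ ∀ x i l, c1keep * Fintype.card K ≤ ((goodS (toA ω) x i l).card : ℝ)) ∨
      (¬ ∀ ℓ, |∑ p ∈ (toA ω).surv ℓ, B.wt p - ((Surv0 C ℓ).card : ℝ)|
        ≤ (Fintype.card K : ℝ) ^ ((2 : ℝ) / 3)))
    have a4 := pr_or_le2 (fun ω : OmA B => ¬ ∑ d, ((toA ω).mD d : ℝ) ^ 5 ≤ C2mom * Fintype.card K)
      (fun ω : OmA B =>
      (¬ ∀ x i l, c1keep * Fintype.card K ≤ ((goodS (toA ω) x i l).card : ℝ)) ∨
      (¬ ∀ ℓ, |∑ p ∈ (toA ω).surv ℓ, B.wt p - ((Surv0 C ℓ).card : ℝ)|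
        ≤ (Fintype.card K : ℝ) ^ ((2 : ℝ) / 3)))
    have a5 := pr_or_le2 (fun ω : OmA B => ¬ ∀ x i l, c1keep * Fintype.card K ≤ ((goodS (toA ω) x i l).card : ℝ))
      (fun ω : OmA B =>
      (¬ ∀ ℓ, |∑ p ∈ (toA ω).surv ℓ, B.wt p - ((Surv0 C ℓ).card : ℝ)|
        ≤ (Fintype.card K : ℝ) ^ ((2 : ℝ) / 3)))
    linarith
  obtain ⟨ω, hω⟩ := exists_of_pr_lt_one _ hlt
  simp only [not_or, not_not] at hω
  obtain ⟨a1, a2, a3, a4, a5, a6⟩ := hω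
  exact ⟨toA ω, ⟨a6, a1, a2, a3, a4, a5⟩⟩

end Crest.Agent.Ryser
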