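import Crest.Agent.Ryser.Layer1

/-!
# Layer 2: the directions of the holes `A`.

Model: `ι = VIdx K`, `Ω v = ↥(B.dom v)`, `H v a = {lineThru (base v) a}`.
* `pv v p ≤ 1 / (phi1 q)` for `p` not the base of `v`;
* a line `m` is produced by at most one `v` (its unique base, its class), so total probability `≤ 1/(phi1 q)`.
-/

set_option autoImplicit false
set_option linter.unusedSectionVars false
set_option linter.unusedVariables false

namespace Crest.Agent.Ryser

open Finset

variable {K : Type} [Field K] [Fintype K] [DecidableEq K]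

local notation "q" => Fintype.card K

/-- Upper bound for the weights. -/
noncomputable def wmax : ℝ := Real.exp (100 / phi1)

/-- Constant for `∑_p 2^mP`. -/
noncomputable def C1mom : ℝ := 8 * 2 ^ 10 * Real.exp (50 / phi1) * (8 * Real.exp 3)

/-- Constant for `∑_d mD^5`. -/
noncomputable def C2mom : ℝ := 8 * 528 * 2 * Real.exp (50 / phi1)

/-- Density of good keep parameters. -/
noncomputable def c1keep : ℝ := c0pat * Real.exp (-800 / phi1) / 4

/-- The constant `B` of the level-A model. -/
noncomputable def BA : ℝ := 1 / phi1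

/-- The weights are bounded. -/
theorem wt_bounds {C : UData K} (B : BData C) (hB : P1 B) (hq : 100 / phi1 ≤ q) (p : Pt K) :
    1 ≤ B.wt p ∧ B.wt p ≤ wmax := by
  classical
  have hphi := phi1_pos
  have hq0 : (0 : ℝ) < q := lt_of_lt_of_le (by positivity) hq
  have hW : 1 ≤ wmax := by unfold wmax; exact Real.one_le_exp (by positivity)
  unfold BData.wt
  split_ifs with h0
  · exact ⟨le_rfl, hW⟩
  have hdom : ∀ v : VIdx K, (0 : ℝ) < ((B.dom v.1 v.2.1 v.2.2.1 v.2.2.2).card : ℝ) := fun v =>
    lt_of_lt_of_le (mul_pos hphi hq0) (hB _ _ _ _)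
  have hpv0 : ∀ v, 0 ≤ B.pv v p := fun v => by unfold BData.pv; positivity
  have hfac : ∀ v, 1 - B.pv v p ≠ 0 := fun v => by
    have := prod_ne_zero_iff.mp h0 v (mem_univ _)
    exact this
  have hne : ∀ v : VIdx K, p ≠ B.base v.1 v.2.1 v.2.2.1 := by
    intro v hv
    apply hfac v
    unfold BData.pv
    have hf : (B.dom v.1 v.2.1 v.2.2.1 v.2.2.2).filter
        (fun d => On p (lineThru (B.base v.1 v.2.1 v.2.2.1) d)) = B.dom v.1 v.2.1 v.2.2.1 v.2.2.2 := by
      apply filter_true_of_mem
      intro d _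
      rw [hv]
      exact on_lineThru _ _
    rw [hf, div_self (hdom v).ne']
    ring
  set ε : ℝ := 1 / (phi1 * q) with hε
  have hε0 : 0 < ε := by positivity
  have hε1 : ε ≤ 1 / 100 := by
    rw [hε, div_le_div_iff₀ (by positivity) (by norm_num)]
    have : 100 ≤ phi1 * (q : ℝ) := by
      rw [div_le_iff₀ hphi] at hq
      linarith
    linarith
  have hpvle : ∀ v, B.pv v p ≤ ε := by
    intro v
    unfold BData.pv
    have h1 : (((B.dom v.1 v.2.1 v.2.2.1 v.2.2.2).filter
        (fun d => On p (lineThru (B.base v.1 v.2.1 v.2.2.1) d))).card : ℝ) ≤ 1 := by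
      have : ((B.dom v.1 v.2.1 v.2.2.1 v.2.2.2).filter
          (fun d => On p (lineThru (B.base v.1 v.2.1 v.2.2.1) d))).card ≤ 1 := by
        rw [card_le_one]
        intro d hd d' hd'
        have h1 := (mem_filter.mp hd).2
        have h2 := (mem_filter.mp hd').2
        exact lineThru_injective _ (line_unique (hne v).symm (on_lineThru _ _) h1 (on_lineThru _ _) h2)
      exact_mod_cast this
    calc _ ≤ 1 / ((B.dom v.1 v.2.1 v.2.2.1 v.2.2.2).card : ℝ) :=
          div_le_div_of_nonneg_right h1 (by positivity)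
      _ ≤ ε := one_div_le_one_div_of_le (by positivity) (hB _ _ _ _)
  have hexp : Real.exp (-(2 * ε)) ≤ 1 - ε := by
    have h1 : 1 + 2 * ε ≤ Real.exp (2 * ε) := by
      have := Real.add_one_le_exp (2 * ε)
      linarith
    have h2 : 1 ≤ (1 - ε) * Real.exp (2 * ε) := by
      have h3 : (1 - ε) * (1 + 2 * ε) ≤ (1 - ε) * Real.exp (2 * ε) :=
        mul_le_mul_of_nonneg_left h1 (by linarith)
      nlinarith
    rw [Real.exp_neg, inv_eq_one_div, div_le_iff₀ (Real.exp_pos _)]
    exact h2
  have hprod : Real.exp (-(2 * ε)) ^ (40 * (q + 1)) ≤ B.piA p := by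
    unfold BData.piA
    have hc : Fintype.card (VIdx K) = 40 * (q + 1) := by
      simp [VIdx]
      ring
    rw [← hc, ← Finset.card_univ, ← Finset.prod_const]
    apply Finset.prod_le_prod
    · intro v _
      exact (Real.exp_pos _).le
    · intro v _
      exact hexp.trans (by linarith [hpvle v])
  rw [← Real.exp_nat_mul] at hprod
  have hpi1 : B.piA p ≤ 1 := by
    unfold BData.piA
    apply Finset.prod_le_one
    · intro v _
      have h := hpvle v
      linarith
    · intro v _
      linarith [hpv0 v]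
  have hpipos : 0 < B.piA p := lt_of_lt_of_le (Real.exp_pos _) hprod
  refine ⟨by rw [le_div_iff₀ hpipos]; linarith, ?_⟩
  rw [div_le_iff₀ hpipos]
  have hkey : -(100 / phi1) ≤ ((40 * (q + 1) : ℕ) : ℝ) * -(2 * ε) := by
    push_cast
    have : ((40 : ℝ) * ((q : ℝ) + 1)) * (2 * ε) = 80 * (1 + 1 / (q : ℝ)) / phi1 := by
      rw [hε]
      field_simp
      norm_num
    have h2 : 1 / (q : ℝ) ≤ 1 / 4 := by
      apply one_div_le_one_div_of_le (by norm_num)
      have hphi1 : phi1 ≤ 1 := by
        unfold phi1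
        have : Real.exp (-5 * Real.exp 3) ≤ 1 := by
          apply Real.exp_le_one_iff.mpr
          have := Real.exp_pos 3
          linarith
        linarith
      have : (100 : ℝ) ≤ 100 / phi1 := by
        rw [le_div_iff₀ hphi]
        nlinarith
      linarith
    have h3 : ((40 : ℝ) * ((q : ℝ) + 1)) * (2 * ε) ≤ 100 / phi1 := by
      rw [this]
      apply div_le_div_of_nonneg_right _ hphi.le
      linarith
    linarith
  have h4 : Real.exp (-(100 / phi1)) ≤ B.piA p := (Real.exp_le_exp.mpr hkey).trans hprod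
  have h5 : wmax * Real.exp (-(100 / phi1)) = 1 := by
    unfold wmax
    rw [← Real.exp_add]
    simp
  calc (1 : ℝ) = wmax * Real.exp (-(100 / phi1)) := h5.symm
    _ ≤ wmax * B.piA p := mul_le_mul_of_nonneg_left h4 (by linarith)

/-- The output of layer 2. -/
structure P2 {C : UData K} {B : BData C} (A : AData B) (YY : Finset (Finset (Pt K))) : Prop where
  /-- Horvitz–Thompson regularity.  For `p ∈ Surv0 C ℓ` not a base, the expectation of
  `wt p · 1[p on no hole ≠ ℓ]` is `∏_{v : base v ∈ ℓ} (1 - pv v p)⁻¹ ∈ [1, 1 + 2/(phi1 q)]`, at most 2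
  points of `ℓ` are bases in `Surv0`; Lipschitz `2 wmax` in each of `40(q+1)` coordinates. -/
  reg : ∀ ℓ, |∑ p ∈ A.surv ℓ, B.wt p - ((Surv0 C ℓ).card : ℝ)| ≤ (q : ℝ) ^ ((2 : ℝ) / 3)
  /-- `p1_union` with `B = BA`. -/
  p1 : ∀ k R : ℕ, NumP1 K BA k R → ∀ K₁ K₂ : Finset (Ln K), K₁.card ≤ k → K₂.card ≤ k →
    (univ.filter (fun v : VIdx K => A.line v.1 v.2.1 v.2.2.1 v.2.2.2 ∈ spanOf K₁ K₂)).card < R
  /-- `kill_union` with `A = 41`, `B = BA`, `κ = 1`. -/
  kill : ∀ Y ∈ YY, killc 41 BA * Y.card ≤
    ((Y.filter (fun p => ∀ v : VIdx K, ¬ On p (A.line v.1 v.2.1 v.2.2.1 v.2.2.2))).card : ℝ)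
  /-- exponential moment, Markov (a base has `pv = 1` for 10 coordinates, else `pv ≤ 1/(phi1 q)`) -/
  moment : ∑ p, (2 : ℝ) ^ A.mP p ≤ C1mom * (q : ℝ) ^ 2
  /-- `m⁵ ≤ 132 · 2^m`, exponential moment, Markov. -/
  dirMoment : ∑ d, (A.mD d : ℝ) ^ 5 ≤ C2mom * q
  /-- For fixed own directions, the 19 image points (`keepPt`, `mPt`) are of the form `P j + s • v j`
  (pattern from `P0.pattern` gives `≥ c0pat q` parameters avoiding the `U` lines), foreign holes avoid
  them with probability `≥ (1 - 19/(phi1 q))^(41 q)`, Lipschitz 38, McDiarmid, union over own directions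
  (`(q+1)^20`) and gadgets; own holes exclude at most a constant number of parameters. -/
  good : ∀ x i l, c1keep * q ≤ ((goodS A x i l).card : ℝ)

/-- The domain of a hole as a type. -/
abbrev DomV {C : UData K} (B : BData C) (v : VIdx K) := {d : Dir K // d ∈ B.dom v.1 v.2.1 v.2.2.1 v.2.2.2}

/-- The probability space of layer 2. -/
abbrev OmA {C : UData K} (B : BData C) := ∀ v : VIdx K, DomV B v

/-- The directions of an outcome. -/
def toA {C : UData K} {B : BData C} (ω : OmA B) : AData B where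
  adir x i e l := (ω (x, i, e, l)).1
  adir_mem x i e l := (ω (x, i, e, l)).2

end Crest.Agent.Ryser
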