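import Crest.Agent.Ryser.Layer2Model

/-!
# Layer 2: regularity with Horvitz–Thompson weights (`P2.reg`).
-/

set_option autoImplicit false
set_option linter.unusedSectionVars false
set_option linter.unusedVariables false

namespace Crest.Agent.Ryser

open Finset

namespace L2Reg

variable {K : Type} [Field K] [Fintype K] [DecidableEq K]

local notation "q" => Fintype.card K

section geometry

variable {C : UData K} {B : BData C}

/-- The base point of a coordinate. -/
def bs (B : BData C) (v : VIdx K) : Pt K := B.base v.1 v.2.1 v.2.2.1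

theorem mem_Surv0 {ℓ : Ln K} {p : Pt K} :
    p ∈ Surv0 C ℓ ↔ On p ℓ ∧ ∀ y, y ≠ ℓ.1 → ∀ i, ¬ On p (C.line y i) := by
  simp [Surv0]

theorem base_on (B : BData C) (x : Dir K) (i e : Fin 2) : On (B.base x i e) (C.line x i) :=
  (mem_Surv0.mp (B.base_mem x i e)).1

theorem base_off (B : BData C) (x : Dir K) (i e : Fin 2) (y : Dir K) (hy : y ≠ x) (i' : Fin 2) :
    ¬ On (B.base x i e) (C.line y i') :=
  (mem_Surv0.mp (B.base_mem x i e)).2 y hy i'

theorem line_ne (C : UData K) (x : Dir K) {i i' : Fin 2} (h : i ≠ i') : C.line x i ≠ C.line x i' := by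
  intro he
  have h2 : C.off x i = C.off x i' := congrArg Prod.snd he
  have h0 := C.off_ne x
  fin_cases i <;> fin_cases i' <;> simp_all

theorem base_inj (B : BData C) {x x' : Dir K} {i i' e e' : Fin 2}
    (h : B.base x i e = B.base x' i' e') : x = x' ∧ i = i' ∧ e = e' := by
  have hx : x = x' := by
    by_contra hne
    exact base_off B x i e x' (Ne.symm hne) i' (h ▸ base_on B x' i' e')
  subst hx
  have hi : i = i' := by
    by_contra hne
    exact not_on_of_parallel (l := C.line x i) (l' := C.line x i') rfl (line_ne C x hne)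
      (base_on B x i e) (h ▸ base_on B x i' e')
  subst hi
  refine ⟨rfl, rfl, ?_⟩
  by_contra hne
  have h0 := B.base_ne x i
  fin_cases e <;> fin_cases e' <;> simp_all

/-- At most two points of `Surv0 C ℓ` are bases. -/
theorem card_base_pts_le (B : BData C) (ℓ : Ln K) :
    ((Surv0 C ℓ).filter (fun p => p ∈ B.all)).card ≤ 2 := by
  classical
  by_cases h : ∃ i, C.line ℓ.1 i = ℓ
  · obtain ⟨i₀, hi₀⟩ := h
    have hsub : (Surv0 C ℓ).filter (fun p => p ∈ B.all) ⊆
        {B.base ℓ.1 i₀ 0, B.base ℓ.1 i₀ 1} := by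
      intro p hp
      obtain ⟨hpS, hpB⟩ := mem_filter.mp hp
      obtain ⟨t, -, rfl⟩ := mem_image.mp hpB
      obtain ⟨x, i, e⟩ := t
      obtain ⟨hon, hoff⟩ := mem_Surv0.mp hpS
      simp only at hon hoff ⊢
      have hx : x = ℓ.1 := by
        by_contra hne
        exact hoff x hne i (base_on B x i e)
      subst hx
      have hl : C.line ℓ.1 i = ℓ :=
        eq_of_on_of_dir_eq (base_on B ℓ.1 i e) hon rfl
      have hi : i = i₀ := by
        by_contra hne
        exact line_ne C ℓ.1 hne (hl.trans hi₀.symm)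
      subst hi
      simp only [mem_insert, mem_singleton]
      fin_cases e <;> simp
    exact (card_le_card hsub).trans card_le_two
  · have : (Surv0 C ℓ).filter (fun p => p ∈ B.all) = ∅ := by
      apply filter_eq_empty_iff.mpr
      intro p hpS hpB
      obtain ⟨t, -, rfl⟩ := mem_image.mp hpB
      obtain ⟨x, i, e⟩ := t
      obtain ⟨hon, hoff⟩ := mem_Surv0.mp hpS
      simp only at hon hoff
      have hx : x = ℓ.1 := by
        by_contra hne
        exact hoff x hne i (base_on B x i e)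
      subst hx
      exact h ⟨i, eq_of_on_of_dir_eq (base_on B ℓ.1 i e) hon rfl⟩
    rw [this]; simp

/-- The coordinates whose base is on `ℓ` and for which the direction of `ℓ` is allowed: at most one. -/
theorem dom_unique (B : BData C) (ℓ : Ln K) {v v' : VIdx K} (h : On (bs B v) ℓ) (h' : On (bs B v') ℓ)
    (hd : ℓ.1 ∈ B.dom v.1 v.2.1 v.2.2.1 v.2.2.2) (hd' : ℓ.1 ∈ B.dom v'.1 v'.2.1 v'.2.2.1 v'.2.2.2) :
    v = v' := by
  classical
  obtain ⟨x, i, e, l⟩ := v
  obtain ⟨x', i', e', l'⟩ := v'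
  simp only [bs] at h h'
  simp only [BData.dom, mem_filter, mem_univ, true_and] at hd hd'
  obtain ⟨hc, -, hfree⟩ := hd
  obtain ⟨hc', -, -⟩ := hd'
  have hline : lineThru (B.base x i e) ℓ.1 = ℓ := lineThru_of_on h
  have hb : B.base x' i' e' = B.base x i e := by
    by_contra hne
    have hmem : B.base x' i' e' ∈ B.all :=
      mem_image.mpr ⟨(x', i', e'), mem_univ _, rfl⟩
    exact hfree _ hmem hne (by rw [hline]; exact h')
  obtain ⟨h1, h2, h3⟩ := base_inj B hb
  subst h1 h2 h3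
  have hl : l = l' := by
    have := hc.symm.trans hc'
    simpa using this
  subst hl
  rfl

end geometry

section hit

variable {C : UData K} {B : BData C}

/-- Coordinate `v` puts `p` on a hole other than `ℓ`. -/
def hitE (B : BData C) (ℓ : Ln K) (p : Pt K) (v : VIdx K) (a : DomV B v) : Prop :=
  On p (lineThru (bs B v) a.1) ∧ lineThru (bs B v) a.1 ≠ ℓ

open Classical in
/-- Description of `surv`. -/
theorem surv_eq (ω : OmA B) (ℓ : Ln K) :
    (toA ω).surv ℓ = (Surv0 C ℓ).filter (fun p => ∀ v, ¬ hitE B ℓ p v (ω v)) := by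
  ext p
  simp only [AData.surv, mem_filter, mem_linePts, mem_Surv0]
  constructor
  · rintro ⟨hp, hh⟩
    refine ⟨⟨hp, ?_⟩, ?_⟩
    · intro y hy i hon
      have hmem : C.line y i ∈ (toA ω).holes :=
        mem_union_left _ (mem_image.mpr ⟨(y, i), mem_univ _, rfl⟩)
      refine hh _ hmem ?_ hon
      intro he
      exact hy (by rw [← he]; rfl)
    · rintro v ⟨h1, h2⟩
      have hmem : (toA ω).line v.1 v.2.1 v.2.2.1 v.2.2.2 ∈ (toA ω).holes :=
        mem_union_right _ (mem_image.mpr ⟨v, mem_univ _, rfl⟩)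
      exact hh _ hmem h2 h1
  · rintro ⟨⟨hp, hs⟩, hv⟩
    refine ⟨hp, ?_⟩
    intro h hh hne hon
    rcases mem_union.mp hh with h1 | h1
    · obtain ⟨t, -, rfl⟩ := mem_image.mp h1
      by_cases hx : t.1 = ℓ.1
      · exact not_on_of_parallel (l := ℓ) (l' := C.line t.1 t.2) hx.symm (Ne.symm hne) hp hon
      · exact hs t.1 hx t.2 hon
    · obtain ⟨v, -, rfl⟩ := mem_image.mp h1
      exact hv v ⟨hon, hne⟩

open Classical in
/-- The indicator factor. -/
noncomputable def gF (B : BData C) (ℓ : Ln K) (p : Pt K) (v : VIdx K) (a : DomV B v) : ℝ :=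
  if hitE B ℓ p v a then 0 else 1

/-- The random variable. -/
noncomputable def XX (B : BData C) (ℓ : Ln K) (ω : OmA B) : ℝ := ∑ p ∈ (toA ω).surv ℓ, B.wt p

theorem XX_eq (ℓ : Ln K) (ω : OmA B) :
    XX B ℓ ω = ∑ p ∈ Surv0 C ℓ, B.wt p * ∏ v, gF B ℓ p v (ω v) := by
  classical
  unfold XX
  rw [surv_eq, sum_filter]
  apply sum_congr rfl
  intro p _
  by_cases h : ∀ v, ¬ hitE B ℓ p v (ω v)
  · rw [if_pos h, prod_eq_one, mul_one]
    intro v _
    simp [gF, h v]
  · rw [if_neg h]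
    push Not at h
    obtain ⟨v, hv⟩ := h
    rw [prod_eq_zero (mem_univ v) (by simp [gF, hv]), mul_zero]

/-- The survival probability of `p`. -/
noncomputable def QQ (B : BData C) (ℓ : Ln K) (p : Pt K) : ℝ :=
  ∏ v, avg (gF B ℓ p v)

theorem avg_sum_finset {α β : Type} [Fintype α] (s : Finset β) (f : β → α → ℝ) :
    avg (fun a => ∑ j ∈ s, f j a) = ∑ j ∈ s, avg (f j) := by
  unfold avg
  rw [← Finset.sum_div]
  congr 1
  exact Finset.sum_comm

theorem avg_XX [∀ v : VIdx K, Nonempty (DomV B v)] (ℓ : Ln K) :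
    avg (XX B ℓ) = ∑ p ∈ Surv0 C ℓ, B.wt p * QQ B ℓ p := by
  have : XX B ℓ = fun ω => ∑ p ∈ Surv0 C ℓ, B.wt p * ∏ v, gF B ℓ p v (ω v) := funext (XX_eq ℓ)
  rw [this, avg_sum_finset]
  apply sum_congr rfl
  intro p _
  rw [avg_mul_left, avg_prod_coord]
  rfl

theorem avg_gF [∀ v : VIdx K, Nonempty (DomV B v)] (ℓ : Ln K) (p : Pt K) (v : VIdx K) :
    avg (gF B ℓ p v) = 1 - pr (hitE B ℓ p v) := by
  classical
  have h : gF B ℓ p v = fun a => (1 : ℝ) - (if hitE B ℓ p v a then (1 : ℝ) else 0) := by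
    funext a
    unfold gF
    split_ifs <;> simp
  rw [h, avg_sub, avg_const, pr_eq_avg]

theorem gF_mem (ℓ : Ln K) (p : Pt K) (v : VIdx K) (a : DomV B v) : 0 ≤ gF B ℓ p v a ∧ gF B ℓ p v a ≤ 1 := by
  classical
  unfold gF
  split_ifs <;> simp

theorem QQ_nonneg [∀ v : VIdx K, Nonempty (DomV B v)] (ℓ : Ln K) (p : Pt K) : 0 ≤ QQ B ℓ p := by
  unfold QQ
  apply prod_nonneg
  intro v _
  rw [avg_gF]
  linarith [pr_le_one (hitE B ℓ p v)]

theorem QQ_le_one [∀ v : VIdx K, Nonempty (DomV B v)] (ℓ : Ln K) (p : Pt K) : QQ B ℓ p ≤ 1 := by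
  unfold QQ
  apply prod_le_one
  · intro v _
    rw [avg_gF]
    linarith [pr_le_one (hitE B ℓ p v)]
  · intro v _
    rw [avg_gF]
    linarith [pr_nonneg (hitE B ℓ p v)]

/-- A probability over a subtype is a ratio of cardinalities. -/
theorem pr_subtype (s : Finset (Dir K)) (P : Dir K → Prop) [DecidablePred P] :
    pr (fun a : {d // d ∈ s} => P a.1) = ((s.filter P).card : ℝ) / s.card := by
  rw [pr_eq_filter]
  congr 1
  · congr 1
    rw [Finset.card_filter, Finset.card_filter, Finset.univ_eq_attach]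
    exact_mod_cast Finset.sum_attach s (fun d => if P d then 1 else 0)
  · simp

/-- For a non-base point the `v`-th hit probability is at most `1/|dom v|`. -/
theorem card_dirs_le_one (c p : Pt K) (hne : p ≠ c) (s : Finset (Dir K)) :
    (s.filter (fun d => On p (lineThru c d))).card ≤ 1 := by
  rw [card_le_one]
  intro d hd d' hd'
  have h1 := (mem_filter.mp hd).2
  have h2 := (mem_filter.mp hd').2
  have := line_unique hne h1 (on_lineThru c d) h2 (on_lineThru c d')
  exact lineThru_injective c this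

theorem pv_le (B : BData C) (hB : P1 B) (hq : 0 < q) (v : VIdx K) (p : Pt K) (hp : p ≠ bs B v) :
    B.pv v p ≤ 1 / (phi1 * q) := by
  unfold BData.pv
  have hpos : 0 < phi1 * (q : ℝ) := mul_pos phi1_pos (by exact_mod_cast hq)
  have hd : phi1 * (q : ℝ) ≤ ((B.dom v.1 v.2.1 v.2.2.1 v.2.2.2).card : ℝ) := hB _ _ _ _
  have h1 : (((B.dom v.1 v.2.1 v.2.2.1 v.2.2.2).filter
      (fun d => On p (lineThru (B.base v.1 v.2.1 v.2.2.1) d))).card : ℝ) ≤ 1 := by
    exact_mod_cast card_dirs_le_one _ p hp _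
  calc _ ≤ 1 / ((B.dom v.1 v.2.1 v.2.2.1 v.2.2.2).card : ℝ) :=
        div_le_div_of_nonneg_right h1 (by positivity)
    _ ≤ 1 / (phi1 * q) := one_div_le_one_div_of_le hpos hd

theorem pv_nonneg (B : BData C) (v : VIdx K) (p : Pt K) : 0 ≤ B.pv v p := by
  unfold BData.pv
  positivity

/-- The hit probability. -/
theorem pr_hit_of_on [∀ v : VIdx K, Nonempty (DomV B v)] (ℓ : Ln K) (p : Pt K) (v : VIdx K)
    (hp : On p ℓ) (hne : p ≠ bs B v) (hb : On (bs B v) ℓ) : pr (hitE B ℓ p v) = 0 := by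
  classical
  have : ∀ a, ¬ hitE B ℓ p v a := by
    rintro a ⟨h1, h2⟩
    exact h2 (line_unique hne h1 (on_lineThru _ _) hp hb)
  rw [pr_eq_filter, filter_false_of_mem (fun a _ => this a)]
  simp

theorem pr_hit_of_not_on [∀ v : VIdx K, Nonempty (DomV B v)] (ℓ : Ln K) (p : Pt K) (v : VIdx K)
    (hb : ¬ On (bs B v) ℓ) : pr (hitE B ℓ p v) = B.pv v p := by
  classical
  have h0 : hitE B ℓ p v = fun a : DomV B v => On p (lineThru (bs B v) a.1) := by
    funext a
    apply propext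
    constructor
    · exact fun h => h.1
    · intro h
      refine ⟨h, ?_⟩
      intro he
      exact hb (he ▸ on_lineThru _ _)
  rw [h0]
  exact pr_subtype (B.dom v.1 v.2.1 v.2.2.1 v.2.2.2) (fun d => On p (lineThru (bs B v) d))

/-- If `pv v p ≠ 0`, `p ∈ ℓ`, `p` is not the base and the base is on `ℓ`, then the direction of `ℓ` is allowed. -/
theorem dom_of_pv (B : BData C) (ℓ : Ln K) (p : Pt K) (v : VIdx K) (hp : On p ℓ) (hne : p ≠ bs B v)
    (hb : On (bs B v) ℓ) (hv : B.pv v p ≠ 0) : ℓ.1 ∈ B.dom v.1 v.2.1 v.2.2.1 v.2.2.2 := by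
  unfold BData.pv at hv
  have h1 : ((B.dom v.1 v.2.1 v.2.2.1 v.2.2.2).filter
      (fun d => On p (lineThru (B.base v.1 v.2.1 v.2.2.1) d))).Nonempty := by
    by_contra hcon
    rw [not_nonempty_iff_eq_empty] at hcon
    apply hv
    rw [hcon]; simp
  obtain ⟨d, hd⟩ := h1
  obtain ⟨hd1, hd2⟩ := mem_filter.mp hd
  have hl : lineThru (bs B v) d = ℓ := line_unique hne hd2 (on_lineThru _ _) hp hb
  have : d = ℓ.1 := by rw [← hl]; simp
  exact this ▸ hd1

/-- The weight times the survival probability is nearly one at a non-base. -/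
theorem wt_QQ_nonbase [∀ v : VIdx K, Nonempty (DomV B v)] (hB : P1 B) (hq100 : 100 / phi1 ≤ (q : ℝ))
    (ℓ : Ln K) (p : Pt K) (hp : On p ℓ) (hnb : p ∉ B.all) :
    |B.wt p * QQ B ℓ p - 1| ≤ 2 / (phi1 * q) := by
  classical
  have hphi := phi1_pos
  have hq0 : (0 : ℝ) < q := lt_of_lt_of_le (by positivity) hq100
  have hqn : 0 < q := by exact_mod_cast hq0
  have hpos : 0 < phi1 * (q : ℝ) := mul_pos hphi hq0
  set ε : ℝ := 1 / (phi1 * q) with hε
  have hε0 : 0 < ε := by positivity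
  have hε1 : ε ≤ 1 / 100 := by
    rw [hε, div_le_div_iff₀ hpos (by norm_num)]
    have := (div_le_iff₀' hphi).mp hq100
    linarith
  have hne : ∀ v, p ≠ bs B v := by
    intro v he
    apply hnb
    rw [he]
    exact mem_image.mpr ⟨(v.1, v.2.1, v.2.2.1), mem_univ _, rfl⟩
  have hpv : ∀ v, B.pv v p ≤ ε := fun v => pv_le B hB hqn v p (hne v)
  have hpv0 : ∀ v, 0 ≤ B.pv v p := fun v => pv_nonneg B v p
  -- the two factors
  set s : VIdx K → ℝ := fun v => if On (bs B v) ℓ then B.pv v p else 0 with hs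
  set R : ℝ := ∏ v, (1 - s v) with hR
  have hQ : QQ B ℓ p = ∏ v, (if On (bs B v) ℓ then (1 : ℝ) else 1 - B.pv v p) := by
    unfold QQ
    apply prod_congr rfl
    intro v _
    rw [avg_gF]
    by_cases hb : On (bs B v) ℓ
    · rw [if_pos hb, pr_hit_of_on ℓ p v hp (hne v) hb]; ring
    · rw [if_neg hb, pr_hit_of_not_on ℓ p v hb]
  have hpi : B.piA p = QQ B ℓ p * R := by
    unfold BData.piA
    rw [hQ, hR, ← prod_mul_distrib]
    apply prod_congr rfl
    intro v _
    by_cases hb : On (bs B v) ℓ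
    · simp [hs, hb]
    · simp [hs, hb]
  have hfactor : ∀ v, 0 < 1 - B.pv v p := fun v => by linarith [hpv v]
  have hpipos : 0 < B.piA p := prod_pos (fun v _ => hfactor v)
  have hQpos : 0 < QQ B ℓ p := by
    rw [hQ]
    apply prod_pos
    intro v _
    split_ifs
    · norm_num
    · exact hfactor v
  have hwt : B.wt p = 1 / B.piA p := by
    unfold BData.wt
    rw [if_neg hpipos.ne']
  -- bounds on R
  have hR_le : R ≤ 1 := by
    apply prod_le_one
    · intro v _
      simp only [hs]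
      split_ifs
      · exact (hfactor v).le
      · norm_num
    · intro v _
      simp only [hs]
      split_ifs
      · linarith [hpv0 v]
      · norm_num
  have hR_ge : 1 - ε ≤ R := by
    by_cases hex : ∃ v₀, s v₀ ≠ 0
    · obtain ⟨v₀, hv₀⟩ := hex
      have hb₀ : On (bs B v₀) ℓ := by
        by_contra hb
        exact hv₀ (by simp [hs, hb])
      have hpv₀ : B.pv v₀ p ≠ 0 := by
        intro h0
        exact hv₀ (by simp [hs, hb₀, h0])
      have hother : ∀ v, v ≠ v₀ → s v = 0 := by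
        intro v hv
        by_contra hsv
        have hb : On (bs B v) ℓ := by
          by_contra hb
          exact hsv (by simp [hs, hb])
        have hpvv : B.pv v p ≠ 0 := by
          intro h0
          exact hsv (by simp [hs, hb, h0])
        exact hv (dom_unique B ℓ hb hb₀ (dom_of_pv B ℓ p v hp (hne v) hb hpvv)
          (dom_of_pv B ℓ p v₀ hp (hne v₀) hb₀ hpv₀))
      have hRv : R = 1 - s v₀ := by
        rw [hR]
        apply prod_eq_single v₀
        · intro v _ hv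
          rw [hother v hv]; ring
        · intro h; exact absurd (mem_univ _) h
      rw [hRv]
      simp only [hs, hb₀, if_true]
      linarith [hpv v₀]
    · push Not at hex
      have : R = 1 := by
        rw [hR]
        apply prod_eq_one
        intro v _
        rw [hex v]; ring
      rw [this]; linarith
  have hRpos : 0 < R := by linarith
  have hval : B.wt p * QQ B ℓ p = 1 / R := by
    rw [hwt, hpi]
    field_simp
  rw [hval]
  have h1 : 1 ≤ 1 / R := by
    rw [le_div_iff₀ hRpos]; linarith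
  have h2 : 1 / R ≤ 1 + 2 * ε := by
    rw [div_le_iff₀ hRpos]
    nlinarith
  rw [abs_of_nonneg (by linarith)]
  have : 2 / (phi1 * (q : ℝ)) = 2 * ε := by rw [hε]; ring
  rw [this]
  linarith

/-- The mean of `XX` is close to `|Surv0 C ℓ|`. -/
theorem avg_XX_close [∀ v : VIdx K, Nonempty (DomV B v)] (hB : P1 B) (hq100 : 100 / phi1 ≤ (q : ℝ))
    (ℓ : Ln K) : |avg (XX B ℓ) - ((Surv0 C ℓ).card : ℝ)| ≤ 2 * wmax + 2 / phi1 := by
  classical
  have hphi := phi1_pos
  have hq0 : (0 : ℝ) < q := lt_of_lt_of_le (by positivity) hq100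
  have hbd := wt_bounds B hB hq100
  have hW : 1 ≤ wmax := (hbd (0, 0)).1.trans (hbd (0, 0)).2
  have heq : avg (XX B ℓ) - ((Surv0 C ℓ).card : ℝ)
      = ∑ p ∈ Surv0 C ℓ, (B.wt p * QQ B ℓ p - 1) := by
    rw [avg_XX, sum_sub_distrib]
    simp
  rw [heq]
  refine (abs_sum_le_sum_abs _ _).trans ?_
  rw [← sum_filter_add_sum_filter_not (Surv0 C ℓ) (fun p => p ∈ B.all)]
  apply add_le_add
  · calc ∑ p ∈ (Surv0 C ℓ).filter (fun p => p ∈ B.all), |B.wt p * QQ B ℓ p - 1|
        ≤ ∑ p ∈ (Surv0 C ℓ).filter (fun p => p ∈ B.all), wmax := by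
          apply sum_le_sum
          intro p _
          have h1 := hbd p
          have h2 := QQ_nonneg (B := B) ℓ p
          have h3 := QQ_le_one (B := B) ℓ p
          have h4 : B.wt p * QQ B ℓ p ≤ wmax := by nlinarith [h1.1, h1.2]
          have h5 : 0 ≤ B.wt p * QQ B ℓ p := mul_nonneg (by linarith [h1.1]) h2
          rw [abs_le]
          constructor <;> linarith
      _ = ((Surv0 C ℓ).filter (fun p => p ∈ B.all)).card * wmax := by simp
      _ ≤ 2 * wmax := by
          apply mul_le_mul_of_nonneg_right _ (by linarith)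
          exact_mod_cast card_base_pts_le B ℓ
  · calc ∑ p ∈ (Surv0 C ℓ).filter (fun p => ¬ p ∈ B.all), |B.wt p * QQ B ℓ p - 1|
        ≤ ∑ p ∈ (Surv0 C ℓ).filter (fun p => ¬ p ∈ B.all), (2 / (phi1 * q)) := by
          apply sum_le_sum
          intro p hp
          obtain ⟨hp1, hp2⟩ := mem_filter.mp hp
          exact wt_QQ_nonbase hB hq100 ℓ p (mem_Surv0.mp hp1).1 hp2
      _ = ((Surv0 C ℓ).filter (fun p => ¬ p ∈ B.all)).card * (2 / (phi1 * q)) := by simp
      _ ≤ (q : ℝ) * (2 / (phi1 * q)) := by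
          apply mul_le_mul_of_nonneg_right _ (by positivity)
          have h1 : ((Surv0 C ℓ).filter (fun p => ¬ p ∈ B.all)).card ≤ (linePts ℓ).card :=
            card_le_card (fun p hp => (mem_filter.mp (mem_filter.mp hp).1).1)
          rw [card_linePts] at h1
          exact_mod_cast h1
      _ = 2 / phi1 := by field_simp

/-- Bounded differences. -/
theorem XX_lipschitz (hB : P1 B) (hq100 : 100 / phi1 ≤ (q : ℝ)) (ℓ : Ln K) (ω : OmA B) (v : VIdx K)
    (a : DomV B v) : |XX B ℓ (Function.update ω v a) - XX B ℓ ω| ≤ 2 * wmax := by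
  classical
  have hbd := wt_bounds B hB hq100
  have hW : 1 ≤ wmax := (hbd (0, 0)).1.trans (hbd (0, 0)).2
  set S₁ := (Surv0 C ℓ).filter (fun p => hitE B ℓ p v (ω v)) with hS₁
  set S₂ := (Surv0 C ℓ).filter (fun p => hitE B ℓ p v a) with hS₂
  have hcard : ∀ b : DomV B v, ((Surv0 C ℓ).filter (fun p => hitE B ℓ p v b)).card ≤ 1 := by
    intro b
    rw [card_le_one]
    intro p hp p' hp'
    obtain ⟨hp1, hp2⟩ := mem_filter.mp hp
    obtain ⟨hp1', hp2'⟩ := mem_filter.mp hp'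
    exact point_unique hp2.2 hp2.1 (mem_Surv0.mp hp1).1 hp2'.1 (mem_Surv0.mp hp1').1
  have hfactor : ∀ p, ∏ w, gF B ℓ p w ((Function.update ω v a) w) ∈ Set.Icc (0 : ℝ) 1 ∧
      ∏ w, gF B ℓ p w (ω w) ∈ Set.Icc (0 : ℝ) 1 := by
    intro p
    constructor <;> constructor
    · exact prod_nonneg (fun w _ => (gF_mem ℓ p w _).1)
    · exact prod_le_one (fun w _ => (gF_mem ℓ p w _).1) (fun w _ => (gF_mem ℓ p w _).2)
    · exact prod_nonneg (fun w _ => (gF_mem ℓ p w _).1)
    · exact prod_le_one (fun w _ => (gF_mem ℓ p w _).1) (fun w _ => (gF_mem ℓ p w _).2)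
  have hsame : ∀ p, p ∉ S₁ ∪ S₂ → p ∈ Surv0 C ℓ →
      ∏ w, gF B ℓ p w ((Function.update ω v a) w) = ∏ w, gF B ℓ p w (ω w) := by
    intro p hp hpS
    have h1 : ¬ hitE B ℓ p v (ω v) := fun h => hp (mem_union_left _ (mem_filter.mpr ⟨hpS, h⟩))
    have h2 : ¬ hitE B ℓ p v a := fun h => hp (mem_union_right _ (mem_filter.mpr ⟨hpS, h⟩))
    apply prod_congr rfl
    intro w _
    by_cases hw : w = v
    · subst hw
      simp [gF, h1, h2]
    · rw [Function.update_of_ne hw]
  rw [XX_eq, XX_eq, ← sum_sub_distrib]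
  have hsub : S₁ ∪ S₂ ⊆ Surv0 C ℓ := by
    intro p hp
    rcases mem_union.mp hp with h | h
    · exact (mem_filter.mp h).1
    · exact (mem_filter.mp h).1
  rw [← sum_subset hsub (f := fun p => B.wt p * ∏ w, gF B ℓ p w ((Function.update ω v a) w)
      - B.wt p * ∏ w, gF B ℓ p w (ω w)) (by
    intro p hp hp'
    rw [hsame p hp' hp]; ring)]
  refine (abs_sum_le_sum_abs _ _).trans ?_
  calc ∑ p ∈ S₁ ∪ S₂, |B.wt p * ∏ w, gF B ℓ p w ((Function.update ω v a) w)
          - B.wt p * ∏ w, gF B ℓ p w (ω w)|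
      ≤ ∑ p ∈ S₁ ∪ S₂, wmax := by
        apply sum_le_sum
        intro p _
        obtain ⟨⟨h1, h2⟩, ⟨h3, h4⟩⟩ := hfactor p
        have hb := hbd p
        set x := ∏ w, gF B ℓ p w ((Function.update ω v a) w)
        set y := ∏ w, gF B ℓ p w (ω w)
        rw [← mul_sub, abs_mul, abs_of_nonneg (by linarith [hb.1] : 0 ≤ B.wt p)]
        have : |x - y| ≤ 1 := by
          rw [abs_le]; constructor <;> linarith
        calc B.wt p * |x - y| ≤ wmax * 1 :=
              mul_le_mul hb.2 this (abs_nonneg _) (by linarith)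
          _ = wmax := mul_one _
    _ = (S₁ ∪ S₂).card * wmax := by simp
    _ ≤ 2 * wmax := by
        apply mul_le_mul_of_nonneg_right _ (by linarith)
        have h1 := card_union_le S₁ S₂
        have h2 := hcard (ω v)
        have h3 := hcard a
        have : (S₁ ∪ S₂).card ≤ 2 := by
          rw [hS₁, hS₂] at *
          omega
        exact_mod_cast this

end hit

/-- The number of coordinates. -/
theorem card_VIdx : Fintype.card (VIdx K) = (q + 1) * 40 := by
  simp [VIdx, Fintype.card_prod]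

/-- Numerics. -/
theorem numerics (W D : ℝ) (hW : 0 < W) :
    ∃ q₀ : ℕ, ∀ n : ℕ, q₀ ≤ n →
      D ≤ (n : ℝ) ^ ((2 : ℝ) / 3) / 2 ∧
      (((n : ℝ) + 1) * n) * (2 * Real.exp (-(((n : ℝ) ^ ((2 : ℝ) / 3) / 2) ^ 2) /
        (2 * (((n : ℝ) + 1) * 40 * (2 * W) ^ 2)))) ≤ 1 / 16 := by
  set c : ℝ := 1 / (2560 * W ^ 2) with hc
  have hcpos : 0 < c := by positivity
  set Y₀ : ℝ := max (max 1 (2 * |D| + 1)) (64 * 5040 / c ^ 7 + 1) with hY₀
  have htend : Filter.Tendsto (fun n : ℕ => (n : ℝ) ^ ((1 : ℝ) / 3)) Filter.atTop Filter.atTop :=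
    (tendsto_rpow_atTop (by norm_num)).comp tendsto_natCast_atTop_atTop
  obtain ⟨q₀, hq₀⟩ := Filter.eventually_atTop.mp (htend.eventually_ge_atTop Y₀)
  refine ⟨q₀, fun n hn => ?_⟩
  set y : ℝ := (n : ℝ) ^ ((1 : ℝ) / 3) with hy
  have hyY : Y₀ ≤ y := hq₀ n hn
  have hy1 : 1 ≤ y := (le_max_left _ _).trans ((le_max_left _ _).trans hyY)
  have hyD : 2 * |D| + 1 ≤ y := (le_max_right _ _).trans ((le_max_left _ _).trans hyY)
  have hyc : 64 * 5040 / c ^ 7 + 1 ≤ y := (le_max_right _ _).trans hyY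
  have hn0 : (0 : ℝ) ≤ n := by positivity
  have hy3 : y ^ 3 = n := by
    rw [hy, ← Real.rpow_natCast, ← Real.rpow_mul hn0]
    norm_num
  have hy2 : (n : ℝ) ^ ((2 : ℝ) / 3) = y ^ 2 := by
    rw [hy, ← Real.rpow_natCast, ← Real.rpow_mul hn0]
    norm_num
  rw [hy2]
  have hypos : 0 < y := by linarith
  constructor
  · have h1 : D ≤ |D| := le_abs_self D
    have h2 : 0 ≤ |D| := abs_nonneg D
    nlinarith
  · rw [← hy3]
    have hy3pos : 0 < y ^ 3 := by positivity
    -- the exponent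
    have hexp : c * y ≤ ((y ^ 2 / 2) ^ 2) / (2 * ((y ^ 3 + 1) * 40 * (2 * W) ^ 2)) := by
      rw [hc, le_div_iff₀ (by positivity)]
      have hw2 : 0 < W ^ 2 := by positivity
      have : 1 / (2560 * W ^ 2) * y * (2 * ((y ^ 3 + 1) * 40 * (2 * W) ^ 2))
          = y * (y ^ 3 + 1) / 8 := by
        field_simp
        ring
      rw [this]
      have h13 : 1 ≤ y ^ 3 := one_le_pow₀ hy1
      have : y * (y ^ 3 + 1) / 8 ≤ y * (2 * y ^ 3) / 8 := by
        apply div_le_div_of_nonneg_right _ (by norm_num)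
        apply mul_le_mul_of_nonneg_left _ hypos.le
        linarith
      calc _ ≤ y * (2 * y ^ 3) / 8 := this
        _ = y ^ 4 / 4 := by ring
        _ = (y ^ 2 / 2) ^ 2 := by ring
    have hexp2 : Real.exp (-((y ^ 2 / 2) ^ 2) / (2 * ((y ^ 3 + 1) * 40 * (2 * W) ^ 2)))
        ≤ Real.exp (-(c * y)) := by
      apply Real.exp_le_exp.mpr
      rw [neg_div]
      linarith
    have hpow : (c * y) ^ 7 / (Nat.factorial 7 : ℝ) ≤ Real.exp (c * y) :=
      Real.pow_div_factorial_le_exp _ (by positivity) 7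
    have hfact : (Nat.factorial 7 : ℝ) = 5040 := by norm_num [Nat.factorial]
    rw [hfact] at hpow
    have hexp3 : Real.exp (-(c * y)) ≤ 5040 / (c * y) ^ 7 := by
      rw [Real.exp_neg, inv_eq_one_div]
      have hcy : 0 < (c * y) ^ 7 / 5040 := by positivity
      calc 1 / Real.exp (c * y) ≤ 1 / ((c * y) ^ 7 / 5040) :=
            one_div_le_one_div_of_le hcy hpow
        _ = 5040 / (c * y) ^ 7 := by field_simp
    have hbig : 64 * 5040 / c ^ 7 ≤ y := by linarith
    have hbig2 : 64 * 5040 ≤ y * c ^ 7 := by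
      rwa [div_le_iff₀ (by positivity)] at hbig
    have hmain : (y ^ 3 + 1) * y ^ 3 * (2 * (5040 / (c * y) ^ 7)) ≤ 1 / 16 := by
      have h13 : 1 ≤ y ^ 3 := one_le_pow₀ hy1
      have hle : (y ^ 3 + 1) * y ^ 3 ≤ 2 * y ^ 6 := by nlinarith
      have hval : 2 * y ^ 6 * (2 * (5040 / (c * y) ^ 7)) = 4 * 5040 / (y * c ^ 7) := by
        field_simp
        norm_num
      have hX : 0 ≤ 2 * (5040 / (c * y) ^ 7) := by positivity
      calc (y ^ 3 + 1) * y ^ 3 * (2 * (5040 / (c * y) ^ 7))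
          ≤ 2 * y ^ 6 * (2 * (5040 / (c * y) ^ 7)) := mul_le_mul_of_nonneg_right hle hX
        _ = 4 * 5040 / (y * c ^ 7) := hval
        _ ≤ 1 / 16 := by
            rw [div_le_div_iff₀ (by positivity) (by norm_num)]
            nlinarith
    have hX2 : 0 ≤ (y ^ 3 + 1) * y ^ 3 := by positivity
    refine le_trans ?_ hmain
    apply mul_le_mul_of_nonneg_left _ hX2
    apply mul_le_mul_of_nonneg_left _ (by norm_num)
    exact hexp2.trans hexp3

end L2Reg

open L2Reg in
/-- See the docstring of `P2.reg`. -/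
theorem l2_reg : ∃ q₀ : ℕ, ∀ (K : Type) [Field K] [Fintype K] [DecidableEq K], q₀ ≤ Fintype.card K →
    ∀ (C : UData K) (B : BData C), P1 B →
    pr (fun ω : OmA B => ¬ ∀ ℓ, |∑ p ∈ (toA ω).surv ℓ, B.wt p - ((Surv0 C ℓ).card : ℝ)|
      ≤ (Fintype.card K : ℝ) ^ ((2 : ℝ) / 3)) ≤ 1 / 16 := by
  have hphi := phi1_pos
  have hW0 : 0 < wmax := Real.exp_pos _
  obtain ⟨q₁, hq₁⟩ := numerics wmax (2 * wmax + 2 / phi1) hW0
  refine ⟨q₁ + Nat.ceil (100 / phi1) + 1, ?_⟩
  intro K _ _ _ hq C B hB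
  have hq1 : q₁ ≤ Fintype.card K := by omega
  have hq100 : 100 / phi1 ≤ (Fintype.card K : ℝ) := by
    have h1 : Nat.ceil (100 / phi1) ≤ Fintype.card K := by omega
    exact (Nat.le_ceil _).trans (by exact_mod_cast h1)
  have hqpos : (0 : ℝ) < Fintype.card K := lt_of_lt_of_le (by positivity) hq100
  have hne : ∀ v : VIdx K, Nonempty (DomV B v) := by
    intro v
    have h1 : phi1 * (Fintype.card K : ℝ) ≤ ((B.dom v.1 v.2.1 v.2.2.1 v.2.2.2).card : ℝ) := hB _ _ _ _
    have h2 : (0 : ℝ) < ((B.dom v.1 v.2.1 v.2.2.1 v.2.2.2).card : ℝ) :=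
      lt_of_lt_of_le (by positivity) h1
    have h3 : (B.dom v.1 v.2.1 v.2.2.1 v.2.2.2).Nonempty := by
      apply card_pos.mp
      exact_mod_cast h2
    obtain ⟨d, hd⟩ := h3
    exact ⟨⟨d, hd⟩⟩
  obtain ⟨hD, hnum⟩ := hq₁ _ hq1
  set t : ℝ := (Fintype.card K : ℝ) ^ ((2 : ℝ) / 3) / 2 with ht
  have htpos : 0 < t := by
    have : 0 < (Fintype.card K : ℝ) ^ ((2 : ℝ) / 3) := Real.rpow_pos_of_pos hqpos _
    positivity
  set V : ℝ := ((Fintype.card K : ℝ) + 1) * 40 * (2 * wmax) ^ 2 with hV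
  have hsumc : ∑ v : VIdx K, (2 * wmax) ^ 2 = V := by
    rw [Finset.sum_const, Finset.card_univ, card_VIdx, nsmul_eq_mul, hV]
    push_cast
    ring
  -- one line
  have hone : ∀ ℓ : Ln K,
      pr (fun ω : OmA B => t < |XX B ℓ ω - avg (XX B ℓ)|) ≤ 2 * Real.exp (-(t ^ 2) / (2 * V)) := by
    intro ℓ
    have hup := mcdiarmid_upper (XX B ℓ) (fun _ => 2 * wmax)
      (fun ω v a => XX_lipschitz hB hq100 ℓ ω v a) htpos
    have hlo := mcdiarmid_lower (XX B ℓ) (fun _ => 2 * wmax)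
      (fun ω v a => XX_lipschitz hB hq100 ℓ ω v a) htpos
    rw [hsumc] at hup hlo
    have hsub : pr (fun ω : OmA B => t < |XX B ℓ ω - avg (XX B ℓ)|) ≤
        pr (fun ω : OmA B => ∃ j ∈ (univ : Finset Bool),
          (if j then avg (XX B ℓ) + t ≤ XX B ℓ ω else XX B ℓ ω ≤ avg (XX B ℓ) - t)) := by
      apply pr_mono
      intro ω hω
      rcases lt_abs.mp hω with h | h
      · exact ⟨true, mem_univ _, by simp; linarith⟩
      · exact ⟨false, mem_univ _, by simp; linarith⟩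
    refine hsub.trans ((pr_exists_le _ _).trans ?_)
    rw [Fintype.sum_bool]
    simp only [if_true, Bool.false_eq_true, if_false]
    linarith
  -- union
  have hsub : pr (fun ω : OmA B => ¬ ∀ ℓ, |∑ p ∈ (toA ω).surv ℓ, B.wt p - ((Surv0 C ℓ).card : ℝ)|
      ≤ (Fintype.card K : ℝ) ^ ((2 : ℝ) / 3)) ≤
      pr (fun ω : OmA B => ∃ ℓ ∈ (univ : Finset (Ln K)), t < |XX B ℓ ω - avg (XX B ℓ)|) := by
    apply pr_mono
    intro ω hω
    push Not at hω
    obtain ⟨ℓ, hℓ⟩ := hω
    refine ⟨ℓ, mem_univ _, ?_⟩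
    have hclose := avg_XX_close (B := B) hB hq100 ℓ
    have hclose' : |avg (XX B ℓ) - ((Surv0 C ℓ).card : ℝ)| ≤ t := hclose.trans hD
    have hX : XX B ℓ ω = ∑ p ∈ (toA ω).surv ℓ, B.wt p := rfl
    rw [hX]
    have htri : |∑ p ∈ (toA ω).surv ℓ, B.wt p - ((Surv0 C ℓ).card : ℝ)|
        ≤ |∑ p ∈ (toA ω).surv ℓ, B.wt p - avg (XX B ℓ)| + |avg (XX B ℓ) - ((Surv0 C ℓ).card : ℝ)| :=
      abs_sub_le _ _ _
    have h2t : (Fintype.card K : ℝ) ^ ((2 : ℝ) / 3) = 2 * t := by rw [ht]; ring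
    rw [h2t] at hℓ
    linarith
  refine hsub.trans ((pr_exists_le _ _).trans ?_)
  calc ∑ ℓ : Ln K, pr (fun ω : OmA B => t < |XX B ℓ ω - avg (XX B ℓ)|)
      ≤ ∑ ℓ : Ln K, 2 * Real.exp (-(t ^ 2) / (2 * V)) := sum_le_sum (fun ℓ _ => hone ℓ)
    _ = (((Fintype.card K : ℝ) + 1) * Fintype.card K) * (2 * Real.exp (-(t ^ 2) / (2 * V))) := by
        rw [Finset.sum_const, Finset.card_univ, card_Ln, nsmul_eq_mul]
        push_cast
        ring
    _ ≤ 1 / 16 := hnum

end Crest.Agent.Ryser
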