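import Crest.Agent.Ryser.Layer3G1

/-!
# Layer 3: existence of keep parameters.
-/

set_option autoImplicit false
set_option linter.unusedSectionVars false
set_option linter.unusedVariables false

namespace Crest.Agent.Ryser

open Finset

/-- Layer 3.  Each gadget `(x,i)` chooses a tuple `t : Fin 10 → K` with `t l ∈ goodS` satisfying `gint`, `s_inj`, `m_inj`:
greedily at most `2·10⁶` values are excluded at each step, so the set `Γ` of such tuples has
`|Γ| ≥ (c1keep q / 2)^10`, whence `P[t l = s] ≤ C₃ / q`.  Gadgets are independent, and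
`g1pt, g1par` follow from the first moment: a violation gives 9 holes, at most 2 per gadget through
a non-base (at most 1 per gadget for parallel holes), hence 5 distinct gadgets with collinear designated
points; two of them fix the line, the other three are determined with probability `≤ (C₃/q)³`;
the number of 5-tuples is at most `∑_z (10 mP z)⁵ ≤ C q²` (resp. `∑_d (10 mD d)⁵ ≤ C q`). -/
theorem layer3 :
    ∃ q₀ : ℕ, ∀ (K : Type) [Field K] [Fintype K] [DecidableEq K], q₀ ≤ Fintype.card K →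
      ∀ (C : UData K) (B : BData C) (A : AData B) (YY : Finset (Finset (Pt K))),
        P2 A YY → P1 B → ∃ Kd : KData A, P3 Kd := by
  obtain ⟨q₁, h1⟩ := gam_card
  obtain ⟨q₂, h2⟩ := l3_g1pt
  obtain ⟨q₃, h3⟩ := l3_g1par
  refine ⟨q₁ + q₂ + q₃ + 1, ?_⟩
  intro K _ _ _ hq C B A YY hP2 hP1
  have hq1 : 0 < Fintype.card K := by omega
  have hqR : (0 : ℝ) < Fintype.card K := by exact_mod_cast hq1
  have hne : ∀ g : Dir K × Fin 2, Nonempty {t : Fin 10 → K // t ∈ gam A g.1 g.2} := by
    intro g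
    have h := h1 K (by omega) C B A g.1 g.2 (fun l => hP2.good g.1 g.2 l)
    have hpos : (0 : ℝ) < (c1keep * Fintype.card K / 2) ^ 10 := by
      have := c1keep_pos
      positivity
    have hc : (0 : ℝ) < ((gam A g.1 g.2).card : ℝ) := lt_of_lt_of_le hpos h
    have hc' : 0 < (gam A g.1 g.2).card := by exact_mod_cast hc
    obtain ⟨t, ht⟩ := Finset.card_pos.mp hc'
    exact ⟨⟨t, ht⟩⟩
  have e1 := h2 K (by omega) C B A hP1 hP2.moment hP2.good
  have e2 := h3 K (by omega) C B A hP1 hP2.dirMoment hP2.good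
  have hlt : pr (fun ω : OmK A =>
      (¬ ∀ z, z ∉ B.all → ∀ L : Ln K, ¬ On z L →
        (univ.filter (fun h : HIdx K => On z (holeOf A h) ∧ ∃ p ∈ (toK ω).des h, On p L)).card ≤ 8) ∨
      (¬ ∀ (d : Dir K) (L : Ln K), L.1 ≠ d →
        (univ.filter (fun h : HIdx K => (holeOf A h).1 = d ∧ ∃ p ∈ (toK ω).des h, On p L)).card ≤ 8)) < 1 := by
    refine lt_of_le_of_lt (pr_or_le2 _ _) ?_
    linarith
  obtain ⟨ω, hω⟩ := exists_of_pr_lt_one _ hlt
  simp only [not_or, not_not] at hω
  obtain ⟨a1, a2⟩ := hω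
  refine ⟨toK ω, ?_⟩
  have hmem : ∀ x i, (ω (x, i)).1 ∈ gam A x i := fun x i => (ω (x, i)).2
  have hprop : ∀ x i, (∀ l, (ω (x, i)).1 l ∈ goodS A x i l) ∧ Function.Injective (ω (x, i)).1 ∧
      (∀ e j l l', l ≠ j → l' ≠ j → mPt A x i e j l ((ω (x, i)).1 l) = mPt A x i e j l' ((ω (x, i)).1 l') → l = l') ∧
      (∀ e (L : Ln K), ¬ On (B.base x i e) L → (∀ l, L ≠ eLine A x i e l ((ω (x, i)).1 l)) →
        (desBaseT A x i e (ω (x, i)).1 ∩ linePts L).card ≤ 2) := by
    intro x i
    have := hmem x i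
    simp only [gam, mem_filter, mem_univ, true_and] at this
    exact this
  refine ⟨?_, a1, a2, ?_, ?_⟩
  · intro x i e L h1 h2
    exact (hprop x i).2.2.2 e L h1 h2
  · intro x i
    exact (hprop x i).2.1
  · intro x i e j l l' hl hl' hM
    exact (hprop x i).2.2.1 e j l l' hl hl' hM

end Crest.Agent.Ryser
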