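import Crest.Agent.Ryser.Layer3Gamma

/-!
# Layer 3, the first moment for `g1pt`, `g1par`.

Space: `∀ g : Dir K × Fin 2, ↥(gam A g.1 g.2)`.  See the docstring of `layer3`.
`m ^ 5 ≤ 132 * 2 ^ m`.
-/

set_option autoImplicit false
set_option linter.unusedSectionVars false
set_option linter.unusedVariables false

namespace Crest.Agent.Ryser

open Finset

/-- The probability space of layer 3. -/
abbrev OmK {K : Type} [Field K] [Fintype K] [DecidableEq K] {C : UData K} {B : BData C} (A : AData B) :=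
  ∀ g : Dir K × Fin 2, {t : Fin 10 → K // t ∈ gam A g.1 g.2}

/-- The keep data of an outcome. -/
noncomputable def toK {K : Type} [Field K] [Fintype K] [DecidableEq K] {C : UData K} {B : BData C} {A : AData B}
    (ω : OmK A) : KData A where
  s x i l := (ω (x, i)).1 l
  s_mem x i l := by
    have := (ω (x, i)).2
    simp only [gam, mem_filter] at this
    exact this.2.1 l

/-! ### Probability: three independent coordinates -/

section coord
variable {ι : Type} [Fintype ι] [DecidableEq ι] {Ω : ι → Type} [∀ i, Fintype (Ω i)]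
  [∀ i, Nonempty (Ω i)]

theorem pr_and_coord_le (i : ι) (B : (∀ j, Ω j) → Ω i → Prop) (E' : (∀ j, Ω j) → Prop) {ρ : ℝ}
    (hρ0 : 0 ≤ ρ)
    (hB : ∀ ω a, B (Function.update ω i a) = B ω)
    (hE' : ∀ ω a, E' (Function.update ω i a) ↔ E' ω)
    (hρ : ∀ ω, pr (B ω) ≤ ρ) :
    pr (fun ω => E' ω ∧ B ω (ω i)) ≤ ρ * pr E' := by
  classical
  rw [pr_eq_avg, pr_eq_avg E', ← avg_avgOut i, ← avg_mul_left]
  apply avg_mono
  intro ω
  unfold avgOut
  have h1 : (fun a : Ω i => if E' (Function.update ω i a) ∧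
      B (Function.update ω i a) ((Function.update ω i a) i) then (1 : ℝ) else 0)
      = fun a => if E' ω ∧ B ω a then (1 : ℝ) else 0 := by
    funext a
    rw [hB, Function.update_self]
    simp only [hE']
  simp only [] at h1 ⊢
  rw [h1]
  by_cases hω : E' ω
  · simp only [hω, true_and, if_true, mul_one]
    rw [← pr_eq_avg]
    exact hρ ω
  · simp only [hω, false_and, if_false, mul_zero, avg_const]
    exact le_rfl

theorem pr_triple_le {X : Type} (i1 i2 i3 : ι) (h12 : i1 ≠ i2) (h13 : i1 ≠ i3) (h23 : i2 ≠ i3)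
    (Lf : (∀ j, Ω j) → X)
    (hL1 : ∀ ω a, Lf (Function.update ω i1 a) = Lf ω)
    (hL2 : ∀ ω a, Lf (Function.update ω i2 a) = Lf ω)
    (hL3 : ∀ ω a, Lf (Function.update ω i3 a) = Lf ω)
    (B1 : X → Ω i1 → Prop) (B2 : X → Ω i2 → Prop) (B3 : X → Ω i3 → Prop) {ρ : ℝ} (hρ0 : 0 ≤ ρ)
    (h1 : ∀ x, pr (B1 x) ≤ ρ) (h2 : ∀ x, pr (B2 x) ≤ ρ) (h3 : ∀ x, pr (B3 x) ≤ ρ) :
    pr (fun ω => B1 (Lf ω) (ω i1) ∧ B2 (Lf ω) (ω i2) ∧ B3 (Lf ω) (ω i3)) ≤ ρ ^ 3 := by
  have s3 := pr_and_coord_le i3 (fun ω => B3 (Lf ω))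
    (fun ω => B1 (Lf ω) (ω i1) ∧ B2 (Lf ω) (ω i2)) hρ0
    (fun ω a => by simp only [hL3])
    (fun ω a => by
      simp only [hL3, Function.update_of_ne h13, Function.update_of_ne h23])
    (fun ω => h3 _)
  have s2 := pr_and_coord_le i2 (fun ω => B2 (Lf ω)) (fun ω => B1 (Lf ω) (ω i1)) hρ0
    (fun ω a => by simp only [hL2])
    (fun ω a => by simp only [hL2, Function.update_of_ne h12])
    (fun ω => h2 _)
  have s1 := pr_and_coord_le i1 (fun ω => B1 (Lf ω)) (fun _ => True) hρ0
    (fun ω a => by simp only [hL1])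
    (fun ω a => Iff.rfl)
    (fun ω => h1 _)
  have hle : pr (fun _ : (∀ j, Ω j) => True) ≤ 1 := pr_le_one _
  have e1 : pr (fun ω : (∀ j, Ω j) => B1 (Lf ω) (ω i1)) ≤ ρ := by
    have : pr (fun ω : (∀ j, Ω j) => B1 (Lf ω) (ω i1))
        ≤ pr (fun ω : (∀ j, Ω j) => True ∧ B1 (Lf ω) (ω i1)) :=
      pr_mono (fun ω h => ⟨trivial, h⟩)
    calc _ ≤ _ := this
      _ ≤ _ := s1
      _ ≤ ρ * 1 := mul_le_mul_of_nonneg_left hle hρ0
      _ = ρ := mul_one _
  have e2 : pr (fun ω : (∀ j, Ω j) => B1 (Lf ω) (ω i1) ∧ B2 (Lf ω) (ω i2)) ≤ ρ ^ 2 :=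
    calc _ ≤ _ := s2
      _ ≤ ρ * ρ := mul_le_mul_of_nonneg_left e1 hρ0
      _ = ρ ^ 2 := by ring
  have e3 : pr (fun ω : (∀ j, Ω j) => (B1 (Lf ω) (ω i1) ∧ B2 (Lf ω) (ω i2)) ∧ B3 (Lf ω) (ω i3))
      ≤ ρ ^ 3 :=
    calc _ ≤ _ := s3
      _ ≤ ρ * ρ ^ 2 := mul_le_mul_of_nonneg_left e2 hρ0
      _ = ρ ^ 3 := by ring
  refine le_trans (pr_mono ?_) e3
  rintro ω ⟨a, b, c⟩
  exact ⟨⟨a, b⟩, c⟩

end coord

theorem pr_false_eq {α : Type} [Fintype α] (P : α → Prop) (h : ∀ a, ¬ P a) : pr P = 0 := by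
  classical
  rw [pr_eq_filter]
  have : univ.filter P = ∅ := by
    ext a; simp [h a]
  rw [this]; simp

/-- Numeric: `m ^ 5 ≤ 132 * 2 ^ m`. -/
theorem pow_five_le (m : ℕ) : m ^ 5 ≤ 132 * 2 ^ m := by
  induction m using Nat.strong_induction_on with
  | _ m ih =>
    by_cases hm : m ≤ 8
    · interval_cases m <;> norm_num
    · obtain ⟨n, rfl⟩ : ∃ n, m = n + 1 := ⟨m - 1, by omega⟩
      have h := ih n (by omega)
      have hn : 8 ≤ n := by omega
      have h2 : (n + 1) ^ 5 ≤ 2 * n ^ 5 := by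
        obtain ⟨k, rfl⟩ : ∃ k, n = k + 8 := ⟨n - 8, by omega⟩
        ring_nf
        nlinarith [sq_nonneg k, pow_nonneg (Nat.zero_le k) 3, pow_nonneg (Nat.zero_le k) 4,
          pow_nonneg (Nat.zero_le k) 5]
      calc (n + 1) ^ 5 ≤ 2 * n ^ 5 := h2
        _ ≤ 2 * (132 * 2 ^ n) := by omega
        _ = 132 * 2 ^ (n + 1) := by ring

section holes

variable {K : Type} [Field K] [Fintype K] [DecidableEq K] {C : UData K} {B : BData C}
  (A : AData B)

/-- The gadget of a hole index. -/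
def gadOf (h : HIdx K) : Dir K × Fin 2 := (h.1, h.2.1)

/-- The designated point of the hole `h`, with index `l`, parameter `s`. -/
noncomputable def dpt (h : HIdx K) (l : Fin 10) (s : K) : Pt K :=
  match h with
  | (x, i, none) => keepPt (C := C) x i s
  | (x, i, some (e, j)) => mPt A x i e j l s

/-- Validity of an index. -/
def validL (h : HIdx K) (l : Fin 10) : Prop :=
  match h with
  | (_, _, none) => True
  | (_, _, some (_, j)) => l ≠ j

theorem adir_props (x : Dir K) (i e : Fin 2) (l : Fin 10) :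
    cls (A.adir x i e l) = (e, l) ∧ A.adir x i e l ≠ x ∧
      B.Free (B.base x i e) (A.adir x i e l) := by
  have := A.adir_mem x i e l
  simpa [BData.dom] using this

theorem adir_inj {x : Dir K} {i e e' : Fin 2} {l l' : Fin 10}
    (h : A.adir x i e l = A.adir x i e' l') : e = e' ∧ l = l' := by
  have h1 := (adir_props A x i e l).1
  have h2 := (adir_props A x i e' l').1
  rw [h, h2] at h1
  simp only [Prod.mk.injEq] at h1
  exact ⟨h1.1.symm, h1.2.symm⟩

theorem g1_base_on_U (x : Dir K) (i e : Fin 2) : On (B.base x i e) (C.line x i) := by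
  have := B.base_mem x i e
  simp only [Surv0, mem_filter, mem_linePts] at this
  exact this.1

theorem g1_base_on_A (x : Dir K) (i e : Fin 2) (l : Fin 10) : On (B.base x i e) (A.line x i e l) :=
  on_lineThru _ _

theorem g1_base_off_U (x y : Dir K) (i i' e : Fin 2) (h : y ≠ x) :
    ¬ On (B.base x i e) (C.line y i') := by
  have := B.base_mem x i e
  simp only [Surv0, mem_filter, mem_linePts] at this
  exact this.2 y (by simpa [UData.line] using h) i'

theorem g1_off_inj (C : UData K) (x : Dir K) {i i' : Fin 2} (h : C.off x i = C.off x i') : i = i' := by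
  have hne := C.off_ne x
  fin_cases i <;> fin_cases i' <;> simp_all

theorem base_ne_of_gad {x x' : Dir K} {i i' e e' : Fin 2} (h : (x, i) ≠ (x', i')) :
    B.base x i e ≠ B.base x' i' e' := by
  intro heq
  by_cases hx : x = x'
  · subst hx
    have hi : i ≠ i' := fun hi => h (by rw [hi])
    have h1 := g1_base_on_U (B := B) x i e
    have h2 := g1_base_on_U (B := B) x i' e'
    rw [← heq] at h2
    have hne : C.line x i ≠ C.line x i' := by
      intro hl
      apply hi
      apply g1_off_inj C x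
      simpa [UData.line] using hl
    exact not_on_of_parallel (l := C.line x i) (l' := C.line x i') rfl hne h1 h2
  · have h2 := g1_base_on_U (B := B) x' i' e'
    rw [← heq] at h2
    exact g1_base_off_U x x' i i' e (Ne.symm hx) h2

theorem g1_base_mem_all (x : Dir K) (i e : Fin 2) : B.base x i e ∈ B.all := by
  unfold BData.all
  exact mem_image.mpr ⟨(x, i, e), mem_univ _, rfl⟩

theorem base_off_A {x x' : Dir K} {i i' e e' : Fin 2} (l : Fin 10) (h : (x', i') ≠ (x, i)) :
    ¬ On (B.base x' i' e') (A.line x i e l) := by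
  have hF := (adir_props A x i e l).2.2
  exact hF _ (g1_base_mem_all x' i' e') (base_ne_of_gad h)

/-- Holes of different gadgets are different lines. -/
theorem holeOf_ne {h h' : HIdx K} (hg : gadOf h ≠ gadOf h') : holeOf A h ≠ holeOf A h' := by
  rcases h with ⟨x, i, _ | ⟨e, j⟩⟩ <;> rcases h' with ⟨x', i', _ | ⟨e', j'⟩⟩ <;>
    simp only [gadOf] at hg <;> intro hl <;> simp only [holeOf] at hl
  · -- U, U
    apply hg
    have h1 : x = x' := congrArg Prod.fst hl
    subst h1
    have h2 : C.off x i = C.off x i' := congrArg Prod.snd hl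
    rw [g1_off_inj C x h2]
  · -- U, A
    have h1 := g1_base_on_U (B := B) x i 0
    rw [hl] at h1
    exact base_off_A A j' hg h1
  · -- A, U
    have h1 := g1_base_on_U (B := B) x' i' 0
    rw [← hl] at h1
    exact base_off_A A j (Ne.symm hg) h1
  · -- A, A
    have h1 := g1_base_on_A A x' i' e' j'
    rw [← hl] at h1
    exact base_off_A A j (Ne.symm hg) h1

theorem dpt_on (h : HIdx K) (l : Fin 10) (hl : validL h l) (s : K) :
    On (dpt A h l s) (holeOf A h) := by
  rcases h with ⟨x, i, _ | ⟨e, j⟩⟩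
  · exact on_param _ _
  · have hne : (A.line x i e j).1 ≠ (eLine A x i e l s).1 := by
      simp only [AData.line, eLine, lineThru_fst]
      intro hh
      exact hl (adir_inj A hh).2.symm
    exact on_cross_left hne

theorem dpt_inj (h : HIdx K) (l : Fin 10) (hl : validL h l) :
    Function.Injective (dpt A h l) := by
  rcases h with ⟨x, i, _ | ⟨e, j⟩⟩
  · intro s s' hs
    exact param_injective _ hs
  · intro s s' hs
    have hs' : mPt A x i e j l s = mPt A x i e j l s' := hs
    have hne : ∀ s, (A.line x i e j).1 ≠ (eLine A x i e l s).1 := by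
      intro s
      simp only [AData.line, eLine, lineThru_fst]
      intro hh
      exact hl (adir_inj A hh).2.symm
    have h1 : On (mPt A x i e j l s) (eLine A x i e l s) := on_cross_right (hne s)
    have h2 : On (mPt A x i e j l s) (eLine A x i e l s') := by
      rw [hs']; exact on_cross_right (hne s')
    have hE : eLine A x i e l s = eLine A x i e l s' :=
      eq_of_on_of_dir_eq h1 h2 (by simp [eLine])
    by_contra hss
    have hk : keepPt (C := C) x i s ≠ keepPt (C := C) x i s' :=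
      fun hh => hss (param_injective _ hh)
    have hk1 : On (keepPt (C := C) x i s) (eLine A x i e l s') := by
      rw [← hE]; exact on_lineThru _ _
    have hk2 : On (keepPt (C := C) x i s') (eLine A x i e l s') := on_lineThru _ _
    have hU := line_unique hk (on_param (C.line x i) s) (on_param (C.line x i) s') hk1 hk2
    have hd : x = A.adir x i e l := by
      have := congrArg Prod.fst hU
      simpa [UData.line, eLine] using this
    exact (adir_props A x i e l).2.1 hd.symm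

theorem mem_des_toK (ω : OmK A) (h : HIdx K) (p : Pt K) (hp : p ∈ (toK ω).des h) :
    ∃ l, validL h l ∧ p = dpt A h l ((ω (gadOf h)).1 l) := by
  rcases h with ⟨x, i, _ | ⟨e, j⟩⟩
  · simp only [KData.des, mem_image, mem_univ, true_and] at hp
    obtain ⟨l, rfl⟩ := hp
    exact ⟨l, trivial, rfl⟩
  · simp only [KData.des, mem_image, mem_filter, mem_univ, true_and] at hp
    obtain ⟨l, hl, rfl⟩ := hp
    exact ⟨l, hl, rfl⟩

/-- At most 2 holes of a gadget pass through a non-base. -/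
theorem fiber_pt {z : Pt K} (hz : z ∉ B.all) (g : Dir K × Fin 2) (S : Finset (HIdx K))
    (hS : ∀ h ∈ S, On z (holeOf A h)) : (S.filter (fun h => gadOf h = g)).card ≤ 2 := by
  classical
  let f : HIdx K → Fin 2 := fun h => match h.2.2 with
    | none => 0
    | some (e, _) => e
  have : (S.filter (fun h => gadOf h = g)).card ≤ (univ : Finset (Fin 2)).card := by
    apply Finset.card_le_card_of_injOn f (fun _ _ => mem_coe.mpr (mem_univ _))
    intro h hh h' hh' hff
    simp only [coe_filter, Set.mem_ofPred_eq] at hh hh'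
    obtain ⟨hh1, hh2⟩ := hh
    obtain ⟨hh1', hh2'⟩ := hh'
    have hon := hS h hh1
    have hon' := hS h' hh1'
    rcases h with ⟨x, i, o⟩
    rcases h' with ⟨x', i', o'⟩
    simp only [gadOf] at hh2 hh2'
    have hg : (x, i) = (x', i') := hh2.trans hh2'.symm
    obtain ⟨rfl, rfl⟩ := Prod.mk.inj hg
    have key : ∀ (e : Fin 2) (l : Fin 10), On z (C.line x i) → ¬ On z (A.line x i e l) := by
      intro e l h1 h2
      have hne : C.line x i ≠ A.line x i e l := by
        intro hl
        have := congrArg Prod.fst hl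
        simp only [UData.line, AData.line, lineThru_fst] at this
        exact (adir_props A x i e l).2.1 this.symm
      have := point_unique hne h1 h2 (g1_base_on_U (B := B) x i e) (g1_base_on_A A x i e l)
      exact hz (this ▸ g1_base_mem_all x i e)
    rcases o with _ | ⟨e, j⟩ <;> rcases o' with _ | ⟨e', j'⟩
    · rfl
    · exact absurd hon' (key e' j' hon)
    · exact absurd hon (key e j hon')
    · simp only [f] at hff
      subst hff
      by_cases hj : j = j'
      · rw [hj]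
      · exfalso
        have hne : A.line x i e j ≠ A.line x i e j' := by
          intro hl
          have := congrArg Prod.fst hl
          simp only [AData.line, lineThru_fst] at this
          exact hj (adir_inj A this).2
        have := point_unique hne hon hon' (g1_base_on_A A x i e j) (g1_base_on_A A x i e j')
        exact hz (this ▸ g1_base_mem_all x i e)
  simpa using this

/-- At most 1 hole of a gadget has a given direction. -/
theorem fiber_dir {d : Dir K} (g : Dir K × Fin 2) (S : Finset (HIdx K))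
    (hS : ∀ h ∈ S, (holeOf A h).1 = d) : (S.filter (fun h => gadOf h = g)).card ≤ 1 := by
  classical
  rw [card_le_one]
  intro h hh h' hh'
  simp only [mem_filter] at hh hh'
  obtain ⟨hh1, hh2⟩ := hh
  obtain ⟨hh1', hh2'⟩ := hh'
  have hon := hS h hh1
  have hon' := hS h' hh1'
  rcases h with ⟨x, i, o⟩
  rcases h' with ⟨x', i', o'⟩
  simp only [gadOf] at hh2 hh2'
  have hg : (x, i) = (x', i') := hh2.trans hh2'.symm
  obtain ⟨rfl, rfl⟩ := Prod.mk.inj hg
  rcases o with _ | ⟨e, j⟩ <;> rcases o' with _ | ⟨e', j'⟩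
  · rfl
  · exfalso
    simp only [holeOf, UData.line, AData.line, lineThru_fst] at hon hon'
    exact (adir_props A x i e' j').2.1 (hon'.trans hon.symm)
  · exfalso
    simp only [holeOf, UData.line, AData.line, lineThru_fst] at hon hon'
    exact (adir_props A x i e j).2.1 (hon.trans hon'.symm)
  · simp only [holeOf, AData.line, lineThru_fst] at hon hon'
    obtain ⟨rfl, rfl⟩ := adir_inj A (hon.trans hon'.symm)
    rfl

/-- Splitting the hole indices. -/
def hEquiv : ((Dir K × Fin 2) ⊕ VIdx K) ≃ HIdx K where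
  toFun := Sum.elim (fun t => (t.1, t.2, none)) (fun v => (v.1, v.2.1, some (v.2.2.1, v.2.2.2)))
  invFun := fun h => match h with
    | (x, i, none) => Sum.inl (x, i)
    | (x, i, some (e, j)) => Sum.inr (x, i, e, j)
  left_inv := by rintro (⟨x, i⟩ | ⟨x, i, e, j⟩) <;> rfl
  right_inv := by rintro ⟨x, i, _ | ⟨e, j⟩⟩ <;> rfl

theorem card_filter_hidx (P : HIdx K → Prop) [DecidablePred P] :
    (univ.filter P).card =
      (univ.filter (fun t : Dir K × Fin 2 => P (t.1, t.2, none))).card +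
      (univ.filter (fun v : VIdx K => P (v.1, v.2.1, some (v.2.2.1, v.2.2.2)))).card := by
  simp only [card_filter]
  rw [← (hEquiv (K := K)).sum_comp, Fintype.sum_sum_type]
  rfl

theorem card_holes_pt (z : Pt K) :
    (univ.filter (fun h : HIdx K => On z (holeOf A h))).card = A.mP z := by
  rw [card_filter_hidx]
  rfl

theorem card_holes_dir (d : Dir K) :
    (univ.filter (fun h : HIdx K => (holeOf A h).1 = d)).card = A.mD d := by
  rw [card_filter_hidx]
  unfold AData.mD
  congr 1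
  · have : (univ.filter (fun t : Dir K × Fin 2 =>
        (holeOf A ((t.1, t.2, none) : HIdx K)).1 = d)) = univ.image (fun i : Fin 2 => (d, i)) := by
      ext ⟨x, i⟩
      simp only [mem_filter, mem_univ, true_and, mem_image, Prod.mk.injEq, exists_eq_right]
      exact eq_comm
    rw [this, card_image_of_injective]
    · simp
    · intro a b hab
      simpa using hab
  · congr 1
    ext v
    simp [holeOf, AData.line]

/-- The marginals on the subtype. -/
theorem pr_marg {ρ : ℝ} (hρ0 : 0 ≤ ρ)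
    (hmarg : ∀ (g : Dir K × Fin 2) (l : Fin 10) (s : K),
      (((gam A g.1 g.2).filter (fun t => t l = s)).card : ℝ) ≤ ρ * (gam A g.1 g.2).card)
    (g : Dir K × Fin 2) (l : Fin 10) (s : K) :
    pr (fun a : {t : Fin 10 → K // t ∈ gam A g.1 g.2} => a.1 l = s) ≤ ρ := by
  classical
  rw [pr_eq_filter]
  have hc : Fintype.card {t : Fin 10 → K // t ∈ gam A g.1 g.2} = (gam A g.1 g.2).card :=
    Fintype.card_of_subtype _ (fun _ => Iff.rfl)
  have h1 : ((univ.filter (fun a : {t : Fin 10 → K // t ∈ gam A g.1 g.2} => a.1 l = s)).card : ℝ)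
      ≤ ((gam A g.1 g.2).filter (fun t => t l = s)).card := by
    have : (univ.filter (fun a : {t : Fin 10 → K // t ∈ gam A g.1 g.2} => a.1 l = s)).card
        ≤ ((gam A g.1 g.2).filter (fun t => t l = s)).card := by
      apply Finset.card_le_card_of_injOn Subtype.val
      · intro a ha
        simp only [coe_filter, mem_univ, true_and, Set.mem_ofPred_eq] at ha
        simp only [coe_filter, Set.mem_ofPred_eq]
        exact ⟨a.2, ha⟩
      · intro a _ b _ hab
        exact Subtype.ext hab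
    exact_mod_cast this
  rw [hc]
  rcases Nat.eq_zero_or_pos (gam A g.1 g.2).card with h0 | hpos
  · rw [h0]
    simp only [Nat.cast_zero, div_zero]
    exact hρ0
  · rw [div_le_iff₀ (by exact_mod_cast hpos)]
    exact h1.trans (hmarg g l s)

/-- The event for one tuple. -/
theorem pr_ev_le (Good : Ln K → Prop) (τ : Fin 5 → HIdx K × Fin 10) {ρ : ℝ} (hρ0 : 0 ≤ ρ)
    (hne : ∀ g : Dir K × Fin 2, Nonempty {t : Fin 10 → K // t ∈ gam A g.1 g.2})
    (hmarg : ∀ (g : Dir K × Fin 2) (l : Fin 10) (s : K),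
      (((gam A g.1 g.2).filter (fun t => t l = s)).card : ℝ) ≤ ρ * (gam A g.1 g.2).card)
    (hinj : Function.Injective (fun k => gadOf (τ k).1))
    (hval : ∀ k, validL (τ k).1 (τ k).2)
    (hNe : ∀ k L, Good L → holeOf A (τ k).1 ≠ L)
    (hPt : ∀ L, Good L → ∀ p, On p L → On p (holeOf A (τ 0).1) → ¬ On p (holeOf A (τ 1).1)) :
    pr (fun ω : OmK A => ∃ L, Good L ∧
      ∀ k, On (dpt A (τ k).1 (τ k).2 ((ω (gadOf (τ k).1)).1 (τ k).2)) L) ≤ ρ ^ 3 := by
  classical
  have := hne
  let pf : Fin 5 → OmK A → Pt K :=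
    fun k ω => dpt A (τ k).1 (τ k).2 ((ω (gadOf (τ k).1)).1 (τ k).2)
  let Lf : OmK A → Ln K := fun ω => line2 (pf 0 ω) (pf 1 ω)
  let Bk : ∀ k : Fin 5, Ln K → {t : Fin 10 → K // t ∈ gam A (gadOf (τ k).1).1 (gadOf (τ k).1).2} → Prop :=
    fun k L a => Good L ∧ On (dpt A (τ k).1 (τ k).2 (a.1 (τ k).2)) L
  have hB : ∀ k L, pr (Bk k L) ≤ ρ := by
    intro k L
    by_cases hG : Good L
    · by_cases hs : ∃ s, On (dpt A (τ k).1 (τ k).2 s) L
      · obtain ⟨s0, hs0⟩ := hs
        have huniq : ∀ s, On (dpt A (τ k).1 (τ k).2 s) L → s = s0 := by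
          intro s hs
          apply dpt_inj A _ _ (hval k)
          exact point_unique (hNe k L hG) (dpt_on A _ _ (hval k) s) hs
            (dpt_on A _ _ (hval k) s0) hs0
        refine le_trans (pr_mono ?_) (pr_marg A hρ0 hmarg (gadOf (τ k).1) (τ k).2 s0)
        rintro a ⟨_, ha⟩
        exact huniq _ ha
      · rw [pr_false_eq]
        · exact hρ0
        · rintro a ⟨_, ha⟩
          exact hs ⟨_, ha⟩
    · rw [pr_false_eq]
      · exact hρ0
      · rintro a ⟨ha, _⟩
        exact hG ha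
  have hgne : ∀ a b : Fin 5, a ≠ b → gadOf (τ a).1 ≠ gadOf (τ b).1 :=
    fun a b hab h => hab (hinj h)
  have hLfu : ∀ k : Fin 5, k ≠ 0 → k ≠ 1 → ∀ ω a,
      Lf (Function.update ω (gadOf (τ k).1) a) = Lf ω := by
    intro k h0 h1 ω a
    simp only [Lf, pf]
    rw [Function.update_of_ne (hgne 0 k (Ne.symm h0)), Function.update_of_ne (hgne 1 k (Ne.symm h1))]
  have key := pr_triple_le (Ω := fun g : Dir K × Fin 2 => {t : Fin 10 → K // t ∈ gam A g.1 g.2})
    (gadOf (τ 2).1) (gadOf (τ 3).1) (gadOf (τ 4).1)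
    (hgne 2 3 (by decide)) (hgne 2 4 (by decide)) (hgne 3 4 (by decide))
    Lf (hLfu 2 (by decide) (by decide)) (hLfu 3 (by decide) (by decide))
    (hLfu 4 (by decide) (by decide)) (Bk 2) (Bk 3) (Bk 4) hρ0 (hB 2) (hB 3) (hB 4)
  refine le_trans (pr_mono ?_) key
  rintro ω ⟨L, hG, hL⟩
  have hpt0 : pf 0 ω ≠ pf 1 ω := by
    intro h01
    have h0 : On (pf 0 ω) (holeOf A (τ 0).1) := dpt_on A _ _ (hval 0) _
    have h1 : On (pf 1 ω) (holeOf A (τ 1).1) := dpt_on A _ _ (hval 1) _
    rw [← h01] at h1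
    exact hPt L hG _ (hL 0) h0 h1
  have hLf : Lf ω = L := eq_line2 hpt0 (hL 0) (hL 1)
  refine ⟨⟨hLf ▸ hG, ?_⟩, ⟨hLf ▸ hG, ?_⟩, ⟨hLf ▸ hG, ?_⟩⟩
  · rw [hLf]; exact hL 2
  · rw [hLf]; exact hL 3
  · rw [hLf]; exact hL 4

/-- Union over tuples. -/
theorem pr_core_union (Hs : Finset (HIdx K)) (Good : Ln K → Prop) {ρ : ℝ} (hρ0 : 0 ≤ ρ)
    (hne : ∀ g : Dir K × Fin 2, Nonempty {t : Fin 10 → K // t ∈ gam A g.1 g.2})
    (hmarg : ∀ (g : Dir K × Fin 2) (l : Fin 10) (s : K),
      (((gam A g.1 g.2).filter (fun t => t l = s)).card : ℝ) ≤ ρ * (gam A g.1 g.2).card)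
    (hNe : ∀ h ∈ Hs, ∀ L, Good L → holeOf A h ≠ L)
    (hPt : ∀ h ∈ Hs, ∀ h' ∈ Hs, gadOf h ≠ gadOf h' → ∀ L, Good L → ∀ p, On p L →
      On p (holeOf A h) → ¬ On p (holeOf A h')) :
    pr (fun ω : OmK A => ∃ L, Good L ∧ ∃ S : Finset (HIdx K), S ⊆ Hs ∧
      (∀ h ∈ S, ∃ p ∈ (toK ω).des h, On p L) ∧ 5 ≤ (S.image gadOf).card)
      ≤ ((Hs.card : ℝ) * 10) ^ 5 * ρ ^ 3 := by
  classical
  let T : Finset (Fin 5 → HIdx K × Fin 10) := Fintype.piFinset (fun _ => Hs ×ˢ (univ : Finset (Fin 10)))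
  let E : (Fin 5 → HIdx K × Fin 10) → OmK A → Prop := fun τ ω =>
    Function.Injective (fun k => gadOf (τ k).1) ∧ (∀ k, validL (τ k).1 (τ k).2) ∧
    ∃ L, Good L ∧ ∀ k, On (dpt A (τ k).1 (τ k).2 ((ω (gadOf (τ k).1)).1 (τ k).2)) L
  have hsub : pr (fun ω : OmK A => ∃ L, Good L ∧ ∃ S : Finset (HIdx K), S ⊆ Hs ∧
      (∀ h ∈ S, ∃ p ∈ (toK ω).des h, On p L) ∧ 5 ≤ (S.image gadOf).card)
      ≤ pr (fun ω => ∃ τ ∈ T, E τ ω) := by
    apply pr_mono
    rintro ω ⟨L, hG, S, hSs, hSp, hS5⟩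
    -- embed
    have hcard : Fintype.card (Fin 5) ≤ Fintype.card (S.image gadOf) := by
      simpa using hS5
    obtain ⟨φ⟩ := Function.Embedding.nonempty_of_card_le hcard
    have hch : ∀ k : Fin 5, ∃ hl : HIdx K × Fin 10, hl.1 ∈ S ∧ gadOf hl.1 = (φ k).1 ∧
        validL hl.1 hl.2 ∧ On (dpt A hl.1 hl.2 ((ω (gadOf hl.1)).1 hl.2)) L := by
      intro k
      obtain ⟨h, hh, hg⟩ := mem_image.mp (φ k).2
      obtain ⟨p, hp, hpL⟩ := hSp h hh
      obtain ⟨l, hl, rfl⟩ := mem_des_toK A ω h p hp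
      exact ⟨(h, l), hh, hg, hl, hpL⟩
    choose τ hτ1 hτ2 hτ3 hτ4 using hch
    refine ⟨τ, ?_, ?_, hτ3, L, hG, hτ4⟩
    · simp only [T, Fintype.mem_piFinset, mem_product, mem_univ, and_true]
      exact fun k => hSs (hτ1 k)
    · intro a b hab
      simp only [hτ2] at hab
      exact φ.injective (Subtype.ext hab)
  refine hsub.trans ((pr_exists_le T E).trans ?_)
  have hcardT : (T.card : ℝ) = ((Hs.card : ℝ) * 10) ^ 5 := by
    simp [T, Fintype.card_piFinset, card_product]
  rw [← hcardT]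
  have hterm : ∀ τ ∈ T, pr (E τ) ≤ ρ ^ 3 := by
    intro τ hτ
    simp only [T, Fintype.mem_piFinset, mem_product, mem_univ, and_true] at hτ
    by_cases hinj : Function.Injective (fun k => gadOf (τ k).1)
    · by_cases hval : ∀ k, validL (τ k).1 (τ k).2
      · refine le_trans (pr_mono ?_) (pr_ev_le A Good τ hρ0 hne hmarg hinj hval
          (fun k L hL => hNe _ (hτ k) L hL) ?_)
        · rintro ω ⟨_, _, h⟩
          exact h
        · intro L hL p hp h0 h1
          exact hPt _ (hτ 0) _ (hτ 1) (fun h => absurd (hinj h) (by decide)) L hL p hp h0 h1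
      · rw [pr_false_eq]
        · positivity
        · rintro ω ⟨_, h, _⟩
          exact hval h
    · rw [pr_false_eq]
      · positivity
      · rintro ω ⟨h, _⟩
        exact hinj h
  calc ∑ τ ∈ T, pr (E τ) ≤ ∑ τ ∈ T, ρ ^ 3 := Finset.sum_le_sum hterm
    _ = (T.card : ℝ) * ρ ^ 3 := by simp

end holes

/-- `g1pt` holds with probability `≥ 3/4`.  Through a non-base `z` at most 2 holes of a gadget pass, so a violation gives five
designated points of distinct gadgets on holes through `z`, on a line off `z`.  Two of them fix the line, each of the other three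
then fixes a value of one parameter (`gam_marginal`), `pr ≤ (C3marg/q)³`.  The number of choices is at most `(10 mP z)⁵`.  Sum over `z`:
`≤ 10⁵ · 132 · C1mom q² · (C3marg/q)³ → 0`. -/
theorem l3_g1pt : ∃ q₀ : ℕ, ∀ (K : Type) [Field K] [Fintype K] [DecidableEq K], q₀ ≤ Fintype.card K →
    ∀ (C : UData K) (B : BData C) (A : AData B),
      P1 B → (∑ p, (2 : ℝ) ^ A.mP p ≤ C1mom * (Fintype.card K : ℝ) ^ 2) →
      (∀ x i l, c1keep * Fintype.card K ≤ ((goodS A x i l).card : ℝ)) →
      pr (fun ω : OmK A => ¬ ∀ z, z ∉ B.all → ∀ L : Ln K, ¬ On z L →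
        (univ.filter (fun h : HIdx K => On z (holeOf A h) ∧ ∃ p ∈ (toK ω).des h, On p L)).card ≤ 8) ≤ 1 / 4 := by
  classical
  obtain ⟨q1, h1⟩ := gam_marginal
  obtain ⟨q2, h2⟩ := gam_card
  have hC1 : 0 < C1mom := by unfold C1mom; positivity
  have hC3 : 0 < C3marg := by
    unfold C3marg
    have := c1keep_pos
    positivity
  set Cst : ℝ := 10 ^ 5 * 132 * C1mom * C3marg ^ 3 with hCst
  have hCstpos : 0 < Cst := by positivity
  refine ⟨max (max q1 q2) (max 1 ⌈4 * Cst⌉₊), ?_⟩
  intro K _ _ _ hq C B A hP1 hmom hgood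
  have hq1 : q1 ≤ Fintype.card K := le_trans (le_trans (le_max_left _ _) (le_max_left _ _)) hq
  have hq2 : q2 ≤ Fintype.card K := le_trans (le_trans (le_max_right _ _) (le_max_left _ _)) hq
  have hq3 : 1 ≤ Fintype.card K := le_trans (le_trans (le_max_left _ _) (le_max_right _ _)) hq
  have hq4 : ⌈4 * Cst⌉₊ ≤ Fintype.card K := le_trans (le_trans (le_max_right _ _) (le_max_right _ _)) hq
  have hq3r : (0 : ℝ) < Fintype.card K := by exact_mod_cast hq3
  have hq4r : 4 * Cst ≤ (Fintype.card K : ℝ) := (Nat.le_ceil _).trans (by exact_mod_cast hq4)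
  set ρ : ℝ := C3marg / Fintype.card K with hρ
  have hρ0 : 0 ≤ ρ := by positivity
  have hne : ∀ g : Dir K × Fin 2, Nonempty {t : Fin 10 → K // t ∈ gam A g.1 g.2} := by
    intro g
    have h := h2 K hq2 C B A g.1 g.2 (hgood g.1 g.2)
    have hpos : 0 < c1keep * (Fintype.card K : ℝ) / 2 := by
      have := c1keep_pos
      positivity
    have h3 : (0 : ℝ) < ((gam A g.1 g.2).card : ℝ) := lt_of_lt_of_le (by positivity) h
    have h4 : 0 < (gam A g.1 g.2).card := by exact_mod_cast h3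
    obtain ⟨t, ht⟩ := Finset.card_pos.mp h4
    exact ⟨⟨t, ht⟩⟩
  have hmarg : ∀ (g : Dir K × Fin 2) (l : Fin 10) (s : K),
      (((gam A g.1 g.2).filter (fun t => t l = s)).card : ℝ) ≤ ρ * (gam A g.1 g.2).card :=
    fun g l s => h1 K hq1 C B A g.1 g.2 (hgood g.1 g.2) l s
  -- one point
  have hz : ∀ z : Pt K, pr (fun ω : OmK A => ∃ L, ¬ On z L ∧ ∃ S : Finset (HIdx K),
      S ⊆ univ.filter (fun h : HIdx K => On z (holeOf A h)) ∧
      (∀ h ∈ S, ∃ p ∈ (toK ω).des h, On p L) ∧ 5 ≤ (S.image gadOf).card)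
      ≤ (((A.mP z : ℕ) : ℝ) * 10) ^ 5 * ρ ^ 3 := by
    intro z
    have := pr_core_union A (univ.filter (fun h : HIdx K => On z (holeOf A h)))
      (fun L => ¬ On z L) hρ0 hne hmarg ?_ ?_
    · rwa [card_holes_pt] at this
    · intro h hh L hL heq
      simp only [mem_filter, mem_univ, true_and] at hh
      exact hL (heq ▸ hh)
    · intro h hh h' hh' hg L hL p hp hp1 hp2
      simp only [mem_filter, mem_univ, true_and] at hh hh'
      have := point_unique (holeOf_ne A hg) hp1 hp2 hh hh'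
      exact hL (this ▸ hp)
  -- inclusion
  have hsub : pr (fun ω : OmK A => ¬ ∀ z, z ∉ B.all → ∀ L : Ln K, ¬ On z L →
        (univ.filter (fun h : HIdx K => On z (holeOf A h) ∧ ∃ p ∈ (toK ω).des h, On p L)).card ≤ 8)
      ≤ pr (fun ω : OmK A => ∃ z ∈ (univ : Finset (Pt K)), ∃ L, ¬ On z L ∧ ∃ S : Finset (HIdx K),
      S ⊆ univ.filter (fun h : HIdx K => On z (holeOf A h)) ∧
      (∀ h ∈ S, ∃ p ∈ (toK ω).des h, On p L) ∧ 5 ≤ (S.image gadOf).card) := by
    apply pr_mono
    intro ω hω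
    push Not at hω
    obtain ⟨z, hzB, L, hL, hcard⟩ := hω
    refine ⟨z, mem_univ _, L, hL, univ.filter (fun h : HIdx K => On z (holeOf A h) ∧ ∃ p ∈ (toK ω).des h, On p L), ?_, ?_, ?_⟩
    · intro h hh
      simp only [mem_filter, mem_univ, true_and] at hh ⊢
      exact hh.1
    · intro h hh
      simp only [mem_filter, mem_univ, true_and] at hh
      exact hh.2
    · have h9 := Finset.card_le_mul_card_image
        (univ.filter (fun h : HIdx K => On z (holeOf A h) ∧ ∃ p ∈ (toK ω).des h, On p L)) 2 (f := gadOf)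
        (fun g _ => fiber_pt A hzB g _ (fun h hh => by
          simp only [mem_filter, mem_univ, true_and] at hh
          exact hh.1))
      omega
  refine hsub.trans ((pr_exists_le univ _).trans ?_)
  refine (Finset.sum_le_sum (fun z _ => hz z)).trans ?_
  have hbound : ∀ z : Pt K, (((A.mP z : ℕ) : ℝ) * 10) ^ 5 * ρ ^ 3
      ≤ (10 ^ 5 * 132 * ρ ^ 3) * (2 : ℝ) ^ A.mP z := by
    intro z
    have : ((A.mP z : ℕ) : ℝ) ^ 5 ≤ 132 * 2 ^ A.mP z := by exact_mod_cast pow_five_le (A.mP z)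
    have hρ3 : 0 ≤ ρ ^ 3 := by positivity
    rw [mul_pow]
    nlinarith [mul_le_mul_of_nonneg_right this (by positivity : (0 : ℝ) ≤ 10 ^ 5 * ρ ^ 3)]
  refine (Finset.sum_le_sum (fun z _ => hbound z)).trans ?_
  rw [← Finset.mul_sum]
  have hfin : (10 ^ 5 * 132 * ρ ^ 3) * (C1mom * (Fintype.card K : ℝ) ^ 2) = Cst / Fintype.card K := by
    rw [hρ, hCst]
    field_simp
  calc (10 ^ 5 * 132 * ρ ^ 3) * ∑ p, (2 : ℝ) ^ A.mP p
      ≤ (10 ^ 5 * 132 * ρ ^ 3) * (C1mom * (Fintype.card K : ℝ) ^ 2) :=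
        mul_le_mul_of_nonneg_left hmom (by positivity)
    _ = Cst / Fintype.card K := hfin
    _ ≤ 1 / 4 := by
        rw [div_le_div_iff₀ hq3r (by norm_num)]
        linarith

/-- `g1par` holds with probability `≥ 3/4`: same, a gadget has at most one hole in a direction (classes, `adir ≠ x`); sum over `d` of `(10 mD d)⁵ (C3marg/q)³ ≤ C/q²`. -/
theorem l3_g1par : ∃ q₀ : ℕ, ∀ (K : Type) [Field K] [Fintype K] [DecidableEq K], q₀ ≤ Fintype.card K →
    ∀ (C : UData K) (B : BData C) (A : AData B),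
      P1 B → (∑ d, (A.mD d : ℝ) ^ 5 ≤ C2mom * Fintype.card K) →
      (∀ x i l, c1keep * Fintype.card K ≤ ((goodS A x i l).card : ℝ)) →
      pr (fun ω : OmK A => ¬ ∀ (d : Dir K) (L : Ln K), L.1 ≠ d →
        (univ.filter (fun h : HIdx K => (holeOf A h).1 = d ∧ ∃ p ∈ (toK ω).des h, On p L)).card ≤ 8) ≤ 1 / 4 := by
  classical
  obtain ⟨q1, h1⟩ := gam_marginal
  obtain ⟨q2, h2⟩ := gam_card
  have hC2 : 0 < C2mom := by unfold C2mom; positivity
  have hC3 : 0 < C3marg := by
    unfold C3marg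
    have := c1keep_pos
    positivity
  set Cst : ℝ := 10 ^ 5 * C2mom * C3marg ^ 3 with hCst
  have hCstpos : 0 < Cst := by positivity
  refine ⟨max (max q1 q2) (max 1 ⌈4 * Cst⌉₊), ?_⟩
  intro K _ _ _ hq C B A hP1 hmom hgood
  have hq1 : q1 ≤ Fintype.card K := le_trans (le_trans (le_max_left _ _) (le_max_left _ _)) hq
  have hq2 : q2 ≤ Fintype.card K := le_trans (le_trans (le_max_right _ _) (le_max_left _ _)) hq
  have hq3 : 1 ≤ Fintype.card K := le_trans (le_trans (le_max_left _ _) (le_max_right _ _)) hq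
  have hq4 : ⌈4 * Cst⌉₊ ≤ Fintype.card K := le_trans (le_trans (le_max_right _ _) (le_max_right _ _)) hq
  have hq3r : (0 : ℝ) < Fintype.card K := by exact_mod_cast hq3
  have hq3r1 : (1 : ℝ) ≤ Fintype.card K := by exact_mod_cast hq3
  have hq4r : 4 * Cst ≤ (Fintype.card K : ℝ) := (Nat.le_ceil _).trans (by exact_mod_cast hq4)
  set ρ : ℝ := C3marg / Fintype.card K with hρ
  have hρ0 : 0 ≤ ρ := by positivity
  have hne : ∀ g : Dir K × Fin 2, Nonempty {t : Fin 10 → K // t ∈ gam A g.1 g.2} := by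
    intro g
    have h := h2 K hq2 C B A g.1 g.2 (hgood g.1 g.2)
    have hpos : 0 < c1keep * (Fintype.card K : ℝ) / 2 := by
      have := c1keep_pos
      positivity
    have h3 : (0 : ℝ) < ((gam A g.1 g.2).card : ℝ) := lt_of_lt_of_le (by positivity) h
    have h4 : 0 < (gam A g.1 g.2).card := by exact_mod_cast h3
    obtain ⟨t, ht⟩ := Finset.card_pos.mp h4
    exact ⟨⟨t, ht⟩⟩
  have hmarg : ∀ (g : Dir K × Fin 2) (l : Fin 10) (s : K),
      (((gam A g.1 g.2).filter (fun t => t l = s)).card : ℝ) ≤ ρ * (gam A g.1 g.2).card :=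
    fun g l s => h1 K hq1 C B A g.1 g.2 (hgood g.1 g.2) l s
  -- one direction
  have hz : ∀ d : Dir K, pr (fun ω : OmK A => ∃ L : Ln K, L.1 ≠ d ∧ ∃ S : Finset (HIdx K),
      S ⊆ univ.filter (fun h : HIdx K => (holeOf A h).1 = d) ∧
      (∀ h ∈ S, ∃ p ∈ (toK ω).des h, On p L) ∧ 5 ≤ (S.image gadOf).card)
      ≤ (((A.mD d : ℕ) : ℝ) * 10) ^ 5 * ρ ^ 3 := by
    intro d
    have := pr_core_union A (univ.filter (fun h : HIdx K => (holeOf A h).1 = d))
      (fun L => L.1 ≠ d) hρ0 hne hmarg ?_ ?_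
    · rwa [card_holes_dir] at this
    · intro h hh L hL heq
      simp only [mem_filter, mem_univ, true_and] at hh
      exact hL (heq ▸ hh)
    · intro h hh h' hh' hg L hL p hp hp1 hp2
      simp only [mem_filter, mem_univ, true_and] at hh hh'
      exact not_on_of_parallel (hh.trans hh'.symm) (holeOf_ne A hg) hp1 hp2
  -- inclusion
  have hsub : pr (fun ω : OmK A => ¬ ∀ (d : Dir K) (L : Ln K), L.1 ≠ d →
        (univ.filter (fun h : HIdx K => (holeOf A h).1 = d ∧ ∃ p ∈ (toK ω).des h, On p L)).card ≤ 8)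
      ≤ pr (fun ω : OmK A => ∃ d ∈ (univ : Finset (Dir K)), ∃ L : Ln K, L.1 ≠ d ∧ ∃ S : Finset (HIdx K),
      S ⊆ univ.filter (fun h : HIdx K => (holeOf A h).1 = d) ∧
      (∀ h ∈ S, ∃ p ∈ (toK ω).des h, On p L) ∧ 5 ≤ (S.image gadOf).card) := by
    apply pr_mono
    intro ω hω
    push Not at hω
    obtain ⟨d, L, hL, hcard⟩ := hω
    refine ⟨d, mem_univ _, L, hL, univ.filter (fun h : HIdx K => (holeOf A h).1 = d ∧ ∃ p ∈ (toK ω).des h, On p L), ?_, ?_, ?_⟩
    · intro h hh
      simp only [mem_filter, mem_univ, true_and] at hh ⊢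
      exact hh.1
    · intro h hh
      simp only [mem_filter, mem_univ, true_and] at hh
      exact hh.2
    · have h9 := Finset.card_le_mul_card_image
        (univ.filter (fun h : HIdx K => (holeOf A h).1 = d ∧ ∃ p ∈ (toK ω).des h, On p L)) 1 (f := gadOf)
        (fun g _ => fiber_dir A g _ (fun h hh => by
          simp only [mem_filter, mem_univ, true_and] at hh
          exact hh.1))
      omega
  refine hsub.trans ((pr_exists_le univ _).trans ?_)
  refine (Finset.sum_le_sum (fun z _ => hz z)).trans ?_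
  have hbound : ∀ d : Dir K, (((A.mD d : ℕ) : ℝ) * 10) ^ 5 * ρ ^ 3
      = (10 ^ 5 * ρ ^ 3) * (A.mD d : ℝ) ^ 5 := by
    intro z
    ring
  simp only [hbound]
  rw [← Finset.mul_sum]
  have hfin : (10 ^ 5 * ρ ^ 3) * (C2mom * (Fintype.card K : ℝ)) = Cst / (Fintype.card K : ℝ) ^ 2 := by
    rw [hρ, hCst]
    field_simp
  have hq2' : (Fintype.card K : ℝ) ≤ (Fintype.card K : ℝ) ^ 2 := by nlinarith
  calc (10 ^ 5 * ρ ^ 3) * ∑ d, (A.mD d : ℝ) ^ 5
      ≤ (10 ^ 5 * ρ ^ 3) * (C2mom * (Fintype.card K : ℝ)) :=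
        mul_le_mul_of_nonneg_left hmom (by positivity)
    _ = Cst / (Fintype.card K : ℝ) ^ 2 := hfin
    _ ≤ 1 / 4 := by
        rw [div_le_div_iff₀ (by positivity) (by norm_num)]
        linarith

end Crest.Agent.Ryser
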