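import Crest.Agent.Ryser.Design

/-!
# Layer 3, one gadget: the set `gam` of allowed keep tuples is large and has small marginals.

Proof of the lower bound: choose `t 0, …, t 9` greedily.  Each designated point of base `e` depends on exactly one
`t l` and injectively (`keepPt` is `param`; `mPt` moves along `A e j` since `adir e j ≠ adir e l`, `adir e l ≠ x`).
Two designated points with the same `l` (and same `e`) lie on `E e l`.  So a forbidden triple on a line not through the base and not an `E` has three different
`l`; at the step of the largest one, the other two fix a line `L`, which is not the hole carrying the third point (holes contain the base), so at most one parameter is excluded.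
With the injectivity conditions at most `2·10⁶` values are excluded at each step.
-/

set_option autoImplicit false
set_option linter.unusedSectionVars false
set_option linter.unusedVariables false

namespace Crest.Agent.Ryser

open Finset

/-- Upper bound for the marginals. -/
noncomputable def C3marg : ℝ := (2 / c1keep) ^ 10

theorem c1keep_pos : 0 < c1keep := by
  unfold c1keep c0pat
  have := phi1_pos
  positivity

namespace GamAux

/-- Greedy counting: if at every coordinate at least `m` values are allowed, whatever the previous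
coordinates are, there are at least `m ^ n` allowed tuples. -/
theorem greedy_count {K : Type} [Fintype K] [DecidableEq K] (d : K) {n : ℕ}
    (T : Fin n → (Fin n → K) → Finset K) (m : ℕ)
    (hT : ∀ l t t', (∀ i, i < l → t i = t' i) → T l t = T l t')
    (hcard : ∀ l t, m ≤ (T l t).card) :
    m ^ n ≤ (univ.filter (fun t : Fin n → K => ∀ l, t l ∈ T l t)).card := by
  classical
  let A : ℕ → Finset (Fin n → K) := fun k =>
    univ.filter (fun t => (∀ l : Fin n, l.val < k → t l ∈ T l t) ∧ ∀ l : Fin n, k ≤ l.val → t l = d)
  have step : ∀ k, k ≤ n → m ^ k ≤ (A k).card := by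
    intro k
    induction k with
    | zero =>
      intro _
      have : (fun _ : Fin n => d) ∈ A 0 := by
        simp [A]
      simpa using Finset.card_pos.mpr ⟨_, this⟩
    | succ k ih =>
      intro hk
      have hk' : k < n := hk
      let kk : Fin n := ⟨k, hk'⟩
      have h1 := ih (le_of_lt hk')
      let Sig := (A k).sigma (fun t => T kk t)
      have hsig : m ^ (k + 1) ≤ Sig.card := by
        rw [Finset.card_sigma, pow_succ]
        calc m ^ k * m ≤ (A k).card * m := Nat.mul_le_mul_right _ h1
          _ = ∑ _t ∈ A k, m := by simp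
          _ ≤ _ := Finset.sum_le_sum (fun t _ => hcard kk t)
      refine hsig.trans ?_
      refine Finset.card_le_card_of_injOn (fun p => Function.update p.1 kk p.2) ?_ ?_
      · rintro ⟨t, s⟩ hp
        have hp' : t ∈ A k ∧ s ∈ T kk t := by simpa [Sig] using hp
        obtain ⟨ht, hs⟩ := hp'
        simp only [A, mem_filter, mem_univ, true_and] at ht
        simp only [A, mem_coe, mem_filter, mem_univ, true_and]
        have hagree : ∀ l : Fin n, l ≤ kk → ∀ i, i < l → Function.update t kk s i = t i := by
          intro l hl i hi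
          rw [Function.update_of_ne]
          exact ne_of_lt (lt_of_lt_of_le hi hl)
        constructor
        · intro l hl
          by_cases hlk : l = kk
          · subst hlk
            rw [Function.update_self]
            rw [hT kk _ t (hagree kk le_rfl)]
            exact hs
          · have hlt : l.val < k := by
              have : l.val ≠ k := fun h => hlk (Fin.ext h)
              omega
            rw [Function.update_of_ne hlk]
            rw [hT l _ t (hagree l (le_of_lt hlt))]
            exact ht.1 l hlt
        · intro l hl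
          have hlk : l ≠ kk := by
            intro h
            have : l.val = k := by rw [h]
            omega
          rw [Function.update_of_ne hlk]
          exact ht.2 l (by omega)
      · rintro ⟨t, s⟩ hp ⟨t', s'⟩ hp' heq
        have hp1 : t ∈ A k ∧ s ∈ T kk t := by simpa [Sig] using hp
        have hp2 : t' ∈ A k ∧ s' ∈ T kk t' := by simpa [Sig] using hp'
        simp only [A, mem_filter, mem_univ, true_and] at hp1 hp2
        simp only at heq
        have hss : s = s' := by
          have := congrFun heq kk
          simpa using this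
        have htt : t = t' := by
          funext l
          by_cases hlk : l = kk
          · subst hlk
            rw [hp1.1.2 _ le_rfl, hp2.1.2 _ le_rfl]
          · have := congrFun heq l
            rwa [Function.update_of_ne hlk, Function.update_of_ne hlk] at this
        subst htt; subst hss; rfl
  have := step n le_rfl
  refine this.trans (Finset.card_le_card ?_)
  intro t ht
  simp only [A, mem_filter, mem_univ, true_and] at ht
  simp only [mem_filter, mem_univ, true_and]
  exact fun l => ht.1 l l.isLt

variable {K : Type} [Field K] [Fintype K] [DecidableEq K]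
variable {C : UData K} {B : BData C} (A : AData B) (x : Dir K) (i : Fin 2)

theorem cls_adir (e : Fin 2) (l : Fin 10) : cls (A.adir x i e l) = (e, l) := by
  have := A.adir_mem x i e l
  simp only [BData.dom, mem_filter, mem_univ, true_and] at this
  exact this.1

theorem adir_ne_x (e : Fin 2) (l : Fin 10) : A.adir x i e l ≠ x := by
  have := A.adir_mem x i e l
  simp only [BData.dom, mem_filter, mem_univ, true_and] at this
  exact this.2.1

theorem adir_ne (e : Fin 2) {j l : Fin 10} (h : j ≠ l) : A.adir x i e j ≠ A.adir x i e l := by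
  intro he
  have h1 := cls_adir A x i e j
  have h2 := cls_adir A x i e l
  rw [he, h2] at h1
  exact h (by simpa using h1.symm)

theorem base_on_U (e : Fin 2) : On (B.base x i e) (C.line x i) := by
  have := B.base_mem x i e
  simp only [Surv0, mem_filter, mem_linePts] at this
  exact this.1


theorem base_on_line (e : Fin 2) (j : Fin 10) : On (B.base x i e) (A.line x i e j) :=
  on_lineThru _ _

theorem line_fst (e : Fin 2) (j : Fin 10) : (A.line x i e j).1 = A.adir x i e j := by
  simp [AData.line]

theorem eLine_fst (e : Fin 2) (l : Fin 10) (s : K) : (eLine A x i e l s).1 = A.adir x i e l := by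
  simp [eLine]

theorem U_fst : (C.line x i).1 = x := rfl

theorem keep_on_U (s : K) : On (keepPt (C := C) x i s) (C.line x i) := on_param _ _

theorem keep_on_E (e : Fin 2) (l : Fin 10) (s : K) :
    On (keepPt (C := C) x i s) (eLine A x i e l s) := on_lineThru _ _

theorem mPt_on_A (e : Fin 2) {j l : Fin 10} (h : j ≠ l) (s : K) :
    On (mPt A x i e j l s) (A.line x i e j) := by
  apply on_cross_left
  rw [line_fst, eLine_fst]
  exact adir_ne A x i e h

theorem mPt_on_E (e : Fin 2) {j l : Fin 10} (h : j ≠ l) (s : K) :
    On (mPt A x i e j l s) (eLine A x i e l s) := by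
  apply on_cross_right
  rw [line_fst, eLine_fst]
  exact adir_ne A x i e h

theorem keep_inj : Function.Injective (keepPt (C := C) x i) := param_injective _

theorem mPt_inj (e : Fin 2) {j l : Fin 10} (h : j ≠ l) :
    Function.Injective (mPt A x i e j l) := by
  intro s s' hss
  have h1 := mPt_on_E A x i e h s
  have h2 := mPt_on_E A x i e h s'
  rw [← hss] at h2
  have hE : eLine A x i e l s = eLine A x i e l s' :=
    eq_of_on_of_dir_eq h1 h2 (by rw [eLine_fst, eLine_fst])
  by_contra hne
  have hk : keepPt (C := C) x i s ≠ keepPt (C := C) x i s' := fun hh => hne (keep_inj x i hh)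
  have hU : eLine A x i e l s = C.line x i :=
    line_unique hk (keep_on_E A x i e l s) (hE ▸ keep_on_E A x i e l s')
      (keep_on_U x i s) (keep_on_U x i s')
  have := congrArg Prod.fst hU
  rw [eLine_fst, U_fst] at this
  exact adir_ne_x A x i e l this

/-- The designated point with parameter `s`, of index `l` and code `c`. -/
noncomputable def gg (e : Fin 2) (l : Fin 10) (c : Option (Fin 10)) (s : K) : Pt K :=
  match c with
  | none => keepPt (C := C) x i s
  | some j => mPt A x i e j l s

/-- A designated point lies on `E e l`. -/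
theorem gg_on_E (e : Fin 2) (l : Fin 10) {c : Option (Fin 10)} (hc : c ≠ some l) (s : K) :
    On (gg A x i e l c s) (eLine A x i e l s) := by
  cases c with
  | none => exact keep_on_E A x i e l s
  | some j =>
    have : j ≠ l := fun h => hc (by rw [h])
    exact mPt_on_E A x i e this s

/-- At most one parameter puts a designated point on a line not through the base. -/
theorem card_filter_on_le_one (e : Fin 2) (l : Fin 10) {c : Option (Fin 10)} (hc : c ≠ some l)
    {L : Ln K} (hL : ¬ On (B.base x i e) L) :
    (univ.filter (fun s => On (gg A x i e l c s) L)).card ≤ 1 := by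
  rw [Finset.card_le_one]
  intro s hs s' hs'
  simp only [mem_filter, mem_univ, true_and] at hs hs'
  by_contra hne
  apply hL
  cases c with
  | none =>
    have hk : keepPt (C := C) x i s ≠ keepPt (C := C) x i s' := fun hh => hne (keep_inj x i hh)
    have : L = C.line x i := line_unique hk hs hs' (keep_on_U x i s) (keep_on_U x i s')
    rw [this]; exact base_on_U x i e
  | some j =>
    have hjl : j ≠ l := fun h => hc (by rw [h])
    have hk : mPt A x i e j l s ≠ mPt A x i e j l s' := fun hh => hne (mPt_inj A x i e hjl hh)
    have : L = A.line x i e j :=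
      line_unique hk hs hs' (mPt_on_A A x i e hjl s) (mPt_on_A A x i e hjl s')
    rw [this]; exact base_on_line A x i e j

/-- The excluded values for `t l`, given the other coordinates `u`. -/
noncomputable def badSet (l : Fin 10) (u : Fin 10 → K) : Finset K := by
  classical
  exact (univ.image u) ∪
    ((univ : Finset (Fin 2 × Fin 10 × Fin 10)).biUnion (fun r =>
      if r.2.1 ≠ l then univ.filter (fun s => mPt A x i r.1 r.2.1 l s = mPt A x i r.1 r.2.1 r.2.2 (u r.2.2))
      else ∅)) ∪
    ((univ : Finset (Fin 2 × Fin 10 × Fin 10 × Option (Fin 10) × Option (Fin 10) × Option (Fin 10))).biUnion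
      (fun r =>
        let p₁ := gg A x i r.1 r.2.1 r.2.2.2.1 (u r.2.1)
        let p₂ := gg A x i r.1 r.2.2.1 r.2.2.2.2.1 (u r.2.2.1)
        if ¬ On (B.base x i r.1) (line2 p₁ p₂) ∧ r.2.2.2.2.2 ≠ some l then
          univ.filter (fun s => On (gg A x i r.1 l r.2.2.2.2.2 s) (line2 p₁ p₂))
        else ∅))

/-- The number of excluded values. -/
def Cgam : ℕ := 300000

theorem card_badSet_le (l : Fin 10) (u : Fin 10 → K) : (badSet A x i l u).card ≤ Cgam := by
  classical
  unfold badSet
  refine (Finset.card_union_le _ _).trans ?_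
  have h3 : ((univ : Finset (Fin 2 × Fin 10 × Fin 10 × Option (Fin 10) × Option (Fin 10) × Option (Fin 10))).biUnion
      (fun r =>
        let p₁ := gg A x i r.1 r.2.1 r.2.2.2.1 (u r.2.1)
        let p₂ := gg A x i r.1 r.2.2.1 r.2.2.2.2.1 (u r.2.2.1)
        if ¬ On (B.base x i r.1) (line2 p₁ p₂) ∧ r.2.2.2.2.2 ≠ some l then
          univ.filter (fun s => On (gg A x i r.1 l r.2.2.2.2.2 s) (line2 p₁ p₂))
        else ∅)).card ≤ 2 * (10 * (10 * (11 * (11 * 11)))) * 1 := by
    refine (Finset.card_biUnion_le_card_mul _ _ 1 ?_).trans ?_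
    · intro r _
      simp only
      split_ifs with h
      · exact card_filter_on_le_one A x i r.1 l h.2 h.1
      · simp
    · simp [Fintype.card_prod, Fintype.card_option]
  have h2 : ((univ : Finset (Fin 2 × Fin 10 × Fin 10)).biUnion (fun r =>
      if r.2.1 ≠ l then univ.filter (fun s => mPt A x i r.1 r.2.1 l s = mPt A x i r.1 r.2.1 r.2.2 (u r.2.2))
      else ∅)).card ≤ 2 * (10 * 10) * 1 := by
    refine (Finset.card_biUnion_le_card_mul _ _ 1 ?_).trans ?_
    · intro r _
      split_ifs with h
      · rw [Finset.card_le_one]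
        intro s hs s' hs'
        simp only [mem_filter, mem_univ, true_and] at hs hs'
        exact mPt_inj A x i r.1 h (hs.trans hs'.symm)
      · simp
    · simp [Fintype.card_prod]
  have h1 : (univ.image u).card ≤ 10 := by
    refine Finset.card_image_le.trans ?_
    simp
  have h12 := Finset.card_union_le (univ.image u) ((univ : Finset (Fin 2 × Fin 10 × Fin 10)).biUnion (fun r =>
      if r.2.1 ≠ l then univ.filter (fun s => mPt A x i r.1 r.2.1 l s = mPt A x i r.1 r.2.1 r.2.2 (u r.2.2))
      else ∅))
  unfold Cgam
  omega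

/-- The truncation of a tuple. -/
def trunc (l : Fin 10) (t : Fin 10 → K) : Fin 10 → K := fun m => if m < l then t m else 0

theorem trunc_of_lt {l m : Fin 10} (h : m < l) (t : Fin 10 → K) : trunc l t m = t m := by
  simp [trunc, h]

/-- The allowed values at step `l`. -/
noncomputable def allowed (l : Fin 10) (t : Fin 10 → K) : Finset K :=
  goodS A x i l \ badSet A x i l (trunc l t)

theorem mem_des_iff (e : Fin 2) (t : Fin 10 → K) (p : Pt K) (hp : p ∈ desBaseT A x i e t) :
    ∃ l c, c ≠ some l ∧ p = gg A x i e l c (t l) := by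
  simp only [desBaseT, mem_union, mem_image, mem_univ, true_and, mem_biUnion, mem_filter] at hp
  rcases hp with ⟨l, rfl⟩ | ⟨j, l, hl, rfl⟩
  · exact ⟨l, none, by simp, rfl⟩
  · exact ⟨l, some j, by simpa using Ne.symm hl, rfl⟩

/-- The key step for triples. -/
theorem key_triple (t : Fin 10 → K) (e : Fin 2) (L : Ln K) (hb : ¬ On (B.base x i e) L)
    {l₁ l₂ l₃ : Fin 10} {c₁ c₂ c₃ : Option (Fin 10)} (h₁ : l₁ < l₃) (h₂ : l₂ < l₃)
    (hc₃ : c₃ ≠ some l₃)
    (hne : gg A x i e l₁ c₁ (t l₁) ≠ gg A x i e l₂ c₂ (t l₂))
    (hon₁ : On (gg A x i e l₁ c₁ (t l₁)) L) (hon₂ : On (gg A x i e l₂ c₂ (t l₂)) L)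
    (hon₃ : On (gg A x i e l₃ c₃ (t l₃)) L) :
    t l₃ ∈ badSet A x i l₃ (trunc l₃ t) := by
  classical
  have hL : line2 (gg A x i e l₁ c₁ (t l₁)) (gg A x i e l₂ c₂ (t l₂)) = L := eq_line2 hne hon₁ hon₂
  unfold badSet
  simp only [mem_union, mem_biUnion, mem_univ, true_and]
  right
  refine ⟨(e, l₁, l₂, c₁, c₂, c₃), ?_⟩
  simp only [trunc_of_lt h₁, trunc_of_lt h₂, hL]
  rw [if_pos ⟨hb, hc₃⟩]
  simp [hon₃]

theorem mem_gam_of_allowed (t : Fin 10 → K) (ht : ∀ l, t l ∈ allowed A x i l t) :
    t ∈ gam A x i := by
  classical
  have hgood : ∀ l, t l ∈ goodS A x i l := fun l => (mem_sdiff.mp (ht l)).1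
  have hbad : ∀ l, t l ∉ badSet A x i l (trunc l t) := fun l => (mem_sdiff.mp (ht l)).2
  simp only [gam, mem_filter, mem_univ, true_and]
  refine ⟨hgood, ?_, ?_, ?_⟩
  · -- injectivity
    have aux : ∀ l l' : Fin 10, l' < l → t l ≠ t l' := by
      intro l l' hlt heq
      apply hbad l
      unfold badSet
      simp only [mem_union, mem_image, mem_univ, true_and]
      left; left
      exact ⟨l', by rw [trunc_of_lt hlt, heq]⟩
    intro l l' heq
    by_contra hne
    rcases lt_or_gt_of_ne hne with h | h
    · exact aux l' l h heq.symm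
    · exact aux l l' h heq
  · -- injectivity of the designated points on a hole
    have aux : ∀ (e : Fin 2) (j l l' : Fin 10), l ≠ j → l' < l →
        mPt A x i e j l (t l) ≠ mPt A x i e j l' (t l') := by
      intro e j l l' hlj hlt heq
      apply hbad l
      unfold badSet
      simp only [mem_union, mem_biUnion, mem_univ, true_and]
      left; right
      refine ⟨(e, j, l'), ?_⟩
      simp only
      rw [if_pos (Ne.symm hlj)]
      simp [trunc_of_lt hlt, heq]
    intro e j l l' hl hl' heq
    by_contra hne
    rcases lt_or_gt_of_ne hne with h | h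
    · exact aux e j l' l hl' h heq.symm
    · exact aux e j l l' hl h heq
  · -- at most two points on a line
    intro e L hb hE
    by_contra hcard
    have h2 : 2 < (desBaseT A x i e t ∩ linePts L).card := by omega
    obtain ⟨p₁, p₂, p₃, hp₁, hp₂, hp₃, h12, h13, h23⟩ := Finset.two_lt_card_iff.mp h2
    simp only [mem_inter, mem_linePts] at hp₁ hp₂ hp₃
    obtain ⟨l₁, c₁, hc₁, rfl⟩ := mem_des_iff A x i e t p₁ hp₁.1
    obtain ⟨l₂, c₂, hc₂, rfl⟩ := mem_des_iff A x i e t p₂ hp₂.1
    obtain ⟨l₃, c₃, hc₃, rfl⟩ := mem_des_iff A x i e t p₃ hp₃.1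
    have same : ∀ {l : Fin 10} {c c' : Option (Fin 10)}, c ≠ some l → c' ≠ some l →
        gg A x i e l c (t l) ≠ gg A x i e l c' (t l) →
        On (gg A x i e l c (t l)) L → On (gg A x i e l c' (t l)) L → False := by
      intro l c c' hc hc' hne h h'
      exact hE l (line_unique hne h h' (gg_on_E A x i e l hc _) (gg_on_E A x i e l hc' _))
    have n12 : l₁ ≠ l₂ := by
      rintro rfl
      exact same hc₁ hc₂ h12 hp₁.2 hp₂.2
    have n13 : l₁ ≠ l₃ := by
      rintro rfl
      exact same hc₁ hc₃ h13 hp₁.2 hp₃.2
    have n23 : l₂ ≠ l₃ := by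
      rintro rfl
      exact same hc₂ hc₃ h23 hp₂.2 hp₃.2
    -- the largest index
    by_cases c1 : l₁ < l₃ ∧ l₂ < l₃
    · exact hbad l₃ (key_triple A x i t e L hb c1.1 c1.2 hc₃ h12 hp₁.2 hp₂.2 hp₃.2)
    · by_cases c2 : l₁ < l₂ ∧ l₃ < l₂
      · exact hbad l₂ (key_triple A x i t e L hb c2.1 c2.2 hc₂ h13 hp₁.2 hp₃.2 hp₂.2)
      · have c3 : l₂ < l₁ ∧ l₃ < l₁ := by
          have hv12 : l₁.val ≠ l₂.val := fun h => n12 (Fin.ext h)
          have hv13 : l₁.val ≠ l₃.val := fun h => n13 (Fin.ext h)
          have hv23 : l₂.val ≠ l₃.val := fun h => n23 (Fin.ext h)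
          simp only [Fin.lt_def, not_and_or, not_lt] at c1 c2 ⊢
          omega
        exact hbad l₁ (key_triple A x i t e L hb c3.1 c3.2 hc₁ h23 hp₂.2 hp₃.2 hp₁.2)

end GamAux

open GamAux in
theorem gam_card : ∃ q₀ : ℕ, ∀ (K : Type) [Field K] [Fintype K] [DecidableEq K], q₀ ≤ Fintype.card K →
    ∀ (C : UData K) (B : BData C) (A : AData B) (x : Dir K) (i : Fin 2),
      (∀ l, c1keep * Fintype.card K ≤ ((goodS A x i l).card : ℝ)) →
      (c1keep * Fintype.card K / 2) ^ 10 ≤ ((gam A x i).card : ℝ) := by
  classical
  refine ⟨⌈2 * (Cgam : ℝ) / c1keep⌉₊, ?_⟩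
  intro K _ _ _ hq C B A x i hgood
  have hc := c1keep_pos
  have hq' : 2 * (Cgam : ℝ) / c1keep ≤ (Fintype.card K : ℝ) :=
    (Nat.le_ceil _).trans (by exact_mod_cast hq)
  have hq'' : 2 * (Cgam : ℝ) ≤ c1keep * (Fintype.card K : ℝ) := by
    rw [div_le_iff₀ hc] at hq'
    linarith
  set X : ℝ := c1keep * Fintype.card K / 2 with hX
  have hX0 : 0 ≤ X := by positivity
  have hcount : ∀ l t, ⌈X⌉₊ ≤ (allowed A x i l t).card := by
    intro l t
    apply Nat.ceil_le.mpr
    have h1 : ((goodS A x i l).card : ℝ) - ((badSet A x i l (trunc l t)).card : ℝ) ≤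
        ((allowed A x i l t).card : ℝ) := by
      have := Finset.le_card_sdiff (badSet A x i l (trunc l t)) (goodS A x i l)
      have h' : ((goodS A x i l).card : ℝ) ≤ ((allowed A x i l t).card : ℝ) +
          ((badSet A x i l (trunc l t)).card : ℝ) := by
        have : (goodS A x i l).card ≤ (allowed A x i l t).card +
            (badSet A x i l (trunc l t)).card := by
          unfold allowed
          omega
        exact_mod_cast this
      linarith
    have h2 : ((badSet A x i l (trunc l t)).card : ℝ) ≤ (Cgam : ℝ) := by
      exact_mod_cast card_badSet_le A x i l _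
    have h3 := hgood l
    have hXeq : X = c1keep * (Fintype.card K : ℝ) - c1keep * (Fintype.card K : ℝ) / 2 := by
      rw [hX]; ring
    rw [hXeq]
    linarith
  have hmain := greedy_count (0 : K) (allowed A x i) ⌈X⌉₊
    (by
      intro l t t' h
      unfold allowed
      have : trunc l t = trunc l t' := by
        funext m
        unfold trunc
        split_ifs with hm
        · exact h m hm
        · rfl
      rw [this]) hcount
  have hsub : (univ.filter (fun t : Fin 10 → K => ∀ l, t l ∈ allowed A x i l t)) ⊆ gam A x i := by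
    intro t ht
    simp only [mem_filter, mem_univ, true_and] at ht
    exact mem_gam_of_allowed A x i t ht
  have h4 : ⌈X⌉₊ ^ 10 ≤ (gam A x i).card := hmain.trans (Finset.card_le_card hsub)
  calc X ^ 10 ≤ (⌈X⌉₊ : ℝ) ^ 10 := pow_le_pow_left₀ hX0 (Nat.le_ceil X) 10
    _ ≤ _ := by exact_mod_cast h4

/-- From `gam_card`: at most `q^9` tuples have a given `t l`. -/
theorem gam_marginal : ∃ q₀ : ℕ, ∀ (K : Type) [Field K] [Fintype K] [DecidableEq K], q₀ ≤ Fintype.card K →
    ∀ (C : UData K) (B : BData C) (A : AData B) (x : Dir K) (i : Fin 2),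
      (∀ l, c1keep * Fintype.card K ≤ ((goodS A x i l).card : ℝ)) →
      ∀ (l : Fin 10) (s : K), (((gam A x i).filter (fun t => t l = s)).card : ℝ) ≤
        C3marg / Fintype.card K * (gam A x i).card := by
  classical
  obtain ⟨q₀, hq₀⟩ := gam_card
  refine ⟨q₀, ?_⟩
  intro K _ _ _ hq C B A x i hgood l s
  have h1 := hq₀ K hq C B A x i hgood
  have hc := c1keep_pos
  have hqpos : (0 : ℝ) < (Fintype.card K : ℝ) := by
    exact_mod_cast Fintype.card_pos
  have hcount : ((gam A x i).filter (fun t => t l = s)).card ≤ Fintype.card K ^ 9 := by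
    have h2 : ((gam A x i).filter (fun t => t l = s)).card ≤
        Fintype.card ({m : Fin 10 // m ≠ l} → K) := by
      refine Finset.card_le_card_of_injOn (s := (gam A x i).filter (fun t => t l = s))
        (t := (univ : Finset ({m : Fin 10 // m ≠ l} → K))) (fun t m => t m.1)
        (fun _ _ => by simp) ?_
      intro t ht t' ht' heq
      simp only [coe_filter, Set.mem_ofPred_eq] at ht ht'
      funext m
      by_cases hm : m = l
      · rw [hm, ht.2, ht'.2]
      · exact congrFun heq ⟨m, hm⟩
    refine h2.trans (le_of_eq ?_)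
    rw [Fintype.card_fun]
    congr 1
    simp [Fintype.card_subtype_compl]
  have h3 : (((gam A x i).filter (fun t => t l = s)).card : ℝ) ≤ (Fintype.card K : ℝ) ^ 9 := by
    exact_mod_cast hcount
  refine h3.trans ?_
  have h4 : (Fintype.card K : ℝ) ^ 9 =
      C3marg / Fintype.card K * (c1keep * Fintype.card K / 2) ^ 10 := by
    unfold C3marg
    have hc' : c1keep ≠ 0 := ne_of_gt hc
    field_simp
  rw [h4]
  apply mul_le_mul_of_nonneg_left h1
  unfold C3marg
  positivity

end Crest.Agent.Ryser
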