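import Crest.Agent.Ryser.Poly
import Crest.Agent.Ryser.Kill

/-!
# Regime R2: few uncovered points.

Let `𝓗` be a set of holes such that every other line has `≥ γ q` points off the holes, that satisfies
the P1 property, and such that no set of `killFamily` is covered by the holes.
Then every `q`-line set covering the complement of the holes with fewer than `q^(39/20)` uncovered
points is `Near`.
-/

set_option autoImplicit false
set_option linter.unusedSectionVars false
set_option linter.unusedVariables false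

namespace Crest.Agent.Ryser

open Finset

variable {K : Type} [Field K] [Fintype K] [DecidableEq K]

local notation "q" => Fintype.card K

/-- The constant separating Case H from Case S. -/
noncomputable def Ch (CA : ℝ) : ℝ := Real.exp 3 * CA * 41 ^ 4 * 1201 * 24 + 1

open Classical in
/-- The chosen output of the polynomial method. -/
noncomputable def polyChoice (S : Finset (Ln K)) : Finset (Ln K) × ℕ :=
  if h : ∃ L D, PolyData S L D then (h.choose, h.choose_spec.choose) else (∅, 0)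

/-- The uncovered points off the lines of `L`. -/
noncomputable def YOf (S : Finset (Ln K)) : Finset (Pt K) := offLines (unc S) (polyChoice S).1

open Classical in
/-- The `q`-line sets of Case S. -/
noncomputable def caseS (c : ℝ) : Finset (Finset (Ln K)) :=
  univ.filter (fun S => S.card = q ∧ ¬ Near S ∧ ((unc S).card : ℝ) < (q : ℝ) ^ ((39 : ℝ) / 20) ∧
    ((polyChoice S).1.card : ℝ) * q < c * (YOf S).card)

open Classical in
/-- The family on which the kill lemma is applied. -/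
noncomputable def killFamily (c : ℝ) : Finset (Finset (Pt K)) := (caseS c).image YOf

/-! ### Auxiliary: the scale `y = q^(1/40)` -/

/-- The scale. -/
noncomputable def yq (K : Type) [Fintype K] : ℝ := (Fintype.card K : ℝ) ^ ((1 : ℝ) / 40)

omit [Field K] [DecidableEq K] in
theorem yq_nonneg : 0 ≤ yq K := Real.rpow_nonneg (Nat.cast_nonneg _) _

omit [Field K] [DecidableEq K] in
theorem rpow_eq_yq (n : ℕ) : (q : ℝ) ^ ((n : ℝ) / 40) = yq K ^ n := by
  unfold yq
  rw [← Real.rpow_natCast, ← Real.rpow_mul (Nat.cast_nonneg _)]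
  congr 1; ring

omit [Field K] [DecidableEq K] in
theorem yq_pow40 : yq K ^ 40 = (q : ℝ) := by
  rw [← rpow_eq_yq]; norm_num

omit [Field K] [DecidableEq K] in
theorem rpow_39_20 : (q : ℝ) ^ ((39 : ℝ) / 20) = yq K ^ 78 := by
  rw [← rpow_eq_yq]; norm_num

omit [Field K] [DecidableEq K] in
theorem rpow_3_2 : (q : ℝ) ^ ((3 : ℝ) / 2) = yq K ^ 60 := by
  rw [← rpow_eq_yq]; norm_num

/-- `c y^n ≤ y^(n+1)` when `c ≤ y`. -/
theorem mul_pow_le_pow_succ {c y : ℝ} (n : ℕ) (h : c ≤ y) (hy : 0 ≤ y) : c * y ^ n ≤ y ^ (n + 1) := by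
  rw [pow_succ']
  exact mul_le_mul_of_nonneg_right h (pow_nonneg hy n)

/-- The decomposition of the uncovered points along `L`. -/
theorem card_unc_le (S L : Finset (Ln K)) :
    (unc S).card ≤ (offLines (unc S) L).card + L.card * q := by
  have hsub : unc S ⊆ offLines (unc S) L ∪ L.biUnion linePts := by
    intro p hp
    by_cases h : ∀ l ∈ L, ¬ On p l
    · exact mem_union_left _ (mem_filter.mpr ⟨hp, h⟩)
    · push Not at h
      obtain ⟨l, hl, hpl⟩ := h
      exact mem_union_right _ (mem_biUnion.mpr ⟨l, hl, by simpa using hpl⟩)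
  calc (unc S).card ≤ (offLines (unc S) L ∪ L.biUnion linePts).card := card_le_card hsub
    _ ≤ (offLines (unc S) L).card + (L.biUnion linePts).card := card_union_le _ _
    _ ≤ (offLines (unc S) L).card + L.card * q := by
        refine Nat.add_le_add_left ?_ _
        refine (card_biUnion_le_card_mul _ _ _ ?_)
        intro l _
        exact (card_linePts l).le

/-- Lines with few covered points are few. -/
theorem card_L_le (S L : Finset (Ln K)) (D : ℕ) (hq : 0 < q)
    (hon : ∀ m ∈ L, ((linePts m).filter (fun p => p ∉ unc S)).card ≤ D)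
    (hD : 2 * D ≤ q) (hphi : 4 * ((unc S).card : ℝ) ≤ (q : ℝ) ^ 2) :
    (L.card : ℝ) * q ≤ 16 * (unc S).card := by
  have hqR : (0 : ℝ) < q := by exact_mod_cast hq
  have hτ : (0 : ℝ) < (q : ℝ) / 2 := by positivity
  have hP : ((unc S).card : ℝ) / q ≤ ((q : ℝ) / 2) / 2 := by
    rw [div_le_iff₀ hqR]; nlinarith
  have h := card_rich_lines_le (K := K) (unc S) hτ hq hP
  have hsub : L ⊆ (univ : Finset (Ln K)).filter
      (fun l => (q : ℝ) / 2 ≤ ((linePts l ∩ unc S).card : ℝ)) := by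
    intro m hm
    simp only [mem_filter, mem_univ, true_and]
    have h1 := hon m hm
    have h2 : (linePts m ∩ unc S).card + ((linePts m).filter (fun p => p ∉ unc S)).card
        = (linePts m).card := by
      have := card_filter_add_card_filter_not (s := linePts m) (fun p => p ∈ unc S)
      rw [← this, filter_mem_eq_inter]
    rw [card_linePts] at h2
    have h3 : (q : ℕ) ≤ 2 * (linePts m ∩ unc S).card := by omega
    have h4 : (q : ℝ) ≤ 2 * ((linePts m ∩ unc S).card : ℝ) := by exact_mod_cast h3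
    linarith
  have hcard : (L.card : ℝ) ≤ (((univ : Finset (Ln K)).filter
      (fun l => (q : ℝ) / 2 ≤ ((linePts l ∩ unc S).card : ℝ))).card : ℝ) := by
    exact_mod_cast card_le_card hsub
  have h5 : (L.card : ℝ) * ((q : ℝ) / 2) ^ 2 ≤ 4 * (unc S).card * q :=
    (mul_le_mul_of_nonneg_right hcard (by positivity)).trans h
  have h6 : ((L.card : ℝ) * q) * q ≤ (16 * (unc S).card) * q := by nlinarith
  exact le_of_mul_le_mul_right h6 hqR

/-- The choice gives polynomial data. -/
theorem polyChoice_spec (S : Finset (Ln K)) (h : ∃ L D, PolyData S L D) :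
    PolyData S (polyChoice S).1 (polyChoice S).2 := by
  unfold polyChoice
  rw [dif_pos h]
  exact h.choose_spec.choose_spec

/-- Basic estimates for a set with few uncovered points which is not near. -/
theorem not_near_estimates (S : Finset (Ln K)) (hS : S.card = q) (hy : 100 ≤ yq K)
    (hF : ((unc S).card : ℝ) < yq K ^ 78) (hn : ¬ Near S) :
    ((unc S).card : ℝ) < yq K ^ 78 ∧ phiS S < yq K ^ 38 ∧ yq K ^ 20 / 7 ≤ phiS S ∧
      (∀ p, (cnt S p : ℝ) ≤ 2 * phiS S + 1) ∧ (∀ d, (dirCnt S d : ℝ) ≤ 2 * phiS S) := by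
  have hy0 : 0 ≤ yq K := yq_nonneg
  have hq40 : yq K ^ 40 = (q : ℝ) := yq_pow40
  have hqpos : (0 : ℝ) < q := by
    rw [← hq40]; positivity
  have hq2 : 2 ≤ q := by
    have h1 : (100 : ℝ) ^ 40 ≤ yq K ^ 40 := pow_le_pow_left₀ (by norm_num) hy 40
    have h2 : (2 : ℝ) ≤ q := by
      rw [← hq40]; refine le_trans ?_ h1; norm_num
    exact_mod_cast h2
  have hphi : phiS S < yq K ^ 38 := by
    unfold phiS
    rw [div_lt_iff₀ hqpos, ← hq40, ← pow_add]
    exact hF
  have h38 : 4 * phiS S ≤ q := by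
    have h1 : 4 * yq K ^ 38 ≤ yq K ^ 40 := by
      have h2 : 4 * yq K ^ 38 ≤ yq K ^ 39 := mul_pow_le_pow_succ 38 (by linarith) hy0
      have h3 : 1 * yq K ^ 39 ≤ yq K ^ 40 := mul_pow_le_pow_succ 39 (by linarith) hy0
      linarith
    rw [← hq40]; linarith
  obtain ⟨h1, h2, h3⟩ := not_near_bounds S hS hq2 h38 hn
  refine ⟨hF, hphi, ?_, h1, h2⟩
  by_contra hlt
  push Not at hlt
  have hphi0 : 0 ≤ phiS S := by unfold phiS; positivity
  have h20 : 100 * (1:ℝ) ≤ yq K ^ 20 := by
    have := one_le_pow₀ (n := 19) (show (1:ℝ) ≤ yq K by linarith)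
    have h' : yq K ^ 20 = yq K * yq K ^ 19 := by ring
    rw [h']; nlinarith
  have hq' : (q : ℝ) = yq K ^ 20 * yq K ^ 20 := by rw [← hq40]; ring
  set t := yq K ^ 20 with ht
  have h4 : phiS S ^ 2 ≤ (t / 7) ^ 2 := pow_le_pow_left₀ hphi0 hlt.le 2
  nlinarith

/-- Polynomial data exists in the regime. -/
theorem polyData_exists (S : Finset (Ln K)) (hS : S.card = q) (hy : 100 ≤ yq K)
    (hF : ((unc S).card : ℝ) < yq K ^ 78) :
    ∃ L D, PolyData S L D := by
  have hy0 : 0 ≤ yq K := yq_nonneg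
  have hsq : Real.sqrt (2 * (unc S).card) ≤ 2 * yq K ^ 39 := by
    apply Real.sqrt_le_iff.mpr
    constructor
    · positivity
    · have : (2 * yq K ^ 39) ^ 2 = 4 * yq K ^ 78 := by ring
      rw [this]
      have : (0:ℝ) ≤ yq K ^ 78 := by positivity
      linarith
  apply poly_dichotomy S hS.le
  rw [← yq_pow40]
  have h1 : 10 * yq K ^ 39 ≤ yq K ^ 40 := mul_pow_le_pow_succ 39 (by linarith) hy0
  have h2 : (1:ℝ) ≤ yq K ^ 39 := one_le_pow₀ (by linarith)
  linarith

/-- A real estimate used for the lines: `D ≤ (c+3) √|Y|`. -/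
theorem lines_numeric {c y r Yc Dd : ℝ} (hc : 1 ≤ c) (hy : 1 ≤ y) (hr : 0 ≤ r)
    (hY1 : 1 ≤ Yc) (hYup : Yc ≤ y ^ 78) (hrq : r * y ^ 40 < c * Yc)
    (hD : Dd ≤ r + Real.sqrt (2 * Yc) + 1) :
    Dd ≤ (c + 3) * Real.sqrt Yc := by
  set s := Real.sqrt Yc with hs
  have hs2 : s * s = Yc := Real.mul_self_sqrt (by linarith)
  have hs1 : 1 ≤ s := Real.one_le_sqrt.mpr hY1
  have hsy : s ≤ y ^ 39 := by
    apply Real.sqrt_le_iff.mpr
    constructor
    · positivity
    · have : (y ^ 39) ^ 2 = y ^ 78 := by ring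
      rw [this]; exact hYup
  have hsq2 : Real.sqrt (2 * Yc) ≤ 2 * s := by
    apply Real.sqrt_le_iff.mpr
    constructor
    · positivity
    · nlinarith
  have hy39 : (0:ℝ) < y ^ 39 := by positivity
  have hrs : r ≤ c * s := by
    have h1 : r * y ^ 39 ≤ r * y ^ 40 := by
      apply mul_le_mul_of_nonneg_left _ hr
      have := mul_pow_le_pow_succ 39 hy (by linarith : 0 ≤ y)
      simpa using this
    have h2 : c * Yc ≤ (c * s) * y ^ 39 := by
      rw [← hs2, mul_assoc]
      apply mul_le_mul_of_nonneg_left _ (by linarith)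
      nlinarith
    exact le_of_mul_le_mul_right (by linarith) hy39
  nlinarith

/-- Shape of the family: `|F| ≤ (c + 1) |Y|` and `|F| ≥ q^(3/2) / 7` (`not_near_bounds`), lines have at most `D` points
of `Y`, `D ≤ c g + √(2|Y|) + 1 ≤ (c + 3) √|Y|`; the count comes from `universal_list`. -/
theorem killFamily_shape (c : ℝ) (hc : 1 ≤ c) :
    ∃ (K₀ : ℝ) (C₉ : ℕ) (q₀ : ℕ), 0 < K₀ ∧ ∀ (K : Type) [Field K] [Fintype K] [DecidableEq K],
      q₀ ≤ Fintype.card K → KillShape (killFamily (K := K) c) K₀ C₉ := by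
  refine ⟨7 * (1 + c) + c + 3, 88 * ⌈1 + c⌉₊ + 3, 1000 ^ 40, by linarith, ?_⟩
  intro K _ _ _ hq₀
  have hy : (1000 : ℝ) ≤ yq K := by
    by_contra hlt
    push Not at hlt
    have h1 : yq K ^ 40 < (1000:ℝ) ^ 40 := pow_lt_pow_left₀ hlt yq_nonneg (by norm_num)
    rw [yq_pow40] at h1
    have h2 : ((1000 ^ 40 : ℕ) : ℝ) ≤ (Fintype.card K : ℝ) := by exact_mod_cast hq₀
    push_cast at h2
    linarith
  clear hq₀
  have hy100 : (100 : ℝ) ≤ yq K := by linarith
  have hy0 : 0 ≤ yq K := yq_nonneg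
  have hq40 : yq K ^ 40 = (Fintype.card K : ℝ) := yq_pow40
  have hqpos : (0 : ℝ) < Fintype.card K := by rw [← hq40]; positivity
  -- common estimates
  have key : ∀ S ∈ caseS (K := K) c, S.card = Fintype.card K ∧ ¬ Near S ∧
      ((unc S).card : ℝ) < yq K ^ 78 ∧ PolyData S (polyChoice S).1 (polyChoice S).2 ∧
      ((polyChoice S).1.card : ℝ) * yq K ^ 40 < c * (YOf S).card ∧
      ((unc S).card : ℝ) ≤ (1 + c) * (YOf S).card ∧
      yq K ^ 60 ≤ 7 * ((unc S).card : ℝ) ∧ (YOf S).card ≤ (unc S).card := by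
    intro S hS
    simp only [caseS, mem_filter, mem_univ, true_and] at hS
    obtain ⟨hS1, hS2, hS3, hS4⟩ := hS
    rw [rpow_39_20] at hS3
    have hP := polyChoice_spec S (polyData_exists S hS1 hy100 hS3)
    obtain ⟨_, _, h20, _, _⟩ := not_near_estimates S hS1 hy100 hS3 hS2
    have hdec := card_unc_le S (polyChoice S).1
    have hdec' : ((unc S).card : ℝ) ≤ (YOf S).card + ((polyChoice S).1.card : ℝ) * Fintype.card K := by
      exact_mod_cast hdec
    rw [← hq40] at hS4 
    refine ⟨hS1, hS2, hS3, hP, by rw [hq40] at hS4 ⊢; exact hS4, ?_, ?_, ?_⟩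
    · rw [hq40] at hS4; linarith
    · unfold phiS at h20
      rw [le_div_iff₀ hqpos, ← hq40] at h20
      have : yq K ^ 20 * yq K ^ 40 = yq K ^ 60 := by ring
      nlinarith
    · exact card_filter_le _ _
  refine ⟨?_, ?_, ?_, ?_⟩
  · intro Y hY
    obtain ⟨S, hS, rfl⟩ := mem_image.mp hY
    obtain ⟨_, _, _, _, _, h1, h2, _⟩ := key S hS
    rw [rpow_3_2]
    nlinarith
  · intro Y hY
    obtain ⟨S, hS, rfl⟩ := mem_image.mp hY
    obtain ⟨_, _, h1, _, _, _, _, h2⟩ := key S hS
    rw [rpow_39_20]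
    have : ((YOf S).card : ℝ) ≤ (unc S).card := by exact_mod_cast h2
    linarith
  · intro Y hY l
    obtain ⟨S, hS, rfl⟩ := mem_image.mp hY
    obtain ⟨_, _, h1, hP, h3, _, _, h2⟩ := key S hS
    have hY2 : ((YOf S).card : ℝ) ≤ (unc S).card := by exact_mod_cast h2
    have hr0 : (0:ℝ) ≤ ((polyChoice S).1.card : ℝ) := Nat.cast_nonneg _
    have hYpos : 0 < ((YOf S).card : ℝ) := by
      by_contra hn
      have h0 : ((YOf S).card : ℝ) = 0 := le_antisymm (not_lt.mp hn) (Nat.cast_nonneg _)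
      rw [h0] at h3
      have : 0 ≤ ((polyChoice S).1.card : ℝ) * yq K ^ 40 :=
        mul_nonneg hr0 (pow_nonneg hy0 _)
      linarith
    have hY1 : (1:ℝ) ≤ (YOf S).card := by
      have : 0 < (YOf S).card := by exact_mod_cast hYpos
      exact_mod_cast this
    have hsqrt0 : 0 ≤ Real.sqrt ((YOf S).card : ℝ) := Real.sqrt_nonneg _
    by_cases hl : l ∈ (polyChoice S).1
    · have : linePts l ∩ YOf S = ∅ := by
        ext p
        simp only [mem_inter, mem_linePts, notMem_empty, iff_false, not_and]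
        intro hpl hpY
        exact (mem_filter.mp hpY).2 l hl hpl
      rw [this]
      simp only [card_empty, Nat.cast_zero]
      have : 0 < 7 * (1 + c) + c + 3 := by linarith
      positivity
    · have h4 : (linePts l ∩ YOf S).card ≤ (polyChoice S).2 := by
        refine le_trans (card_le_card ?_) (hP.off l hl)
        exact inter_subset_inter_left (filter_subset _ _)
      have h5 : ((linePts l ∩ YOf S).card : ℝ) ≤ (polyChoice S).2 := by exact_mod_cast h4
      have h6 : (((polyChoice S).2 : ℕ) : ℝ) ≤ (c + 3) * Real.sqrt (YOf S).card := by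
        refine lines_numeric hc (by linarith) hr0 hY1 (by linarith) h3 ?_
        exact hP.bound'
      have h7 : (c + 3) * Real.sqrt (YOf S).card ≤ (7 * (1 + c) + c + 3) * Real.sqrt (YOf S).card := by
        apply mul_le_mul_of_nonneg_right _ hsqrt0
        linarith
      linarith
  · intro n
    set C := ⌈1 + c⌉₊ with hC
    have hC1 : 1 + c ≤ (C : ℝ) := Nat.le_ceil _
    set n₁ := ⌈yq K ^ 38⌉₊ with hn₁
    set n' := min (C * n) n₁ with hn'
    have hn1a : yq K ^ 38 ≤ (n₁ : ℝ) := Nat.le_ceil _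
    have hn1b : (n₁ : ℝ) < yq K ^ 38 + 1 := Nat.ceil_lt_add_one (by positivity)
    have h8n : 8 * n' ≤ Fintype.card K := by
      have h1 : 8 * (n₁ : ℝ) ≤ Fintype.card K := by
        rw [← hq40]
        have h2 : (100:ℝ) * yq K ^ 38 ≤ yq K ^ 39 := mul_pow_le_pow_succ 38 hy100 hy0
        have h3 : (1:ℝ) * yq K ^ 39 ≤ yq K ^ 40 := mul_pow_le_pow_succ 39 (by linarith) hy0
        have h4 : (1:ℝ) ≤ yq K ^ 38 := one_le_pow₀ (by linarith)
        linarith
      have h2 : 8 * n₁ ≤ Fintype.card K := by exact_mod_cast h1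
      have h3 : n' ≤ n₁ := min_le_right _ _
      omega
    have hq2 : 2 ≤ Fintype.card K := by
      have h2 : (2 : ℝ) ≤ Fintype.card K := by
        rw [← hq40]
        have h1 : (100 : ℝ) ^ 40 ≤ yq K ^ 40 := pow_le_pow_left₀ (by norm_num) hy100 40
        refine le_trans ?_ h1; norm_num
      exact_mod_cast h2
    obtain ⟨LL, hLL1, hLL2⟩ := universal_list (K := K) n' h8n hq2
    have hsub : (killFamily (K := K) c).filter (fun Y => Y.card ≤ n * Fintype.card K) ⊆
        LL.image YOf := by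
      intro Y hY
      obtain ⟨hY1, hY2⟩ := mem_filter.mp hY
      obtain ⟨S, hS, rfl⟩ := mem_image.mp hY1
      obtain ⟨hS1, _, h1, _, _, h3, _, _⟩ := key S hS
      refine mem_image.mpr ⟨S, hLL2 S hS1 ?_, rfl⟩
      -- `|F| ≤ n' q`
      have hY2' : ((YOf S).card : ℝ) ≤ n * Fintype.card K := by exact_mod_cast hY2
      have hA : (unc S).card ≤ (C * n) * Fintype.card K := by
        have : ((unc S).card : ℝ) ≤ ((C * n * Fintype.card K : ℕ) : ℝ) := by
          push_cast
          have hn0 : (0:ℝ) ≤ (n : ℝ) * Fintype.card K := by positivity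
          calc ((unc S).card : ℝ) ≤ (1 + c) * (YOf S).card := h3
            _ ≤ (1 + c) * (n * Fintype.card K) := by
                apply mul_le_mul_of_nonneg_left hY2'; linarith
            _ ≤ C * (n * Fintype.card K) := by
                apply mul_le_mul_of_nonneg_right hC1 hn0
            _ = C * n * Fintype.card K := by ring
        exact_mod_cast this
      have hB : (unc S).card ≤ n₁ * Fintype.card K := by
        have : ((unc S).card : ℝ) ≤ ((n₁ * Fintype.card K : ℕ) : ℝ) := by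
          push_cast
          rw [← hq40]
          have : yq K ^ 78 = yq K ^ 38 * yq K ^ 40 := by ring
          rw [this] at h1
          have h5 : yq K ^ 38 * yq K ^ 40 ≤ n₁ * yq K ^ 40 :=
            mul_le_mul_of_nonneg_right hn1a (by positivity)
          linarith
        exact_mod_cast this
      rcases min_choice (C * n) n₁ with h | h
      · rw [hn', h]; exact hA
      · rw [hn', h]; exact hB
    refine (card_le_card hsub).trans (card_image_le.trans (hLL1.trans ?_))
    apply Nat.pow_le_pow_right (by positivity)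
    have hlog : 1 ≤ logq K := by
      unfold logq
      exact Nat.clog_pos (by norm_num) (by nlinarith only [hq2])
    have hn'C : n' ≤ C * n := min_le_left _ _
    calc 3 * logq K * (8 * n' + 1) + 64 * n'
        ≤ 3 * logq K * (8 * (C * n) + 1) + 64 * (C * n) := by gcongr
      _ ≤ (88 * C + 3) * (n + 1) * logq K := by
          have hm : 64 * (C * n) ≤ 64 * (C * n) * logq K := Nat.le_mul_of_pos_right _ hlog
          have hC0 : 0 ≤ C := Nat.zero_le _
          nlinarith [Nat.zero_le (C * n * logq K), Nat.zero_le (C * logq K), Nat.zero_le (n * logq K)]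

omit [Field K] [DecidableEq K] in
/-- `logq ≤ y` for large `y`. -/
theorem logq_le_yq : ∃ Y₁ : ℝ, ∀ (K : Type) [Fintype K], Y₁ ≤ yq K → (logq K : ℝ) ≤ yq K := by
  have h := tendsto_pow_const_div_const_pow_of_one_lt 80 (show (1:ℝ) < 2 by norm_num)
  have hpos : (0:ℝ) < 1 / (3 * 2 ^ 80) := by positivity
  have hev := (h.eventually (gt_mem_nhds hpos))
  obtain ⟨n₀, hn₀⟩ := Filter.eventually_atTop.mp hev
  refine ⟨(n₀ : ℝ) + 2, ?_⟩
  intro K _ hy
  have hy0 : 0 ≤ yq K := yq_nonneg
  set m := ⌊yq K⌋₊ with hm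
  have hm1 : (m : ℝ) ≤ yq K := Nat.floor_le hy0
  have hm2 : yq K < (m : ℝ) + 1 := Nat.lt_floor_add_one _
  have hmn : n₀ ≤ m := by
    apply Nat.le_floor; linarith
  have hm3 : (1 : ℝ) ≤ m := by
    have : (1:ℝ) < (m:ℝ) + 1 := by
      have : (0:ℝ) ≤ n₀ := Nat.cast_nonneg _
      linarith
    have h2 : ((n₀ : ℝ) + 2) < (m:ℝ) + 1 := by linarith
    have : (0:ℝ) ≤ n₀ := Nat.cast_nonneg _
    linarith
  have h1 := hn₀ m hmn
  have h2pos : (0:ℝ) < 2 ^ m := by positivity
  rw [div_lt_div_iff₀ h2pos (by positivity)] at h1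
  have hle : ((Fintype.card K : ℕ) ^ 2 + Fintype.card K + 1 : ℝ) ≤ (2 : ℝ) ^ m := by
    have hq40 : yq K ^ 40 = (Fintype.card K : ℝ) := yq_pow40
    have hq1 : (1:ℝ) ≤ Fintype.card K := by
      rw [← hq40]; apply one_le_pow₀; linarith
    have h3 : ((Fintype.card K : ℕ) : ℝ) ^ 2 = yq K ^ 80 := by rw [← hq40]; ring
    have h4 : yq K ^ 80 ≤ (2 * (m : ℝ)) ^ 80 := pow_le_pow_left₀ hy0 (by linarith) 80
    have h5 : (2 * (m : ℝ)) ^ 80 = 2 ^ 80 * (m : ℝ) ^ 80 := by ring
    have h6 : (Fintype.card K : ℝ) ≤ (Fintype.card K : ℝ) ^ 2 := by nlinarith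
    have h7 : (1:ℝ) ≤ (Fintype.card K : ℝ) ^ 2 := by nlinarith
    nlinarith
  have hnat : (Fintype.card K) ^ 2 + Fintype.card K + 1 ≤ 2 ^ m := by exact_mod_cast hle
  have hlog : logq K ≤ m := Nat.clog_le_of_le_pow hnat
  have : (logq K : ℝ) ≤ m := by exact_mod_cast hlog
  linarith

/-- Numerics for the second condition of `NumP1`. -/
theorem part2_numeric {y r t Dp : ℝ} (hy : 300000 ≤ y) (hr : y ^ 20 / 14 ≤ r) (ht0 : 0 ≤ t)
    (ht : t ^ 2 ≤ 2 * r * y ^ 40) (hD : Dp ≤ 2 * r + t) :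
    1849 * 1201 ^ 2 * y ^ 2 * Dp ≤ r ^ 2 := by
  have hy0 : 0 < y := by linarith
  set A : ℝ := 1849 * 1201 ^ 2 with hA
  have hApos : 0 < A := by rw [hA]; norm_num
  have hr0 : 0 < r := by
    have : 0 < y ^ 20 / 14 := by positivity
    linarith
  have h18 : 56 * A ≤ y ^ 18 := by
    have h1 : (300000 : ℝ) ^ 18 ≤ y ^ 18 := pow_le_pow_left₀ (by norm_num) hy 18
    refine le_trans ?_ h1
    rw [hA]; norm_num
  have h16 : 21952 * A ^ 2 ≤ y ^ 16 := by
    have h1 : (300000 : ℝ) ^ 16 ≤ y ^ 16 := pow_le_pow_left₀ (by norm_num) hy 16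
    refine le_trans ?_ h1
    rw [hA]; norm_num
  have hstep2 : 4 * (A * y ^ 2) ≤ r := by
    have h1 : y ^ 20 = y ^ 2 * y ^ 18 := by ring
    have hy2 : 0 < y ^ 2 := by positivity
    have h2 : (y ^ 2) * (56 * A) ≤ y ^ 2 * y ^ 18 := mul_le_mul_of_nonneg_left h18 hy2.le
    rw [h1] at hr
    nlinarith
  have hterm1 : A * y ^ 2 * (2 * r) ≤ r ^ 2 / 2 := by nlinarith
  have hterm2 : A * y ^ 2 * t ≤ r ^ 2 / 2 := by
    apply (pow_le_pow_iff_left₀ (by positivity) (by positivity) (two_ne_zero)).mp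
    have h3 : (A * y ^ 2 * t) ^ 2 ≤ (A * y ^ 2) ^ 2 * (2 * r * y ^ 40) := by
      rw [mul_pow]; exact mul_le_mul_of_nonneg_left ht (by positivity)
    have h4 : (y ^ 20 / 14) ^ 3 ≤ r ^ 3 := pow_le_pow_left₀ (by positivity) hr 3
    have h5 : 8 * A ^ 2 * y ^ 44 ≤ r ^ 3 := by
      have h6 : 8 * A ^ 2 * y ^ 44 * 2744 ≤ y ^ 60 := by
        have h7 : y ^ 60 = y ^ 44 * y ^ 16 := by ring
        rw [h7]
        have h8 : y ^ 44 * (21952 * A ^ 2) ≤ y ^ 44 * y ^ 16 :=
          mul_le_mul_of_nonneg_left h16 (by positivity)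
        linarith
      have h9 : (y ^ 20 / 14) ^ 3 = y ^ 60 / 2744 := by ring
      rw [h9] at h4
      have : y ^ 60 / 2744 ≥ 8 * A ^ 2 * y ^ 44 := by
        rw [ge_iff_le, le_div_iff₀ (by norm_num)]; exact h6
      linarith
    have h10 : (A * y ^ 2) ^ 2 * (2 * r * y ^ 40) = (8 * A ^ 2 * y ^ 44) * r / 4 := by ring
    have h11 : (r ^ 2 / 2) ^ 2 = r ^ 3 * r / 4 := by ring
    rw [h11]
    rw [h10] at h3
    have h12 : (8 * A ^ 2 * y ^ 44) * r ≤ r ^ 3 * r := mul_le_mul_of_nonneg_right h5 hr0.le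
    linarith
  have hmul : A * y ^ 2 * Dp ≤ A * y ^ 2 * (2 * r + t) :=
    mul_le_mul_of_nonneg_left hD (by positivity)
  nlinarith

/-- Numerics for the first condition of `NumP1`. -/
theorem part1_numeric {E Chh r t Dp w : ℝ} (hE : 0 < E) (hCh : 1201 * 24 * E ≤ Chh) (hr : 0 ≤ r)
    (hw : 0 ≤ w) (ht0 : 0 ≤ t) (ht : t ^ 2 ≤ 2 * w / Chh) (hDp0 : 0 ≤ Dp) (hD : Dp ≤ 2 * r + t)
    (hrq : 16 * 1201 * E * r ^ 2 ≤ w) :
    E * Dp ^ 2 ≤ w / 1201 := by
  have hChpos : 0 < Chh := by nlinarith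
  have h1 : Dp ^ 2 ≤ (2 * r + t) ^ 2 := pow_le_pow_left₀ hDp0 hD 2
  have h2 : (2 * r + t) ^ 2 ≤ 8 * r ^ 2 + 2 * t ^ 2 := by nlinarith [sq_nonneg (2 * r - t)]
  have h3 : E * t ^ 2 ≤ w / (1201 * 12) := by
    have h4 : E * t ^ 2 ≤ E * (2 * w / Chh) := mul_le_mul_of_nonneg_left ht hE.le
    refine h4.trans ?_
    rw [mul_div_assoc', div_le_div_iff₀ hChpos (by norm_num)]
    nlinarith
  have h5 : E * Dp ^ 2 ≤ E * (8 * r ^ 2 + 2 * t ^ 2) :=
    mul_le_mul_of_nonneg_left (h1.trans h2) hE.le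
  have h6 : E * (8 * r ^ 2 + 2 * t ^ 2) = 8 * (E * r ^ 2) + 2 * (E * t ^ 2) := by ring
  rw [h6] at h5
  have h7 : E * r ^ 2 ≤ w / (16 * 1201) := by
    rw [le_div_iff₀ (by norm_num)]; linarith
  have h8 : w / (1201 * 12) = w / 1201 / 12 := by rw [div_div]
  have h9 : w / (16 * 1201) = w / 1201 / 16 := by rw [div_div]; congr 1; norm_num
  rw [h8] at h3
  rw [h9] at h7
  have : 0 ≤ w / 1201 := by positivity
  linarith

set_option maxHeartbeats 4000000 in
/-- The theorem of regime R2.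

Let `S` be such a set, not `Near`, `φ = phiS S`; `(L, D)` the polynomial data; `r = |L|`, `g = |YOf S| / q`.
`L ⊆ H`: a line outside `H` has `γ q > D` covered points.  `r ≤ 16 φ`.  `φ ≤ r + g`.
Case S: `r q < Ch |Y|` : `S ∈ caseS`, `Y ∈ killFamily`, and `Y ⊆ unc S` is covered by the holes since `S` covers
their complement: contradiction with `hKill`.
Case H: `r ≥ φ/2 ≥ √q / 14`; `D ≤ r + √(2 r q / Ch) + 1`; `caseH_seeds` with `k = ⌈40 √(D + 9)⌉ + 2` gives `K₁, K₂` with
`≥ r / 400` lines of `L ⊆ H` in `spanOf K₁ K₂`, contradiction with `hP1` for `R = ⌊r / 1200⌋`. -/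
theorem R2_near (γ CA : ℝ) (hγ : 0 < γ) (hCA : 0 < CA) :
    ∃ q₀ : ℕ, ∀ (K : Type) [Field K] [Fintype K] [DecidableEq K], q₀ ≤ Fintype.card K →
      ∀ H : Finset (Ln K),
        (∀ ℓ, ℓ ∉ H → γ * Fintype.card K ≤
          (((linePts ℓ).filter (fun p => ∀ h ∈ H, ¬ On p h)).card : ℝ)) →
        (∀ k R : ℕ, NumP1 K CA k R → ∀ K₁ K₂ : Finset (Ln K), K₁.card ≤ k → K₂.card ≤ k →
          (H.filter (fun l => l ∈ spanOf K₁ K₂)).card < 3 * R) →
        (∀ Y ∈ killFamily (K := K) (Ch CA), ∃ p ∈ Y, ∀ h ∈ H, ¬ On p h) →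
        ∀ S : Finset (Ln K), S.card = Fintype.card K →
          Covers S (univ.filter (fun p => ∀ h ∈ H, ¬ On p h)) →
          ((unc S).card : ℝ) < (Fintype.card K : ℝ) ^ ((39 : ℝ) / 20) → Near S := by
  obtain ⟨Y₁, hY₁⟩ := logq_le_yq
  set E : ℝ := Real.exp 3 * CA * 41 ^ 4 with hE
  have hEpos : 0 < E := by positivity
  have hChdef : Ch CA = E * 1201 * 24 + 1 := by rw [hE]; rfl
  set Y₀ : ℝ := max (max (3 / γ + 1) 300000) (max (16 * 1201 * 16 * E + 1) Y₁) with hY₀
  refine ⟨⌈Y₀ ^ 40⌉₊, ?_⟩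
  intro K _ _ _ hq₀ H hH1 hH2 hH3 S hS hcov hF
  have hq₀' : Y₀ ^ 40 ≤ (Fintype.card K : ℝ) := (Nat.le_ceil _).trans (by exact_mod_cast hq₀)
  clear hq₀
  have hq40 : yq K ^ 40 = (Fintype.card K : ℝ) := yq_pow40
  set y := yq K with hydef
  have hy0 : 0 ≤ y := yq_nonneg
  have hyY : Y₀ ≤ y := by
    rw [← hq40] at hq₀'
    exact (pow_le_pow_iff_left₀ (by
      have : (300000:ℝ) ≤ Y₀ := (le_max_right _ _).trans (le_max_left _ _)
      linarith) hy0 (by norm_num)).mp hq₀'
  have hy1 : 3 / γ + 1 ≤ y := ((le_max_left _ _).trans (le_max_left _ _)).trans hyY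
  have hy2 : (300000:ℝ) ≤ y := ((le_max_right _ _).trans (le_max_left _ _)).trans hyY
  have hy3 : 16 * 1201 * 16 * E + 1 ≤ y := ((le_max_left _ _).trans (le_max_right _ _)).trans hyY
  have hy4 : Y₁ ≤ y := ((le_max_right _ _).trans (le_max_right _ _)).trans hyY
  have hy100 : (100:ℝ) ≤ y := by linarith
  have hypos : 0 < y := by linarith
  have hqpos : (0:ℝ) < Fintype.card K := by rw [← hq40]; positivity
  have hqN : 0 < Fintype.card K := by exact_mod_cast hqpos
  by_contra hn
  rw [rpow_39_20] at hF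
  obtain ⟨_, hphi_up, hphi_low, hcnt, hdir⟩ := not_near_estimates S hS hy100 hF hn
  have hP := polyChoice_spec S (polyData_exists S hS hy100 hF)
  have hpow38 : (1:ℝ) ≤ y ^ 38 := one_le_pow₀ (by linarith)
  have hpow39 : (1:ℝ) ≤ y ^ 39 := one_le_pow₀ (by linarith)
  have h3940 : ∀ c : ℝ, c ≤ y → c * y ^ 39 ≤ y ^ 40 := fun c hc => mul_pow_le_pow_succ 39 hc hy0
  have h3839 : ∀ c : ℝ, c ≤ y → c * y ^ 38 ≤ y ^ 39 := fun c hc => mul_pow_le_pow_succ 38 hc hy0
  -- The two components of the data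
  generalize hLdef : (polyChoice S).1 = L at hP
  generalize hDdef : (polyChoice S).2 = D at hP
  have hY_def : YOf S = offLines (unc S) L := by rw [YOf, hLdef]
  -- `D ≤ 3 y^39`.
  have hD1 : (D : ℝ) ≤ 3 * y ^ 39 := by
    have h1 := hP.bound
    have hsq : Real.sqrt (2 * (unc S).card) ≤ 2 * y ^ 39 := by
      apply Real.sqrt_le_iff.mpr
      constructor
      · positivity
      · have : (2 * y ^ 39) ^ 2 = 4 * y ^ 78 := by ring
        rw [this]
        have : (0:ℝ) ≤ y ^ 78 := by positivity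
        linarith
    have h100 := h3839 100 hy100
    linarith
  -- `L ⊆ H`.
  have hcovered : ∀ p, (∀ h ∈ H, ¬ On p h) → p ∉ unc S := by
    intro p hp hpu
    obtain ⟨l, hl, hpl⟩ := hcov p (mem_filter.mpr ⟨mem_univ _, hp⟩)
    have h1 : cnt S p = 0 := (mem_filter.mp hpu).2
    have h2 : 0 < cnt S p := card_pos.mpr ⟨l, mem_filter.mpr ⟨hl, hpl⟩⟩
    omega
  have hLH : L ⊆ H := by
    intro m hm
    by_contra hmH
    have h1 := hH1 m hmH
    have h2 : ((linePts m).filter (fun p => ∀ h ∈ H, ¬ On p h)).card ≤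
        ((linePts m).filter (fun p => p ∉ unc S)).card := by
      apply card_le_card
      intro p hp
      obtain ⟨hp1, hp2⟩ := mem_filter.mp hp
      exact mem_filter.mpr ⟨hp1, hcovered p hp2⟩
    have h3 := hP.on m hm
    have h4 : (((linePts m).filter (fun p => ∀ h ∈ H, ¬ On p h)).card : ℝ) ≤ D := by
      exact_mod_cast h2.trans h3
    have h5 : γ * y ^ 40 ≤ 3 * y ^ 39 := by
      rw [hq40]; linarith
    have h6 : (3 / γ + 1) * y ^ 39 ≤ y ^ 40 := h3940 _ hy1
    have h7 : γ * ((3 / γ + 1) * y ^ 39) ≤ γ * y ^ 40 := mul_le_mul_of_nonneg_left h6 hγ.le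
    have h8 : γ * ((3 / γ + 1) * y ^ 39) = 3 * y ^ 39 + γ * y ^ 39 := by
      field_simp
    have h9 : 0 < γ * y ^ 39 := by positivity
    linarith
  -- `r ≤ 16 y^38`
  have hFy : ((unc S).card : ℝ) ≤ y ^ 38 * y ^ 40 := by
    have : y ^ 38 * y ^ 40 = y ^ 78 := by ring
    linarith
  have hD2 : 2 * D ≤ Fintype.card K := by
    have h1 : (2:ℝ) * D ≤ Fintype.card K := by
      rw [← hq40]
      have := h3940 6 (by linarith)
      linarith
    exact_mod_cast h1
  have hrq := card_L_le S L D hqN hP.on hD2 (by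
    rw [← hq40]
    have h1 : 4 * y ^ 38 ≤ y ^ 40 := by
      have h2 := h3839 4 (by linarith)
      have h3 := h3940 1 (by linarith)
      linarith
    have h4 : (y ^ 40) ^ 2 = y ^ 40 * y ^ 40 := by ring
    rw [h4]
    have h5 : (0:ℝ) ≤ y ^ 40 := by positivity
    have h6 : 4 * y ^ 38 * y ^ 40 ≤ y ^ 40 * y ^ 40 := mul_le_mul_of_nonneg_right h1 h5
    linarith)
  have hr_up : (L.card : ℝ) ≤ 16 * y ^ 38 := by
    rw [← hq40] at hrq
    have h40 : 0 < y ^ 40 := by positivity
    apply le_of_mul_le_mul_right _ h40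
    linarith
  by_cases hcase : (L.card : ℝ) * (Fintype.card K : ℝ) < Ch CA * (YOf S).card
  · -- Case S
    have hmem : S ∈ caseS (K := K) (Ch CA) := by
      simp only [caseS, mem_filter, mem_univ, true_and]
      refine ⟨hS, hn, ?_, ?_⟩
      · rw [rpow_39_20]; exact hF
      · rw [hLdef]; exact hcase
    obtain ⟨p, hpY, hpH⟩ := hH3 (YOf S) (mem_image_of_mem _ hmem)
    rw [hY_def] at hpY
    exact hcovered p hpH (mem_filter.mp hpY).1
  · -- Case H
    push Not at hcase
    set r := L.card with hr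
    have hrR0 : (0:ℝ) ≤ (r:ℝ) := Nat.cast_nonneg _
    set Yc : ℝ := ((offLines (unc S) L).card : ℝ) with hYc
    have hYc0 : 0 ≤ Yc := Nat.cast_nonneg _
    have hChge : 1 ≤ Ch CA := by
      rw [hChdef]
      have : 0 ≤ E * 1201 * 24 := by positivity
      linarith
    have hChpos : 0 < Ch CA := by linarith
    rw [hY_def] at hcase
    have hY_le : Yc ≤ r * y ^ 40 := by
      rw [hq40]
      have := le_mul_of_one_le_left hYc0 hChge
      linarith
    have hdec : ((unc S).card : ℝ) ≤ Yc + r * y ^ 40 := by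
      have h := card_unc_le S L
      have h' : ((unc S).card : ℝ) ≤ ((offLines (unc S) L).card : ℝ) +
          (L.card : ℝ) * (Fintype.card K : ℝ) := by exact_mod_cast h
      rw [hq40]; exact h'
    -- `r ≥ y^20 / 14`
    have hr_low : y ^ 20 / 14 ≤ (r:ℝ) := by
      unfold phiS at hphi_low
      rw [le_div_iff₀ hqpos, ← hq40] at hphi_low
      have h1 : (y ^ 20 / 7) * y ^ 40 ≤ (r * 2) * y ^ 40 := by linarith
      have h40 : 0 < y ^ 40 := by positivity
      have h2 := le_of_mul_le_mul_right h1 h40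
      linarith
    have hy20 : (14 * (1201 * 1199 + 100) : ℝ) ≤ y ^ 20 := by
      have h1 : (300000:ℝ) ^ 20 ≤ y ^ 20 := pow_le_pow_left₀ (by norm_num) hy2 20
      refine le_trans ?_ h1
      norm_num
    have hr_big : (1201 * 1199 + 100 : ℝ) ≤ r := by linarith
    -- `t`
    set t : ℝ := Real.sqrt (2 * (r * y ^ 40) / Ch CA) with ht
    have ht0 : 0 ≤ t := Real.sqrt_nonneg _
    have hwR0 : (0:ℝ) ≤ r * y ^ 40 := mul_nonneg hrR0 (pow_nonneg hy0 _)
    have ht2 : t ^ 2 = 2 * (r * y ^ 40) / Ch CA :=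
      Real.sq_sqrt (div_nonneg (mul_nonneg (by norm_num) hwR0) hChpos.le)
    have hsqY : Real.sqrt (2 * Yc) ≤ t := by
      apply Real.sqrt_le_sqrt
      rw [le_div_iff₀ hChpos]
      rw [hq40]
      linarith
    have hDb' := hP.bound'
    set Dp : ℝ := (D : ℝ) + 9 with hDp
    have hDp2 : Dp ≤ 2 * r + t := by
      rw [hDp]; rw [← hYc] at hDb'; linarith
    have hDp3 : Dp ≤ 4 * y ^ 39 := by
      rw [hDp]
      have h100 := h3839 100 hy100
      linarith
    have hDp0 : 9 ≤ Dp := by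
      rw [hDp]
      have : (0:ℝ) ≤ D := Nat.cast_nonneg _
      linarith
    set s := Real.sqrt Dp with hs
    have hs2 : s ^ 2 = Dp := Real.sq_sqrt (by linarith)
    have hs3 : 3 ≤ s := by
      apply Real.le_sqrt_of_sq_le; norm_num; linarith
    set k := ⌈40 * s⌉₊ + 2 with hk
    have hk1 : 40 * s ≤ (k : ℝ) := by
      have h1 : 40 * s ≤ (⌈40 * s⌉₊ : ℝ) := Nat.le_ceil _
      rw [hk]; push_cast; linarith
    have hk2 : (k : ℝ) ≤ 41 * s := by
      have h1 : (⌈40 * s⌉₊ : ℝ) < 40 * s + 1 := Nat.ceil_lt_add_one (by positivity)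
      rw [hk]; push_cast; linarith
    have hk0 : (0:ℝ) ≤ (k : ℝ) := Nat.cast_nonneg _
    have hksq : (k : ℝ) ^ 2 ≤ 1681 * Dp := by
      have := pow_le_pow_left₀ hk0 hk2 2
      calc (k:ℝ) ^ 2 ≤ (41 * s) ^ 2 := this
        _ = 1681 * s ^ 2 := by ring
        _ = 1681 * Dp := by rw [hs2]
    have hk4 : (k : ℝ) ^ 4 ≤ 41 ^ 4 * Dp ^ 2 := by
      have := pow_le_pow_left₀ hk0 hk2 4
      rw [← hs2]
      calc (k:ℝ) ^ 4 ≤ (41 * s) ^ 4 := this
        _ = 41 ^ 4 * (s ^ 2) ^ 2 := by ring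
    have hk2sq : ((k : ℝ) + 2) ^ 2 ≤ 1849 * Dp := by
      have : (k : ℝ) + 2 ≤ 43 * s := by linarith
      have h2 := pow_le_pow_left₀ (by linarith) this 2
      calc ((k:ℝ) + 2) ^ 2 ≤ (43 * s) ^ 2 := h2
        _ = 1849 * s ^ 2 := by ring
        _ = 1849 * Dp := by rw [hs2]
    -- seeds
    have hseeds := caseH_seeds S L hS D k
      (by
        have h1 : Real.sqrt D ≤ s := Real.sqrt_le_sqrt (by rw [hDp]; linarith)
        linarith)
      (by omega)
      (by
        have h1 : (32:ℝ) * (k:ℝ) ^ 2 ≤ Fintype.card K := by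
          rw [← hq40]
          have h2 := h3940 (32 * 1681 * 4) (by linarith)
          linarith
        exact_mod_cast h1)
      (by
        have h1 : (200:ℝ) * (D:ℝ) ≤ Fintype.card K := by
          rw [← hq40]
          have h2 := h3940 (200 * 3) (by linarith)
          linarith
        exact_mod_cast h1)
      (fun m hm hmS => (disjoint_left.mp hP.disj) hm hmS)
      hP.on
      (fun p => by
        have h1 : (24:ℝ) * (cnt S p : ℝ) ≤ Fintype.card K := by
          rw [← hq40]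
          have h2 := h3839 72 (by linarith)
          have h3 := h3940 1 (by linarith)
          have h4 := hcnt p
          linarith
        exact_mod_cast h1)
      (fun m hm => by
        have h1 : (2:ℝ) * (dirCnt S m.1 : ℝ) ≤ Fintype.card K := by
          rw [← hq40]
          have h2 := h3839 4 (by linarith)
          have h3 := h3940 1 (by linarith)
          have h4 := hdir m.1
          linarith
        exact_mod_cast h1)
    obtain ⟨K₁, K₂, _, _, hK₁, hK₂, hcount⟩ := hseeds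
    -- `R`
    set R := r / 1200 with hRdef
    have hrnat : 1201 * 1199 + 100 ≤ r := by exact_mod_cast hr_big
    have hRr : r ≤ 1201 * R := by omega
    have hRr' : (r:ℝ) ≤ 1201 * R := by exact_mod_cast hRr
    have hNum : NumP1 K CA k R := by
      constructor
      · -- first condition
        have hw : (0:ℝ) ≤ r * y ^ 40 := by positivity
        have hmain := part1_numeric (E := E) (Chh := Ch CA) (r := r) (t := t) (Dp := Dp)
          (w := r * y ^ 40) hEpos (by rw [hChdef]; linarith) hrR0 hw ht0 ht2.le (by linarith) hDp2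
          (by
            -- `16 * 1201 * E * r ^ 2 ≤ r * y ^ 40`
            have h1 : 16 * 1201 * E * r ≤ y ^ 40 := by
              have h2 : 16 * 1201 * E * r ≤ 16 * 1201 * E * (16 * y ^ 38) :=
                mul_le_mul_of_nonneg_left hr_up (by positivity)
              have h3 : (16 * 1201 * 16 * E) * y ^ 38 ≤ y * y ^ 38 :=
                mul_le_mul_of_nonneg_right (by linarith) (by positivity)
              have h4 : y * y ^ 38 = y ^ 39 := by ring
              have h5 := h3940 1 (by linarith)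
              linarith
            have h6 : r * (16 * 1201 * E * r) ≤ r * y ^ 40 :=
              mul_le_mul_of_nonneg_left h1 hrR0
            linarith)
        have h1 : Real.exp 3 * CA * (k:ℝ) ^ 4 ≤ Real.exp 3 * CA * (41 ^ 4 * Dp ^ 2) :=
          mul_le_mul_of_nonneg_left hk4 (by positivity)
        have h2 : Real.exp 3 * CA * (41 ^ 4 * Dp ^ 2) = E * Dp ^ 2 := by rw [hE]; ring
        rw [← hq40]
        have h3 : (r:ℝ) * y ^ 40 / 1201 ≤ R * y ^ 40 := by
          rw [div_le_iff₀ (by norm_num)]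
          have h40 : (0:ℝ) ≤ y ^ 40 := by positivity
          have h41 := mul_le_mul_of_nonneg_right hRr' h40
          linarith
        linarith
      · -- second condition
        have hp2 := part2_numeric hy2 hr_low ht0 (by
          rw [ht2]
          rw [div_le_iff₀ hChpos]
          have h1 : 0 ≤ 2 * (r * y ^ 40) := by positivity
          have h2 := le_mul_of_one_le_right h1 hChge
          linarith) hDp2
        have hlog : (logq K : ℝ) ≤ y := hY₁ K hy4
        have hlog0 : (0:ℝ) ≤ (logq K : ℝ) := Nat.cast_nonneg _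
        have h1 : (((k:ℝ) + 2) * y) ^ 2 ≤ ((r:ℝ) / 1201) ^ 2 := by
          rw [mul_pow, div_pow]
          rw [le_div_iff₀ (by norm_num)]
          have h2 : ((k:ℝ) + 2) ^ 2 * y ^ 2 ≤ (1849 * Dp) * y ^ 2 :=
            mul_le_mul_of_nonneg_right hk2sq (by positivity)
          linarith
        have h2 : ((k:ℝ) + 2) * y ≤ (r:ℝ) / 1201 :=
          (pow_le_pow_iff_left₀ (by positivity) (by positivity) two_ne_zero).mp h1
        have h3 : ((k:ℝ) + 2) * (logq K : ℝ) ≤ R := by
          have h4 : ((k:ℝ) + 2) * (logq K : ℝ) ≤ ((k:ℝ) + 2) * y :=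
            mul_le_mul_of_nonneg_left hlog (by positivity)
          have h5 : (r:ℝ) / 1201 ≤ R := by
            rw [div_le_iff₀ (by norm_num)]; linarith
          linarith
        exact_mod_cast h3
    have hfin := hH2 k R hNum K₁ K₂ hK₁ hK₂
    have hsubcard : (L.filter (fun m => m ∈ spanOf K₁ K₂)).card ≤
        (H.filter (fun l => l ∈ spanOf K₁ K₂)).card :=
      card_le_card (filter_subset_filter _ hLH)
    have hRle : 1200 * R ≤ r := by omega
    omega

end Crest.Agent.Ryser
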