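import Crest.Agent.Ryser.Assembly
import Crest.Agent.Ryser.R2

/-!
# The whole proof: composition of the layers.
-/

set_option autoImplicit false
set_option linter.unusedSectionVars false
set_option linter.unusedVariables false

namespace Crest.Agent.Ryser

open Finset

section aux
variable {K : Type} [Field K] [Fintype K] [DecidableEq K]

/-- `(1 - 2/q)^q ≥ 2 exp(-3)` for large `q`. -/
theorem delta0_lower : ∃ q₀ : ℕ, ∀ (K : Type) [Fintype K], q₀ ≤ Fintype.card K →
    2 * Real.exp (-3) ≤ delta0 K := by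
  refine ⟨20, ?_⟩
  intro K _ hq
  unfold delta0
  set n := Fintype.card K with hn
  have hn20 : (20 : ℝ) ≤ (n : ℝ) := by exact_mod_cast hq
  have hn0 : (0 : ℝ) < (n : ℝ) := by linarith
  set x : ℝ := 2 / (n : ℝ) with hx
  have hx0 : 0 < x := by rw [hx]; positivity
  have hx1 : x ≤ 1 / 10 := by
    rw [hx, div_le_iff₀ hn0]; linarith
  have h1x : 0 < 1 - x := by linarith
  have hy : Real.exp (-(x / (1 - x))) ≤ 1 - x := by
    have h := Real.add_one_le_exp (x / (1 - x))
    have h2 : x / (1 - x) + 1 = 1 / (1 - x) := by field_simp; ring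
    rw [h2] at h
    rw [Real.exp_neg, ← one_div]
    rw [div_le_iff₀ (Real.exp_pos _)]
    have h3 := (div_le_iff₀ h1x).mp h
    linarith
  have hpow : Real.exp (-(x / (1 - x))) ^ n ≤ (1 - x) ^ n :=
    pow_le_pow_left₀ (Real.exp_pos _).le hy n
  rw [← Real.exp_nat_mul] at hpow
  have hnx : (n : ℝ) * x = 2 := by rw [hx]; field_simp
  have hbig : -(9 / 4 : ℝ) ≤ (n : ℝ) * -(x / (1 - x)) := by
    have h3 : (n : ℝ) * -(x / (1 - x)) = -(2 / (1 - x)) := by
      rw [← hnx]; ring
    rw [h3]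
    have h4 : 2 / (1 - x) ≤ 9 / 4 := by
      rw [div_le_iff₀ h1x]; linarith
    linarith
  have h5 : Real.exp (-(9 / 4)) ≤ (1 - x) ^ n :=
    le_trans (Real.exp_le_exp.mpr hbig) hpow
  refine le_trans ?_ h5
  have h6 : (2 : ℝ) ≤ Real.exp (3 / 4) := by
    have h7 : (1 + 1 / 8 : ℝ) ≤ Real.exp (1 / 8) := by
      have := Real.add_one_le_exp (1 / 8 : ℝ)
      linarith
    have h8 : Real.exp (3 / 4) = Real.exp (1 / 8) ^ 6 := by
      rw [← Real.exp_nat_mul]; norm_num
    rw [h8]
    calc (2 : ℝ) ≤ (1 + 1 / 8 : ℝ) ^ 6 := by norm_num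
      _ ≤ _ := pow_le_pow_left₀ (by norm_num) h7 6
  have h9 : Real.exp (-(9 / 4)) = Real.exp (3 / 4) * Real.exp (-3) := by
    rw [← Real.exp_add]; norm_num
  rw [h9]
  have := Real.exp_pos (-3 : ℝ)
  nlinarith

theorem delta0_le_one (hq : 2 ≤ Fintype.card K) : delta0 K ≤ 1 := by
  unfold delta0
  have hn : (2 : ℝ) ≤ (Fintype.card K : ℝ) := by exact_mod_cast hq
  have hn0 : (0 : ℝ) < (Fintype.card K : ℝ) := by linarith
  apply pow_le_one₀
  · have : 2 / (Fintype.card K : ℝ) ≤ 1 := by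
      rw [div_le_iff₀ hn0]; linarith
    linarith
  · have : 0 ≤ 2 / (Fintype.card K : ℝ) := by positivity
    linarith

theorem BA_ge_two : 2 ≤ BA := by
  unfold BA phi1
  have h1 : Real.exp (-5 * Real.exp 3) ≤ 1 := by
    apply Real.exp_le_one_iff.mpr
    have := Real.exp_pos (3 : ℝ)
    linarith
  have h0 := Real.exp_pos (-5 * Real.exp 3)
  rw [one_div_div, le_div_iff₀ h0]
  linarith

/-- Removing the `U` lines keeps the shape of a family. -/
theorem killShape_uSurvivors (c K₀ : ℝ) (C₉ : ℕ) (hc : 0 < c) (hc1 : c ≤ 1) (hK₀ : 0 < K₀) (C : UData K)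
    (YY : Finset (Finset (Pt K))) (h : KillShape YY K₀ C₉)
    (hY : ∀ Y ∈ YY, c * Y.card ≤ ((uSurvivors C Y).card : ℝ)) :
    KillShape (YY.image (uSurvivors C)) (K₀ / c) (C₉ * (Nat.ceil (1 / c) + 1)) := by
  have hsub : ∀ Y : Finset (Pt K), uSurvivors C Y ⊆ Y := fun Y => filter_subset _ _
  refine ⟨?_, ?_, ?_, ?_⟩
  · intro Y' hY'
    obtain ⟨Y, hYm, rfl⟩ := mem_image.mp hY'
    refine le_trans (h.lower Y hYm) ?_
    have h1 := hY Y hYm
    have : K₀ * (Y.card : ℝ) = K₀ / c * (c * Y.card) := by field_simp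
    rw [this]
    exact mul_le_mul_of_nonneg_left h1 (by positivity)
  · intro Y' hY'
    obtain ⟨Y, hYm, rfl⟩ := mem_image.mp hY'
    refine le_trans ?_ (h.upper Y hYm)
    exact_mod_cast card_le_card (hsub Y)
  · intro Y' hY' l
    obtain ⟨Y, hYm, rfl⟩ := mem_image.mp hY'
    have h1 : (((linePts l ∩ uSurvivors C Y).card : ℕ) : ℝ) ≤ ((linePts l ∩ Y).card : ℝ) := by
      exact_mod_cast card_le_card (inter_subset_inter_left (hsub Y))
    refine le_trans h1 (le_trans (h.lines Y hYm l) ?_)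
    have h2 := hY Y hYm
    have h3 : c * Real.sqrt (Y.card : ℝ) ≤ Real.sqrt ((uSurvivors C Y).card : ℝ) := by
      have h4 : c * Real.sqrt (Y.card : ℝ) = Real.sqrt (c ^ 2 * (Y.card : ℝ)) := by
        rw [Real.sqrt_mul (by positivity), Real.sqrt_sq hc.le]
      rw [h4]
      apply Real.sqrt_le_sqrt
      have h5 : c ^ 2 * (Y.card : ℝ) ≤ c * (Y.card : ℝ) := by
        have h7 : (0 : ℝ) ≤ (Y.card : ℝ) := by positivity
        have h8 : c ^ 2 ≤ c := by nlinarith
        exact mul_le_mul_of_nonneg_right h8 h7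
      linarith
    have h6 : K₀ * Real.sqrt (Y.card : ℝ) = K₀ / c * (c * Real.sqrt (Y.card : ℝ)) := by field_simp
    rw [h6]
    exact mul_le_mul_of_nonneg_left h3 (by positivity)
  · intro n
    set m := n * Nat.ceil (1 / c) with hm
    have h1 : (YY.image (uSurvivors C)).filter (fun Y => Y.card ≤ n * Fintype.card K) ⊆
        (YY.filter (fun Y => Y.card ≤ m * Fintype.card K)).image (uSurvivors C) := by
      intro Y' hY'
      obtain ⟨hY'm, hY'c⟩ := mem_filter.mp hY'
      obtain ⟨Y, hYm, rfl⟩ := mem_image.mp hY'm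
      refine mem_image.mpr ⟨Y, mem_filter.mpr ⟨hYm, ?_⟩, rfl⟩
      have h2 := hY Y hYm
      have h3 : ((uSurvivors C Y).card : ℝ) ≤ (n : ℝ) * Fintype.card K := by exact_mod_cast hY'c
      have h4 : (Y.card : ℝ) ≤ (n : ℝ) * Fintype.card K * (1 / c) := by
        rw [mul_one_div, le_div_iff₀ hc]
        linarith
      have h5 : (1 / c) ≤ (Nat.ceil (1 / c) : ℝ) := Nat.le_ceil _
      have h6 : (Y.card : ℝ) ≤ (m : ℝ) * Fintype.card K := by
        rw [hm]; push_cast
        have h7 : (0 : ℝ) ≤ (n : ℝ) * Fintype.card K := by positivity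
        nlinarith
      exact_mod_cast h6
    calc ((YY.image (uSurvivors C)).filter (fun Y => Y.card ≤ n * Fintype.card K)).card
        ≤ ((YY.filter (fun Y => Y.card ≤ m * Fintype.card K)).image (uSurvivors C)).card :=
          card_le_card h1
      _ ≤ (YY.filter (fun Y => Y.card ≤ m * Fintype.card K)).card := card_image_le
      _ ≤ _ := h.count m
      _ ≤ _ := by
          apply Nat.pow_le_pow_right (by positivity)
          have h8 : m + 1 ≤ (Nat.ceil (1 / c) + 1) * (n + 1) := by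
            rw [hm]; nlinarith [Nat.zero_le n, Nat.zero_le (Nat.ceil (1 / c))]
          calc C₉ * (m + 1) * logq K ≤ C₉ * ((Nat.ceil (1 / c) + 1) * (n + 1)) * logq K := by
                gcongr
            _ = _ := by ring

theorem killc_pos (A B : ℝ) : 0 < killc A B := by unfold killc; positivity

theorem killc_le_one (A B : ℝ) (hA : 0 ≤ A) (hB : 0 ≤ B) : killc A B ≤ 1 := by
  unfold killc
  have : Real.exp (-2 * A * B) ≤ 1 := by
    apply Real.exp_le_one_iff.mpr
    have := mul_nonneg hA hB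
    nlinarith
  linarith

/-- For a non-hole, `surv` is the set of points of the line off the holes. -/
theorem surv_of_not_mem {C : UData K} {B : BData C} (A : AData B) {ℓ : Ln K} (hℓ : ℓ ∉ A.holes) :
    A.surv ℓ = (linePts ℓ).filter (fun p => ∀ h ∈ A.holes, ¬ On p h) := by
  unfold AData.surv
  apply Finset.filter_congr
  intro p _
  constructor
  · intro h l hl
    exact h l hl (fun hEq => hℓ (hEq ▸ hl))
  · intro h l hl _
    exact h l hl

theorem card_holes_le {C : UData K} {B : BData C} (A : AData B) :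
    (A.holes.card : ℝ) ≤ 42 * (Fintype.card K + 1) := by
  unfold AData.holes
  have h1 := card_union_le (univ.image (fun t : Dir K × Fin 2 => C.line t.1 t.2))
    (univ.image (fun v : VIdx K => A.line v.1 v.2.1 v.2.2.1 v.2.2.2))
  have h2 : (univ.image (fun t : Dir K × Fin 2 => C.line t.1 t.2)).card ≤ (Fintype.card K + 1) * 2 := by
    refine le_trans card_image_le ?_
    simp [Fintype.card_prod, Fintype.card_option]
  have h3 : (univ.image (fun v : VIdx K => A.line v.1 v.2.1 v.2.2.1 v.2.2.2)).card ≤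
      (Fintype.card K + 1) * 40 := by
    refine le_trans card_image_le ?_
    simp [VIdx, Fintype.card_prod, Fintype.card_option]
  have h4 : ((univ.image (fun t : Dir K × Fin 2 => C.line t.1 t.2)) ∪
    (univ.image (fun v : VIdx K => A.line v.1 v.2.1 v.2.2.1 v.2.2.2))).card ≤
      42 * (Fintype.card K + 1) := by omega
  exact_mod_cast h4

/-- Counting the holes in a span. -/
theorem card_holes_span_lt {C : UData K} {B : BData C} (A : AData B) (s : Finset (Ln K)) (R : ℕ)
    (h1 : (univ.filter (fun x : Dir K => ∃ i, C.line x i ∈ s)).card < R)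
    (h2 : (univ.filter (fun v : VIdx K => A.line v.1 v.2.1 v.2.2.1 v.2.2.2 ∈ s)).card < R) :
    (A.holes.filter (fun l => l ∈ s)).card < 3 * R := by
  have hsub : A.holes.filter (fun l => l ∈ s) ⊆
      (((univ.filter (fun x : Dir K => ∃ i, C.line x i ∈ s)) ×ˢ (univ : Finset (Fin 2))).image
        (fun t : Dir K × Fin 2 => C.line t.1 t.2)) ∪
      ((univ.filter (fun v : VIdx K => A.line v.1 v.2.1 v.2.2.1 v.2.2.2 ∈ s)).image
        (fun v : VIdx K => A.line v.1 v.2.1 v.2.2.1 v.2.2.2)) := by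
    intro l hl
    obtain ⟨hl1, hl2⟩ := mem_filter.mp hl
    unfold AData.holes at hl1
    rcases mem_union.mp hl1 with h | h
    · obtain ⟨t, _, rfl⟩ := mem_image.mp h
      apply mem_union_left
      refine mem_image.mpr ⟨t, ?_, rfl⟩
      simp only [mem_product, mem_filter, mem_univ, true_and, and_true]
      exact ⟨t.2, hl2⟩
    · obtain ⟨v, _, rfl⟩ := mem_image.mp h
      apply mem_union_right
      exact mem_image.mpr ⟨v, mem_filter.mpr ⟨mem_univ _, hl2⟩, rfl⟩
  have h3 := card_le_card hsub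
  have h4 := card_union_le (((univ.filter (fun x : Dir K => ∃ i, C.line x i ∈ s)) ×ˢ (univ : Finset (Fin 2))).image
        (fun t : Dir K × Fin 2 => C.line t.1 t.2))
      ((univ.filter (fun v : VIdx K => A.line v.1 v.2.1 v.2.2.1 v.2.2.2 ∈ s)).image
        (fun v : VIdx K => A.line v.1 v.2.1 v.2.2.1 v.2.2.2))
  have h5 : (((univ.filter (fun x : Dir K => ∃ i, C.line x i ∈ s)) ×ˢ (univ : Finset (Fin 2))).image
        (fun t : Dir K × Fin 2 => C.line t.1 t.2)).card ≤
      (univ.filter (fun x : Dir K => ∃ i, C.line x i ∈ s)).card * 2 := by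
    refine le_trans card_image_le ?_
    rw [card_product]
    simp
  have h6 : ((univ.filter (fun v : VIdx K => A.line v.1 v.2.1 v.2.2.1 v.2.2.2 ∈ s)).image
        (fun v : VIdx K => A.line v.1 v.2.1 v.2.2.1 v.2.2.2)).card ≤
      (univ.filter (fun v : VIdx K => A.line v.1 v.2.1 v.2.2.1 v.2.2.2 ∈ s)).card := card_image_le
  omega

/-- Points on no candidate hole are on no chosen hole. -/
theorem Wp_subset_W {C : UData K} {B : BData C} (A : AData B) (b : Dir K → Fin 2) :
    (univ.filter (fun p => ∀ h ∈ A.holes, ¬ On p h)) ⊆ A.W b := by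
  intro p hp
  have hp' := (mem_filter.mp hp).2
  simp only [AData.W, mem_filter, mem_univ, true_and]
  intro x
  refine ⟨hp' _ ?_, fun e l => hp' _ ?_⟩
  · exact mem_union_left _ (mem_image.mpr ⟨(x, b x), mem_univ _, rfl⟩)
  · exact mem_union_right _ (mem_image.mpr ⟨(x, b x, e, l), mem_univ _, rfl⟩)

/-- A point off the `U` lines and off the holes `A` is off all holes. -/
theorem off_holes_of {C : UData K} {B : BData C} (A : AData B) {p : Pt K}
    (h1 : ∀ x i, ¬ On p (C.line x i))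
    (h2 : ∀ v : VIdx K, ¬ On p (A.line v.1 v.2.1 v.2.2.1 v.2.2.2)) :
    ∀ h ∈ A.holes, ¬ On p h := by
  intro h hh
  unfold AData.holes at hh
  rcases mem_union.mp hh with h' | h'
  · obtain ⟨t, _, rfl⟩ := mem_image.mp h'
    exact h1 _ _
  · obtain ⟨v, _, rfl⟩ := mem_image.mp h'
    exact h2 v

theorem NumP1_mono {B B' : ℝ} (hB : B ≤ B') {k R : ℕ} (h : NumP1 K B' k R) : NumP1 K B k R := by
  refine ⟨le_trans ?_ h.1, h.2⟩
  have h0 := Real.exp_pos (3 : ℝ)
  have h1 : (0 : ℝ) ≤ (k : ℝ) ^ 4 := by positivity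
  have : Real.exp 3 * B ≤ Real.exp 3 * B' := mul_le_mul_of_nonneg_left hB h0.le
  exact mul_le_mul_of_nonneg_right this h1

end aux

/-- The lower bound for `surv`, from regularity. -/
theorem surv_lower : ∃ q₀ : ℕ, ∀ (K : Type) [Field K] [Fintype K] [DecidableEq K],
    q₀ ≤ Fintype.card K → ∀ (C : UData K) (B : BData C) (A : AData B) (YY YY' : Finset (Finset (Pt K))),
      P0 C YY → P1 B → P2 A YY' → ∀ ℓ, Real.exp (-3) / wmax * Fintype.card K ≤ ((A.surv ℓ).card : ℝ) := by
  obtain ⟨q₁, hd⟩ := delta0_lower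
  refine ⟨q₁ + Nat.ceil (100 / phi1) + Nat.ceil ((2 * Real.exp 3) ^ 3) + 1, ?_⟩
  intro K _ _ _ hq C B A YY YY' hP0 hP1 hP2 ℓ
  have hq100 : 100 / phi1 ≤ (Fintype.card K : ℝ) := by
    have h1 : Nat.ceil (100 / phi1) ≤ Fintype.card K := by omega
    exact (Nat.le_ceil _).trans (by exact_mod_cast h1)
  have hqT : (2 * Real.exp 3) ^ 3 ≤ (Fintype.card K : ℝ) := by
    have h1 : Nat.ceil ((2 * Real.exp 3) ^ 3) ≤ Fintype.card K := by omega
    exact (Nat.le_ceil _).trans (by exact_mod_cast h1)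
  have hqpos : (0 : ℝ) < (Fintype.card K : ℝ) := by
    have : 0 < Fintype.card K := by omega
    exact_mod_cast this
  have hδ := hd K (by omega)
  have h1 := hP2.reg ℓ
  have h2 := hP0.surv0 ℓ
  have h1' := (abs_le.mp h1).1
  have h2' := (abs_le.mp h2).1
  have hwmax : 0 < wmax := by unfold wmax; positivity
  -- the numerical inequality
  set n : ℝ := (Fintype.card K : ℝ) with hn
  set T : ℝ := n ^ ((1 : ℝ) / 3) with hT
  have hTpos : 0 < T := by rw [hT]; positivity
  have hT3 : T ^ 3 = n := by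
    rw [hT, ← Real.rpow_natCast, ← Real.rpow_mul hqpos.le]
    norm_num
  have hT2 : n ^ ((2 : ℝ) / 3) = T ^ 2 := by
    rw [hT, ← Real.rpow_natCast, ← Real.rpow_mul hqpos.le]
    norm_num
  have hTge : 2 * Real.exp 3 ≤ T := by
    by_contra hlt
    rw [not_le] at hlt
    have h3 : T ^ 3 < (2 * Real.exp 3) ^ 3 := pow_lt_pow_left₀ hlt hTpos.le (by norm_num)
    rw [hT3] at h3
    linarith
  have hnum : 2 * n ^ ((2 : ℝ) / 3) ≤ Real.exp (-3) * n := by
    rw [hT2, ← hT3]
    have h4 : Real.exp (-3) * Real.exp 3 = 1 := by rw [← Real.exp_add]; simp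
    have h5 : 0 < Real.exp (-3) := Real.exp_pos _
    have h6 : 2 ≤ Real.exp (-3) * T := by
      have := mul_le_mul_of_nonneg_left hTge h5.le
      nlinarith
    have h7 : 0 ≤ T ^ 2 := by positivity
    nlinarith
  have hlow : Real.exp (-3) * n ≤ ∑ p ∈ A.surv ℓ, B.wt p := by
    have : 2 * Real.exp (-3) * n ≤ n * delta0 K := by
      rw [mul_comm n]
      exact mul_le_mul_of_nonneg_right hδ hqpos.le
    nlinarith
  have hup : ∑ p ∈ A.surv ℓ, B.wt p ≤ ((A.surv ℓ).card : ℝ) * wmax := by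
    have := Finset.sum_le_card_nsmul (A.surv ℓ) B.wt wmax (fun p _ => (wt_bounds B hP1 hq100 p).2)
    simpa [nsmul_eq_mul] using this
  rw [div_mul_eq_mul_div, div_le_iff₀ hwmax]
  linarith

/-- For large finite fields, the hypergraph exists. -/
theorem hypergraph_large :
    ∃ q₀ : ℕ, ∀ (K : Type) [Field K] [Fintype K] [DecidableEq K], q₀ ≤ Fintype.card K →
      HasHypergraph K := by
  have hBA : 0 < BA := by have := BA_ge_two; linarith
  have hch : 1 ≤ Ch BA := by
    unfold Ch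
    have : 0 ≤ Real.exp 3 * BA * 41 ^ 4 * 1201 * 24 := by positivity
    linarith
  obtain ⟨K₀, C₉, q₁, hK₀, hshape⟩ := killFamily_shape (Ch BA) hch
  obtain ⟨q₂, hL0⟩ := layer0 K₀ C₉ hK₀
  obtain ⟨q₃, hL1⟩ := layer1
  have hcpos := killc_pos 2 2
  have hc1 := killc_le_one 2 2 (by norm_num) (by norm_num)
  obtain ⟨q₄, hL2⟩ := layer2 (K₀ / killc 2 2) (C₉ * (Nat.ceil (1 / killc 2 2) + 1))
    (div_pos hK₀ hcpos)
  obtain ⟨q₅, hL3⟩ := layer3
  obtain ⟨q₆, hS⟩ := surv_lower
  have hρ : 0 < Real.exp (-3) := Real.exp_pos _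
  have hwm : 1 ≤ wmax := by
    unfold wmax
    apply Real.one_le_exp
    have := phi1_pos
    positivity
  obtain ⟨q₇, hC⟩ := container (Real.exp (-3)) wmax hρ hwm
  obtain ⟨q₈, hB⟩ := bits_exists
  have hγ : 0 < Real.exp (-3) / wmax := by positivity
  obtain ⟨q₉, hR2⟩ := R2_near (Real.exp (-3) / wmax) BA hγ hBA
  obtain ⟨q₁₀, hA⟩ := assembly (Real.exp (-3) / wmax) hγ
  obtain ⟨q₁₁, hd⟩ := delta0_lower
  refine ⟨q₁ + q₂ + q₃ + q₄ + q₅ + q₆ + q₇ + q₈ + q₉ + q₁₀ + q₁₁ + Nat.ceil (100 / phi1) + 2, ?_⟩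
  intro K _ _ _ hq
  have hq100 : 100 / phi1 ≤ (Fintype.card K : ℝ) := by
    have h1 : Nat.ceil (100 / phi1) ≤ Fintype.card K := by omega
    exact (Nat.le_ceil _).trans (by exact_mod_cast h1)
  have hKS := hshape K (by omega)
  obtain ⟨C, hP0⟩ := hL0 K (by omega) _ hKS
  obtain ⟨B, hP1⟩ := hL1 K (by omega) C hP0.surv0
  have hKS' := killShape_uSurvivors (killc 2 2) K₀ C₉ hcpos hc1 hK₀ C _ hKS hP0.kill
  obtain ⟨A, hP2⟩ := hL2 K (by omega) C B _ _ hP0 hP1 hKS' (by
    intro Y hY p hp x i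
    obtain ⟨Y₀, _, rfl⟩ := mem_image.mp hY
    exact (mem_filter.mp hp).2 x i)
  obtain ⟨Kd, hP3⟩ := hL3 K (by omega) C B A _ hP2 hP1
  have hsurv := hS K (by omega) C B A _ _ hP0 hP1 hP2
  have hδ := hd K (by omega)
  -- the container list
  obtain ⟨LL, hLLcard, hLL⟩ := hC K (by omega) A.holes B.wt (delta0 K)
    (by have := Real.exp_pos (-3); linarith) (delta0_le_one (by omega)) (card_holes_le A)
    (wt_bounds B hP1 hq100) (by
      intro ℓ hℓ
      have h1 := hP2.reg ℓ
      have h2 := hP0.surv0 ℓ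
      rw [surv_of_not_mem A hℓ] at h1
      have h3 : |∑ p ∈ linePts ℓ with (∀ h ∈ A.holes, ¬ On p h), B.wt p - delta0 K * Fintype.card K|
          ≤ |∑ p ∈ linePts ℓ with (∀ h ∈ A.holes, ¬ On p h), B.wt p - ((Surv0 C ℓ).card : ℝ)|
            + |((Surv0 C ℓ).card : ℝ) - Fintype.card K * delta0 K| := by
        rw [mul_comm (delta0 K)]
        exact abs_sub_le _ _ _
      linarith)
  obtain ⟨b, hb⟩ := hB K (by omega) C B A LL hP1 hP2.moment hLLcard
  refine hA K (by omega) C B A Kd b hP3 hsurv ?_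
  intro S hcard hcov
  have hcov' : Covers S (univ.filter (fun p => ∀ h ∈ A.holes, ¬ On p h)) :=
    fun p hp => hcov p (Wp_subset_W A b hp)
  have hmem := hLL S hcard hcov'
  have hlt : ((unc S).card : ℝ) < (Fintype.card K : ℝ) ^ ((39 : ℝ) / 20) := by
    by_contra hge
    rw [not_lt] at hge
    obtain ⟨p, hp, hpW⟩ := hb S hmem hge
    obtain ⟨l, hl, hpl⟩ := hcov p hpW
    have h0 : cnt S p = 0 := (mem_filter.mp hp).2
    have : l ∈ S.filter (fun l => On p l) := mem_filter.mpr ⟨hl, hpl⟩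
    have h1 : 0 < cnt S p := card_pos.mpr ⟨l, this⟩
    omega
  refine ⟨hlt, ?_⟩
  refine hR2 K (by omega) A.holes ?_ ?_ ?_ S hcard hcov' hlt
  · intro ℓ hℓ
    have := hsurv ℓ
    rwa [surv_of_not_mem A hℓ] at this
  · intro k R hnum K₁ K₂ h₁ h₂
    apply card_holes_span_lt
    · exact hP0.p1 k R (NumP1_mono BA_ge_two hnum) K₁ K₂ h₁ h₂
    · exact hP2.p1 k R hnum K₁ K₂ h₁ h₂
  · intro Y hY
    have hpos : 0 < Y.card := by
      have h1 := hKS.lower Y hY
      have hqpos : (0 : ℝ) < (Fintype.card K : ℝ) ^ ((3 : ℝ) / 2) := by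
        have : (0 : ℝ) < Fintype.card K := by
          have : 0 < Fintype.card K := by omega
          exact_mod_cast this
        positivity
      by_contra h0
      have : Y.card = 0 := by omega
      rw [this] at h1
      simp at h1
      linarith
    have h1 := hP0.kill Y hY
    have h2 := hP2.kill (uSurvivors C Y) (mem_image_of_mem _ hY)
    have hY'pos : (0 : ℝ) < ((uSurvivors C Y).card : ℝ) := by
      have : (0 : ℝ) < killc 2 2 * Y.card := by positivity
      linarith
    have h3 : (0 : ℝ) < ((((uSurvivors C Y).filter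
        (fun p => ∀ v : VIdx K, ¬ On p (A.line v.1 v.2.1 v.2.2.1 v.2.2.2))).card : ℕ) : ℝ) := by
      have := killc_pos 41 BA
      have : (0 : ℝ) < killc 41 BA * (uSurvivors C Y).card := by positivity
      linarith
    have h4 : ((uSurvivors C Y).filter
        (fun p => ∀ v : VIdx K, ¬ On p (A.line v.1 v.2.1 v.2.2.1 v.2.2.2))).Nonempty := by
      apply card_pos.mp
      exact_mod_cast h3
    obtain ⟨p, hp⟩ := h4
    obtain ⟨hp1, hp2⟩ := mem_filter.mp hp
    obtain ⟨hp3, hp4⟩ := mem_filter.mp hp1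
    exact ⟨p, hp3, off_holes_of A hp4 hp2⟩

end Crest.Agent.Ryser
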