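import Crest.Agent.Ryser.Geom

/-!
# Polynomial functions of bounded total degree on `K × K` (toolkit for the polynomial dichotomy).

`IsPoly d f`: `f` is a `K`-linear combination of monomials `x^i y^j`, `i + j ≤ d`.
All statements are about functions; nonvanishing of coefficients appears only in `exists_vanish`.
-/

set_option autoImplicit false
set_option linter.unusedSectionVars false
set_option linter.unusedVariables false

namespace Crest.Agent.Ryser

open Finset Polynomial

namespace PolyLib

/-- Exponents of total degree at most `d`. -/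
def mon (d : ℕ) : Finset (ℕ × ℕ) :=
  (range (d + 1) ×ˢ range (d + 1)).filter (fun t => t.1 + t.2 ≤ d)

theorem mem_mon {d : ℕ} {t : ℕ × ℕ} : t ∈ mon d ↔ t.1 + t.2 ≤ d := by
  simp only [mon, mem_filter, mem_product, mem_range]
  constructor
  · exact fun h => h.2
  · intro h; exact ⟨⟨by omega, by omega⟩, h⟩

theorem mon_eq_biUnion (d : ℕ) :
    mon d = (range (d + 1)).biUnion (fun k => Finset.HasAntidiagonal.antidiagonal k) := by
  ext t
  simp only [mem_mon, mem_biUnion, mem_range, Finset.HasAntidiagonal.mem_antidiagonal]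
  constructor
  · intro h; exact ⟨t.1 + t.2, by omega, rfl⟩
  · rintro ⟨k, hk, rfl⟩; omega

theorem card_mon (d : ℕ) : 2 * (mon d).card = (d + 1) * (d + 2) := by
  rw [mon_eq_biUnion, card_biUnion]
  · induction d with
    | zero => simp
    | succ n ih =>
      rw [sum_range_succ, mul_add, ih, Finset.Nat.card_antidiagonal]
      ring
  · intro i _ j _ hij
    rw [Function.onFun, Finset.disjoint_left]
    intro t hi hj
    rw [Finset.HasAntidiagonal.mem_antidiagonal] at hi hj
    omega

variable {K : Type} [Field K]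

/-- `f` is a polynomial function of total degree at most `d`. -/
def IsPoly (d : ℕ) (f : K × K → K) : Prop :=
  ∃ a : ℕ × ℕ → K, ∀ p, f p = ∑ t ∈ mon d, a t * (p.1 ^ t.1 * p.2 ^ t.2)

/-- `h` is a polynomial function of degree at most `d` in one variable. -/
def IsPoly1 (d : ℕ) (h : K → K) : Prop :=
  ∃ P : K[X], P.natDegree ≤ d ∧ ∀ u, h u = P.eval u

theorem IsPoly.mono {d e : ℕ} {f : K × K → K} (hde : d ≤ e) (h : IsPoly d f) : IsPoly e f := by
  classical
  obtain ⟨a, ha⟩ := h
  refine ⟨fun t => if t ∈ mon d then a t else 0, fun p => ?_⟩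
  rw [ha p]
  have hsub : mon d ⊆ mon e := fun t ht => mem_mon.mpr ((mem_mon.mp ht).trans hde)
  rw [← Finset.sum_subset hsub]
  · exact Finset.sum_congr rfl (fun t ht => by simp [ht])
  · intro t _ ht
    simp [ht]

theorem isPoly_monomial {d i j : ℕ} (h : i + j ≤ d) :
    IsPoly d (fun p : K × K => p.1 ^ i * p.2 ^ j) := by
  classical
  refine ⟨fun t => if t = (i, j) then 1 else 0, fun p => ?_⟩
  rw [Finset.sum_eq_single (i, j)]
  · simp
  · intro t _ ht; simp [ht]
  · intro hn; exact absurd (mem_mon.mpr h) hn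

theorem IsPoly.add {d : ℕ} {f g : K × K → K} (hf : IsPoly d f) (hg : IsPoly d g) :
    IsPoly d (fun p => f p + g p) := by
  obtain ⟨a, ha⟩ := hf
  obtain ⟨b, hb⟩ := hg
  refine ⟨fun t => a t + b t, fun p => ?_⟩
  show f p + g p = _
  rw [ha p, hb p, ← Finset.sum_add_distrib]
  exact Finset.sum_congr rfl (fun t _ => by ring)

theorem IsPoly.const_mul {d : ℕ} {f : K × K → K} (c : K) (hf : IsPoly d f) :
    IsPoly d (fun p => c * f p) := by
  obtain ⟨a, ha⟩ := hf
  refine ⟨fun t => c * a t, fun p => ?_⟩
  show c * f p = _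
  rw [ha p, Finset.mul_sum]
  exact Finset.sum_congr rfl (fun t _ => by ring)

theorem isPoly_zero (d : ℕ) : IsPoly d (fun _ : K × K => (0 : K)) :=
  ⟨fun _ => 0, fun p => by simp⟩

theorem isPoly_const (d : ℕ) (c : K) : IsPoly d (fun _ : K × K => c) := by
  have h := (isPoly_monomial (K := K) (d := d) (i := 0) (j := 0) (by omega)).const_mul c
  simpa using h

theorem IsPoly.sum {d : ℕ} {ι : Type} (s : Finset ι) (f : ι → K × K → K)
    (hf : ∀ i ∈ s, IsPoly d (f i)) : IsPoly d (fun p => ∑ i ∈ s, f i p) := by
  classical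
  induction s using Finset.induction_on with
  | empty => simpa using isPoly_zero d
  | insert a s ha ih =>
    have h1 := hf a (mem_insert_self _ _)
    have h2 := ih (fun i hi => hf i (mem_insert_of_mem hi))
    have := h1.add h2
    simpa [Finset.sum_insert ha] using this

theorem IsPoly.mul {d e : ℕ} {f g : K × K → K} (hf : IsPoly d f) (hg : IsPoly e g) :
    IsPoly (d + e) (fun p => f p * g p) := by
  obtain ⟨a, ha⟩ := hf
  obtain ⟨b, hb⟩ := hg
  have : (fun p : K × K => f p * g p) = fun p => ∑ s ∈ mon d, ∑ t ∈ mon e,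
      (a s * b t) * (p.1 ^ (s.1 + t.1) * p.2 ^ (s.2 + t.2)) := by
    funext p
    rw [ha p, hb p, Finset.sum_mul_sum]
    refine Finset.sum_congr rfl (fun s _ => Finset.sum_congr rfl (fun t _ => ?_))
    rw [pow_add, pow_add]; ring
  rw [this]
  refine IsPoly.sum _ _ (fun s hs => IsPoly.sum _ _ (fun t ht => ?_))
  refine IsPoly.const_mul _ (isPoly_monomial ?_)
  have h1 := mem_mon.mp hs
  have h2 := mem_mon.mp ht
  omega

theorem IsPoly.pow {d : ℕ} {f : K × K → K} (hf : IsPoly d f) (n : ℕ) :
    IsPoly (n * d) (fun p => f p ^ n) := by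
  induction n with
  | zero => simpa using isPoly_const 0 (1 : K)
  | succ n ih =>
    have := ih.mul hf
    have h2 : n * d + d = (n + 1) * d := by ring
    rw [h2] at this
    simpa [pow_succ] using this

theorem isPoly_fst : IsPoly 1 (fun p : K × K => p.1) := by
  simpa using isPoly_monomial (K := K) (d := 1) (i := 1) (j := 0) (by omega)

theorem isPoly_snd : IsPoly 1 (fun p : K × K => p.2) := by
  simpa using isPoly_monomial (K := K) (d := 1) (i := 0) (j := 1) (by omega)

/-- Composition with an affine map does not raise the degree. -/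
theorem IsPoly.comp_affine {d : ℕ} {f : K × K → K} (hf : IsPoly d f) (A : K × K → K × K)
    (h1 : IsPoly 1 (fun p => (A p).1)) (h2 : IsPoly 1 (fun p => (A p).2)) :
    IsPoly d (fun p => f (A p)) := by
  obtain ⟨a, ha⟩ := hf
  have : (fun p => f (A p)) = fun p => ∑ t ∈ mon d,
      a t * ((A p).1 ^ t.1 * (A p).2 ^ t.2) := by
    funext p; exact ha (A p)
  rw [this]
  refine IsPoly.sum _ _ (fun t ht => IsPoly.const_mul _ ?_)
  have h3 := (h1.pow t.1).mul (h2.pow t.2)
  refine IsPoly.mono ?_ h3
  have := mem_mon.mp ht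
  omega

theorem isPoly_prod {ι : Type} (s : Finset ι) (φ : ι → K × K → K)
    (h : ∀ i ∈ s, IsPoly 1 (φ i)) : IsPoly s.card (fun p => ∏ i ∈ s, φ i p) := by
  classical
  induction s using Finset.induction_on with
  | empty => simpa using isPoly_const 0 (1 : K)
  | insert a s ha ih =>
    have h1 := h a (mem_insert_self _ _)
    have h2 := ih (fun i hi => h i (mem_insert_of_mem hi))
    have := h1.mul h2
    rw [Finset.card_insert_of_notMem ha, add_comm]
    simpa [Finset.prod_insert ha] using this

/-- Restriction to a horizontal line. -/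
theorem IsPoly.slice_v {d : ℕ} {f : K × K → K} (hf : IsPoly d f) (v : K) :
    IsPoly1 d (fun u => f (u, v)) := by
  obtain ⟨a, ha⟩ := hf
  refine ⟨∑ t ∈ mon d, C (a t * v ^ t.2) * X ^ t.1, ?_, fun u => ?_⟩
  · refine Polynomial.natDegree_sum_le_of_forall_le _ _ (fun t ht => ?_)
    refine (natDegree_C_mul_X_pow_le _ _).trans ?_
    have := mem_mon.mp ht
    omega
  · show f (u, v) = _
    rw [ha (u, v), eval_finsetSum]
    refine Finset.sum_congr rfl (fun t _ => ?_)
    simp only [eval_mul, eval_C, eval_pow, eval_X]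
    ring

/-- Restriction to a vertical line. -/
theorem IsPoly.slice_u {d : ℕ} {f : K × K → K} (hf : IsPoly d f) (u : K) :
    IsPoly1 d (fun v => f (u, v)) := by
  obtain ⟨a, ha⟩ := hf
  refine ⟨∑ t ∈ mon d, C (a t * u ^ t.1) * X ^ t.2, ?_, fun v => ?_⟩
  · refine Polynomial.natDegree_sum_le_of_forall_le _ _ (fun t ht => ?_)
    refine (natDegree_C_mul_X_pow_le _ _).trans ?_
    have := mem_mon.mp ht
    omega
  · show f (u, v) = _
    rw [ha (u, v), eval_finsetSum]
    refine Finset.sum_congr rfl (fun t _ => ?_)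
    simp only [eval_mul, eval_C, eval_pow, eval_X]
    ring

/-- Division by the coordinate `v`: if `f` vanishes on `v = 0`, then `f = v * g`. -/
theorem IsPoly.div_v {d : ℕ} {f : K × K → K} (hf : IsPoly d f) (h0 : ∀ u, f (u, 0) = 0) :
    ∃ g, IsPoly (d - 1) g ∧ ∀ u v, f (u, v) = v * g (u, v) := by
  classical
  obtain ⟨a, ha⟩ := hf
  let r : K → K := fun u => ∑ t ∈ mon d, if t.2 = 0 then a t * u ^ t.1 else 0
  let g : K × K → K := fun p => ∑ t ∈ mon d,
    if t.2 = 0 then 0 else a t * (p.1 ^ t.1 * p.2 ^ (t.2 - 1))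
  have key : ∀ u v, f (u, v) = r u + v * g (u, v) := by
    intro u v
    rw [ha (u, v)]
    simp only [r, g, Finset.mul_sum]
    rw [← Finset.sum_add_distrib]
    refine Finset.sum_congr rfl (fun t _ => ?_)
    by_cases h : t.2 = 0
    · simp [h]
    · simp only [h, if_false]
      obtain ⟨n, hn⟩ := Nat.exists_eq_succ_of_ne_zero h
      rw [hn]
      simp only [Nat.succ_sub_one, pow_succ]
      ring
  have hr : ∀ u, r u = 0 := by
    intro u
    have := key u 0
    rw [h0 u] at this
    simpa using this.symm
  refine ⟨g, ?_, fun u v => by rw [key u v, hr u, zero_add]⟩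
  refine IsPoly.sum _ _ (fun t ht => ?_)
  by_cases h : t.2 = 0
  · simpa [h] using isPoly_zero (d - 1)
  · simp only [h, if_false]
    refine IsPoly.const_mul _ (isPoly_monomial ?_)
    have := mem_mon.mp ht
    omega

theorem IsPoly.const_of_zero {f : K × K → K} (hf : IsPoly 0 f) (p p' : K × K) : f p = f p' := by
  obtain ⟨a, ha⟩ := hf
  rw [ha p, ha p']
  refine Finset.sum_congr rfl (fun t ht => ?_)
  have := mem_mon.mp ht
  have h1 : t.1 = 0 := by omega
  have h2 : t.2 = 0 := by omega
  simp [h1, h2]

variable [Fintype K] [DecidableEq K]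

local notation "q" => Fintype.card K

/-- A nonzero polynomial function of degree `≤ d` has at most `d` zeros. -/
theorem IsPoly1.card_zeros {d : ℕ} {h : K → K} (hp : IsPoly1 d h) (hne : ∃ u, h u ≠ 0) :
    (univ.filter (fun u => h u = 0)).card ≤ d := by
  obtain ⟨P, hd, hP⟩ := hp
  have hP0 : P ≠ 0 := by
    rintro rfl
    obtain ⟨u, hu⟩ := hne
    exact hu (by simpa using hP u)
  have hsub : univ.filter (fun u => h u = 0) ⊆ P.roots.toFinset := by
    intro u hu
    rw [Multiset.mem_toFinset, mem_roots hP0, IsRoot.def, ← hP u]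
    exact (mem_filter.mp hu).2
  calc _ ≤ P.roots.toFinset.card := card_le_card hsub
    _ ≤ Multiset.card P.roots := Multiset.toFinset_card_le _
    _ ≤ P.natDegree := Polynomial.card_roots' P
    _ ≤ d := hd

/-- Sum over the vertical coordinate: the power sums kill the terms with small `v`-degree. -/
theorem IsPoly.sum_v {D : ℕ} {G : K × K → K} (hG : IsPoly (q + D - 1) G) :
    IsPoly1 D (fun u => ∑ v : K, G (u, v)) := by
  classical
  obtain ⟨a, ha⟩ := hG
  refine ⟨∑ t ∈ mon (q + D - 1), C (a t * ∑ v : K, v ^ t.2) * X ^ t.1, ?_, fun u => ?_⟩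
  · refine Polynomial.natDegree_sum_le_of_forall_le _ _ (fun t ht => ?_)
    by_cases h : t.2 < q - 1
    · rw [FiniteField.sum_pow_lt_card_sub_one K t.2 h]
      simp
    · refine (natDegree_C_mul_X_pow_le _ _).trans ?_
      have := mem_mon.mp ht
      have hq : 2 ≤ q := Fintype.one_lt_card
      omega
  · simp only [ha, eval_finsetSum, eval_mul, eval_C, eval_pow, eval_X]
    rw [Finset.sum_comm]
    refine Finset.sum_congr rfl (fun t _ => ?_)
    rw [Finset.mul_sum, Finset.sum_mul]
    refine Finset.sum_congr rfl (fun v _ => ?_)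
    ring

/-- A polynomial function given by coefficients vanishes identically only if the coefficients vanish
(for degree below `q`). -/
theorem coeff_eq_zero {d : ℕ} (hd : d < q) (a : ℕ × ℕ → K)
    (h : ∀ p : K × K, ∑ t ∈ mon d, a t * (p.1 ^ t.1 * p.2 ^ t.2) = 0) :
    ∀ t ∈ mon d, a t = 0 := by
  classical
  rintro ⟨i, j⟩ hij
  -- step 1: coefficient in `v`
  have h1 : ∀ u : K, ∑ t ∈ mon d, (if t.2 = j then a t * u ^ t.1 else 0) = 0 := by
    intro u
    let Q : K[X] := ∑ t ∈ mon d, C (a t * u ^ t.1) * X ^ t.2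
    have hQdeg : Q.natDegree ≤ d := by
      refine Polynomial.natDegree_sum_le_of_forall_le _ _ (fun t ht => ?_)
      refine (natDegree_C_mul_X_pow_le _ _).trans ?_
      have := mem_mon.mp ht
      omega
    have hQ : Q = 0 := by
      refine Polynomial.eq_zero_of_natDegree_lt_card_of_eval_eq_zero Q
        (f := (id : K → K)) Function.injective_id (fun v => ?_) (by omega)
      have := h (u, v)
      simp only [Q, eval_finsetSum, eval_mul, eval_C, eval_pow, eval_X, id]
      rw [← this]
      exact Finset.sum_congr rfl (fun t _ => by ring)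
    have := congrArg (fun P => Polynomial.coeff P j) hQ
    simp only [Q, Polynomial.finsetSum_coeff, coeff_C_mul_X_pow, coeff_zero] at this
    refine Eq.trans (Finset.sum_congr rfl (fun t _ => ?_)) this
    by_cases hh : t.2 = j
    · simp [hh]
    · simp [hh, Ne.symm hh]
  -- step 2: coefficient in `u`
  let R : K[X] := ∑ t ∈ mon d, if t.2 = j then C (a t) * X ^ t.1 else 0
  have hRdeg : R.natDegree ≤ d := by
    refine Polynomial.natDegree_sum_le_of_forall_le _ _ (fun t ht => ?_)
    by_cases hh : t.2 = j
    · simp only [hh, if_true]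
      refine (natDegree_C_mul_X_pow_le _ _).trans ?_
      have := mem_mon.mp ht
      omega
    · simp [hh]
  have hR : R = 0 := by
    refine Polynomial.eq_zero_of_natDegree_lt_card_of_eval_eq_zero R
      (f := (id : K → K)) Function.injective_id (fun u => ?_) (by omega)
    have := h1 u
    simp only [R, eval_finsetSum, id]
    rw [← this]
    refine Finset.sum_congr rfl (fun t _ => ?_)
    by_cases hh : t.2 = j
    · simp [hh]
    · simp [hh]
  have := congrArg (fun P => Polynomial.coeff P i) hR
  simp only [R, Polynomial.finsetSum_coeff, coeff_zero] at this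
  rw [Finset.sum_eq_single (i, j)] at this
  · simpa using this
  · intro t _ ht
    by_cases hh : t.2 = j
    · have h3 : t.1 ≠ i := by
        intro h4; apply ht; exact Prod.ext h4 hh
      simp [hh, Ne.symm h3]
    · simp [hh]
  · intro hn; exact absurd hij hn

/-- Interpolation: if `|P| < dim`, a nonzero polynomial function of degree `≤ d < q` vanishes on `P`. -/
theorem exists_vanish (P : Finset (K × K)) {d : ℕ} (hd : d < q) (hP : P.card < (mon d).card) :
    ∃ f : K × K → K, IsPoly d f ∧ (∃ p, f p ≠ 0) ∧ ∀ p ∈ P, f p = 0 := by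
  classical
  let Φ : ((mon d) → K) →ₗ[K] (P → K) :=
    { toFun := fun a p => ∑ t : mon d, a t * ((p : K × K).1 ^ (t : ℕ × ℕ).1 * (p : K × K).2 ^ (t : ℕ × ℕ).2)
      map_add' := by
        intro a b
        funext p
        simp only [Pi.add_apply, add_mul, Finset.sum_add_distrib]
      map_smul' := by
        intro c a
        funext p
        simp only [Pi.smul_apply, smul_eq_mul, RingHom.id_apply, Finset.mul_sum, mul_assoc] }
  have hrank : Module.finrank K (P → K) < Module.finrank K ((mon d) → K) := by
    simpa [Module.finrank_fintype_fun_eq_card] using hP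
  obtain ⟨a, ha, ha0⟩ : ∃ a, a ∈ LinearMap.ker Φ ∧ a ≠ 0 :=
    Submodule.exists_mem_ne_zero_of_ne_bot (LinearMap.ker_ne_bot_of_finrank_lt hrank)
  let a' : ℕ × ℕ → K := fun t => if h : t ∈ mon d then a ⟨t, h⟩ else 0
  have hsum : ∀ p : K × K, ∑ t ∈ mon d, a' t * (p.1 ^ t.1 * p.2 ^ t.2) =
      ∑ t : mon d, a t * (p.1 ^ (t : ℕ × ℕ).1 * p.2 ^ (t : ℕ × ℕ).2) := by
    intro p
    rw [← Finset.sum_coe_sort]
    refine Finset.sum_congr rfl (fun t _ => ?_)
    simp [a']
  refine ⟨fun p => ∑ t ∈ mon d, a' t * (p.1 ^ t.1 * p.2 ^ t.2), ⟨a', fun p => rfl⟩, ?_, ?_⟩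
  · by_contra hcon
    push Not at hcon
    have := coeff_eq_zero hd a' hcon
    apply ha0
    funext t
    have h2 := this t t.2
    simpa [a'] using h2
  · intro p hp
    show ∑ t ∈ mon d, a' t * (p.1 ^ t.1 * p.2 ^ t.2) = 0
    rw [hsum]
    have := congrFun (LinearMap.mem_ker.mp ha) ⟨p, hp⟩
    simpa [Φ] using this

/-- Interpolation with the explicit degree `⌈√(2|P|)⌉`. -/
theorem exists_vanish' (P : Finset (K × K)) (hd : ⌈Real.sqrt (2 * P.card)⌉₊ < q) :
    ∃ f : K × K → K, IsPoly ⌈Real.sqrt (2 * P.card)⌉₊ f ∧ (∃ p, f p ≠ 0) ∧ ∀ p ∈ P, f p = 0 := by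
  refine exists_vanish P hd ?_
  set d := ⌈Real.sqrt (2 * P.card)⌉₊ with hddef
  have h1 : Real.sqrt (2 * P.card) ≤ d := Nat.le_ceil _
  have h2 : (2 * P.card : ℝ) ≤ (d : ℝ) ^ 2 := by
    have h3 : (0 : ℝ) ≤ 2 * P.card := by positivity
    calc (2 * P.card : ℝ) = Real.sqrt (2 * P.card) ^ 2 := (Real.sq_sqrt h3).symm
      _ ≤ (d : ℝ) ^ 2 := by
        apply pow_le_pow_left₀ (Real.sqrt_nonneg _) h1
  have h3 : 2 * P.card ≤ d ^ 2 := by exact_mod_cast h2
  have h4 := card_mon d
  nlinarith

/-! ### Charts adapted to a line -/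

/-- `(u, v) ↦` the point of parameter `u` at height `v` above the line `l`. -/
def chart (l : Ln K) (t : K × K) : K × K :=
  match l.1 with
  | some m => (t.1, m * t.1 + l.2 + t.2)
  | none => (l.2 + t.2, t.1)

/-- The affine form vanishing exactly on `l`. -/
def form (l : Ln K) (p : K × K) : K :=
  match l.1 with
  | some m => p.2 - m * p.1 - l.2
  | none => p.1 - l.2

/-- The parameter. -/
def coord (l : Ln K) (p : K × K) : K :=
  match l.1 with
  | some m => p.1
  | none => p.2

theorem chart_coord (l : Ln K) (p : K × K) : chart l (coord l p, form l p) = p := by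
  rcases l with ⟨d, b⟩
  rcases p with ⟨x, y⟩
  cases d <;> simp [chart, coord, form]

theorem form_chart (l : Ln K) (t : K × K) : form l (chart l t) = t.2 := by
  rcases l with ⟨d, b⟩
  rcases t with ⟨u, v⟩
  cases d with
  | none => simp [chart, form]
  | some m => simp only [chart, form]; ring

theorem coord_chart (l : Ln K) (t : K × K) : coord l (chart l t) = t.1 := by
  rcases l with ⟨d, b⟩
  rcases t with ⟨u, v⟩
  cases d <;> simp [chart, coord]

theorem form_eq_zero_iff {l : Ln K} {p : K × K} : form l p = 0 ↔ On p l := by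
  rcases l with ⟨d, b⟩
  rcases p with ⟨x, y⟩
  cases d with
  | none => simp [form, On, sub_eq_zero]
  | some m =>
    simp only [form, On]
    constructor
    · intro h; linear_combination h
    · intro h; linear_combination h

theorem chart_eq_param (l : Ln K) (u : K) : chart l (u, 0) = param l u := by
  rcases l with ⟨d, b⟩
  cases d <;> simp [chart, param]

theorem isPoly_form (l : Ln K) : IsPoly 1 (form l) := by
  rcases l with ⟨d, b⟩
  cases d with
  | none =>
    have := isPoly_fst (K := K) |>.add (isPoly_const 1 (-b))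
    convert this using 2
    simp [form, sub_eq_add_neg]
  | some m =>
    have := (isPoly_snd (K := K) |>.add (isPoly_fst.const_mul (-m))).add (isPoly_const 1 (-b))
    convert this using 2
    simp [form, sub_eq_add_neg]

theorem isPoly_coord (l : Ln K) : IsPoly 1 (coord l) := by
  rcases l with ⟨d, b⟩
  cases d with
  | none => exact isPoly_snd
  | some m => exact isPoly_fst

theorem isPoly_chart_fst (l : Ln K) : IsPoly 1 (fun t => (chart l t).1) := by
  rcases l with ⟨d, b⟩
  cases d with
  | none =>
    have := isPoly_snd (K := K) |>.add (isPoly_const 1 b)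
    convert this using 2
    simp [chart, add_comm]
  | some m => exact isPoly_fst

theorem isPoly_chart_snd (l : Ln K) : IsPoly 1 (fun t => (chart l t).2) := by
  rcases l with ⟨d, b⟩
  cases d with
  | none => exact isPoly_fst
  | some m =>
    have := ((isPoly_fst (K := K)).const_mul m |>.add (isPoly_const 1 b)).add isPoly_snd
    exact this

/-- Pull-back by the chart. -/
theorem IsPoly.comp_chart {d : ℕ} {f : K × K → K} (hf : IsPoly d f) (l : Ln K) :
    IsPoly d (fun t => f (chart l t)) :=
  hf.comp_affine _ (isPoly_chart_fst l) (isPoly_chart_snd l)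

/-- Push-forward by the chart. -/
theorem IsPoly.comp_unchart {d : ℕ} {f : K × K → K} (hf : IsPoly d f) (l : Ln K) :
    IsPoly d (fun p => f (coord l p, form l p)) :=
  hf.comp_affine _ (isPoly_coord l) (isPoly_form l)

/-- A nonzero polynomial function of low degree is not annihilated by an affine form. -/
theorem form_mul_ne_zero {d : ℕ} {f : K × K → K} (hf : IsPoly d f) (hd : d + 1 < q)
    (hne : ∃ p, f p ≠ 0) (l : Ln K) : ∃ p, form l p * f p ≠ 0 := by
  classical
  by_contra hcon
  push Not at hcon
  obtain ⟨p, hp⟩ := hne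
  apply hp
  have hslice := (hf.comp_chart l).slice_u (coord l p)
  have hzero : ∀ v : K, v ≠ 0 → f (chart l (coord l p, v)) = 0 := by
    intro v hv
    have := hcon (chart l (coord l p, v))
    rw [form_chart] at this
    simpa [hv] using this
  by_contra hp'
  have hne' : ∃ v : K, f (chart l (coord l p, v)) ≠ 0 :=
    ⟨form l p, by rw [chart_coord]; exact hp'⟩
  have hc := IsPoly1.card_zeros hslice hne'
  have hsub : (univ.erase (0 : K)) ⊆ univ.filter (fun v => f (chart l (coord l p, v)) = 0) := by
    intro v hv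
    simp only [mem_filter, mem_univ, true_and]
    exact hzero v (Finset.ne_of_mem_erase hv)
  have h3 := card_le_card hsub
  rw [card_erase_of_mem (mem_univ _), card_univ] at h3
  omega

/-- Multiplying by a product of affine forms keeps a low-degree function nonzero. -/
theorem prod_form_mul_ne_zero {d : ℕ} {f : K × K → K} (hf : IsPoly d f) (s : Finset (Ln K))
    (hd : d + s.card < q) (hne : ∃ p, f p ≠ 0) :
    ∃ p, (∏ l ∈ s, form l p) * f p ≠ 0 := by
  classical
  induction s using Finset.induction_on with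
  | empty => simpa using hne
  | insert a s ha ih =>
    rw [card_insert_of_notMem ha] at hd
    have h1 := ih (by omega)
    have h2 : IsPoly (s.card + d) (fun p => (∏ l ∈ s, form l p) * f p) :=
      (isPoly_prod s _ (fun l _ => isPoly_form l)).mul hf
    obtain ⟨p, hp⟩ := form_mul_ne_zero h2 (by omega) h1 a
    refine ⟨p, ?_⟩
    rw [prod_insert ha]
    intro h0
    apply hp
    rw [← h0]
    ring

end PolyLib

end Crest.Agent.Ryser
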