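import Crest.Agent.Ryser.Cover
import Crest.Agent.Ryser.PolyLib

/-!
# The polynomial dichotomy.

Let `S` be at most `q` lines, `F = unc S`.  Let `C` be a nonzero polynomial function of minimal degree
`D` vanishing on `F`, and `L` the lines on which `C` vanishes.  Then every line outside `L` has
at most `D` points of `F`, every line of `L` has at most `D` covered points, `L` is disjoint
from `S`, and `D` is small.

Proof sketch (see the blueprint in `results.approach` of row S0045):
* interpolation: degree `d` with `(d+1)(d+2)/2 > |F|` exists, so `D ≤ √(2|F|) + 2`;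
* `m ∉ L`: `C|_m` is a nonzero polynomial of degree `≤ D < q`;
* `m ∈ L`: in coordinates `(u, v)` with `m = {v = 0}` write `C = v C''`; `G = R C''`, with `R` the
  product of the forms of `S`, vanishes for `v ≠ 0`, has degree `≤ q + D - 1`, and
  `G(u,0) = ∑_v G(u,v)` is by power sums a polynomial in `u` of degree `≤ D`;
  it is nonzero by minimality of `D`, and vanishes at each covered point of `m`;
* `m ∈ L ∩ S` is impossible by minimality;
* `C'` = product of `L` times an interpolant of `F \ ⋃ L` gives the last bound.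
-/

set_option autoImplicit false
set_option linter.unusedSectionVars false
set_option linter.unusedVariables false

namespace Crest.Agent.Ryser

open Finset

variable {K : Type} [Field K] [Fintype K] [DecidableEq K]

local notation "q" => Fintype.card K

/-- The points of `F` on no line of `L`. -/
def offLines (F : Finset (Pt K)) (L : Finset (Ln K)) : Finset (Pt K) :=
  F.filter (fun p => ∀ l ∈ L, ¬ On p l)

/-- The output of the polynomial method. -/
structure PolyData (S L : Finset (Ln K)) (D : ℕ) : Prop where
  disj : Disjoint L S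
  off : ∀ m, m ∉ L → (linePts m ∩ unc S).card ≤ D
  on : ∀ m ∈ L, ((linePts m).filter (fun p => p ∉ unc S)).card ≤ D
  bound : (D : ℝ) ≤ Real.sqrt (2 * (unc S).card) + 2
  bound' : (D : ℝ) ≤ L.card + Real.sqrt (2 * (offLines (unc S) L).card) + 1

open PolyLib in
private theorem mem_unc_iff {S : Finset (Ln K)} {p : Pt K} : p ∈ unc S ↔ ∀ l ∈ S, ¬ On p l := by
  simp only [unc, cnt, mem_filter, mem_univ, true_and, card_eq_zero, filter_eq_empty_iff]

open PolyLib in
/-- `d` admits a nonzero polynomial function vanishing on the uncovered points. -/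
private def Van (S : Finset (Ln K)) (d : ℕ) : Prop :=
  ∃ C : K × K → K, IsPoly d C ∧ (∃ p, C p ≠ 0) ∧ ∀ p ∈ unc S, C p = 0

open PolyLib in
theorem poly_dichotomy (S : Finset (Ln K)) (hS : S.card ≤ q)
    (hF : Real.sqrt (2 * (unc S).card) + 2 < q) :
    ∃ L D, PolyData S L D := by
  classical
  have hsq := Real.sqrt_nonneg (2 * ((unc S).card : ℝ))
  have hd₀lt : (⌈Real.sqrt (2 * (unc S).card)⌉₊ : ℝ) < Real.sqrt (2 * (unc S).card) + 1 :=
    Nat.ceil_lt_add_one hsq
  have hd₀q : ⌈Real.sqrt (2 * (unc S).card)⌉₊ < q := by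
    have : (⌈Real.sqrt (2 * (unc S).card)⌉₊ : ℝ) < q := by linarith
    exact_mod_cast this
  have hex : Van S ⌈Real.sqrt (2 * (unc S).card)⌉₊ := exists_vanish' (unc S) hd₀q
  have hex' : ∃ d, Van S d := ⟨_, hex⟩
  set D := Nat.find hex' with hDdef
  have hDle : D ≤ ⌈Real.sqrt (2 * (unc S).card)⌉₊ := Nat.find_min' hex' hex
  have hDq : D < q := lt_of_le_of_lt hDle hd₀q
  have hmin : ∀ d, d < D → ¬ Van S d := fun d hd => Nat.find_min hex' hd
  obtain ⟨C, hC, ⟨p₀, hp₀⟩, hCF⟩ : Van S D := Nat.find_spec hex'
  let L : Finset (Ln K) := univ.filter (fun l => ∀ p, On p l → C p = 0)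
  -- division by the form of a line of `L`
  have hdiv : ∀ m ∈ L, 1 ≤ D ∧ ∃ g : K × K → K, IsPoly (D - 1) g ∧ ∀ p, C p = form m p * g p := by
    intro m hm
    have hm' : ∀ p, On p m → C p = 0 := (mem_filter.mp hm).2
    constructor
    · by_contra h0
      have hD0 : D = 0 := by omega
      rw [hD0] at hC
      apply hp₀
      rw [hC.const_of_zero p₀ (param m 0)]
      exact hm' _ (on_param m 0)
    · obtain ⟨g, hg, hgC⟩ := (hC.comp_chart m).div_v (fun u => by
        rw [chart_eq_param]; exact hm' _ (on_param m u))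
      refine ⟨fun p => g (coord m p, form m p), hg.comp_unchart m, fun p => ?_⟩
      have := hgC (coord m p) (form m p)
      rwa [chart_coord] at this
  -- the restriction of a polynomial function to a line
  have hrestrict : ∀ (f : K × K → K) (d : ℕ), IsPoly d f → ∀ m : Ln K,
      IsPoly1 d (fun u => f (param m u)) := by
    intro f d hf m
    have := (hf.comp_chart m).slice_v 0
    simpa only [chart_eq_param] using this
  -- few zeros on a line
  have hzeros : ∀ (h : K → K) (m : Ln K) (T : Finset (Pt K)), IsPoly1 D h → (∃ u, h u ≠ 0) →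
      (∀ p ∈ T, ∃ u, param m u = p ∧ h u = 0) → T.card ≤ D := by
    intro h m T hh hne hT
    have hsub : T ⊆ (univ.filter (fun u => h u = 0)).image (param m) := by
      intro p hp
      obtain ⟨u, rfl, hu⟩ := hT p hp
      exact mem_image_of_mem _ (mem_filter.mpr ⟨mem_univ _, hu⟩)
    exact (card_le_card hsub).trans (card_image_le.trans (IsPoly1.card_zeros hh hne))
  refine ⟨L, D, ?_, ?_, ?_, ?_, ?_⟩
  · -- disjointness
    rw [Finset.disjoint_left]
    intro m hmL hmS
    obtain ⟨hD1, g, hg, hCg⟩ := hdiv m hmL
    refine hmin (D - 1) (by omega) ⟨g, hg, ⟨p₀, ?_⟩, fun p hp => ?_⟩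
    · intro h0
      apply hp₀
      rw [hCg p₀, h0, mul_zero]
    · have h1 := hCF p hp
      rw [hCg p] at h1
      rcases mul_eq_zero.mp h1 with h2 | h2
      · exact absurd (form_eq_zero_iff.mp h2) (mem_unc_iff.mp hp m hmS)
      · exact h2
  · -- lines off `L`
    intro m hm
    have hne : ∃ u, C (param m u) ≠ 0 := by
      by_contra hcon
      push Not at hcon
      apply hm
      refine mem_filter.mpr ⟨mem_univ _, fun p hp => ?_⟩
      obtain ⟨s, rfl⟩ := exists_param hp
      exact hcon s
    refine hzeros _ m _ (hrestrict C D hC m) hne (fun p hp => ?_)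
    obtain ⟨hp1, hp2⟩ := mem_inter.mp hp
    obtain ⟨s, rfl⟩ := exists_param (mem_linePts.mp hp1)
    exact ⟨s, rfl, hCF _ hp2⟩
  · -- lines of `L`
    intro m hm
    obtain ⟨hD1, g, hg, hCg⟩ := hdiv m hm
    let R : K × K → K := fun p => ∏ l ∈ S, form l p
    have hR : IsPoly S.card R := isPoly_prod S _ (fun l _ => isPoly_form l)
    have hG : IsPoly (q + D - 1) (fun t => R (chart m t) * g (chart m t)) := by
      have := (hR.mul hg).comp_chart m
      refine IsPoly.mono ?_ this
      omega
    have hGoff : ∀ u v : K, v ≠ 0 → R (chart m (u, v)) * g (chart m (u, v)) = 0 := by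
      intro u v hv
      by_cases hp : chart m (u, v) ∈ unc S
      · have h1 := hCF _ hp
        rw [hCg, form_chart] at h1
        have h2 : g (chart m (u, v)) = 0 := by
          rcases mul_eq_zero.mp h1 with h3 | h3
          · exact absurd h3 hv
          · exact h3
        rw [h2, mul_zero]
      · rw [mem_unc_iff] at hp
        push Not at hp
        obtain ⟨l, hl, hpl⟩ := hp
        have : R (chart m (u, v)) = 0 := prod_eq_zero hl (form_eq_zero_iff.mpr hpl)
        rw [this, zero_mul]
    have hH := hG.sum_v
    have hHval : ∀ u, ∑ v : K, R (chart m (u, v)) * g (chart m (u, v)) =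
        R (chart m (u, 0)) * g (chart m (u, 0)) := by
      intro u
      rw [Finset.sum_eq_single 0]
      · intro v _ hv; exact hGoff u v hv
      · intro h; exact absurd (mem_univ _) h
    have hHne : ∃ u, ∑ v : K, R (chart m (u, v)) * g (chart m (u, v)) ≠ 0 := by
      by_contra hcon
      push Not at hcon
      have hall : ∀ p : K × K, R p * g p = 0 := by
        intro p
        by_cases hv : form m p = 0
        · have := hcon (coord m p)
          have e : chart m (coord m p, 0) = p := by rw [← hv, chart_coord]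
          rwa [hHval, e] at this
        · have := hGoff (coord m p) (form m p) hv
          rwa [chart_coord] at this
      refine hmin (D - 1) (by omega) ⟨g, hg, ⟨p₀, ?_⟩, fun p hp => ?_⟩
      · intro h0
        apply hp₀
        rw [hCg p₀, h0, mul_zero]
      · have hRp : R p ≠ 0 := by
          refine prod_ne_zero_iff.mpr (fun l hl => ?_)
          intro h0
          exact mem_unc_iff.mp hp l hl (form_eq_zero_iff.mp h0)
        exact (mul_eq_zero.mp (hall p)).resolve_left hRp
    refine hzeros _ m _ hH hHne (fun p hp => ?_)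
    obtain ⟨hp1, hp2⟩ := mem_filter.mp hp
    obtain ⟨s, rfl⟩ := exists_param (mem_linePts.mp hp1)
    refine ⟨s, rfl, ?_⟩
    rw [hHval, chart_eq_param]
    rw [mem_unc_iff] at hp2
    push Not at hp2
    obtain ⟨l, hl, hpl⟩ := hp2
    have : R (param m s) = 0 := prod_eq_zero hl (form_eq_zero_iff.mpr hpl)
    rw [this, zero_mul]
  · -- first bound
    have : (D : ℝ) ≤ (⌈Real.sqrt (2 * (unc S).card)⌉₊ : ℝ) := by exact_mod_cast hDle
    linarith
  · -- second bound
    set F' := offLines (unc S) L with hF'
    have hsq' := Real.sqrt_nonneg (2 * (F'.card : ℝ))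
    have hd₁ : (⌈Real.sqrt (2 * F'.card)⌉₊ : ℝ) < Real.sqrt (2 * F'.card) + 1 :=
      Nat.ceil_lt_add_one hsq'
    set d₁ := ⌈Real.sqrt (2 * F'.card)⌉₊ with hd₁def
    suffices hh : D ≤ L.card + d₁ by
      have : (D : ℝ) ≤ (L.card : ℝ) + d₁ := by exact_mod_cast hh
      linarith
    by_cases hcase : q ≤ L.card + d₁
    · omega
    · have hd₁q : d₁ < q := by omega
      obtain ⟨f, hf, hfne, hfF⟩ := exists_vanish' F' hd₁q
      refine Nat.find_min' hex' ⟨fun p => (∏ l ∈ L, form l p) * f p,
        (isPoly_prod L _ (fun l _ => isPoly_form l)).mul hf,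
        prod_form_mul_ne_zero hf L (by omega) hfne, fun p hp => ?_⟩
      show (∏ l ∈ L, form l p) * f p = 0
      by_cases hpL : ∃ l ∈ L, On p l
      · obtain ⟨l, hl, hpl⟩ := hpL
        have : (∏ l ∈ L, form l p) = 0 := prod_eq_zero hl (form_eq_zero_iff.mpr hpl)
        rw [this, zero_mul]
      · push Not at hpL
        have : p ∈ F' := mem_filter.mpr ⟨hp, hpL⟩
        rw [hfF p this, mul_zero]

end Crest.Agent.Ryser
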