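import Mathlib

/-!
# Finite probability toolkit: uniform measure on finite products.

`pr P` is the fraction of points satisfying `P`, `avg f` the average.  Everything is plain counting;
all statements are over a finite product `∀ i, Ω i` of finite nonempty types.

Main results: union bound, Markov, McDiarmid (bounded differences, constant 1/2 in the exponent
is all we need), product formula, Chernoff-type tail `(e μ / R)^R`, exponential moment `2^count`.
-/

set_option autoImplicit false
set_option linter.unusedSectionVars false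
set_option linter.unusedVariables false

namespace Crest.Agent.Ryser

open Finset

section basic
variable {α : Type} [Fintype α]

/-- Average of `f` over the finite type `α`. -/
noncomputable def avg (f : α → ℝ) : ℝ := (∑ a, f a) / Fintype.card α

/-- Fraction of `a : α` satisfying `P`. -/
noncomputable def pr (P : α → Prop) : ℝ := by
  classical exact ((univ.filter P).card : ℝ) / Fintype.card α

theorem pr_nonneg (P : α → Prop) : 0 ≤ pr P := by
  classical
  unfold pr
  positivity

theorem pr_le_one (P : α → Prop) : pr P ≤ 1 := by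
  classical
  unfold pr
  apply div_le_one_of_le₀
  · exact_mod_cast card_le_univ _
  · positivity

theorem pr_eq_filter (P : α → Prop) [DecidablePred P] :
    pr P = ((univ.filter P).card : ℝ) / Fintype.card α := by
  unfold pr
  congr!

/-- Union bound. -/
theorem pr_exists_le {β : Type} (s : Finset β) (P : β → α → Prop) :
    pr (fun a => ∃ j ∈ s, P j a) ≤ ∑ j ∈ s, pr (P j) := by
  classical
  simp only [pr_eq_filter]
  rw [← Finset.sum_div]
  apply div_le_div_of_nonneg_right _ (by positivity)
  have : univ.filter (fun a => ∃ j ∈ s, P j a) = s.biUnion (fun j => univ.filter (P j)) := by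
    ext a; simp
  rw [this]
  exact_mod_cast Finset.card_biUnion_le

/-- If the total failure probability is `< 1` there is a good point. -/
theorem exists_of_pr_lt_one (P : α → Prop) [Nonempty α] (h : pr P < 1) : ∃ a, ¬ P a := by
  classical
  by_contra hcon
  push Not at hcon
  have : pr P = 1 := by
    rw [pr_eq_filter]
    have h1 : univ.filter P = univ := by ext a; simp [hcon a]
    rw [h1, Finset.card_univ]
    have : (Fintype.card α : ℝ) ≠ 0 := by
      exact_mod_cast Fintype.card_ne_zero
    field_simp
  linarith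

/-- Markov. -/
theorem pr_ge_le_avg (f : α → ℝ) (hf : ∀ a, 0 ≤ f a) {t : ℝ} (ht : 0 < t) :
    pr (fun a => t ≤ f a) ≤ avg f / t := by
  classical
  rw [pr_eq_filter]
  unfold avg
  rw [div_div, mul_comm, ← div_div]
  apply div_le_div_of_nonneg_right _ (by positivity)
  rw [le_div_iff₀ ht]
  calc ((univ.filter (fun a => t ≤ f a)).card : ℝ) * t
      = ∑ a ∈ univ.filter (fun a => t ≤ f a), t := by simp
    _ ≤ ∑ a ∈ univ.filter (fun a => t ≤ f a), f a := by
        apply Finset.sum_le_sum
        intro a ha
        simpa using ha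
    _ ≤ ∑ a, f a := by
        apply Finset.sum_le_sum_of_subset_of_nonneg (Finset.subset_univ _)
        intro a _ _
        exact hf a

theorem avg_const [Nonempty α] (c : ℝ) : avg (fun _ : α => c) = c := by
  unfold avg
  have : (Fintype.card α : ℝ) ≠ 0 := by exact_mod_cast Fintype.card_ne_zero
  simp [Finset.sum_const, Finset.card_univ]

theorem avg_mono {f g : α → ℝ} (h : ∀ a, f a ≤ g a) : avg f ≤ avg g := by
  unfold avg
  apply div_le_div_of_nonneg_right _ (by positivity)
  exact Finset.sum_le_sum (fun a _ => h a)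

theorem avg_add (f g : α → ℝ) : avg (fun a => f a + g a) = avg f + avg g := by
  unfold avg
  rw [Finset.sum_add_distrib, add_div]

theorem avg_mul_left (c : ℝ) (f : α → ℝ) : avg (fun a => c * f a) = c * avg f := by
  unfold avg
  rw [← Finset.mul_sum, mul_div_assoc]

theorem avg_sub (f g : α → ℝ) : avg (fun a => f a - g a) = avg f - avg g := by
  unfold avg
  rw [Finset.sum_sub_distrib, sub_div]

theorem pr_eq_avg (P : α → Prop) [DecidablePred P] :
    pr P = avg (fun a => if P a then (1 : ℝ) else 0) := by
  rw [pr_eq_filter]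
  unfold avg
  congr 1
  rw [Finset.sum_boole]

theorem avg_sum {β : Type} (s : Finset β) (f : β → α → ℝ) :
    avg (fun a => ∑ j ∈ s, f j a) = ∑ j ∈ s, avg (f j) := by
  unfold avg
  rw [Finset.sum_comm, Finset.sum_div]

theorem pr_not [Nonempty α] (P : α → Prop) : pr (fun a => ¬ P a) = 1 - pr P := by
  classical
  simp only [pr_eq_avg]
  rw [eq_sub_iff_add_eq, ← avg_add]
  have : (fun a => (if ¬ P a then (1 : ℝ) else 0) + (if P a then (1 : ℝ) else 0))
      = fun _ => (1 : ℝ) := by
    funext a
    by_cases h : P a <;> simp [h]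
  rw [this, avg_const]

theorem pr_mono {P Q : α → Prop} (h : ∀ a, P a → Q a) : pr P ≤ pr Q := by
  classical
  simp only [pr_eq_filter]
  apply div_le_div_of_nonneg_right _ (by positivity)
  exact_mod_cast Finset.card_le_card (fun a ha => by
    simp only [mem_filter, mem_univ, true_and] at ha ⊢
    exact h a ha)

end basic

section hoeffding
variable {α : Type} [Fintype α] [Nonempty α]

/-- Hoeffding's lemma, weak form: mean zero, bounded by `c`, then
`avg (exp (l X)) ≤ exp (l² c² / 2)`. -/
theorem avg_exp_le_of_mean_zero (X : α → ℝ) (l c : ℝ) (hc : 0 ≤ c) (hX : ∀ a, |X a| ≤ c)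
    (h0 : avg X = 0) : avg (fun a => Real.exp (l * X a)) ≤ Real.exp (l ^ 2 * c ^ 2 / 2) := by
  rcases eq_or_lt_of_le hc with hc0 | hcpos
  · subst hc0
    have hX0 : ∀ a, X a = 0 := fun a => by
      have := hX a
      exact abs_nonpos_iff.mp this
    simp only [hX0, mul_zero, Real.exp_zero, avg_const]
    simp
  -- convexity bound: exp (l x) ≤ cosh (l c) + (x / c) sinh (l c) for |x| ≤ c
  have key : ∀ a, Real.exp (l * X a) ≤ Real.cosh (l * c) + (X a / c) * Real.sinh (l * c) := by
    intro a
    have hXa := abs_le.mp (hX a)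
    set u := (c + X a) / (2 * c) with hu
    set v := (c - X a) / (2 * c) with hv
    have hu0 : 0 ≤ u := by
      apply div_nonneg <;> linarith
    have hv0 : 0 ≤ v := by
      apply div_nonneg <;> linarith
    have huv : u + v = 1 := by
      rw [hu, hv]; field_simp; ring
    have hxpt : u * (l * c) + v * (-(l * c)) = l * X a := by
      rw [hu, hv]; field_simp; ring
    have hconv := convexOn_exp.2 (Set.mem_univ (l * c)) (Set.mem_univ (-(l * c))) hu0 hv0 huv
    simp only [smul_eq_mul] at hconv
    rw [hxpt] at hconv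
    refine hconv.trans (le_of_eq ?_)
    rw [Real.cosh_eq, Real.sinh_eq, hu, hv]
    field_simp
    ring
  calc avg (fun a => Real.exp (l * X a))
      ≤ avg (fun a => Real.cosh (l * c) + (X a / c) * Real.sinh (l * c)) := avg_mono key
    _ = Real.cosh (l * c) := by
        have : (fun a => Real.cosh (l * c) + (X a / c) * Real.sinh (l * c))
            = fun a => Real.cosh (l * c) + (Real.sinh (l * c) / c) * X a := by
          funext a; ring
        rw [this, avg_add, avg_const, avg_mul_left, h0]; ring
    _ ≤ Real.exp ((l * c) ^ 2 / 2) := Real.cosh_le_exp_half_sq _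
    _ = Real.exp (l ^ 2 * c ^ 2 / 2) := by rw [mul_pow]

end hoeffding

section product
variable {ι : Type} [Fintype ι] [DecidableEq ι] {Ω : ι → Type} [∀ i, Fintype (Ω i)]
  [∀ i, Nonempty (Ω i)]

/-- Averaging out coordinate `i`. -/
noncomputable def avgOut (i : ι) (f : (∀ i, Ω i) → ℝ) : (∀ i, Ω i) → ℝ :=
  fun ω => avg (fun a : Ω i => f (Function.update ω i a))

theorem avg_avgOut (i : ι) (f : (∀ i, Ω i) → ℝ) : avg (avgOut i f) = avg f := by
  unfold avg avgOut avg
  have hc : (Fintype.card (Ω i) : ℝ) ≠ 0 := by exact_mod_cast Fintype.card_ne_zero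
  congr 1
  rw [← Finset.sum_div]
  rw [div_eq_iff hc]
  -- the involution (ω, a) ↦ (update ω i a, ω i)
  have h1 : ∑ ω : (∀ i, Ω i), ∑ a : Ω i, f (Function.update ω i a)
      = ∑ p : (∀ i, Ω i) × Ω i, f (Function.update p.1 i p.2) := by
    rw [Fintype.sum_prod_type]
  have h2 : ∑ p : (∀ i, Ω i) × Ω i, f (Function.update p.1 i p.2)
      = ∑ p : (∀ i, Ω i) × Ω i, f p.1 := by
    apply Fintype.sum_equiv
      (⟨fun p => (Function.update p.1 i p.2, p.1 i),
        fun p => (Function.update p.1 i p.2, p.1 i),
        fun p => by simp, fun p => by simp⟩ : ((∀ i, Ω i) × Ω i) ≃ ((∀ i, Ω i) × Ω i))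
    intro p
    simp
  rw [h1, h2, Fintype.sum_prod_type]
  simp [Finset.card_univ, Finset.sum_const, Finset.sum_mul]
  apply Finset.sum_congr rfl
  intro x _
  ring

theorem avgOut_update (i : ι) (f : (∀ i, Ω i) → ℝ) (ω : ∀ i, Ω i) (a : Ω i) :
    avgOut i f (Function.update ω i a) = avgOut i f ω := by
  unfold avgOut
  simp only [Function.update_idem]

theorem abs_avg_le {α : Type} [Fintype α] [Nonempty α] (X : α → ℝ) (c : ℝ) (h : ∀ a, |X a| ≤ c) :
    |avg X| ≤ c := by
  rw [abs_le]
  constructor
  · have := avg_mono (f := fun _ => -c) (g := X) (fun a => (abs_le.mp (h a)).1)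
    rwa [avg_const] at this
  · have := avg_mono (f := X) (g := fun _ => c) (fun a => (abs_le.mp (h a)).2)
    rwa [avg_const] at this

theorem avgOut_bdd (i : ι) (f : (∀ i, Ω i) → ℝ) (c : ι → ℝ)
    (hc : ∀ ω i a, |f (Function.update ω i a) - f ω| ≤ c i) :
    ∀ ω j b, |avgOut i f (Function.update ω j b) - avgOut i f ω| ≤ c j := by
  intro ω j b
  by_cases hji : j = i
  · subst hji
    rw [avgOut_update]
    simp only [sub_self, abs_zero]
    have := hc ω j (ω j)
    simpa using this
  · unfold avgOut
    rw [← avg_sub]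
    apply abs_avg_le
    intro a
    rw [Function.update_comm hji b a]
    exact hc (Function.update ω i a) j b

/-- `avgOut` of the exponential: the one-step inequality. -/
theorem avgOut_exp_le (i : ι) (f : (∀ i, Ω i) → ℝ) (c : ι → ℝ)
    (hc : ∀ ω i a, |f (Function.update ω i a) - f ω| ≤ c i) (l : ℝ) (ω : ∀ i, Ω i) :
    avgOut i (fun ω => Real.exp (l * f ω)) ω
      ≤ Real.exp (l ^ 2 * c i ^ 2 / 2) * Real.exp (l * avgOut i f ω) := by
  unfold avgOut
  set m := avg (fun a : Ω i => f (Function.update ω i a)) with hm
  have hc0 : 0 ≤ c i := by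
    have := hc ω i (ω i)
    exact (abs_nonneg _).trans this
  have h1 : ∀ a : Ω i, Real.exp (l * f (Function.update ω i a))
      = Real.exp (l * m) * Real.exp (l * (f (Function.update ω i a) - m)) := by
    intro a
    rw [← Real.exp_add]; congr 1; ring
  simp_rw [h1]
  rw [avg_mul_left, mul_comm]
  apply mul_le_mul_of_nonneg_right _ (Real.exp_pos _).le
  apply avg_exp_le_of_mean_zero
  · exact hc0
  · intro a
    -- difference is an average of differences
    have : f (Function.update ω i a) - m
        = avg (fun b : Ω i => f (Function.update ω i a) - f (Function.update ω i b)) := by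
      rw [avg_sub, avg_const]
    rw [this]
    apply abs_avg_le
    intro b
    have := hc (Function.update ω i b) i a
    rw [Function.update_idem] at this
    exact this
  · rw [avg_sub, avg_const, sub_self]

/-- Iterated averaging over a list of coordinates. -/
noncomputable def avgList (l : List ι) (f : (∀ i, Ω i) → ℝ) : (∀ i, Ω i) → ℝ :=
  l.foldr avgOut f

theorem avg_avgList (l : List ι) (f : (∀ i, Ω i) → ℝ) : avg (avgList l f) = avg f := by
  induction l with
  | nil => rfl
  | cons i l ih =>
      have : avgList (i :: l) f = avgOut i (avgList l f) := rfl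
      rw [this, avg_avgOut, ih]

theorem avgList_bdd (l : List ι) (f : (∀ i, Ω i) → ℝ) (c : ι → ℝ)
    (hc : ∀ ω i a, |f (Function.update ω i a) - f ω| ≤ c i) :
    ∀ ω j b, |avgList l f (Function.update ω j b) - avgList l f ω| ≤ c j := by
  induction l with
  | nil => exact hc
  | cons i l ih =>
      exact avgOut_bdd i (avgList l f) c ih

theorem avgList_update_eq (l : List ι) (f : (∀ i, Ω i) → ℝ) (i : ι) (hi : i ∈ l)
    (ω : ∀ i, Ω i) (a : Ω i) :
    avgList l f (Function.update ω i a) = avgList l f ω := by
  induction l generalizing ω with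
  | nil => simp at hi
  | cons j l ih =>
      have hdef : avgList (j :: l) f = avgOut j (avgList l f) := rfl
      rw [hdef]
      by_cases hij : i = j
      · subst hij; exact avgOut_update _ _ _ _
      · have hi' : i ∈ l := by
          rcases List.mem_cons.mp hi with h | h
          · exact absurd h hij
          · exact h
        unfold avgOut
        congr 1
        funext b
        rw [Function.update_comm hij]
        exact ih hi' _

theorem eq_of_update_invariant (F : (∀ i, Ω i) → ℝ)
    (hF : ∀ (i : ι) (ω : ∀ i, Ω i) (a : Ω i), F (Function.update ω i a) = F ω)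
    (ω ω' : ∀ i, Ω i) : F ω = F ω' := by
  -- change coordinates one at a time
  have key : ∀ s : Finset ι, ∀ η : (∀ i, Ω i), (∀ i, i ∉ s → η i = ω' i) → F η = F ω' := by
    intro s
    induction s using Finset.induction_on with
    | empty =>
        intro η hη
        have : η = ω' := by
          funext i
          exact hη i (by simp)
        rw [this]
    | insert j s hj ih =>
        intro η hη
        have h1 : F η = F (Function.update η j (ω' j)) := (hF j η (ω' j)).symm
        rw [h1]
        apply ih
        intro i hi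
        by_cases hij : i = j
        · subst hij; simp
        · rw [Function.update_of_ne hij]
          apply hη
          simp [hij, hi]
  exact key univ ω (by simp)

/-- Sub-Gaussian MGF bound for functions with bounded differences, over the product. -/
theorem avg_exp_le_list (f : (∀ i, Ω i) → ℝ) (c : ι → ℝ)
    (hc : ∀ ω i a, |f (Function.update ω i a) - f ω| ≤ c i) (t : ℝ) (l : List ι) :
    avg (fun ω => Real.exp (t * f ω))
      ≤ Real.exp (t ^ 2 * (l.map (fun i => c i ^ 2)).sum / 2)
        * avg (fun ω => Real.exp (t * avgList l f ω)) := by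
  induction l with
  | nil => simp [avgList]
  | cons i l ih =>
      refine ih.trans ?_
      have hdef : avgList (i :: l) f = avgOut i (avgList l f) := rfl
      have h1 : avg (fun ω => Real.exp (t * avgList l f ω))
          ≤ Real.exp (t ^ 2 * c i ^ 2 / 2)
            * avg (fun ω => Real.exp (t * avgOut i (avgList l f) ω)) := by
        rw [← avg_avgOut i (fun ω => Real.exp (t * avgList l f ω))]
        rw [← avg_mul_left]
        apply avg_mono
        intro ω
        exact avgOut_exp_le i (avgList l f) c (avgList_bdd l f c hc) t ω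
      calc Real.exp (t ^ 2 * (l.map (fun i => c i ^ 2)).sum / 2)
            * avg (fun ω => Real.exp (t * avgList l f ω))
          ≤ Real.exp (t ^ 2 * (l.map (fun i => c i ^ 2)).sum / 2)
            * (Real.exp (t ^ 2 * c i ^ 2 / 2)
              * avg (fun ω => Real.exp (t * avgOut i (avgList l f) ω))) := by
            apply mul_le_mul_of_nonneg_left h1 (Real.exp_pos _).le
        _ = _ := by
            rw [hdef, ← mul_assoc, ← Real.exp_add]
            congr 2
            simp only [List.map_cons, List.sum_cons]
            ring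

theorem avg_exp_le (f : (∀ i, Ω i) → ℝ) (c : ι → ℝ)
    (hc : ∀ ω i a, |f (Function.update ω i a) - f ω| ≤ c i) (t : ℝ) :
    avg (fun ω => Real.exp (t * f ω))
      ≤ Real.exp (t ^ 2 * (∑ i, c i ^ 2) / 2) * Real.exp (t * avg f) := by
  have h := avg_exp_le_list f c hc t (univ : Finset ι).toList
  have hsum : ((univ : Finset ι).toList.map (fun i => c i ^ 2)).sum = ∑ i, c i ^ 2 := by
    rw [Finset.sum_map_toList]
  rw [hsum] at h
  -- the iterated average is constant, equal to `avg f`
  have hconst : ∀ ω, avgList (univ : Finset ι).toList f ω = avg f := by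
    intro ω
    have hinv : ∀ (i : ι) (ω : ∀ i, Ω i) (a : Ω i),
        avgList (univ : Finset ι).toList f (Function.update ω i a)
          = avgList (univ : Finset ι).toList f ω := by
      intro i ω a
      exact avgList_update_eq _ f i (by simp) ω a
    have hc2 : avgList (univ : Finset ι).toList f
        = fun _ => avgList (univ : Finset ι).toList f ω := by
      funext η
      exact eq_of_update_invariant _ hinv η ω
    have := avg_avgList (univ : Finset ι).toList f
    rw [hc2, avg_const] at this
    exact this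
  simp only [hconst, avg_const] at h
  exact h

/-- McDiarmid, upper tail, for the uniform measure on a finite product. -/
theorem mcdiarmid_upper (f : (∀ i, Ω i) → ℝ) (c : ι → ℝ)
    (hc : ∀ ω i a, |f (Function.update ω i a) - f ω| ≤ c i) {t : ℝ} (ht : 0 < t) :
    pr (fun ω => avg f + t ≤ f ω) ≤ Real.exp (-(t ^ 2) / (2 * ∑ i, c i ^ 2)) := by
  set V := ∑ i, c i ^ 2 with hV
  have hV0 : 0 ≤ V := Finset.sum_nonneg (fun i _ => sq_nonneg _)
  rcases eq_or_lt_of_le hV0 with hV00 | hVpos
  · rw [← hV00]
    simp only [mul_zero, div_zero, Real.exp_zero]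
    exact pr_le_one _
  set l := t / V with hl
  have hlpos : 0 < l := div_pos ht hVpos
  have hsub : ∀ ω, avg f + t ≤ f ω →
      Real.exp (l * (avg f + t)) ≤ Real.exp (l * f ω) := by
    intro ω hω
    apply Real.exp_le_exp.mpr
    exact mul_le_mul_of_nonneg_left hω hlpos.le
  have h1 : pr (fun ω => avg f + t ≤ f ω)
      ≤ pr (fun ω => Real.exp (l * (avg f + t)) ≤ Real.exp (l * f ω)) :=
    pr_mono (fun ω h => hsub ω h)
  have h2 := pr_ge_le_avg (fun ω => Real.exp (l * f ω)) (fun ω => (Real.exp_pos _).le)
    (Real.exp_pos (l * (avg f + t)))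
  have h3 := avg_exp_le f c hc l
  refine h1.trans (h2.trans ?_)
  rw [div_le_iff₀ (Real.exp_pos _)]
  refine h3.trans (le_of_eq ?_)
  rw [← hV, ← Real.exp_add, ← Real.exp_add]
  congr 1
  rw [hl]
  field_simp
  ring

/-- McDiarmid, lower tail. -/
theorem mcdiarmid_lower (f : (∀ i, Ω i) → ℝ) (c : ι → ℝ)
    (hc : ∀ ω i a, |f (Function.update ω i a) - f ω| ≤ c i) {t : ℝ} (ht : 0 < t) :
    pr (fun ω => f ω ≤ avg f - t) ≤ Real.exp (-(t ^ 2) / (2 * ∑ i, c i ^ 2)) := by
  have hneg : avg (fun ω => - f ω) = - avg f := by
    have := avg_mul_left (-1) f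
    simpa using this
  have := mcdiarmid_upper (fun ω => - f ω) c (fun ω i a => by
    have := hc ω i a
    rwa [show - f (Function.update ω i a) - - f ω = -(f (Function.update ω i a) - f ω) by ring,
      abs_neg]) ht
  refine le_trans (pr_mono ?_) this
  intro ω hω
  rw [hneg]
  linarith

/-- McDiarmid, lower tail, with an upper bound `V` for the sum of squares. -/
theorem mcdiarmid_lower_V (f : (∀ i, Ω i) → ℝ) (c : ι → ℝ)
    (hc : ∀ ω i a, |f (Function.update ω i a) - f ω| ≤ c i) {t V : ℝ} (ht : 0 < t) (hV : 0 < V)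
    (hcV : ∑ i, c i ^ 2 ≤ V) :
    pr (fun ω => f ω ≤ avg f - t) ≤ Real.exp (-(t ^ 2) / (2 * V)) := by
  set l := t / V with hl
  have hlpos : 0 < l := div_pos ht hV
  have hneg : avg (fun ω => - f ω) = - avg f := by
    have := avg_mul_left (-1) f
    simpa using this
  have hc' : ∀ ω i a, |(fun ω => - f ω) (Function.update ω i a) - (fun ω => - f ω) ω| ≤ c i := by
    intro ω i a
    have := hc ω i a
    show |- f (Function.update ω i a) - - f ω| ≤ c i
    rwa [show - f (Function.update ω i a) - - f ω = -(f (Function.update ω i a) - f ω) by ring,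
      abs_neg]
  have h3 := avg_exp_le (fun ω => - f ω) c hc' l
  have hsub : ∀ ω, f ω ≤ avg f - t →
      Real.exp (l * (- avg f + t)) ≤ Real.exp (l * (- f ω)) := by
    intro ω hω
    apply Real.exp_le_exp.mpr
    apply mul_le_mul_of_nonneg_left _ hlpos.le
    linarith
  have h1 : pr (fun ω => f ω ≤ avg f - t)
      ≤ pr (fun ω => Real.exp (l * (- avg f + t)) ≤ Real.exp (l * (- f ω))) :=
    pr_mono (fun ω h => hsub ω h)
  have h2 := pr_ge_le_avg (fun ω => Real.exp (l * (- f ω))) (fun ω => (Real.exp_pos _).le)
    (Real.exp_pos (l * (- avg f + t)))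
  refine h1.trans (h2.trans ?_)
  rw [div_le_iff₀ (Real.exp_pos _)]
  refine h3.trans ?_
  rw [hneg, ← Real.exp_add, ← Real.exp_add]
  apply Real.exp_le_exp.mpr
  have hlV : l * V = t := by rw [hl]; field_simp
  have h5 : l ^ 2 * (∑ i, c i ^ 2) / 2 ≤ l ^ 2 * V / 2 := by
    apply div_le_div_of_nonneg_right _ (by norm_num)
    exact mul_le_mul_of_nonneg_left hcV (sq_nonneg _)
  have h6 : -(t ^ 2) / (2 * V) = - (l * t) / 2 := by
    rw [hl]; field_simp
  have h7 : l ^ 2 * V / 2 = l * t / 2 := by
    rw [← hlV]; ring
  rw [h6]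
  nlinarith

/-- Average of a coordinatewise product. -/
theorem avg_prod_coord (g : ∀ i, Ω i → ℝ) :
    avg (fun ω : ∀ i, Ω i => ∏ i, g i (ω i)) = ∏ i, avg (g i) := by
  classical
  unfold avg
  rw [Finset.prod_div_distrib, Finset.prod_univ_sum]
  rw [Fintype.card_pi]
  simp [Fintype.piFinset_univ]

/-- Probability of a coordinatewise conjunction. -/
theorem pr_forall_coord (E : ∀ i, Ω i → Prop) :
    pr (fun ω : ∀ i, Ω i => ∀ i, E i (ω i)) = ∏ i, pr (E i) := by
  classical
  rw [pr_eq_avg]
  simp_rw [pr_eq_avg]
  rw [← avg_prod_coord]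
  congr 1
  funext ω
  rw [Finset.prod_ite_zero]
  simp

/-- Number of coordinates where `E i` holds. -/
noncomputable def countE (E : ∀ i, Ω i → Prop) (ω : ∀ i, Ω i) : ℕ := by
  classical exact (univ.filter (fun i => E i (ω i))).card

theorem pow_countE (E : ∀ i, Ω i → Prop) (x : ℝ) (ω : ∀ i, Ω i) [∀ i, DecidablePred (E i)] :
    x ^ countE E ω = ∏ i, (if E i (ω i) then x else 1) := by
  rw [Finset.prod_ite]
  simp only [Finset.prod_const, one_pow, mul_one]
  unfold countE
  congr!


theorem avg_prod_boole (E : ∀ i, Ω i → Prop) [∀ i, DecidablePred (E i)] (x : ℝ) :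
    avg (fun ω : ∀ i, Ω i => x ^ countE E ω) = ∏ i, (1 + (x - 1) * pr (E i)) := by
  have h1 : (fun ω : ∀ i, Ω i => x ^ countE E ω)
      = fun ω => ∏ i, (if E i (ω i) then x else 1) := by
    funext ω; exact pow_countE E x ω
  rw [h1, avg_prod_coord (fun i a => if E i a then x else 1)]
  apply Finset.prod_congr rfl
  intro i _
  rw [pr_eq_avg]
  have h2 : (fun a : Ω i => if E i a then x else 1)
      = fun a => 1 + (x - 1) * (if E i a then (1 : ℝ) else 0) := by
    funext a
    split_ifs <;> ring
  rw [h2, avg_add, avg_const, avg_mul_left]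

theorem avg_pow_countE_le (E : ∀ i, Ω i → Prop) {x : ℝ} (hx : 1 ≤ x) :
    avg (fun ω : ∀ i, Ω i => x ^ countE E ω) ≤ Real.exp ((x - 1) * ∑ i, pr (E i)) := by
  classical
  rw [avg_prod_boole, Finset.mul_sum, Real.exp_sum]
  apply Finset.prod_le_prod
  · intro i _
    have := pr_nonneg (E i)
    have h2 : 0 ≤ (x - 1) * pr (E i) := mul_nonneg (by linarith) this
    linarith
  · intro i _
    have := Real.add_one_le_exp ((x - 1) * pr (E i))
    linarith

/-- Chernoff-type tail for independent indicators. -/
theorem pr_countE_ge (E : ∀ i, Ω i → Prop) {μ : ℝ} (hμ0 : 0 < μ)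
    (hμ : ∑ i, pr (E i) ≤ μ) {R : ℕ} (hR : 0 < R) :
    pr (fun ω => R ≤ countE E ω) ≤ (Real.exp 1 * μ / R) ^ R := by
  have hRr : (0 : ℝ) < R := by exact_mod_cast hR
  by_cases hcase : (R : ℝ) ≤ μ
  · -- trivial: the bound is at least one
    refine (pr_le_one _).trans ?_
    apply one_le_pow₀
    rw [le_div_iff₀ hRr]
    have h1 : (1 : ℝ) ≤ Real.exp 1 := by
      have := Real.add_one_le_exp (1 : ℝ)
      linarith
    nlinarith
  · push Not at hcase
    set x := (R : ℝ) / μ with hx
    have hx1 : 1 ≤ x := by
      rw [hx, le_div_iff₀ hμ0]; linarith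
    have hxpos : 0 < x := by linarith
    have h1 : pr (fun ω => R ≤ countE E ω)
        ≤ pr (fun ω => x ^ R ≤ x ^ countE E ω) := by
      apply pr_mono
      intro ω hω
      exact pow_le_pow_right₀ hx1 hω
    have h2 := pr_ge_le_avg (fun ω => x ^ countE E ω) (fun ω => by positivity)
      (show 0 < x ^ R by positivity)
    have h3 := avg_pow_countE_le E hx1
    have h4 : Real.exp ((x - 1) * ∑ i, pr (E i)) ≤ Real.exp ((x - 1) * μ) :=
      Real.exp_le_exp.mpr (mul_le_mul_of_nonneg_left hμ (by linarith))
    refine h1.trans (h2.trans ?_)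
    rw [div_le_iff₀ (by positivity)]
    refine h3.trans (h4.trans ?_)
    have h5 : (Real.exp 1 * μ / R) ^ R * x ^ R = Real.exp 1 ^ R := by
      rw [← mul_pow]
      congr 1
      rw [hx]
      field_simp
    rw [h5, ← Real.exp_nat_mul]
    apply Real.exp_le_exp.mpr
    rw [hx]
    have : (R / μ - 1) * μ = R - μ := by field_simp
    rw [this]
    simp only [mul_one]
    linarith

/-- Exponential moment of a count of independent indicators. -/
theorem avg_two_pow_countE_le (E : ∀ i, Ω i → Prop) :
    avg (fun ω => (2 : ℝ) ^ countE E ω) ≤ Real.exp (∑ i, pr (E i)) := by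
  have := avg_pow_countE_le E (x := 2) (by norm_num)
  simpa using (by
    convert this using 2
    norm_num)

/-- Independence of one coordinate from the others: if `E ω` forces `ω i` to lie in a set `B`
depending only on the other coordinates, with `|B| ≤ ρ |Ω i|`, then `pr E ≤ ρ`. -/
theorem pr_le_of_coord (i : ι) (B : (∀ j, Ω j) → Ω i → Prop) (E : (∀ j, Ω j) → Prop) {ρ : ℝ}
    (hB : ∀ ω a, B (Function.update ω i a) = B ω)
    (hE : ∀ ω, E ω → B ω (ω i))
    (hρ : ∀ ω, pr (B ω) ≤ ρ) : pr E ≤ ρ := by
  classical
  refine (pr_mono hE).trans ?_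
  rw [pr_eq_avg, ← avg_avgOut i]
  have h : ∀ ω, avgOut i (fun ω => if B ω (ω i) then (1 : ℝ) else 0) ω ≤ ρ := by
    intro ω
    unfold avgOut
    have : (fun a : Ω i => if B (Function.update ω i a) ((Function.update ω i a) i)
        then (1 : ℝ) else 0) = fun a => if B ω a then (1 : ℝ) else 0 := by
      funext a
      rw [hB, Function.update_self]
    rw [this, ← pr_eq_avg]
    exact hρ ω
  have := avg_mono h
  rwa [avg_const] at this

end product

end Crest.Agent.Ryser
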