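import Crest.Agent.Ryser.McDiarmid
import Crest.Agent.Ryser.Birthday

/-!
# Independent random lines: abstract lemmas used at both random levels.

Model: a finite product `∀ i, Ω i` and for each coordinate value a finite set of lines `H i a`.
-/

set_option autoImplicit false
set_option linter.unusedSectionVars false
set_option linter.unusedVariables false

namespace Crest.Agent.Ryser

open Finset

variable {K : Type} [Field K] [Fintype K] [DecidableEq K]

local notation "q" => Fintype.card K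

section model
variable {ι : Type} [Fintype ι] [DecidableEq ι] {Ω : ι → Type} [∀ i, Fintype (Ω i)]
  [∀ i, Nonempty (Ω i)] (H : ∀ i, Ω i → Finset (Ln K))

/-- All lines of the outcome `ω`. -/
def holesAt (ω : ∀ i, Ω i) : Finset (Ln K) := univ.biUnion (fun i => H i (ω i))

/-- The points of `Y` on no line of the outcome `ω`. -/
def survivors (Y : Finset (Pt K)) (ω : ∀ i, Ω i) : Finset (Pt K) :=
  Y.filter (fun p => ∀ l ∈ holesAt H ω, ¬ On p l)

/-- The numerical condition of the P1 property, for a constant `B`. -/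
def NumP1 (K : Type) [Fintype K] (B : ℝ) (k R : ℕ) : Prop :=
  Real.exp 3 * B * (k : ℝ) ^ 4 ≤ R * Fintype.card K ∧ (k + 2) * logq K ≤ R

theorem sum_pr_hit (T : Finset (Ln K)) {b : ℝ}
    (hm : ∀ m : Ln K, ∑ i, pr (fun a => m ∈ H i a) ≤ b) :
    ∑ i, pr (fun a => (H i a ∩ T).Nonempty) ≤ T.card * b := by
  calc ∑ i, pr (fun a => (H i a ∩ T).Nonempty)
      ≤ ∑ i, ∑ m ∈ T, pr (fun a => m ∈ H i a) := by
        apply Finset.sum_le_sum
        intro i _
        have : (fun a => (H i a ∩ T).Nonempty) = (fun a => ∃ m ∈ T, m ∈ H i a) := by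
          funext a
          apply propext
          constructor
          · rintro ⟨m, hm⟩
            exact ⟨m, (mem_inter.mp hm).2, (mem_inter.mp hm).1⟩
          · rintro ⟨m, h1, h2⟩
            exact ⟨m, mem_inter.mpr ⟨h2, h1⟩⟩
        rw [this]
        exact pr_exists_le T _
    _ = ∑ m ∈ T, ∑ i, pr (fun a => m ∈ H i a) := Finset.sum_comm
    _ ≤ ∑ m ∈ T, b := Finset.sum_le_sum (fun m _ => hm m)
    _ = T.card * b := by simp

theorem logq_pos (hq : 2 ≤ q) : 1 ≤ logq K := by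
  unfold logq
  apply Nat.clog_pos (by norm_num)
  nlinarith

theorem le_two_pow_logq : q ^ 2 + q + 1 ≤ 2 ^ logq K :=
  Nat.le_pow_clog (by norm_num) _

theorem p1_single {B : ℝ} (hB : 0 < B)
    (hm : ∀ m : Ln K, ∑ i, pr (fun a => m ∈ H i a) ≤ B / q) (hq : 0 < q) {k R : ℕ}
    (hnum : NumP1 K B k R) (hR : 0 < R) {K₁ K₂ : Finset (Ln K)}
    (h₁ : K₁.card ≤ k) (h₂ : K₂.card ≤ k) :
    pr (fun ω : ∀ i, Ω i => R ≤ countE (fun i a => (H i a ∩ spanOf K₁ K₂).Nonempty) ω)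
      ≤ (1 / 4 : ℝ) ^ R := by
  have hRr : (0 : ℝ) < R := by exact_mod_cast hR
  have hqr : (0 : ℝ) < q := by exact_mod_cast hq
  have hsum := sum_pr_hit H (spanOf K₁ K₂) hm
  have hcard : (4 : ℝ) * ((spanOf K₁ K₂).card : ℝ) ≤ (k : ℝ) ^ 4 := by
    have h := card_spanOf_le K₁ K₂
    have h' : K₁.card ^ 2 * K₂.card ^ 2 ≤ k ^ 2 * k ^ 2 :=
      Nat.mul_le_mul (Nat.pow_le_pow_left h₁ 2) (Nat.pow_le_pow_left h₂ 2)
    have h2 : 4 * (spanOf K₁ K₂).card ≤ k ^ 4 := by
      calc 4 * (spanOf K₁ K₂).card ≤ k ^ 2 * k ^ 2 := h.trans h'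
        _ = k ^ 4 := by ring
    exact_mod_cast h2
  set μ : ℝ := (R : ℝ) / (4 * Real.exp 1) with hμdef
  have hμ0 : 0 < μ := by positivity
  have he1 : 1 ≤ Real.exp 1 := Real.one_le_exp (by norm_num)
  have he3 : Real.exp 1 ≤ Real.exp 3 := Real.exp_le_exp.mpr (by norm_num)
  have hμ : ∑ i, pr (fun a => (H i a ∩ spanOf K₁ K₂).Nonempty) ≤ μ := by
    refine hsum.trans ?_
    rw [hμdef, mul_div_assoc', div_le_div_iff₀ hqr (by positivity)]
    have h1 := hnum.1
    have h2 : ((spanOf K₁ K₂).card : ℝ) * B * (4 * Real.exp 1) ≤ (k : ℝ) ^ 4 * B * Real.exp 3 := by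
      have h3 : (4 : ℝ) * ((spanOf K₁ K₂).card : ℝ) * Real.exp 1 ≤ (k : ℝ) ^ 4 * Real.exp 3 := by
        apply mul_le_mul hcard he3 (Real.exp_pos _).le (by positivity)
      nlinarith
    nlinarith
  have hC := pr_countE_ge (fun i a => (H i a ∩ spanOf K₁ K₂).Nonempty) hμ0 hμ hR
  refine hC.trans (le_of_eq ?_)
  congr 1
  rw [hμdef]
  field_simp

theorem countE_le (E : ∀ i, Ω i → Prop) (ω : ∀ i, Ω i) : countE E ω ≤ Fintype.card ι := by
  classical
  unfold countE
  exact card_le_univ _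

/-- The P1 property: `∀ k R` with `NumP1`, `∀ K₁ K₂` with at most `k` lines, fewer than `R` coordinates
have a line in `spanOf K₁ K₂`.

Proof: for fixed `(k, R, K₁, K₂)`, `∑_i P[H i ∩ span ≠ ∅] ≤ |span| B / q ≤ k⁴ B / (4 q) =: μ`; by
`pr_countE_ge` probability `≤ (e μ / R)^R ≤ exp(-2R) ≤ 2^(-2R)`; there are at most `2^(2 k logq)`
pairs `(K₁, K₂)` by `card_small_subsets` and `R ≥ (k+2) logq`.  Finally sum over `k ≤ q² + q`
(larger `k` are the same as `k = q² + q`) and `R ≤ q²` (larger `R` are impossible as `|ι| ≤ q²`). -/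
theorem p1_union (hι : Fintype.card ι ≤ q ^ 2) {B : ℝ} (hB : 0 < B)
    (hm : ∀ m : Ln K, ∑ i, pr (fun a => m ∈ H i a) ≤ B / q) (hq : 100 ≤ q) :
    pr (fun ω : ∀ i, Ω i => ∃ k R : ℕ, NumP1 K B k R ∧ ∃ K₁ K₂ : Finset (Ln K),
        K₁.card ≤ k ∧ K₂.card ≤ k ∧
        R ≤ countE (fun i a => (H i a ∩ spanOf K₁ K₂).Nonempty) ω) ≤ 1 / 8 := by
  classical
  set Q : ℕ := q ^ 2 + q with hQ
  have hLnCard : Fintype.card (Ln K) = Q := by
    rw [card_Ln, hQ]; ring
  have hqpos : 0 < q := by omega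
  have hlog1 : 1 ≤ logq K := logq_pos (by omega)
  have hpow : Q + 1 ≤ 2 ^ logq K := le_two_pow_logq
  have hlog2 : 2 ≤ logq K := by
    by_contra hcon
    have h1 : logq K = 1 := by omega
    rw [h1] at hpow
    have : 100 * 100 ≤ q ^ 2 := by nlinarith
    omega
  set S : Finset (ℕ × ℕ) := ((range (Q + 1)) ×ˢ (range (q ^ 2 + 1))).filter
    (fun x => NumP1 K B x.1 x.2) with hS
  let small : ℕ → Finset (Finset (Ln K)) := fun k => univ.filter (fun s => s.card ≤ k)
  have hsmall : ∀ k, ((small k).card : ℝ) ≤ (2 : ℝ) ^ (logq K * k) := by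
    intro k
    have h1 := card_small_subsets (Ln K) k
    rw [hLnCard] at h1
    have h2 : (Q + 1) ^ k ≤ (2 ^ logq K) ^ k := Nat.pow_le_pow_left hpow k
    rw [← pow_mul] at h2
    have h3 : (small k).card ≤ 2 ^ (logq K * k) := h1.trans h2
    exact_mod_cast h3
  let ev : (ℕ × ℕ) → (Finset (Ln K) × Finset (Ln K)) → (∀ i, Ω i) → Prop :=
    fun x y ω => x.2 ≤ countE (fun i a => (H i a ∩ spanOf y.1 y.2).Nonempty) ω
  have hinc : ∀ ω : (∀ i, Ω i), (∃ k R : ℕ, NumP1 K B k R ∧ ∃ K₁ K₂ : Finset (Ln K),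
        K₁.card ≤ k ∧ K₂.card ≤ k ∧
        R ≤ countE (fun i a => (H i a ∩ spanOf K₁ K₂).Nonempty) ω) →
      ∃ x ∈ S, ∃ y ∈ small x.1 ×ˢ small x.1, ev x y ω := by
    rintro ω ⟨k, R, hnum, K₁, K₂, h₁, h₂, hR⟩
    have hcardle : ∀ s : Finset (Ln K), s.card ≤ Q := fun s => by
      rw [← hLnCard]; exact card_le_univ s
    have hk' : min k Q ≤ k := min_le_left _ _
    have hR' : R ≤ q ^ 2 := hR.trans ((countE_le _ ω).trans hι)
    have hnum' : NumP1 K B (min k Q) R := by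
      refine ⟨hnum.1.trans' ?_, ?_⟩
      · apply mul_le_mul_of_nonneg_left _ (by positivity)
        have : ((min k Q : ℕ) : ℝ) ≤ k := by exact_mod_cast hk'
        exact pow_le_pow_left₀ (by positivity) this 4
      · refine le_trans ?_ hnum.2
        apply Nat.mul_le_mul_right
        omega
    refine ⟨(min k Q, R), ?_, (K₁, K₂), ?_, hR⟩
    · simp only [hS, mem_filter, mem_product, mem_range]
      refine ⟨⟨?_, ?_⟩, hnum'⟩
      · have := min_le_right k Q; omega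
      · omega
    · simp only [mem_product, small, mem_filter, mem_univ, true_and]
      exact ⟨le_min h₁ (hcardle _), le_min h₂ (hcardle _)⟩
  have h1 := pr_mono hinc
  refine h1.trans ?_
  have h2 := pr_exists_le S (fun x (ω : ∀ i, Ω i) => ∃ y ∈ small x.1 ×ˢ small x.1, ev x y ω)
  refine h2.trans ?_
  have hx : ∀ x ∈ S, pr (fun ω : ∀ i, Ω i => ∃ y ∈ small x.1 ×ˢ small x.1, ev x y ω)
      ≤ (1 / 2 : ℝ) ^ (4 * logq K) := by
    intro x hx
    obtain ⟨-, hnumx⟩ := mem_filter.mp hx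
    have hRpos : 0 < x.2 := by
      have h3 := hnumx.2
      have h4 : 2 * 1 ≤ (x.1 + 2) * logq K := Nat.mul_le_mul (by omega) hlog1
      omega
    have h3 := pr_exists_le (small x.1 ×ˢ small x.1) (ev x)
    refine h3.trans ?_
    have h4 : ∀ y ∈ small x.1 ×ˢ small x.1, pr (ev x y) ≤ (1 / 4 : ℝ) ^ x.2 := by
      intro y hy
      simp only [mem_product, small, mem_filter, mem_univ, true_and] at hy
      exact p1_single H hB hm hqpos hnumx hRpos hy.1 hy.2
    refine (Finset.sum_le_sum h4).trans ?_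
    rw [Finset.sum_const, nsmul_eq_mul, card_product]
    push_cast
    have h5 : (1 / 4 : ℝ) ^ x.2 ≤ (1 / 4 : ℝ) ^ ((x.1 + 2) * logq K) :=
      pow_le_pow_of_le_one (by norm_num) (by norm_num) hnumx.2
    have h6 : (((small x.1).card : ℝ) * (small x.1).card) * (1 / 4 : ℝ) ^ x.2
        ≤ ((2 : ℝ) ^ (logq K * x.1) * (2 : ℝ) ^ (logq K * x.1))
          * (1 / 4 : ℝ) ^ ((x.1 + 2) * logq K) := by
      apply mul_le_mul _ h5 (by positivity) (by positivity)
      exact mul_le_mul (hsmall _) (hsmall _) (by positivity) (by positivity)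
    refine h6.trans (le_of_eq ?_)
    have h7 : (1 / 4 : ℝ) = (1 / 2) ^ 2 := by norm_num
    rw [h7, ← pow_mul, ← pow_add]
    have h8 : (2 : ℝ) ^ (logq K * x.1 + logq K * x.1) * (1 / 2 : ℝ) ^ (2 * ((x.1 + 2) * logq K))
        = ((2 : ℝ) ^ (logq K * x.1 + logq K * x.1) * (1 / 2 : ℝ) ^ (logq K * x.1 + logq K * x.1))
          * (1 / 2 : ℝ) ^ (4 * logq K) := by
      rw [mul_assoc, ← pow_add]
      congr 2
      ring
    rw [h8, ← mul_pow]
    norm_num
  refine (Finset.sum_le_sum hx).trans ?_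
  rw [Finset.sum_const, nsmul_eq_mul]
  have hScard : (S.card : ℝ) ≤ (2 : ℝ) ^ (2 * logq K) := by
    have h3 : S.card ≤ (Q + 1) * (q ^ 2 + 1) := by
      calc S.card ≤ ((range (Q + 1)) ×ˢ (range (q ^ 2 + 1))).card := card_filter_le _ _
        _ = (Q + 1) * (q ^ 2 + 1) := by simp
    have h4 : q ^ 2 + 1 ≤ 2 ^ logq K := by omega
    have h5 : (Q + 1) * (q ^ 2 + 1) ≤ 2 ^ logq K * 2 ^ logq K := Nat.mul_le_mul hpow h4
    have h6 : S.card ≤ 2 ^ (2 * logq K) := by
      rw [two_mul, pow_add]; exact h3.trans h5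
    exact_mod_cast h6
  have h7 : ((S.card : ℝ)) * (1 / 2 : ℝ) ^ (4 * logq K)
      ≤ (2 : ℝ) ^ (2 * logq K) * (1 / 2 : ℝ) ^ (4 * logq K) :=
    mul_le_mul_of_nonneg_right hScard (by positivity)
  refine h7.trans ?_
  have h8 : (2 : ℝ) ^ (2 * logq K) * (1 / 2 : ℝ) ^ (4 * logq K) = (1 / 2 : ℝ) ^ (2 * logq K) := by
    rw [show 4 * logq K = 2 * logq K + 2 * logq K by ring, pow_add, ← mul_assoc, ← mul_pow]
    norm_num
  rw [h8]
  calc (1 / 2 : ℝ) ^ (2 * logq K) ≤ (1 / 2 : ℝ) ^ 3 :=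
        pow_le_pow_of_le_one (by norm_num) (by norm_num) (by omega)
    _ = 1 / 8 := by norm_num

end model

end Crest.Agent.Ryser
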