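import Crest.Agent.Ryser.Cover

/-!
# Seeds: greedy set cover, counting small subsets, the universal list of `q`-line sets with few
uncovered points.
-/

set_option autoImplicit false
set_option linter.unusedSectionVars false
set_option linter.unusedVariables false

namespace Crest.Agent.Ryser

open Finset

/-- The number of subsets of size `≤ a` is at most `(|α| + 1) ^ a`. -/
theorem card_small_subsets (α : Type) [Fintype α] [DecidableEq α] (a : ℕ) :
    ((univ : Finset (Finset α)).filter (fun s => s.card ≤ a)).card ≤ (Fintype.card α + 1) ^ a := by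
  induction a with
  | zero =>
    have : (univ : Finset (Finset α)).filter (fun s => s.card ≤ 0) = {∅} := by
      ext s; simp
    rw [this]; simp
  | succ a ih =>
    have hsub : ((univ : Finset (Finset α)).filter (fun s => s.card ≤ a + 1)) ⊆
        ((univ : Finset (Option α)) ×ˢ ((univ : Finset (Finset α)).filter (fun s => s.card ≤ a))).image
          (fun x => x.1.elim x.2 (fun y => insert y x.2)) := by
      intro s hs
      simp only [mem_filter, mem_univ, true_and] at hs
      simp only [mem_image, mem_product, mem_univ, true_and, mem_filter]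
      rcases s.eq_empty_or_nonempty with rfl | ⟨y, hy⟩
      · exact ⟨(none, ∅), by simp, by simp⟩
      · refine ⟨(some y, s.erase y), ?_, ?_⟩
        · simp only
          rw [card_erase_of_mem hy]; omega
        · simp [insert_erase hy]
    calc _ ≤ _ := card_le_card hsub
      _ ≤ _ := card_image_le
      _ = (Fintype.card α + 1) *
            ((univ : Finset (Finset α)).filter (fun s => s.card ≤ a)).card := by
          rw [card_product]; simp
      _ ≤ (Fintype.card α + 1) * (Fintype.card α + 1) ^ a := Nat.mul_le_mul_left _ ih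
      _ = _ := by ring

/-- Greedy seeds: if each `m ∈ N` is killed by a fraction `≥ β` of `G`, then `t` elements of `G` kill
all of `N` as soon as `(1 - β)^t |N| < 1`.  (`G` must be nonempty.) -/
theorem greedy_seeds {A B : Type} [DecidableEq A] [DecidableEq B] (G : Finset A) (N : Finset B)
    (kill : A → B → Prop) [∀ a b, Decidable (kill a b)] {β : ℝ} (hβ0 : 0 < β) (hβ1 : β ≤ 1)
    (hG : G.Nonempty)
    (h : ∀ m ∈ N, β * G.card ≤ ((G.filter (fun a => kill a m)).card : ℝ)) (t : ℕ)
    (ht : (1 - β) ^ t * N.card < 1) :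
    ∃ T ⊆ G, T.card ≤ t ∧ ∀ m ∈ N, ∃ a ∈ T, kill a m := by
  induction t generalizing N with
  | zero =>
    have : N.card < 1 := by
      have : (N.card : ℝ) < 1 := by simpa using ht
      exact_mod_cast this
    have hN : N = ∅ := by
      rw [← card_eq_zero]; omega
    subst hN
    exact ⟨∅, empty_subset _, by simp, by simp⟩
  | succ t ih =>
    have hβ' : 0 ≤ 1 - β := by linarith
    -- double counting: some `a ∈ G` kills a fraction `≥ β` of `N`
    have hdc : ∑ a ∈ G, ((N.filter (fun m => kill a m)).card : ℝ) =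
        ∑ m ∈ N, ((G.filter (fun a => kill a m)).card : ℝ) := by
      simp_rw [card_filter]
      push_cast
      exact sum_comm
    have hex : ∃ a ∈ G, β * N.card ≤ ((N.filter (fun m => kill a m)).card : ℝ) := by
      by_contra hcon
      push_neg at hcon
      have hlt : ∑ a ∈ G, ((N.filter (fun m => kill a m)).card : ℝ) < ∑ _a ∈ G, β * N.card :=
        sum_lt_sum_of_nonempty hG hcon
      have hge : ∑ m ∈ N, β * (G.card : ℝ) ≤ ∑ m ∈ N, ((G.filter (fun a => kill a m)).card : ℝ) :=
        sum_le_sum h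
      rw [hdc] at hlt
      simp only [sum_const, nsmul_eq_mul] at hlt hge
      nlinarith
    obtain ⟨a, haG, ha⟩ := hex
    let N' := N.filter (fun m => ¬ kill a m)
    have hN' : (N'.card : ℝ) ≤ (1 - β) * N.card := by
      have hsplit := card_filter_add_card_filter_not (s := N) (fun m => kill a m)
      have : ((N.filter (fun m => kill a m)).card : ℝ) + (N'.card : ℝ) = N.card := by
        exact_mod_cast hsplit
      nlinarith
    have ht' : (1 - β) ^ t * N'.card < 1 := by
      calc (1 - β) ^ t * N'.card ≤ (1 - β) ^ t * ((1 - β) * N.card) :=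
            mul_le_mul_of_nonneg_left hN' (pow_nonneg hβ' _)
        _ = (1 - β) ^ (t + 1) * N.card := by ring
        _ < 1 := ht
    obtain ⟨T, hTG, hTc, hT⟩ := ih N' (fun m hm => h m (mem_filter.mp hm).1) ht'
    refine ⟨insert a T, insert_subset haG hTG, ?_, ?_⟩
    · exact (card_insert_le _ _).trans (by omega)
    · intro m hm
      by_cases hk : kill a m
      · exact ⟨a, mem_insert_self _ _, hk⟩
      · obtain ⟨b, hb, hb'⟩ := hT m (mem_filter.mpr ⟨hm, hk⟩)
        exact ⟨b, mem_insert_of_mem hb, hb'⟩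

variable {K : Type} [Field K] [Fintype K] [DecidableEq K]

local notation "q" => Fintype.card K

/-- `⌈log₂ (q² + q + 1)⌉`: `q² + q + 1 ≤ 2 ^ logq`. -/
def logq (K : Type) [Fintype K] : ℕ :=
  Nat.clog 2 (Fintype.card K ^ 2 + Fintype.card K + 1)

/-- The points of `ℓ` on another line of `S`. -/
def pSet (S : Finset (Ln K)) (ℓ : Ln K) : Finset (Pt K) :=
  (linePts ℓ).filter (fun p => ∃ l' ∈ S, l' ≠ ℓ ∧ On p l')

theorem mem_pSet {S : Finset (Ln K)} {ℓ : Ln K} {p : Pt K} :
    p ∈ pSet S ℓ ↔ On p ℓ ∧ ∃ l' ∈ S, l' ≠ ℓ ∧ On p l' := by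
  simp [pSet]

theorem sum_card_pSet_le (S : Finset (Ln K)) (hS : S.card = q) :
    ∑ ℓ ∈ S, (pSet S ℓ).card ≤ 2 * (unc S).card := by
  have h1 : ∑ ℓ ∈ S, (pSet S ℓ).card = ∑ p : Pt K, ∑ ℓ ∈ S, if p ∈ pSet S ℓ then 1 else 0 := by
    rw [sum_comm]
    refine sum_congr rfl fun ℓ _ => ?_
    rw [← card_filter]
    congr 1
    ext p; simp
  rw [h1, ← sum_cnt_sub_one S hS, mul_sum]
  refine sum_le_sum fun p _ => ?_
  have hle : (∑ ℓ ∈ S, if p ∈ pSet S ℓ then 1 else 0) ≤ cnt S p := by
    rw [← card_filter]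
    refine card_le_card fun ℓ hℓ => ?_
    simp only [mem_filter] at hℓ ⊢
    exact ⟨hℓ.1, (mem_pSet.mp hℓ.2).1⟩
  by_cases h : cnt S p ≤ 1
  · have : (∑ ℓ ∈ S, if p ∈ pSet S ℓ then 1 else 0) = 0 := by
      refine sum_eq_zero fun ℓ hℓ => ?_
      rw [if_neg]
      intro hp
      obtain ⟨hpℓ, l', hl', hne, hpl'⟩ := mem_pSet.mp hp
      have : 1 < cnt S p := by
        unfold cnt
        rw [one_lt_card]
        exact ⟨ℓ, mem_filter.mpr ⟨hℓ, hpℓ⟩, l', mem_filter.mpr ⟨hl', hpl'⟩, hne.symm⟩
      omega
    omega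
  · omega

/-- Lines through a singly covered point on `m ∉ S`: at least `q - 2 |m ∩ F|`. -/
theorem single_killers (S : Finset (Ln K)) (hS : S.card = q) (m : Ln K) (hm : m ∉ S) :
    q ≤ (S.filter (fun ℓ => ∃ p, On p m ∧ On p ℓ ∧ cnt S p = 1)).card +
      2 * (linePts m ∩ unc S).card := by
  -- points of `m` with `cnt = 1`
  set A := (linePts m).filter (fun p => cnt S p = 1) with hA
  set Kil := S.filter (fun ℓ => ∃ p, On p m ∧ On p ℓ ∧ cnt S p = 1) with hKil
  have hAK : A.card ≤ Kil.card := by
    have hsub : A ⊆ Kil.biUnion (fun ℓ => linePts ℓ ∩ linePts m) := by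
      intro p hp
      obtain ⟨hp1, hp2⟩ := mem_filter.mp hp
      have hp1' : On p m := mem_linePts.mp hp1
      have : (S.filter (fun l => On p l)).Nonempty := by
        rw [← card_pos]; unfold cnt at hp2; omega
      obtain ⟨ℓ, hℓ⟩ := this
      obtain ⟨hℓ1, hℓ2⟩ := mem_filter.mp hℓ
      refine mem_biUnion.mpr ⟨ℓ, mem_filter.mpr ⟨hℓ1, p, hp1', hℓ2, hp2⟩, ?_⟩
      exact mem_inter.mpr ⟨mem_linePts.mpr hℓ2, hp1⟩
    calc A.card ≤ _ := card_le_card hsub
      _ ≤ ∑ ℓ ∈ Kil, (linePts ℓ ∩ linePts m).card := card_biUnion_le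
      _ ≤ ∑ ℓ ∈ Kil, 1 := by
          refine sum_le_sum fun ℓ hℓ => ?_
          have hne : ℓ ≠ m := by
            rintro rfl; exact hm (mem_filter.mp hℓ).1
          exact card_inter_linePts_le_one hne
      _ = Kil.card := by simp
  -- the sum of multiplicities along `m`
  have hsum : ∑ p ∈ linePts m, cnt S p ≤ q := by
    have : ∑ p ∈ linePts m, cnt S p = ∑ ℓ ∈ S, (linePts ℓ ∩ linePts m).card := by
      unfold cnt
      simp_rw [card_filter]
      rw [sum_comm]
      refine sum_congr rfl fun ℓ _ => ?_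
      rw [← card_filter]
      congr 1
      ext p; simp [and_comm]
    rw [this, ← hS]
    calc _ ≤ ∑ ℓ ∈ S, 1 := by
          refine sum_le_sum fun ℓ hℓ => ?_
          have hne : ℓ ≠ m := by
            rintro rfl; exact hm hℓ
          exact card_inter_linePts_le_one hne
      _ = S.card := by simp
  -- pointwise `2 ≤ 1[cnt=1] + cnt + 2·1[cnt=0]`
  have hpt : ∑ p ∈ linePts m, 2 ≤
      ∑ p ∈ linePts m, ((if cnt S p = 1 then 1 else 0) + cnt S p + 2 * (if p ∈ unc S then 1 else 0)) := by
    refine sum_le_sum fun p _ => ?_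
    have hu : p ∈ unc S ↔ cnt S p = 0 := by simp [unc]
    by_cases h0 : cnt S p = 0
    · rw [if_pos (hu.mpr h0)]; omega
    · rw [if_neg (fun h => h0 (hu.mp h))]
      by_cases h1 : cnt S p = 1
      · rw [if_pos h1]; omega
      · rw [if_neg h1]; omega
  have e1 : (∑ p ∈ linePts m, if cnt S p = 1 then 1 else 0) = A.card := by
    rw [hA, card_filter]
  have e2 : (∑ p ∈ linePts m, if p ∈ unc S then 1 else 0) = (linePts m ∩ unc S).card := by
    rw [← card_filter]
    rfl
  rw [sum_add_distrib, sum_add_distrib, e1, ← mul_sum, e2] at hpt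
  simp only [sum_const, card_linePts, smul_eq_mul] at hpt
  omega

/-- The candidate lines of a code `(T, P)`. -/
noncomputable def cand (T : Finset (Ln K)) (P : Finset (Pt K)) : Finset (Ln K) :=
  univ.filter (fun m => ∀ v ∈ T, m = v ∨ m.1 = v.1 ∨ cross m v ∈ P)

/-- The universal list: all `q`-line sets with at most `n q` uncovered points are in a list of size
`(q² + q + 1) ^ (3 logq (8 n + 1) + 64 n)`.

Proof: `P(ℓ)` = points of `ℓ` on another line of `S`; `∑_{ℓ ∈ S} |P(ℓ)| ≤ 2 |F|`, so the set `Good` of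
lines with `|P(ℓ)| ≤ 8 n` has `≥ 3q/4` lines.  Weak lines (`|m ∩ F| ≥ q/4`) number `≤ 64 n`
(`card_rich_lines_le`).  A non-weak `m ∉ S` has `≥ q/2` lines of `S` through singly covered points of
`m`, so `≥ q/4` good killers (`ℓ` kills `m` if `m, ℓ` cross at a point outside `P(ℓ)`); greedy seeds
give `T ⊆ Good`, `|T| ≤ 3 logq`, killing all.  Code `(T, ⋃_{v ∈ T} P(v), Cand \ S)`, with
`Cand` = lines `m` such that for all `v ∈ T`: `m = v`, or `m ∥ v`, or `cross m v ∈ P`.
Then `S = Cand \ Z`. -/
theorem universal_list (n : ℕ) (hn : 8 * n ≤ q) (hq : 2 ≤ q) :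
    ∃ LL : Finset (Finset (Ln K)),
      LL.card ≤ (q ^ 2 + q + 1) ^ (3 * logq K * (8 * n + 1) + 64 * n) ∧
      ∀ S : Finset (Ln K), S.card = q → (unc S).card ≤ n * q → S ∈ LL := by
  classical
  set SmL : ℕ → Finset (Finset (Ln K)) := fun a => (univ : Finset (Finset (Ln K))).filter
    (fun s => s.card ≤ a) with hSmL
  set SmP : ℕ → Finset (Finset (Pt K)) := fun a => (univ : Finset (Finset (Pt K))).filter
    (fun s => s.card ≤ a) with hSmP
  set a1 := 3 * logq K with ha1
  set a2 := a1 * (8 * n) with ha2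
  set a3 := 64 * n with ha3
  refine ⟨(SmL a1 ×ˢ SmP a2 ×ˢ SmL a3).image (fun x => cand x.1 x.2.1 \ x.2.2), ?_, ?_⟩
  · have hL : Fintype.card (Ln K) + 1 = q ^ 2 + q + 1 := by
      rw [card_Ln]; ring
    have hP : Fintype.card (Pt K) + 1 ≤ q ^ 2 + q + 1 := by
      rw [card_Pt]; nlinarith
    calc _ ≤ _ := card_image_le
      _ = (SmL a1).card * ((SmP a2).card * (SmL a3).card) := by
          rw [card_product, card_product]
      _ ≤ (q ^ 2 + q + 1) ^ a1 * ((q ^ 2 + q + 1) ^ a2 * (q ^ 2 + q + 1) ^ a3) := by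
          refine Nat.mul_le_mul ?_ (Nat.mul_le_mul ?_ ?_)
          · rw [← hL]; exact card_small_subsets _ _
          · exact (card_small_subsets _ _).trans (Nat.pow_le_pow_left hP _)
          · rw [← hL]; exact card_small_subsets _ _
      _ = (q ^ 2 + q + 1) ^ (3 * logq K * (8 * n + 1) + 64 * n) := by
          rw [← pow_add, ← pow_add]
          congr 1
          simp only [ha2, ha1, ha3]
          ring
  · intro S hS hF
    have hq0 : 0 < q := by omega
    -- bad lines
    set Bad := S.filter (fun ℓ => 8 * n < (pSet S ℓ).card) with hBad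
    set Good := S.filter (fun ℓ => (pSet S ℓ).card ≤ 8 * n) with hGood
    have hBadcard : 4 * Bad.card < q := by
      have h1 : (8 * n + 1) * Bad.card ≤ 2 * (n * q) := by
        calc (8 * n + 1) * Bad.card = ∑ ℓ ∈ Bad, (8 * n + 1) := by simp [mul_comm]
          _ ≤ ∑ ℓ ∈ Bad, (pSet S ℓ).card := by
              refine sum_le_sum fun ℓ hℓ => ?_
              have := (mem_filter.mp hℓ).2
              omega
          _ ≤ ∑ ℓ ∈ S, (pSet S ℓ).card := sum_le_sum_of_subset (filter_subset _ _)
          _ ≤ 2 * (unc S).card := sum_card_pSet_le S hS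
          _ ≤ 2 * (n * q) := by omega
      by_contra hcon
      push_neg at hcon
      have : (8 * n + 1) * q ≤ (8 * n + 1) * (4 * Bad.card) := Nat.mul_le_mul_left _ hcon
      nlinarith
    have hsplit : Bad.card + Good.card = q := by
      have := card_filter_add_card_filter_not (s := S) (fun ℓ => 8 * n < (pSet S ℓ).card)
      rw [hS] at this
      have h2 : S.filter (fun ℓ => ¬ 8 * n < (pSet S ℓ).card) = Good := by
        ext ℓ; simp [hGood]
      rw [h2] at this
      exact this
    have hGoodNE : Good.Nonempty := by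
      rw [← card_pos]; omega
    have hGoodS : Good ⊆ S := filter_subset _ _
    -- killing relation
    let kl : Ln K → Ln K → Prop := fun v m => v ≠ m ∧ m.1 ≠ v.1 ∧ cross m v ∉ pSet S v
    -- non-weak lines outside S
    set N := (univ : Finset (Ln K)).filter
      (fun m => m ∉ S ∧ 4 * (linePts m ∩ unc S).card < q) with hN
    have hkill : ∀ m ∈ N, (1 / 4 : ℝ) * Good.card ≤ ((Good.filter (fun a => kl a m)).card : ℝ) := by
      intro m hm
      obtain ⟨-, hmS, hmw⟩ := mem_filter.mp hm
      have hkil := single_killers S hS m hmS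
      set Kil := S.filter (fun ℓ => ∃ p, On p m ∧ On p ℓ ∧ cnt S p = 1) with hKil
      have hsub : Kil ⊆ Good.filter (fun a => kl a m) ∪ Bad := by
        intro ℓ hℓ
        obtain ⟨hℓS, p, hpm, hpℓ, hp1⟩ := mem_filter.mp hℓ
        by_cases hb : 8 * n < (pSet S ℓ).card
        · exact mem_union_right _ (mem_filter.mpr ⟨hℓS, hb⟩)
        · refine mem_union_left _ (mem_filter.mpr ⟨mem_filter.mpr ⟨hℓS, by omega⟩, ?_⟩)
          have hne : ℓ ≠ m := by
            rintro rfl; exact hmS hℓS
          have hdir : m.1 ≠ ℓ.1 := by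
            intro hd
            exact hne (eq_of_on_of_dir_eq hpℓ hpm hd.symm)
          refine ⟨hne, hdir, ?_⟩
          rw [← eq_cross hdir hpm hpℓ]
          intro hp
          obtain ⟨-, l', hl', hne', hpl'⟩ := mem_pSet.mp hp
          have : 1 < cnt S p := by
            unfold cnt
            rw [one_lt_card]
            exact ⟨ℓ, mem_filter.mpr ⟨hℓS, hpℓ⟩, l', mem_filter.mpr ⟨hl', hpl'⟩, hne'.symm⟩
          omega
      have h3 : Kil.card ≤ (Good.filter (fun a => kl a m)).card + Bad.card :=
        (card_le_card hsub).trans (card_union_le _ _)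
      have hGq : Good.card ≤ q := by omega
      have h4 : Good.card ≤ 4 * (Good.filter (fun a => kl a m)).card := by omega
      have : (Good.card : ℝ) ≤ 4 * ((Good.filter (fun a => kl a m)).card : ℝ) := by
        exact_mod_cast h4
      linarith
    have hNcard : N.card < 2 ^ logq K := by
      have h1 : N.card ≤ Fintype.card (Ln K) := card_le_univ _
      have h2 : q ^ 2 + q + 1 ≤ 2 ^ logq K := Nat.le_pow_clog (by norm_num) _
      rw [card_Ln] at h1
      nlinarith
    have hpow : (1 - (1 / 4 : ℝ)) ^ (3 * logq K) * (N.card : ℝ) < 1 := by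
      have h1 : (1 - (1 / 4 : ℝ)) ^ (3 * logq K) ≤ (1 / 2 : ℝ) ^ logq K := by
        rw [pow_mul]
        refine pow_le_pow_left₀ (by norm_num) (by norm_num) _
      have h2 : (N.card : ℝ) < 2 ^ logq K := by exact_mod_cast hNcard
      have h3 : (0 : ℝ) < (1 / 2 : ℝ) ^ logq K := by positivity
      calc _ ≤ (1 / 2 : ℝ) ^ logq K * (N.card : ℝ) :=
            mul_le_mul_of_nonneg_right h1 (by positivity)
        _ < (1 / 2 : ℝ) ^ logq K * 2 ^ logq K := mul_lt_mul_of_pos_left h2 h3
        _ = 1 := by rw [← mul_pow]; norm_num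
    classical
    obtain ⟨T, hTG, hTc, hT⟩ := greedy_seeds Good N kl (β := 1 / 4) (by norm_num) (by norm_num)
      hGoodNE hkill (3 * logq K) hpow
    have hTS : T ⊆ S := hTG.trans hGoodS
    set Pset := T.biUnion (pSet S) with hPset
    have hPsetcard : Pset.card ≤ a2 := by
      calc Pset.card ≤ ∑ v ∈ T, (pSet S v).card := card_biUnion_le
        _ ≤ ∑ v ∈ T, 8 * n := by
            refine sum_le_sum fun v hv => ?_
            exact (mem_filter.mp (hTG hv)).2
        _ = T.card * (8 * n) := by simp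
        _ ≤ a2 := Nat.mul_le_mul_right _ hTc
    -- `S ⊆ Cand`
    have hScand : S ⊆ cand T Pset := by
      intro m hm
      refine mem_filter.mpr ⟨mem_univ _, fun v hv => ?_⟩
      by_cases h1 : m = v
      · exact Or.inl h1
      by_cases h2 : m.1 = v.1
      · exact Or.inr (Or.inl h2)
      refine Or.inr (Or.inr (mem_biUnion.mpr ⟨v, hv, mem_pSet.mpr ⟨on_cross_right h2, m, hm, h1, on_cross_left h2⟩⟩))
    -- `Cand \ S` consists of weak lines
    set Z := cand T Pset \ S with hZ
    have hZweak : Z ⊆ (univ : Finset (Ln K)).filter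
        (fun l => ((q : ℝ) / 4) ≤ ((linePts l ∩ unc S).card : ℝ)) := by
      intro m hm
      obtain ⟨hmc, hmS⟩ := mem_sdiff.mp hm
      refine mem_filter.mpr ⟨mem_univ _, ?_⟩
      by_contra hw
      push_neg at hw
      have hw' : 4 * (linePts m ∩ unc S).card < q := by
        have : (4 : ℝ) * ((linePts m ∩ unc S).card : ℝ) < q := by linarith
        exact_mod_cast this
      obtain ⟨v, hv, hv1, hv2, hv3⟩ := hT m (mem_filter.mpr ⟨mem_univ _, hmS, hw'⟩)
      have := (mem_filter.mp hmc).2 v hv
      rcases this with h | h | h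
      · exact hv1 h.symm
      · exact hv2 h
      · obtain ⟨u, hu, hpu⟩ := mem_biUnion.mp h
        obtain ⟨hp1, l', hl', hne', hp2⟩ := mem_pSet.mp hpu
        -- the crossing point lies on `v` and on `u`
        apply hv3
        refine mem_pSet.mpr ⟨on_cross_right hv2, ?_⟩
        by_cases huv : u = v
        · exact ⟨l', hl', huv ▸ hne', hp2⟩
        · exact ⟨u, hTS hu, huv, hp1⟩
    have hZcard : Z.card ≤ a3 := by
      have h1 := card_le_card hZweak
      have hqR : (0 : ℝ) < q := by exact_mod_cast hq0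
      have hP : ((unc S).card : ℝ) / q ≤ ((q : ℝ) / 4) / 2 := by
        rw [div_le_iff₀ hqR]
        have h2 : ((unc S).card : ℝ) ≤ n * q := by exact_mod_cast hF
        have h3 : (8 : ℝ) * n ≤ q := by exact_mod_cast hn
        nlinarith
      have h4 := card_rich_lines_le (K := K) (unc S) (τ := (q : ℝ) / 4) (by positivity) hq0 hP
      have h5 : (((univ : Finset (Ln K)).filter
          (fun l => ((q : ℝ) / 4) ≤ ((linePts l ∩ unc S).card : ℝ))).card : ℝ) ≤ 64 * n := by
        have h2 : ((unc S).card : ℝ) ≤ n * q := by exact_mod_cast hF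
        have hq2 : (0 : ℝ) < (q : ℝ) ^ 2 := by positivity
        have h6 : (((univ : Finset (Ln K)).filter
            (fun l => ((q : ℝ) / 4) ≤ ((linePts l ∩ unc S).card : ℝ))).card : ℝ) * (q : ℝ) ^ 2
            ≤ (64 * n) * (q : ℝ) ^ 2 := by
          calc _ = (((univ : Finset (Ln K)).filter
                (fun l => ((q : ℝ) / 4) ≤ ((linePts l ∩ unc S).card : ℝ))).card : ℝ) * ((q : ℝ) / 4) ^ 2 * 16 := by
                ring
            _ ≤ (4 * (unc S).card * q) * 16 := by
                exact mul_le_mul_of_nonneg_right h4 (by norm_num)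
            _ ≤ (4 * (n * q) * q) * 16 := by
                refine mul_le_mul_of_nonneg_right ?_ (by norm_num)
                refine mul_le_mul_of_nonneg_right ?_ hqR.le
                linarith
            _ = _ := by ring
        exact le_of_mul_le_mul_right h6 hq2
      have h7 : ((Z.card : ℕ) : ℝ) ≤ ((a3 : ℕ) : ℝ) := by
        have h1' : (Z.card : ℝ) ≤ (((univ : Finset (Ln K)).filter
            (fun l => (q:ℝ)/4 ≤ ((linePts l ∩ unc S).card:ℝ))).card : ℝ) := by exact_mod_cast h1
        refine h1'.trans ?_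
        rw [ha3]; push_cast; exact h5
      exact_mod_cast h7
    refine mem_image.mpr ⟨(T, Pset, Z), ?_, ?_⟩
    · simp only [mem_product, hSmL, hSmP, mem_filter, mem_univ, true_and]
      exact ⟨hTc, hPsetcard, hZcard⟩
    · simp only
      rw [hZ, Finset.sdiff_sdiff_eq_self hScand]

end Crest.Agent.Ryser
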