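import Crest.Agent.Ryser.Kill

/-!
# The data of the construction, by layers.

For each direction `x` there are two candidate gadgets `(x, i)`, `i : Fin 2`.  A gadget has
a line `U` of direction `x` ("the star hole"), two bases `c₀, c₁` on it, for each base `e` and each
`l : Fin 10` a direction `adir` with hole `A = lineThru c adir`, and for each `l` a keep point
`k_l ∈ U`, `E = lineThru k_l adir`, designated points `k_l` on `U` and `Mpt = A j ∩ E l` (`j ≠ l`) on `A j`.
-/

set_option autoImplicit false
set_option linter.unusedSectionVars false
set_option linter.unusedVariables false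

namespace Crest.Agent.Ryser

open Finset

variable {K : Type} [Field K] [Fintype K] [DecidableEq K]

local notation "q" => Fintype.card K

/-- A partition of the directions into 20 classes, indexed by `(e, l)`. -/
noncomputable def cls (d : Dir K) : Fin 2 × Fin 10 :=
  finProdFinEquiv.symm ⟨(Fintype.equivFin (Dir K) d).val % (2 * 10), Nat.mod_lt _ (by norm_num)⟩

/-- Each class has at least `(q + 1) / 20` directions (floor). -/
theorem card_cls_ge (c : Fin 2 × Fin 10) :
    (q + 1) / 20 ≤ ((univ : Finset (Dir K)).filter (fun d => cls d = c)).card := by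
  classical
  have hn : Fintype.card (Dir K) = q + 1 := card_Dir
  rw [← hn]
  set n := Fintype.card (Dir K) with hndef
  let r : Fin (2 * 10) := finProdFinEquiv c
  have hr : r.val < 20 := r.isLt
  have hlt : ∀ j, j < n / 20 → 20 * j + r.val < n := by
    intro j hj
    have h1 : 20 * (j + 1) ≤ 20 * (n / 20) := Nat.mul_le_mul_left _ hj
    have h2 : 20 * (n / 20) ≤ n := Nat.mul_div_le n 20
    omega
  let f : ℕ → Dir K := fun j =>
    if h : 20 * j + r.val < n then (Fintype.equivFin (Dir K)).symm ⟨20 * j + r.val, h⟩ else none
  have hf : ∀ j, j < n / 20 → (Fintype.equivFin (Dir K) (f j)).val = 20 * j + r.val := by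
    intro j hj
    simp only [f, dif_pos (hlt j hj), Equiv.apply_symm_apply]
  calc n / 20 = (range (n / 20)).card := by simp
    _ ≤ _ := by
      apply card_le_card_of_injOn f
      · intro j hj
        have hj' : j < n / 20 := by simpa using hj
        simp only [coe_filter, mem_univ, true_and]
        show cls (f j) = c
        unfold cls
        rw [Equiv.symm_apply_eq]
        apply Fin.ext
        show (Fintype.equivFin (Dir K) (f j)).val % (2 * 10) = (finProdFinEquiv c).val
        rw [hf j hj']
        show (20 * j + r.val) % (2 * 10) = r.val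
        omega
      · intro j hj j' hj' h
        have hj1 : j < n / 20 := by simpa using hj
        have hj2 : j' < n / 20 := by simpa using hj'
        have h1 := hf j hj1
        have h2 := hf j' hj2
        rw [h] at h1
        omega

/-! ### Layer 0: the lines `U`. -/

/-- Two distinct parallel lines per direction. -/
structure UData (K : Type) [Field K] [Fintype K] [DecidableEq K] where
  off : Dir K → Fin 2 → K
  off_ne : ∀ x, off x 0 ≠ off x 1

/-- The `U` line of candidate `(x, i)`. -/
def UData.line (C : UData K) (x : Dir K) (i : Fin 2) : Ln K := (x, C.off x i)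

/-- The points of `ℓ` on no `U` line of another direction. -/
def Surv0 (C : UData K) (ℓ : Ln K) : Finset (Pt K) :=
  (linePts ℓ).filter (fun p => ∀ y, y ≠ ℓ.1 → ∀ i, ¬ On p (C.line y i))

/-- Number of `U` lines through `p`. -/
def mU (C : UData K) (p : Pt K) : ℕ :=
  ((univ : Finset (Dir K × Fin 2)).filter (fun t => On p (C.line t.1 t.2))).card

/-- The expected density of `Surv0`. -/
noncomputable def delta0 (K : Type) [Fintype K] : ℝ := (1 - 2 / (Fintype.card K : ℝ)) ^ Fintype.card K

/-- The direction of a nonzero vector. -/
noncomputable def dirOfVec (v : K × K) : Dir K := if v.1 = 0 then none else some (v.2 / v.1)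

/-! ### Layer 1: bases. -/

/-- Two distinct bases per candidate, each on its `U` and on no `U` of another direction. -/
structure BData (C : UData K) where
  base : Dir K → Fin 2 → Fin 2 → Pt K
  base_mem : ∀ x i e, base x i e ∈ Surv0 C (C.line x i)
  base_ne : ∀ x i, base x i 0 ≠ base x i 1

/-- All bases. -/
noncomputable def BData.all {C : UData K} (B : BData C) : Finset (Pt K) :=
  univ.image (fun t : Dir K × Fin 2 × Fin 2 => B.base t.1 t.2.1 t.2.2)

/-- A direction `d` is free at `c`: its line through `c` contains no other base. -/
def BData.Free {C : UData K} (B : BData C) (c : Pt K) (d : Dir K) : Prop :=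
  ∀ p ∈ B.all, p ≠ c → ¬ On p (lineThru c d)

noncomputable instance {C : UData K} (B : BData C) (c : Pt K) (d : Dir K) : Decidable (B.Free c d) :=
  Classical.dec _

/-- The allowed directions for the `l`-th hole of base `e` of candidate `(x, i)`. -/
noncomputable def BData.dom {C : UData K} (B : BData C) (x : Dir K) (i e : Fin 2) (l : Fin 10) :
    Finset (Dir K) :=
  univ.filter (fun d => cls d = (e, l) ∧ d ≠ x ∧ B.Free (B.base x i e) d)

/-! ### Layer 2: the directions of the holes `A`. -/

/-- Index of a base hole. -/
abbrev VIdx (K : Type) := Dir K × Fin 2 × Fin 2 × Fin 10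

/-- A choice of hole directions. -/
structure AData {C : UData K} (B : BData C) where
  adir : Dir K → Fin 2 → Fin 2 → Fin 10 → Dir K
  adir_mem : ∀ x i e l, adir x i e l ∈ B.dom x i e l

/-- The `l`-th hole of base `e`. -/
def AData.line {C : UData K} {B : BData C} (A : AData B) (x : Dir K) (i e : Fin 2) (l : Fin 10) :
    Ln K := lineThru (B.base x i e) (A.adir x i e l)

/-- All candidate holes. -/
noncomputable def AData.holes {C : UData K} {B : BData C} (A : AData B) : Finset (Ln K) :=
  (univ.image (fun t : Dir K × Fin 2 => C.line t.1 t.2)) ∪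
  (univ.image (fun v : VIdx K => A.line v.1 v.2.1 v.2.2.1 v.2.2.2))

/-- Points of `ℓ` on no candidate hole other than `ℓ`. -/
noncomputable def AData.surv {C : UData K} {B : BData C} (A : AData B) (ℓ : Ln K) : Finset (Pt K) :=
  (linePts ℓ).filter (fun p => ∀ h ∈ A.holes, h ≠ ℓ → ¬ On p h)

/-- Points on no candidate hole. -/
noncomputable def AData.Wp {C : UData K} {B : BData C} (A : AData B) : Finset (Pt K) :=
  univ.filter (fun p => ∀ h ∈ A.holes, ¬ On p h)

/-- Number of candidate holes through a point, with multiplicity in the index. -/
noncomputable def AData.mP {C : UData K} {B : BData C} (A : AData B) (p : Pt K) : ℕ :=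
  mU C p + ((univ : Finset (VIdx K)).filter
    (fun v => On p (A.line v.1 v.2.1 v.2.2.1 v.2.2.2))).card

/-- Number of candidate holes of a given direction, with multiplicity in the index. -/
noncomputable def AData.mD {C : UData K} {B : BData C} (A : AData B) (d : Dir K) : ℕ :=
  2 + ((univ : Finset (VIdx K)).filter (fun v => A.adir v.1 v.2.1 v.2.2.1 v.2.2.2 = d)).card

/-- Probability that the hole `v` passes through `p`. -/
noncomputable def BData.pv {C : UData K} (B : BData C) (v : VIdx K) (p : Pt K) : ℝ :=
  (((B.dom v.1 v.2.1 v.2.2.1 v.2.2.2).filter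
      (fun d => On p (lineThru (B.base v.1 v.2.1 v.2.2.1) d))).card : ℝ) /
    (B.dom v.1 v.2.1 v.2.2.1 v.2.2.2).card

/-- Probability that `p` is on no hole `A`. -/
noncomputable def BData.piA {C : UData K} (B : BData C) (p : Pt K) : ℝ := ∏ v, (1 - B.pv v p)

/-- The Horvitz–Thompson weight. -/
noncomputable def BData.wt {C : UData K} (B : BData C) (p : Pt K) : ℝ :=
  if B.piA p = 0 then 1 else 1 / B.piA p

/-! ### Keep parameters and designated points. -/

section keep
variable {C : UData K} {B : BData C} (A : AData B)

/-- The keep point with parameter `s` on `U x i`. -/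
def keepPt (x : Dir K) (i : Fin 2) (s : K) : Pt K := param (C.line x i) s

/-- The replacement line of `A x i e l`, if the keep parameter of `l` is `s`. -/
def eLine (x : Dir K) (i e : Fin 2) (l : Fin 10) (s : K) : Ln K :=
  lineThru (keepPt (C := C) x i s) (A.adir x i e l)

/-- The designated point on `A x i e j` coming from the keep parameter `s` of `l`. -/
noncomputable def mPt (x : Dir K) (i e : Fin 2) (j l : Fin 10) (s : K) : Pt K :=
  cross (A.line x i e j) (eLine A x i e l s)

open Classical in
/-- The good keep parameters for `l`. -/
noncomputable def goodS (x : Dir K) (i : Fin 2) (l : Fin 10) : Finset K :=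
  univ.filter (fun s =>
    (∀ h ∈ A.holes, h ≠ C.line x i → ¬ On (keepPt (C := C) x i s) h) ∧
    ∀ e j, j ≠ l → ∀ h ∈ A.holes, h ≠ A.line x i e j → ¬ On (mPt A x i e j l s) h)

end keep

end Crest.Agent.Ryser
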